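import Crest.Agent.R285.Calc

/-!
# R285 CalcB: inverse, pull-backs for the classes `AA`.

* `AA_inv`: differentiate `A B = I`: `gradOut B = -(ext B) (gradOut A) B`,
  `gradIn B = - B (gradIn A) (ext B)`; induction on `n` (exponent `e (n+1) = 2n + 1 + 2 e n ≤ 4^(n+1)`).
* `AA_pull`: `gradOut eo' (A ∘ π) = (I ⊗ To) · (gradOut eo A ∘ π)` on `π ⁻¹ O`; use `AA_constL/R`.
* `AA_pull_iff`: `gradOut eo' (A ∘ π) = gradOut eo A ∘ π` on `π ⁻¹ O`.
* `Mo_comp`: `gradOut e' (A ∘ Ψ) = mmul (extL J T) (gradOut e A ∘ Ψ)` on `O'`; induction on `n`.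
-/

set_option autoImplicit false

namespace Crest.Agent.R285

open MeasureTheory Set
open scoped ContDiff

variable {P : Type} [NormedAddCommGroup P] [NormedSpace ℝ P]
  {P' : Type} [NormedAddCommGroup P'] [NormedSpace ℝ P']
  {D D' J I : Type} [Fintype D] [Fintype D'] [Fintype J] [Fintype I]
  {eo : D → P} {ei : D' → P} {S O : Set P} {n : ℕ} {a b : ℝ}

theorem AA_inv {A B : MF P I I} (hO : IsOpen O) (hS : S ⊆ O) (hA : SmO O A) (hB : SmO O B)
    (hAB : ∀ y ∈ O, ∀ i i', mmul A B i i' y = kd i i')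
    (hBA : ∀ y ∈ O, ∀ i i', mmul B A i i' y = kd i i') (ha : 2 ≤ a)
    (h1 : AA eo ei S n a A) (h2 : ∀ y ∈ S, OpLe (fun j i => B j i y) a) :
    AA eo ei S n (a ^ (4 ^ n)) B := by
  have key : ∀ (v : P), ∀ y ∈ O, ∀ i i', pd v (B i i') y =
      -∑ k, B i k y * ∑ l, pd v (A k l) y * B l i' y := by
    intro v y hy i i'
    have e1 : ∀ k, ∑ l, (pd v (A k l) y * B l i' y + A k l y * pd v (B l i') y) = 0 := fun k => by
      have e2 : pd v (mmul A B k i') y = pd v (fun _ => kd k i') y :=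
        pd_congr hO (fun z hz => hAB z hz k i') v hy
      rw [pd_const] at e2
      refine Eq.trans (Eq.symm ?_) e2
      refine (pd_sum v fun l => (hA.diffAt hO hy k l).mul (hB.diffAt hO hy l i')).trans ?_
      exact Finset.sum_congr rfl fun l _ => pd_mul v (hA.diffAt hO hy k l) (hB.diffAt hO hy l i')
    have e3 : ∑ k, B i k y * ∑ l, A k l y * pd v (B l i') y = pd v (B i i') y := by
      rw [← sum_kd_mul i fun l => pd v (B l i') y]
      simp only [Finset.mul_sum]
      rw [Finset.sum_comm]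
      refine Finset.sum_congr rfl fun l _ => ?_
      rw [← hBA y hy i l, mmul, Finset.sum_mul]
      exact Finset.sum_congr rfl fun k _ => by ring
    rw [← e3, eq_neg_iff_add_eq_zero, ← Finset.sum_add_distrib]
    refine Finset.sum_eq_zero fun k _ => ?_
    rw [← mul_add, add_comm, ← Finset.sum_add_distrib, e1, mul_zero]
  have ha0 : 0 ≤ a := by linarith
  induction n with
  | zero => simpa [AA] using h2
  | succ n ih =>
    have hb := ih (AA_mono_n h1 (Nat.le_succ n))
    have hb0 : 0 ≤ a ^ 4 ^ n := by positivity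
    have hle : |(-1 : ℝ)| * (2 ^ n * a ^ 4 ^ n * (2 ^ n * a * a ^ 4 ^ n)) ≤ a ^ 4 ^ (n + 1) := by
      have e1 : (2 : ℝ) ^ n ≤ a ^ n := pow_le_pow_left₀ (by norm_num) ha n
      have e2 : n + 4 ^ n + (n + 1 + 4 ^ n) ≤ 4 ^ (n + 1) := by
        have : n < 4 ^ n := Nat.lt_pow_self (by norm_num)
        rw [pow_succ]; omega
      calc |(-1 : ℝ)| * (2 ^ n * a ^ 4 ^ n * (2 ^ n * a * a ^ 4 ^ n))
          ≤ a ^ n * a ^ 4 ^ n * (a ^ n * a * a ^ 4 ^ n) := by
            rw [abs_neg, abs_one, one_mul]; gcongr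
        _ = a ^ (n + 4 ^ n + (n + 1 + 4 ^ n)) := by ring
        _ ≤ _ := pow_le_pow_right₀ (by linarith) e2
    refine ⟨fun y hy => opLe_mono (h2 y hy) ha0 ?_, ?_, ?_⟩
    · exact le_self_pow₀ (by linarith) (by positivity)
    · have e1 := AA_mul hO hS (smO_gradOut hO hA eo) hB ha0 hb0 h1.2.1 hb
      have e2 := AA_mul hO hS (smO_ext hB D) (smO_mmul (smO_gradOut hO hA eo) hB) hb0
        (by positivity) (AA_ext hb) e1
      refine AA_mono (AA_congr hO hS (fun jc i y hy => ?_) (AA_smul (-1) e2)) (by positivity) hle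
      simp only [gradOut, mmul, ext, Fintype.sum_prod_type, key _ y hy, neg_one_mul, neg_inj]
      refine Finset.sum_congr rfl fun k _ => ?_
      simp only [mul_assoc]
      exact sum_kd_mul jc.2 fun c => B jc.1 k y * ∑ l, pd (eo c) (A k l) y * B l i y
    · have e1 := AA_mul hO hS (smO_gradIn hO hA ei) (smO_ext hB D') ha0 hb0 h1.2.2 (AA_ext hb)
      have e2 := AA_mul hO hS hB (smO_mmul (smO_gradIn hO hA ei) (smO_ext hB D')) hb0
        (by positivity) hb e1
      refine AA_mono (AA_congr hO hS (fun j ic y hy => ?_) (AA_smul (-1) e2)) (by positivity) hle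
      simp only [gradIn, mmul, ext, Fintype.sum_prod_type, key _ y hy, neg_one_mul, neg_inj]
      refine Finset.sum_congr rfl fun k _ => ?_
      congr 1
      refine Finset.sum_congr rfl fun l _ => ?_
      rw [← sum_mul_kd ic.2 fun c => pd (ei c) (A k l) y * B l ic.1 y]
      exact Finset.sum_congr rfl fun c _ => by ring

namespace CalcBA

lemma pd_pull (p0 : P) (l : P' →L[ℝ] P) {φ : P → ℝ} {y : P'} (h : DifferentiableAt ℝ φ (p0 + l y))
    (v : P') : pd v (fun y => φ (p0 + l y)) y = pd (l v) φ (p0 + l y) := by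
  have h1 : HasFDerivAt (fun y => p0 + l y) l y := l.hasFDerivAt.const_add p0
  have h2 := h.hasFDerivAt.comp y h1
  exact congrArg (fun L : P' →L[ℝ] ℝ => L v) h2.fderiv

lemma pd_lin (t : D → ℝ) (e : D → P) (φ : P → ℝ) (y : P) :
    pd (∑ c, t c • e c) φ y = ∑ c, t c * pd (e c) φ y := by
  simp [pd]

lemma det_smooth {d : ℕ} {M : P → Matrix (Fin d) (Fin d) ℝ}
    (h : ∀ i j, ContDiffOn ℝ ∞ (fun y => M y i j) O) : ContDiffOn ℝ ∞ (fun y => (M y).det) O := by
  simp only [Matrix.det_apply']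
  exact ContDiffOn.sum fun σ _ => contDiffOn_const.mul (contDiffOn_prod fun i _ => h _ _)

end CalcBA

theorem AA_pull {F F' : Type} [Fintype F] [Fintype F'] {eo' : F → P'} {ei' : F' → P'}
    {S' : Set P'} {A : MF P J I} (p0 : P) (l : P' →L[ℝ] P) (To : F → D → ℝ) (Ti : D' → F' → ℝ)
    (ho : ∀ c', l (eo' c') = ∑ c, To c' c • eo c) (hTo : OpLe To 1)
    (hi : ∀ c', l (ei' c') = ∑ c, Ti c c' • ei c) (hTi : OpLe Ti 1)
    (hO : IsOpen O) (hS : S ⊆ O) (hA : SmO O A) (hS' : ∀ y ∈ S', p0 + l y ∈ S)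
    (h : AA eo ei S n a A) : AA eo' ei' S' n a (fun j i y => A j i (p0 + l y)) := by
  have hπ : Continuous fun y => p0 + l y := by fun_prop
  have hO' : IsOpen ((fun y => p0 + l y) ⁻¹' O) := hO.preimage hπ
  have hS'' : S' ⊆ (fun y => p0 + l y) ⁻¹' O := fun y hy => hS (hS' y hy)
  induction n generalizing J I with
  | zero => exact fun y hy => h _ (hS' y hy)
  | succ n ih =>
    refine ⟨fun y hy => h.1 _ (hS' y hy), ?_, ?_⟩
    · have e1 := AA_constL hO hS (smO_gradOut hO hA eo) (opLe_extL (K := J) hTo) h.2.1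
      rw [one_mul] at e1
      refine AA_congr hO' hS'' (fun jc i y hy => ?_) (ih (fun jc i =>
        ContDiffOn.sum fun k _ => contDiffOn_const.mul (smO_gradOut hO hA eo k i)) e1)
      simp only [gradOut, Fintype.sum_prod_type_right, mul_assoc]
      rw [CalcBA.pd_pull p0 l (hA.diffAt hO hy _ _), ho, CalcBA.pd_lin]
      exact Finset.sum_congr rfl fun c _ =>
        sum_kd_mul jc.1 fun j => To jc.2 c * pd (eo c) (A j i) (p0 + l y)
    · have e1 := AA_constR hO hS (smO_gradIn hO hA ei) (opLe_extL (K := I) hTi) h.2.2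
      rw [mul_one] at e1
      refine AA_congr hO' hS'' (fun j ic y hy => ?_) (ih (fun jc i =>
        ContDiffOn.sum fun k _ => (smO_gradIn hO hA ei jc k).mul contDiffOn_const) e1)
      simp only [gradIn, Fintype.sum_prod_type_right]
      rw [CalcBA.pd_pull p0 l (hA.diffAt hO hy _ _), hi, CalcBA.pd_lin]
      refine Finset.sum_congr rfl fun c _ => ?_
      rw [← sum_mul_kd ic.1 fun i => Ti c ic.2 * pd (ei c) (A j i) (p0 + l y)]
      exact Finset.sum_congr rfl fun i _ => by ring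

theorem AA_pull_iff {eo' : D → P'} {ei' : D' → P'} {S' : Set P'} {A : MF P J I} (p0 : P)
    (l : P' →L[ℝ] P) (ho : ∀ c, l (eo' c) = eo c) (hi : ∀ c, l (ei' c) = ei c)
    (hO : IsOpen O) (hA : SmO O A) (hS' : ∀ y ∈ S', p0 + l y ∈ O) :
    AA eo' ei' S' n a (fun j i y => A j i (p0 + l y)) ↔
      AA eo ei ((fun y => p0 + l y) '' S') n a A := by
  have hπ : Continuous fun y => p0 + l y := by fun_prop
  have hO' : IsOpen ((fun y => p0 + l y) ⁻¹' O) := hO.preimage hπ
  have hS'' : S' ⊆ (fun y => p0 + l y) ⁻¹' O := fun y hy => hS' y hy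
  have hop : ∀ {J I : Type} [Fintype J] [Fintype I] (A : MF P J I),
      (∀ y ∈ S', OpLe (fun j i => A j i (p0 + l y)) a) ↔
        ∀ y ∈ (fun y => p0 + l y) '' S', OpLe (fun j i => A j i y) a := fun A => by
    rw [Set.forall_mem_image]
  induction n generalizing J I with
  | zero => exact hop A
  | succ n ih =>
    have e1 : ∀ jc i, EqOn (gradOut eo' (fun j i y => A j i (p0 + l y)) jc i)
        (fun y => gradOut eo A jc i (p0 + l y)) ((fun y => p0 + l y) ⁻¹' O) := fun jc i y hy => by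
      simp only [gradOut]
      rw [CalcBA.pd_pull p0 l (hA.diffAt hO hy _ _), ho]
    have e2 : ∀ j ic, EqOn (gradIn ei' (fun j i y => A j i (p0 + l y)) j ic)
        (fun y => gradIn ei A j ic (p0 + l y)) ((fun y => p0 + l y) ⁻¹' O) := fun j ic y hy => by
      simp only [gradIn]
      rw [CalcBA.pd_pull p0 l (hA.diffAt hO hy _ _), hi]
    constructor
    · rintro ⟨h1, h2, h3⟩
      exact ⟨(hop A).1 h1, (ih (smO_gradOut hO hA eo)).1 (AA_congr hO' hS'' e1 h2),
        (ih (smO_gradIn hO hA ei)).1 (AA_congr hO' hS'' e2 h3)⟩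
    · rintro ⟨h1, h2, h3⟩
      exact ⟨(hop A).2 h1,
        AA_congr hO' hS'' (fun j i => (e1 j i).symm) ((ih (smO_gradOut hO hA eo)).2 h2),
        AA_congr hO' hS'' (fun j i => (e2 j i).symm) ((ih (smO_gradIn hO hA ei)).2 h3)⟩

theorem Mo_comp {F : Type} [Fintype F] {e' : F → P'} {S' O' : Set P'} {A : MF P J I}
    {Ψ : P' → P} {T : MF P' F D} (hO : IsOpen O) (hO' : IsOpen O') (hS : S ⊆ O) (hS' : S' ⊆ O')
    (hΨ : ContDiffOn ℝ ∞ Ψ O') (hm : MapsTo Ψ O' O) (hmS : MapsTo Ψ S' S) (hA : SmO O A)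
    (hT : SmO O' T) (hd : ∀ y ∈ O', ∀ c', fderiv ℝ Ψ y (e' c') = ∑ c, T c' c y • eo c)
    (ha : 0 ≤ a) (hb : 1 ≤ b) (h1 : MoS e' S' n b T) (h2 : MoS eo S (n + 1) a A) :
    MoS e' S' (n + 1) ((2 ^ n * b) ^ (n + 1) * a) (fun j i y => A j i (Ψ y)) := by
  have step : ∀ {J : Type} [Fintype J] {A : MF P J I} {m : ℕ} {a' c : ℝ}, SmO O A →
      (∀ y ∈ S, OpLe (fun j i => A j i y) a) → 0 ≤ a' → a ≤ c → 2 ^ m * b * a' ≤ c →
      MoS e' S' m b T → MoS e' S' m a' (fun j i y => gradOut eo A j i (Ψ y)) →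
      MoS e' S' (m + 1) c (fun j i y => A j i (Ψ y)) := by
    intro J _ A m a' c hA hop ha' hc hc' h1 h2
    refine MoS_succ.2 ⟨fun y hy => opLe_mono (hop _ (hmS hy)) ha hc, ?_⟩
    have e1 := AA_mul hO' hS' (smO_extL hT J)
      (fun jc i => (smO_gradOut hO hA eo jc i).comp hΨ hm) (by linarith) ha' (AA_extL h1) h2
    refine AA_mono (AA_congr hO' hS' (fun jc i y hy => ?_) e1) (by positivity) hc'
    have e2 := (hA.diffAt hO (hm hy) jc.1 i).hasFDerivAt.comp y
      ((hΨ.contDiffAt (hO'.mem_nhds hy)).differentiableAt (by simp)).hasFDerivAt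
    have e3 : pd (e' jc.2) (fun y => A jc.1 i (Ψ y)) y =
        pd (fderiv ℝ Ψ y (e' jc.2)) (A jc.1 i) (Ψ y) :=
      congrArg (fun L : P' →L[ℝ] ℝ => L (e' jc.2)) e2.fderiv
    simp only [gradOut, mmul, extL, Fintype.sum_prod_type_right, mul_assoc]
    rw [e3, hd y hy, CalcBA.pd_lin]
    exact Finset.sum_congr rfl fun c _ =>
      sum_kd_mul jc.1 fun j => T jc.2 c y * pd (eo c) (A j i) (Ψ y)
  have hone : ∀ m k : ℕ, (1 : ℝ) ≤ (2 ^ m * b) ^ k := fun m k =>
    one_le_pow₀ (one_le_mul_of_one_le_of_one_le (one_le_pow₀ (by norm_num)) hb)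
  induction n generalizing J with
  | zero =>
    refine step hA h2.1 ha (le_mul_of_one_le_left ha (hone _ _)) (by simp) h1 ?_
    exact fun y hy => h2.2.1 _ (hmS hy)
  | succ n ih =>
    refine step hA h2.1 (mul_nonneg (zero_le_one.trans (hone _ _)) ha)
      (le_mul_of_one_le_left ha (hone _ _)) ?_ h1
      (ih (smO_gradOut hO hA eo) (AA_mono_n h1 (Nat.le_succ n)) h2.2.1)
    rw [pow_succ' (2 ^ (n + 1) * b) (n + 1), mul_assoc _ (_ ^ (n + 1)) a]
    have : (0 : ℝ) ≤ b := by linarith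
    gcongr
    · norm_num
    · omega

/-- slices of lifted matrices: `y ↦ A (1 - r², r y)` -/
theorem Mo_sl_lift {d : ℕ} {κ r : ℝ} (h0 : 0 < κ) (h1 : κ ≤ 1 / 2) (hr : r ∈ Icc 0 (RR κ))
    {A : MF (ℝ × E d) J I} (hA : SmO (UU d) A) (h : MoS xd (SK d κ) n a A) :
    Mo bv n a (slM r (liftM A)) := by
  have e0 := RR_sq h0 h1
  have e1 := RR_lt_one h0 h1
  have e2 := AA_pull (eo' := bv) (ei' := (noE : Empty → E d)) (S' := univ) ((1 - r ^ 2, 0) : ℝ × E d)
    (r • ContinuousLinearMap.inr ℝ ℝ (E d)) (fun c' c => r * kd c' c) (fun c _ => c.elim)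
    (fun c' => by
      simp only [mul_smul]
      rw [← Finset.smul_sum, Finset.sum_eq_single c' (fun b _ hb => by rw [kd_ne hb.symm, zero_smul])
        (by simp), kd_self, one_smul]
      rfl)
    (opLe_mono (opLe_smul r opLe_kd) (by positivity)
      (by rw [mul_one, abs_of_nonneg hr.1]; linarith [hr.2]))
    (fun c => c.elim) (fun v => by simp) (isOpen_UU d)
    (fun p hp => lt_of_lt_of_le (by positivity) hp.1) hA
    (fun y _ => by
      have := hr.1
      have := hr.2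
      constructor <;> simp <;> nlinarith) h
  convert e2 using 4 with j i y
  simp [slM, sl, liftM, lift]

/-- slices at a fixed first coordinate -/
theorem Mo_sl {d : ℕ} {r : ℝ} {O : Set (ℝ × E d)} (hO : IsOpen O) (hr : ∀ y, (r, y) ∈ O)
    {A : MF (ℝ × E d) J I} (hA : SmO O A) :
    Mo bv n a (slM r A) ↔ MoS xd {p | p.1 = r} n a A := by
  have e1 := AA_pull_iff (eo := xd) (ei := (noE : Empty → ℝ × E d)) (eo' := bv)
    (ei' := (noE : Empty → E d)) (S' := univ) (n := n) (a := a) ((r, 0) : ℝ × E d)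
    (ContinuousLinearMap.inr ℝ ℝ (E d)) (fun c => rfl) (fun c => c.elim) hO hA
    (fun y _ => by simpa using hr y)
  convert e1 using 2
  · ext j i y; simp [slM, sl]
  · ext p
    simp only [mem_ofPred_eq, image_univ, mem_range]
    exact ⟨fun h => ⟨p.2, by simp [← h]⟩, by rintro ⟨y, rfl⟩; simp⟩

/-- slices at a fixed first coordinate, both kinds of derivatives -/
theorem AA_sl {d : ℕ} {r : ℝ} {O : Set (ℝ × E d)} (hO : IsOpen O) (hr : ∀ y, (r, y) ∈ O)
    {A : MF (ℝ × E d) J I} (hA : SmO O A) :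
    AA bv bv univ n a (slM r A) ↔ AA xd xd {p | p.1 = r} n a A := by
  have e1 := AA_pull_iff (eo := xd) (ei := xd) (eo' := bv) (ei' := bv) (S' := univ) (n := n)
    (a := a) ((r, 0) : ℝ × E d) (ContinuousLinearMap.inr ℝ ℝ (E d)) (fun c => rfl) (fun c => rfl)
    hO hA (fun y _ => by simpa using hr y)
  convert e1 using 2
  · ext j i y; simp [slM, sl]
  · ext p
    simp only [mem_ofPred_eq, image_univ, mem_range]
    exact ⟨fun h => ⟨p.2, by simp [← h]⟩, by rintro ⟨y, rfl⟩; simp⟩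

/-- entries of the inverse matrix are smooth where the determinant does not vanish -/
theorem smO_inv {d : ℕ} {A : MF P (Fin d) (Fin d)} (hA : SmO O A)
    (hdet : ∀ y ∈ O, (Matrix.of fun i j => A i j y).det ≠ 0) :
    SmO O (fun i j y => (Matrix.of fun i j => A i j y)⁻¹ i j) := by
  intro i j
  simp only [Matrix.inv_def, Ring.inverse_eq_inv', Matrix.smul_apply, smul_eq_mul,
    Matrix.adjugate_apply]
  refine ((CalcBA.det_smooth hA).inv hdet).mul (CalcBA.det_smooth fun a b => ?_)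
  simp only [Matrix.updateRow_apply]
  split_ifs
  · exact contDiffOn_const
  · exact hA a b

end Crest.Agent.R285
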