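import Crest.Agent.R285.Tilt
import Crest.Agent.Lib.PL.PrekopaLeindler

/-!
# R285 Poinc: Poincaré inequality for strongly log-concave measures (Maurey's property (τ)).

`maurey`: Prékopa-Leindler (`hasPL_euclidean`, `a = b = 1/2`) for `e^{g - U}`, `e^{-f - U}`, `e^{-U}`:
strong convexity gives `U x + U y - 2 U ((x+y)/2) ≥ l/4 ‖x - y‖²`.
`poinc_lip`: take `f = ε φ`, `g = ε φ - ε² L² / l`; then
`1 + ε² Var φ ≤ ∫∫ cosh (ε (φ x - φ x')) = ∫ e^{εφ} ∫ e^{-εφ} ≤ e^{ε² L² / l}`, let `ε → 0`.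
`poinc_c1`: first `φ` `C¹` with compact support (gradient bounded by `L`, uniformly continuous):
for `η > 0` and small `ε`, `g = ε φ - ε² (‖∇φ‖ + η)² / l` is admissible (near points: mean value
theorem, far points: `ε L ‖x - y‖ ≤ l ‖x - y‖² / 4`).  With `a = (‖∇φ‖ + η)²/l` bounded, use
`∫ e^{g} ∫ e^{-εφ} = ∫∫ e^{ε(φ x - φ x') - ε² a x} ≥ ∫∫ (1 + u + u²/2 - C ε³)`.  Then cut off with
`χ (y / n)` (`ContDiffBump`) and dominated convergence.
-/

set_option autoImplicit false

namespace Crest.Agent.R285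

open MeasureTheory Set
open scoped ContDiff

variable {d : ℕ}

theorem maurey {U : E d → ℝ} {l : ℝ} (hl : 0 < l) (hc : Continuous U) (h : SC l U)
    {f g : E d → ℝ} (hf : Measurable f) (hg : Measurable g)
    (hfg : ∀ x y, g x ≤ f y + l / 4 * ‖x - y‖ ^ 2) :
    (∫⁻ x, ENNReal.ofReal (Real.exp (g x)) ∂(gib U)) *
      (∫⁻ x, ENNReal.ofReal (Real.exp (-f x)) ∂(gib U)) ≤ 1 := by
  have hconf := sc_conf hl hc h
  have hZ := conf_Z_pos hconf
  have hprob := (gib_pm hconf).prob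
  set Z := ∫ y, Real.exp (-U y) with hZd
  have hUm : Measurable U := hc.measurable
  have e : ∀ k : E d → ℝ, ∫⁻ x, ENNReal.ofReal (Real.exp (k x)) ∂(gib U) =
      ∫⁻ x, ENNReal.ofReal (Real.exp (k x - U x) / Z) := fun k => by
    unfold gib
    rw [lintegral_tilted]
    congr 1
    funext x
    rw [← ENNReal.ofReal_mul (by positivity), sub_eq_add_neg, Real.exp_add]
    congr 1
    ring
  have e1 : ∫⁻ x, ENNReal.ofReal (Real.exp (0 - U x) / Z) = 1 := by
    rw [← e (fun _ => 0)]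
    simp
  have key := Crest.Agent.Lib.PL.hasPL_euclidean (a := 1 / 2) (b := 1 / 2) (by norm_num) (by norm_num)
    (by norm_num) d (fun x => ENNReal.ofReal (Real.exp (g x - U x) / Z))
    (fun x => ENNReal.ofReal (Real.exp (-f x - U x) / Z))
    (fun x => ENNReal.ofReal (Real.exp (0 - U x) / Z)) (by fun_prop) (by fun_prop) (by fun_prop)
    (fun x y => by
      rw [← ENNReal.mul_rpow_of_nonneg _ _ (by norm_num), ← ENNReal.ofReal_mul (by positivity),
        ENNReal.ofReal_rpow_of_nonneg (by positivity) (by norm_num)]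
      apply ENNReal.ofReal_le_ofReal
      rw [← Real.sqrt_eq_rpow]
      apply Real.sqrt_le_iff.2 ⟨by positivity, ?_⟩
      rw [div_mul_div_comm, div_pow, ← sq, ← Real.exp_add, ← Real.exp_nat_mul]
      refine div_le_div_of_nonneg_right (Real.exp_le_exp.2 ?_) (by positivity)
      have h1 := h.2 (mem_univ x) (mem_univ y) (show (0 : ℝ) ≤ 1 / 2 by norm_num)
        (show (0 : ℝ) ≤ 1 / 2 by norm_num) (by norm_num)
      simp only [smul_eq_mul] at h1
      have h2 : ‖(1 / 2 : ℝ) • x + (1 / 2 : ℝ) • y‖ ^ 2 =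
          ‖x‖ ^ 2 / 2 + ‖y‖ ^ 2 / 2 - ‖x - y‖ ^ 2 / 4 := by
        rw [← smul_add, norm_smul, mul_pow, norm_add_sq_real, norm_sub_sq_real]
        norm_num
        ring
      rw [h2] at h1
      have h3 := hfg x y
      push_cast
      nlinarith)
  rw [e1, ← e g, ← e (fun x => -f x), ← ENNReal.mul_rpow_of_nonneg _ _ (by norm_num)] at key
  by_contra hlt
  push Not at hlt
  exact absurd key (not_le.2 (ENNReal.one_lt_rpow hlt (by norm_num)))

namespace PoincA

theorem exp_lower {u M : ℝ} (hu : |u| ≤ M) (hM : M ≤ 1) :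
    1 + u + u ^ 2 / 2 - M ^ 3 ≤ Real.exp u := by
  have h := Real.exp_bound (hu.trans hM) (n := 3) (by norm_num)
  simp only [Finset.sum_range_succ, Finset.sum_range_zero, Nat.factorial] at h
  norm_num at h
  have h1 := (abs_le.1 h).1
  have h2 : |u| ^ 3 ≤ M ^ 3 := pow_le_pow_left₀ (abs_nonneg _) hu 3
  have h3 : 0 ≤ |u| ^ 3 := by positivity
  linarith

theorem bdd_integrable {α : Type} [MeasurableSpace α] {μ : Measure α} [IsFiniteMeasure μ]
    {f : α → ℝ} (hf : Measurable f) (C : ℝ) (h : ∀ x, |f x| ≤ C) : Integrable f μ :=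
  (integrable_const C).mono' hf.aestronglyMeasurable (ae_of_all _ h)

/-- the core estimate for bounded centred functions -/
theorem core0 {U : E d → ℝ} {l : ℝ} (hl : 0 < l) (hc : Continuous U) (h : SC l U)
    {ψ a : E d → ℝ} (hψ : Measurable ψ) (ha : Measurable a) {M : ℝ} (hM0 : 0 < M)
    (hM : ∀ x, |ψ x| ≤ M) (h0 : ∫ x, ψ x ∂(gib U) = 0) (ha0 : ∀ x, 0 ≤ a x)
    (hai : Integrable a (gib U)) {ε0 : ℝ} (hε0 : 0 < ε0)
    (hadm : ∀ ε, 0 < ε → ε < ε0 → ∀ x y,
      ε * ψ x - ε ^ 2 * a x ≤ ε * ψ y + l / 4 * ‖x - y‖ ^ 2) :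
    ∫ x, ψ x ^ 2 ∂(gib U) ≤ ∫ x, a x ∂(gib U) := by
  have hprob := (gib_pm (sc_conf hl hc h)).prob
  set V := ∫ x, ψ x ^ 2 ∂(gib U) with hV
  set I := ∫ x, a x ∂(gib U) with hI
  have hV0 : 0 ≤ V := integral_nonneg fun x => sq_nonneg _
  have iψ : Integrable ψ (gib U) := bdd_integrable hψ M hM
  have iψ2 : Integrable (fun x => ψ x ^ 2) (gib U) :=
    bdd_integrable (hψ.pow_const 2) (M ^ 2) fun x => by
      rw [abs_pow]; exact pow_le_pow_left₀ (abs_nonneg _) (hM x) 2
  have main : ∀ ε, 0 < ε → ε < ε0 → ε * M ≤ 1 →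
      (V / 2 - ε * M ^ 3 - Real.exp (ε * M) * I) + (V / 2 - ε * M ^ 3) +
        ε ^ 2 * ((V / 2 - ε * M ^ 3 - Real.exp (ε * M) * I) * (V / 2 - ε * M ^ 3)) ≤ 0 := by
    intro ε hε hε1 hεM
    have hb : ∀ x, |ε * ψ x| ≤ ε * M := fun x => by
      rw [abs_mul, abs_of_pos hε]; exact mul_le_mul_of_nonneg_left (hM x) hε.le
    have mg : Measurable fun x => ε * ψ x - ε ^ 2 * a x := by fun_prop
    have mf : Measurable fun x => ε * ψ x := by fun_prop
    have key := maurey hl hc h mf mg (hadm ε hε hε1)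
    have iA : Integrable (fun x => Real.exp (ε * ψ x - ε ^ 2 * a x)) (gib U) :=
      bdd_integrable (by fun_prop) (Real.exp (ε * M)) fun x => by
        rw [abs_of_pos (Real.exp_pos _)]
        apply Real.exp_le_exp.2
        have := (abs_le.1 (hb x)).2
        have : 0 ≤ ε ^ 2 * a x := mul_nonneg (sq_nonneg _) (ha0 x)
        linarith
    have iB : Integrable (fun x => Real.exp (-(ε * ψ x))) (gib U) :=
      bdd_integrable (by fun_prop) (Real.exp (ε * M)) fun x => by
        rw [abs_of_pos (Real.exp_pos _)]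
        apply Real.exp_le_exp.2
        have := (abs_le.1 (hb x)).1
        linarith
    rw [← ofReal_integral_eq_lintegral_ofReal iA (ae_of_all _ fun x => (Real.exp_pos _).le),
      ← ofReal_integral_eq_lintegral_ofReal iB (ae_of_all _ fun x => (Real.exp_pos _).le),
      ← ENNReal.ofReal_mul (integral_nonneg fun x => (Real.exp_pos _).le),
      ENNReal.ofReal_le_one] at key
    have lin : ∀ c1 c2 c3 c4 : ℝ, Integrable (fun x => c1 + c2 * ψ x + c3 * ψ x ^ 2 + c4 * a x)
        (gib U) ∧ ∫ x, (c1 + c2 * ψ x + c3 * ψ x ^ 2 + c4 * a x) ∂(gib U) =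
          c1 + c3 * V + c4 * I := fun c1 c2 c3 c4 => by
      have j1 : Integrable (fun x => c1 + c2 * ψ x) (gib U) :=
        (integrable_const _).add (iψ.const_mul _)
      have j2 : Integrable (fun x => c1 + c2 * ψ x + c3 * ψ x ^ 2) (gib U) :=
        j1.add (iψ2.const_mul _)
      refine ⟨j2.add (hai.const_mul _), ?_⟩
      rw [integral_add j2 (hai.const_mul _), integral_add j1 (iψ2.const_mul _),
        integral_add (integrable_const _) (iψ.const_mul _), integral_const_mul, integral_const_mul,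
        integral_const_mul, h0]
      simp [hV, hI]
    have hA : 1 + ε ^ 2 * (V / 2 - ε * M ^ 3 - Real.exp (ε * M) * I) ≤
        ∫ x, Real.exp (ε * ψ x - ε ^ 2 * a x) ∂(gib U) := by
      obtain ⟨j1, j2⟩ := lin (1 - (ε * M) ^ 3) ε (ε ^ 2 / 2) (-(ε ^ 2 * Real.exp (ε * M)))
      refine le_trans (le_of_eq ?_) (integral_mono j1 iA fun x => ?_)
      · rw [j2]; ring
      · have t1 := exp_lower (hb x) hεM
        have t2 : Real.exp (ε * ψ x) ≤ Real.exp (ε * M) := Real.exp_le_exp.2 (abs_le.1 (hb x)).2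
        have t3 := Real.add_one_le_exp (-(ε ^ 2 * a x))
        have t4 : 0 ≤ ε ^ 2 * a x := mul_nonneg (sq_nonneg _) (ha0 x)
        have t5 := mul_le_mul_of_nonneg_left t3 (Real.exp_pos (ε * ψ x)).le
        have t6 := mul_le_mul_of_nonneg_left t2 t4
        simp only
        rw [sub_eq_add_neg (ε * ψ x), Real.exp_add]
        nlinarith
    have hB : 1 + ε ^ 2 * (V / 2 - ε * M ^ 3) ≤ ∫ x, Real.exp (-(ε * ψ x)) ∂(gib U) := by
      obtain ⟨j1, j2⟩ := lin (1 - (ε * M) ^ 3) (-ε) (ε ^ 2 / 2) 0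
      refine le_trans (le_of_eq ?_) (integral_mono j1 iB fun x => ?_)
      · rw [j2]; ring
      · have t1 := exp_lower (u := -(ε * ψ x)) (by rw [abs_neg]; exact hb x) hεM
        simp only
        nlinarith
    have hB0 : 0 ≤ 1 + ε ^ 2 * (V / 2 - ε * M ^ 3) := by
      have t1 : (ε * M) ^ 3 ≤ 1 := pow_le_one₀ (by positivity) hεM
      have t2 : 0 ≤ ε ^ 2 * (V / 2) := by positivity
      nlinarith
    have hA0 : 0 ≤ ∫ x, Real.exp (ε * ψ x - ε ^ 2 * a x) ∂(gib U) :=
      integral_nonneg fun x => (Real.exp_pos _).le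
    have t := (mul_le_mul hA hB hB0 hA0).trans key
    have hε2 : 0 < ε ^ 2 := by positivity
    refine le_of_mul_le_mul_left ?_ hε2
    nlinarith
  have hcont : Continuous fun ε : ℝ =>
      (V / 2 - ε * M ^ 3 - Real.exp (ε * M) * I) + (V / 2 - ε * M ^ 3) +
        ε ^ 2 * ((V / 2 - ε * M ^ 3 - Real.exp (ε * M) * I) * (V / 2 - ε * M ^ 3)) := by fun_prop
  have hlim := (hcont.tendsto 0).mono_left (nhdsWithin_le_nhds (s := Ioi 0))
  have hev : ∀ᶠ ε in nhdsWithin (0 : ℝ) (Ioi 0), ε ∈ Ioo 0 (min ε0 (1 / M)) :=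
    Ioo_mem_nhdsGT (by positivity)
  have := le_of_tendsto hlim (hev.mono fun ε hε => main ε hε.1 (hε.2.trans_le (min_le_left _ _))
    (by
      have := (hε.2.trans_le (min_le_right _ _)).le
      rwa [le_div_iff₀ hM0] at this))
  simp at this
  linarith

/-- truncation -/
def T (M t : ℝ) : ℝ := max (-M) (min M t)

theorem T_lip (M s t : ℝ) : |T M s - T M t| ≤ |s - t| := by
  unfold T
  refine (abs_max_sub_max_le_max _ _ _ _).trans ?_
  simp only [sub_self, abs_zero, max_le_iff, abs_nonneg, true_and]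
  refine (abs_min_sub_min_le_max _ _ _ _).trans ?_
  simp

theorem T_le {M : ℝ} (hM : 0 ≤ M) (t : ℝ) : |T M t| ≤ M := by
  unfold T
  rw [abs_le]
  exact ⟨le_max_left _ _, max_le (by linarith) (min_le_left _ _)⟩

theorem T_le' {M : ℝ} (hM : 0 ≤ M) (t : ℝ) : |T M t| ≤ |t| := by
  have h := T_lip M t 0
  have : T M 0 = 0 := by unfold T; rw [min_eq_right hM, max_eq_right (by linarith)]
  simpa [this] using h

theorem T_eq {M t : ℝ} (h : |t| ≤ M) : T M t = t := by
  unfold T
  rw [abs_le] at h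
  rw [min_eq_right h.2, max_eq_right h.1]

theorem var_eq {α : Type} [MeasurableSpace α] {μ : Measure α} [IsProbabilityMeasure μ]
    {f : α → ℝ} (h1 : Integrable f μ) (h2 : Integrable (fun x => f x ^ 2) μ) :
    ∫ x, (f x - ∫ y, f y ∂μ) ^ 2 ∂μ = ∫ x, f x ^ 2 ∂μ - (∫ x, f x ∂μ) ^ 2 := by
  set m := ∫ x, f x ∂μ with hm
  have e : ∀ x, (f x - m) ^ 2 = f x ^ 2 - (2 * m) * f x + m ^ 2 := fun x => by ring
  have h3 : Integrable (fun x => f x ^ 2 - (2 * m) * f x) μ := h2.sub (h1.const_mul _)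
  simp only [e]
  rw [integral_add h3 (integrable_const _), integral_sub h2 (h1.const_mul _), integral_const_mul,
    ← hm]
  simp
  ring

theorem core1 {U : E d → ℝ} {l : ℝ} (hl : 0 < l) (hc : Continuous U) (h : SC l U)
    {φ b : E d → ℝ} (hφ : Continuous φ) {M : ℝ} (hM0 : 0 < M) (hM : ∀ x, |φ x| ≤ M)
    (hb : Measurable b) (hbi : Integrable (fun x => b x ^ 2) (gib U)) {r : ℝ} (hr : 0 < r)
    (hloc : ∀ x y, ‖x - y‖ ≤ r → |φ x - φ y| ≤ b x * ‖x - y‖) :
    ∫ x, (φ x - ∫ y, φ y ∂(gib U)) ^ 2 ∂(gib U) ≤ 1 / l * ∫ x, b x ^ 2 ∂(gib U) := by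
  have hprob := (gib_pm (sc_conf hl hc h)).prob
  set m := ∫ y, φ y ∂(gib U) with hm
  have iφ : Integrable φ (gib U) := bdd_integrable hφ.measurable M hM
  have hmM : |m| ≤ M := by
    have := norm_integral_le_of_norm_le_const (μ := gib U) (f := φ) (C := M) (ae_of_all _ hM)
    simpa using this
  rw [← integral_const_mul]
  refine core0 hl hc h (ψ := fun x => φ x - m) (a := fun x => 1 / l * b x ^ 2)
    (hφ.measurable.sub_const _) (by fun_prop) (M := 2 * M) (by positivity) (fun x => ?_) ?_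
    (fun x => by positivity) (hbi.const_mul _) (ε0 := l * r ^ 2 / (8 * M)) (by positivity)
    fun ε hε hε1 x y => ?_
  · have := abs_sub (φ x) m
    have := hM x
    linarith
  · rw [integral_sub iφ (integrable_const _)]; simp [hm]
  · by_cases hxy : ‖x - y‖ ≤ r
    · have t1 := (le_abs_self _).trans (hloc x y hxy)
      have t2 : 0 ≤ l / 4 * (‖x - y‖ - 2 * ε * b x / l) ^ 2 := by positivity
      have t3 : l / 4 * (‖x - y‖ - 2 * ε * b x / l) ^ 2 =
          l / 4 * ‖x - y‖ ^ 2 - ε * (b x * ‖x - y‖) + ε ^ 2 * (1 / l * b x ^ 2) := by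
        field_simp; ring
      have t4 := mul_le_mul_of_nonneg_left t1 hε.le
      nlinarith
    · push Not at hxy
      have t1 : r ^ 2 ≤ ‖x - y‖ ^ 2 := pow_le_pow_left₀ hr.le hxy.le 2
      have t2 : ε * (8 * M) < l * r ^ 2 := by rwa [lt_div_iff₀ (by positivity)] at hε1
      have t3 : φ x - φ y ≤ 2 * M := by
        have := (abs_le.1 (hM x)).2
        have := (abs_le.1 (hM y)).1
        linarith
      have t4 := mul_le_mul_of_nonneg_left t3 hε.le
      have t5 : 0 ≤ ε ^ 2 * (1 / l * b x ^ 2) := by positivity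
      have t6 := mul_le_mul_of_nonneg_left t1 hl.le
      nlinarith

theorem core2 {U : E d → ℝ} {l : ℝ} (hl : 0 < l) (hc : Continuous U) (h : SC l U)
    {φ b : E d → ℝ} (hφ : Continuous φ) (p0 : PolyG φ)
    (hb : Measurable b) (hbi : Integrable (fun x => b x ^ 2) (gib U)) {r : ℝ} (hr : 0 < r)
    (hloc : ∀ x y, ‖x - y‖ ≤ r → |φ x - φ y| ≤ b x * ‖x - y‖) :
    ∫ x, (φ x - ∫ y, φ y ∂(gib U)) ^ 2 ∂(gib U) ≤ 1 / l * ∫ x, b x ^ 2 ∂(gib U) := by
  have hpm := gib_pm (sc_conf hl hc h)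
  have hprob := hpm.prob
  have i1 : Integrable φ (gib U) := polyG_integrable hpm hφ p0
  have i2 : Integrable (fun x => φ x ^ 2) (gib U) := by
    simp only [sq]
    exact polyG_integrable hpm (hφ.mul hφ) (polyG_mul p0 p0)
  have cT : ∀ M : ℝ, Continuous fun x => T M (φ x) := fun M => by unfold T; fun_prop
  have pos : ∀ n : ℕ, (0 : ℝ) < n + 1 := fun n => by positivity
  have lim : ∀ x, Filter.Tendsto (fun n : ℕ => T (n + 1) (φ x)) Filter.atTop (nhds (φ x)) := by
    intro x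
    refine tendsto_const_nhds.congr' ?_
    filter_upwards [Filter.eventually_ge_atTop ⌈|φ x|⌉₊] with n hn
    have : |φ x| ≤ n := (Nat.le_ceil _).trans (by exact_mod_cast hn)
    exact (T_eq (by linarith)).symm
  have l1 := tendsto_integral_of_dominated_convergence (μ := gib U)
    (F := fun (n : ℕ) x => T (n + 1) (φ x)) (f := φ) (fun x => |φ x|)
    (fun n => (cT _).aestronglyMeasurable) i1.abs
    (fun n => ae_of_all _ fun x => T_le' (pos n).le _) (ae_of_all _ lim)
  have l2 := tendsto_integral_of_dominated_convergence (μ := gib U)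
    (F := fun (n : ℕ) x => T (n + 1) (φ x) ^ 2) (f := fun x => φ x ^ 2) (fun x => φ x ^ 2)
    (fun n => ((cT _).pow 2).aestronglyMeasurable) i2
    (fun n => ae_of_all _ fun x => by
      rw [Real.norm_of_nonneg (sq_nonneg _)]
      exact sq_le_sq.2 (T_le' (pos n).le _)) (ae_of_all _ fun x => (lim x).pow 2)
  rw [var_eq i1 i2]
  refine le_of_tendsto' (l2.sub (l1.pow 2)) fun n => ?_
  have := core1 hl hc h (cT (n + 1)) (pos n) (fun x => T_le (pos n).le _) hb hbi hr
    (fun x y hxy => (T_lip _ _ _).trans (hloc x y hxy))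
  rwa [var_eq (bdd_integrable (cT _).measurable _ fun x => T_le (pos n).le _)
    (bdd_integrable ((cT _).pow 2).measurable (((n : ℝ) + 1) ^ 2) fun x => by
      rw [abs_pow]; exact pow_le_pow_left₀ (abs_nonneg _) (T_le (pos n).le _) 2)] at this

end PoincA

open PoincA

theorem poinc_lip {U : E d → ℝ} {l : ℝ} (hl : 0 < l) (hc : Continuous U) (h : SC l U)
    {φ : E d → ℝ} {L : ℝ} (hφ : ∀ x y, |φ x - φ y| ≤ L * ‖x - y‖) :
    ∫ x, (φ x - ∫ y, φ y ∂(gib U)) ^ 2 ∂(gib U) ≤ L ^ 2 / l := by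
  have hprob := (gib_pm (sc_conf hl hc h)).prob
  have hφc : Continuous φ := by
    have : LipschitzWith (Real.nnabs L) φ := LipschitzWith.of_dist_le_mul fun x y => by
      rw [Real.dist_eq, dist_eq_norm, Real.coe_nnabs]
      exact (hφ x y).trans (mul_le_mul_of_nonneg_right (le_abs_self _) (norm_nonneg _))
    exact this.continuous
  have := core2 hl hc h hφc (polyG_of_lip (L := L) hφ) (b := fun _ => L) measurable_const
    (integrable_const _) one_pos fun x y _ => hφ x y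
  simpa [div_eq_inv_mul] using this

theorem poinc_c1 {U : E d → ℝ} {l : ℝ} (hl : 0 < l) (hc : Continuous U) (h : SC l U)
    {φ : E d → ℝ} (hφ : ContDiff ℝ 1 φ) (p0 : PolyG φ) (p1 : PolyG (fderiv ℝ φ)) :
    ∫ x, (φ x - ∫ y, φ y ∂(gib U)) ^ 2 ∂(gib U) ≤
      1 / l * ∫ x, ∑ c, pd (bv c) φ x ^ 2 ∂(gib U) := by
  have hpm := gib_pm (sc_conf hl hc h)
  have hD : Continuous (fderiv ℝ φ) := hφ.continuous_fderiv (by norm_num)
  set K : Set (E d) := Metric.closedBall 0 1 with hK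
  have hKc : IsCompact K := isCompact_closedBall _ _
  have hK0 : K.Nonempty := ⟨0, by simp [hK]⟩
  set b : ℝ × E d → ℝ := fun q => sSup ((fun w => ‖fderiv ℝ φ (q.2 + q.1 • w)‖) '' K) with hb
  have hbc : Continuous b :=
    hKc.continuous_sSup (f := fun (q : ℝ × E d) w => ‖fderiv ℝ φ (q.2 + q.1 • w)‖) (by
      unfold Function.HasUncurry.uncurry Function.hasUncurryInduction
      simp only [Function.HasUncurry.uncurry, id]
      fun_prop)
  have hge : ∀ q : ℝ × E d, ∀ w ∈ K, ‖fderiv ℝ φ (q.2 + q.1 • w)‖ ≤ b q := fun q w hw =>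
    le_csSup (hKc.bddAbove_image (Continuous.continuousOn (by fun_prop))) ⟨w, hw, rfl⟩
  have hb0 : ∀ q, 0 ≤ b q := fun q => (norm_nonneg _).trans (hge q 0 (by simp [hK]))
  have hz : ∀ x, b (0, x) = ‖fderiv ℝ φ x‖ := fun x => by
    simp only [hb, zero_smul, add_zero]
    rw [hK0.image_const, csSup_singleton]
  obtain ⟨k, C, hC⟩ := p1
  have hle : ∀ r : ℝ, |r| ≤ 1 → ∀ x, b (r, x) ≤ |C| * (2 + ‖x‖) ^ k := fun r hr x => by
    refine csSup_le (hK0.image _) ?_
    rintro _ ⟨w, hw, rfl⟩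
    have t1 : ‖w‖ ≤ 1 := by simpa [hK] using hw
    have t2 : ‖x + r • w‖ ≤ ‖x‖ + 1 := by
      refine (norm_add_le _ _).trans ?_
      rw [norm_smul, Real.norm_eq_abs]
      have : |r| * ‖w‖ ≤ 1 := mul_le_one₀ hr (norm_nonneg _) t1
      linarith
    refine (hC _).trans ?_
    calc C * (1 + ‖x + r • w‖) ^ k ≤ |C| * (1 + ‖x + r • w‖) ^ k := by
          gcongr; exact le_abs_self _
      _ ≤ _ := mul_le_mul_of_nonneg_left
          (pow_le_pow_left₀ (by positivity) (by linarith) k) (abs_nonneg _)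
  have hbd : Integrable (fun x : E d => (|C| * (2 + ‖x‖) ^ k) ^ 2) (gib U) := by
    have pp : PolyG (fun x : E d => |C| * (2 + ‖x‖) ^ k) := ⟨k, |C| * 2 ^ k, fun x => by
      rw [Real.norm_of_nonneg (by positivity), mul_assoc, ← mul_pow]
      exact mul_le_mul_of_nonneg_left
          (pow_le_pow_left₀ (by positivity) (by linarith [norm_nonneg x]) k) (abs_nonneg _)⟩
    simp only [sq]
    exact polyG_integrable hpm (by fun_prop) (polyG_mul pp pp)
  have hbr : ∀ r : ℝ, Continuous fun x => b (r, x) := fun r => by fun_prop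
  have hdom : ∀ r : ℝ, |r| ≤ 1 → ∀ x, ‖b (r, x) ^ 2‖ ≤ (|C| * (2 + ‖x‖) ^ k) ^ 2 :=
    fun r hr x => by
      rw [Real.norm_of_nonneg (sq_nonneg _)]
      exact pow_le_pow_left₀ (hb0 _) (hle r hr x) 2
  have hca : ContinuousAt (fun r : ℝ => ∫ x, b (r, x) ^ 2 ∂(gib U)) 0 := by
    refine continuousAt_of_dominated (Filter.Eventually.of_forall fun r =>
      ((hbr r).pow 2).aestronglyMeasurable) ?_ hbd
      (ae_of_all _ fun x => Continuous.continuousAt (by fun_prop))
    filter_upwards [Icc_mem_nhds (show (-1 : ℝ) < 0 by norm_num) one_pos] with r hr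
    exact ae_of_all _ (hdom r (abs_le.2 hr))
  have e : ∀ x, ∑ c, pd (bv c) φ x ^ 2 = b (0, x) ^ 2 := fun x => by
    simp only [pd_bv_eq_grad]
    rw [← norm_sq_eq_sum, hz, gradient, LinearIsometryEquiv.norm_map]
  simp only [e]
  have hlim := ((hca.tendsto.const_mul (1 / l)).mono_left (nhdsWithin_le_nhds (s := Ioi 0)))
  refine ge_of_tendsto hlim ?_
  filter_upwards [Ioo_mem_nhdsGT (show (0 : ℝ) < 1 by norm_num)] with r hr
  have hr1 : |r| ≤ 1 := by rw [abs_of_pos hr.1]; exact hr.2.le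
  refine core2 hl hc h hφ.continuous p0 (hbr r).measurable
    (hbd.mono' ((hbr r).pow 2).aestronglyMeasurable (ae_of_all _ (hdom r hr1))) hr.1
    fun x y hxy => ?_
  have := (convex_closedBall x r).norm_image_sub_le_of_norm_fderiv_le (𝕜 := ℝ) (f := φ)
    (C := b (r, x)) (x := y) (y := x) (fun z _ => hφ.differentiable (by norm_num) z)
    (fun z hz => by
      have t1 : ‖z - x‖ ≤ r := by simpa [dist_eq_norm] using hz
      have t2 := hge (r, x) (r⁻¹ • (z - x)) (by
        simp only [hK, Metric.mem_closedBall, dist_zero_right, norm_smul, norm_inv,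
          Real.norm_of_nonneg hr.1.le]
        rw [inv_mul_le_iff₀ hr.1]; linarith)
      simpa [smul_smul, hr.1.ne'] using t2)
    (by rw [Metric.mem_closedBall, dist_eq_norm, norm_sub_rev]; exact hxy)
    (Metric.mem_closedBall_self hr.1.le)
  exact this

end Crest.Agent.R285
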