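import Crest.Agent.R285.MomB
import Crest.Agent.R285.Poinc

/-!
# R285 GBound: dimension free bounds on `nu` and `Gv`.

* `nu_lip`: `F x = ∫ f d(nu W s x) = Mom f / Mom 1` is differentiable (`mom_smooth`) with
  `F'(x) v = Cov (f, ⟪z, v⟫) / s` (`mom_fderiv`), and by Cauchy-Schwarz and `poinc_lip` (with
  `nu_sc`, `λ = l + 1/s`) `|Cov| ≤ L ‖v‖ / λ`; mean value inequality.
* `G_lip`: `nu_lip` for `z ↦ ⟪v, ∇W z⟫`, `v = Gv s x - Gv s x'`.
* `G_naive`: `‖Gv - ∇W x‖ ≤ δ ∫ ‖z - x‖ ≤ δ (∫ ‖z - zb‖ + ‖zb - x‖)`, `∫ ‖z - zb‖² = ∑ Var z_c ≤ s d`,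
  `x - zb = s • Gv` (`gv_eq`).
* `G_size`: `G_naive` at `(s, 0)` and `(1, 0)`, then `G_lip`.
* `adm_pot`: second derivative test along lines; the symmetric bilinear form `D²V` has norm `≤ 2`
  (`0 ≤ B(h,h) ≤ 2‖h‖²` and polarization / Cauchy-Schwarz for the positive form), mean value
  inequality for `fderiv V`.
-/

set_option autoImplicit false

namespace Crest.Agent.R285

open MeasureTheory Set
open scoped ContDiff

variable {d : ℕ} {W : E d → ℝ} {δ : ℝ}

namespace GBoundA

theorem sq_le_of_quad {a b c : ℝ} (h : ∀ t : ℝ, 0 ≤ a * (t * t) + 2 * b * t + c) :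
    b ^ 2 ≤ a * c := by
  have := discrim_le_zero h
  unfold discrim at this
  nlinarith

theorem cs_integral {α : Type} [MeasurableSpace α] {μ : Measure α} {a b : α → ℝ}
    (ia : Integrable (fun x => a x ^ 2) μ) (ib : Integrable (fun x => b x ^ 2) μ)
    (iab : Integrable (fun x => a x * b x) μ) :
    (∫ x, a x * b x ∂μ) ^ 2 ≤ (∫ x, a x ^ 2 ∂μ) * ∫ x, b x ^ 2 ∂μ := by
  refine sq_le_of_quad fun t => ?_
  have h0 : 0 ≤ ∫ x, ((t * t) * a x ^ 2 + (2 * t) * (a x * b x) + b x ^ 2) ∂μ :=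
    integral_nonneg fun x => by
      have := sq_nonneg (t * a x + b x)
      show (0 : ℝ) ≤ (t * t) * a x ^ 2 + (2 * t) * (a x * b x) + b x ^ 2
      nlinarith
  have j1 : Integrable (fun x => (t * t) * a x ^ 2 + (2 * t) * (a x * b x)) μ :=
    (ia.const_mul _).add (iab.const_mul _)
  rw [integral_add j1 ib, integral_add (ia.const_mul _) (iab.const_mul _), integral_const_mul,
    integral_const_mul] at h0
  linarith

theorem cov_bound {μ : Measure (E d)} (hμ : PM μ) {f g : E d → ℝ} (hf : Continuous f)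
    (pf : PolyG f) (hg : Continuous g) (pg : PolyG g) {A B : ℝ} (hA : 0 ≤ A) (hB : 0 ≤ B)
    (vf : ∫ x, (f x - ∫ y, f y ∂μ) ^ 2 ∂μ ≤ A ^ 2) (vg : ∫ x, (g x - ∫ y, g y ∂μ) ^ 2 ∂μ ≤ B ^ 2) :
    |∫ x, f x * g x ∂μ - (∫ x, f x ∂μ) * ∫ x, g x ∂μ| ≤ A * B := by
  have := hμ.prob
  set m := ∫ y, f y ∂μ with hm
  set n := ∫ y, g y ∂μ with hn
  have c1 : Continuous fun x => f x - m := by fun_prop
  have c2 : Continuous fun x => g x - n := by fun_prop
  have p1 : PolyG fun x => f x - m := polyG_sub pf (polyG_const _)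
  have p2 : PolyG fun x => g x - n := polyG_sub pg (polyG_const _)
  have key := cs_integral (μ := μ) (a := fun x => f x - m) (b := fun x => g x - n)
    (by simp only [sq]; exact polyG_integrable hμ (c1.mul c1) (polyG_mul p1 p1))
    (by simp only [sq]; exact polyG_integrable hμ (c2.mul c2) (polyG_mul p2 p2))
    (polyG_integrable hμ (c1.mul c2) (polyG_mul p1 p2))
  have i1 : Integrable f μ := polyG_integrable hμ hf pf
  have i2 : Integrable g μ := polyG_integrable hμ hg pg
  have i3 : Integrable (fun x => f x * g x) μ :=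
    polyG_integrable hμ (hf.mul hg) (polyG_mul pf pg)
  have e : ∫ x, (f x - m) * (g x - n) ∂μ = ∫ x, f x * g x ∂μ - m * n := by
    have e1 : ∀ x, (f x - m) * (g x - n) = f x * g x - n * f x - m * g x + m * n := fun x => by
      ring
    have j1 : Integrable (fun x => f x * g x - n * f x) μ := i3.sub (i1.const_mul _)
    have j2 : Integrable (fun x => f x * g x - n * f x - m * g x) μ := j1.sub (i2.const_mul _)
    simp only [e1]
    rw [integral_add j2 (integrable_const _), integral_sub j1 (i2.const_mul _),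
      integral_sub i3 (i1.const_mul _), integral_const_mul, integral_const_mul, ← hm, ← hn]
    simp
    ring
  rw [e] at key
  apply abs_le_of_sq_le_sq' _ (mul_nonneg hA hB) |> abs_le.2
  refine key.trans ?_
  rw [mul_pow]
  exact mul_le_mul vf vg (integral_nonneg fun x => sq_nonneg _) (sq_nonneg _)

theorem lip_cont {P : Type} [NormedAddCommGroup P] {φ : P → ℝ} {L : ℝ}
    (hφ : ∀ x y, |φ x - φ y| ≤ L * ‖x - y‖) : Continuous φ := by
  have : LipschitzWith (Real.nnabs L) φ := LipschitzWith.of_dist_le_mul fun x y => by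
    rw [Real.dist_eq, dist_eq_norm, Real.coe_nnabs]
    exact (hφ x y).trans (mul_le_mul_of_nonneg_right (le_abs_self _) (norm_nonneg _))
  exact this.continuous

theorem slice_hasFDerivAt {F : Type} [NormedAddCommGroup F] [NormedSpace ℝ F]
    {χ : ℝ × E d → F} (h : ContDiffOn ℝ ∞ χ (UU d)) {s : ℝ} (hs : 0 < s) (x : E d) :
    HasFDerivAt (fun x => χ (s, x))
      ((fderiv ℝ χ (s, x)).comp (ContinuousLinearMap.inr ℝ ℝ (E d))) x :=
  (MomBA.diffAt (isOpen_UU d) h (show ((s, x) : ℝ × E d) ∈ UU d from hs)).hasFDerivAt.comp x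
    (hasFDerivAt_prodMk_right s x)

theorem sc_of_hess {V : E d → ℝ} (hV : ContDiff ℝ 2 V) {c : ℝ}
    (h : ∀ x v : E d, c * ‖v‖ ^ 2 ≤ fderiv ℝ (fderiv ℝ V) x v v) : SC c V := by
  have hV1 : Differentiable ℝ V := hV.differentiable (by norm_num)
  have hV2 : Differentiable ℝ (fderiv ℝ V) :=
    (hV.fderiv_right (m := 1) (by norm_num)).differentiable (by norm_num)
  refine ⟨convex_univ, fun x _ y _ a b ha hb hab => ?_⟩
  set v := y - x with hv
  have hl : ∀ t : ℝ, HasDerivAt (fun t : ℝ => x + t • v) v t := fun t => by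
    simpa using ((hasDerivAt_id t).smul_const v).const_add x
  have d1 : ∀ t : ℝ, HasDerivAt (fun t : ℝ => V (x + t • v) - c / 2 * ‖x + t • v‖ ^ 2)
      (fderiv ℝ V (x + t • v) v - c * inner ℝ (x + t • v) v) t := fun t => by
    have a1 := (hV1 (x + t • v)).hasFDerivAt.comp_hasDerivAt t (hl t)
    have a2 := ((TiltA.hasFDerivAt_half_sq (x + t • v)).comp_hasDerivAt t (hl t)).const_mul c
    have a3 := a1.sub a2
    refine HasDerivAt.congr_deriv (a3.congr_of_eventuallyEq
      (Filter.Eventually.of_forall fun t => ?_)) (by rw [innerSL_apply_apply])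
    simp only [Pi.sub_apply, Function.comp]
    ring
  have d2 : ∀ t : ℝ, HasDerivAt
      (fun t : ℝ => fderiv ℝ V (x + t • v) v - c * inner ℝ (x + t • v) v)
      (fderiv ℝ (fderiv ℝ V) (x + t • v) v v - c * ‖v‖ ^ 2) t := fun t => by
    have a1 := ((hV2 (x + t • v)).hasFDerivAt.comp_hasDerivAt t (hl t)).clm_apply
      (hasDerivAt_const t v)
    have a2 := ((hl t).inner ℝ (hasDerivAt_const t v)).const_mul c
    have a3 := a1.sub a2
    refine HasDerivAt.congr_deriv (a3.congr_of_eventuallyEq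
      (Filter.Eventually.of_forall fun t => ?_)) (by simp)
    simp only [Pi.sub_apply, Function.comp]
  have hcv : ConvexOn ℝ univ (fun t : ℝ => V (x + t • v) - c / 2 * ‖x + t • v‖ ^ 2) := by
    refine Monotone.convexOn_univ_of_deriv (fun t => (d1 t).differentiableAt) ?_
    rw [funext fun t => (d1 t).deriv]
    refine monotone_of_deriv_nonneg (fun t => (d2 t).differentiableAt) fun t => ?_
    rw [(d2 t).deriv]
    linarith [h (x + t • v) v]
  have := hcv.2 (mem_univ 0) (mem_univ 1) ha hb hab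
  have e1 : x + b • v = a • x + b • y := by
    rw [hv, smul_sub, show a = 1 - b by linarith, sub_smul, one_smul]; abel
  have e2 : x + v = y := by rw [hv]; abel
  simp only [smul_eq_mul, mul_zero, mul_one, zero_add, zero_smul, add_zero, one_smul, e1,
    e2] at this
  simpa using this

end GBoundA

open GBoundA

theorem nu_lip (hW : Pot δ W) {l s L : ℝ} (hl : 0 ≤ l) (hsc : SC l W) (hs : 0 < s) {f : E d → ℝ}
    (hL : 0 ≤ L) (hf : ∀ x y, |f x - f y| ≤ L * ‖x - y‖) (x x' : E d) :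
    |∫ z, f z ∂(nu W s x) - ∫ z, f z ∂(nu W s x')| ≤ L / (1 + l * s) * ‖x - x'‖ := by
  have hfc : Continuous f := lip_cont hf
  have hfp : PolyG f := polyG_of_lip (L := L) hf
  have hWc := hW.c2.continuous
  have hlam : 0 < l + 1 / s := by positivity
  have hM := fun x => slice_hasFDerivAt (mom_smooth hW hfc hfp) hs x
  have hZ := fun x => slice_hasFDerivAt (MomBA.Z_smooth hW) hs x
  have Zp : ∀ x : E d, 0 < Mom W (fun _ => 1) (s, x) := fun x =>
    mom_one_pos hW (show ((s, x) : ℝ × E d) ∈ UU d from hs)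
  have hF := fun x : E d => (hM x).mul
    ((hasDerivAt_inv (Zp x).ne').comp_hasFDerivAt x (hZ x))
  have key := convex_univ.norm_image_sub_le_of_norm_hasFDerivWithin_le (𝕜 := ℝ)
    (C := L / (1 + l * s)) (x := x') (y := x) (fun z _ => (hF z).hasFDerivWithinAt)
    (fun z _ => ?_) (mem_univ _) (mem_univ _)
  · simpa [integral_nu, div_eq_mul_inv] using key
  refine ContinuousLinearMap.opNorm_le_bound _ (by positivity) fun v => ?_
  have hz : ((s, z) : ℝ × E d) ∈ UU d := hs
  set g : E d → ℝ := fun w => inner ℝ (w - z) v / s with hg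
  have gl : ∀ a b, |g a - g b| ≤ ‖v‖ / s * ‖a - b‖ := fun a b => by
    simp only [hg]
    rw [← sub_div, ← inner_sub_left, sub_sub_sub_cancel_right, abs_div, abs_of_pos hs,
      div_mul_eq_mul_div, mul_comm]
    exact div_le_div_of_nonneg_right (abs_real_inner_le_norm _ _) hs.le
  have hsq : 0 < √(l + 1 / s) := Real.sqrt_pos.2 hlam
  have hUc : Continuous fun w => W w + ‖w - z‖ ^ 2 / (2 * s) := by fun_prop
  have cb := cov_bound (nu_pm hW hs z) hfc hfp (lip_cont gl) (polyG_of_lip (L := ‖v‖ / s) gl)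
    (A := L / √(l + 1 / s)) (B := ‖v‖ / s / √(l + 1 / s)) (by positivity) (by positivity)
    (by rw [div_pow, Real.sq_sqrt hlam.le]; exact poinc_lip hlam hUc (nu_sc hsc hs z) hf)
    (by rw [div_pow, Real.sq_sqrt hlam.le]; exact poinc_lip hlam hUc (nu_sc hsc hs z) gl)
  have e1 : fderiv ℝ (Mom W f) (s, z) (0, v) = Mom W (fun w => f w * g w) (s, z) := by
    rw [mom_fderiv hW hfc hfp hz]; simp [hg]
  have e2 : fderiv ℝ (Mom W fun _ => 1) (s, z) (0, v) = Mom W g (s, z) := by
    rw [mom_fderiv hW continuous_const (polyG_const _) hz]; simp [hg]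
  have e3 : L / √(l + 1 / s) * (‖v‖ / s / √(l + 1 / s)) = L / (1 + l * s) * ‖v‖ := by
    have : √(l + 1 / s) * √(l + 1 / s) = l + 1 / s := Real.mul_self_sqrt hlam.le
    rw [div_div, div_mul_div_comm, mul_left_comm, this]
    field_simp
    ring
  rw [← e3]
  refine le_trans (le_of_eq ?_) cb
  rw [Real.norm_eq_abs]
  congr 1
  simp only [integral_nu, add_apply, smul_apply, ContinuousLinearMap.comp_apply,
    ContinuousLinearMap.inr_apply, smul_eq_mul, e1, e2, Function.comp]
  have := (Zp z).ne'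
  field_simp
  ring

theorem G_lip (hW : Pot δ W) {s : ℝ} (hs : 0 < s) (x x' : E d) :
    ‖Gv W s x - Gv W s x'‖ ≤ δ * ‖x - x'‖ := by
  set v := Gv W s x - Gv W s x' with hv
  have hδ := hW.nn
  have key := nu_lip hW le_rfl (pot_sc hW) hs (f := fun z => inner ℝ v (gradient W z))
    (L := ‖v‖ * δ) (by positivity) (fun a b => by
      rw [← inner_sub_right, mul_assoc]
      exact (abs_real_inner_le_norm _ _).trans
        (mul_le_mul_of_nonneg_left (hW.lip a b) (norm_nonneg _))) x x'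
  have gi : ∀ y, Integrable (gradient W) (nu W s y) := fun y =>
    polyG_integrable (nu_pm hW hs y) (pot_grad_cont hW) (pot_grad_polyG hW)
  rw [integral_inner (gi x), integral_inner (gi x'), ← inner_sub_right] at key
  change |inner ℝ v v| ≤ _ at key
  rw [real_inner_self_eq_norm_mul_norm, abs_of_nonneg (by positivity)] at key
  simp only [zero_mul, add_zero, div_one] at key
  rcases (norm_nonneg v).eq_or_lt with h0 | h0
  · rw [← h0]; positivity
  · rw [mul_assoc] at key
    exact le_of_mul_le_mul_left key h0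

theorem G_naive (hW : Pot δ W) {s : ℝ} (hs : 0 < s) (x : E d) :
    ‖Gv W s x - gradient W x‖ ≤ δ * (√s * √(d : ℝ) + s * ‖Gv W s x‖) := by
  have hpm := nu_pm hW hs x
  have := hpm.prob
  have hδ := hW.nn
  have hWc := hW.c2.continuous
  have gi : Integrable (gradient W) (nu W s x) :=
    polyG_integrable hpm (pot_grad_cont hW) (pot_grad_polyG hW)
  set m := zb W s x with hm
  have pm1 : PolyG fun z : E d => ‖z - m‖ := MomAA.polyG_sub_const m
  have i1 : Integrable (fun z : E d => ‖z - m‖) (nu W s x) :=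
    polyG_integrable hpm (by fun_prop) pm1
  have i2 : Integrable (fun z : E d => ‖z - m‖ ^ 2) (nu W s x) := by
    simp only [sq]
    exact polyG_integrable hpm (by fun_prop) (polyG_mul pm1 pm1)
  have hvar : ∀ c : Fin d, ∫ z, (z c - m c) ^ 2 ∂(nu W s x) ≤ s := fun c => by
    have hUc : Continuous fun w => W w + ‖w - x‖ ^ 2 / (2 * s) := by fun_prop
    have h1 := poinc_lip (l := 0 + 1 / s) (by positivity) hUc (nu_sc (pot_sc hW) hs x)
      (φ := fun z => z c) (L := 1) (fun a b => by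
        rw [one_mul, ← PiLp.sub_apply, ← Real.norm_eq_abs]; exact PiLp.norm_apply_le _ _)
    have h2 : m c = ∫ z, z c ∂(nu W s x) :=
      MomBA.integral_coord (polyG_integrable hpm continuous_id' polyG_id) c
    rw [h2]
    refine le_trans h1 (le_of_eq ?_)
    field_simp
    ring
  have h2 : ∫ z, ‖z - m‖ ^ 2 ∂(nu W s x) ≤ s * d := by
    simp only [norm_sq_eq_sum, PiLp.sub_apply]
    rw [integral_finsetSum _ fun c _ => ?_]
    · refine (Finset.sum_le_sum fun c _ => hvar c).trans (le_of_eq ?_)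
      simp [mul_comm]
    · have pc : PolyG fun z : E d => z c - m c := polyG_sub (polyG_coord c) (polyG_const _)
      simp only [sq]
      exact polyG_integrable hpm (by fun_prop) (polyG_mul pc pc)
  have h3 : ∫ z, ‖z - m‖ ∂(nu W s x) ≤ √s * √(d : ℝ) := by
    rw [← Real.sqrt_mul hs.le]
    exact Real.le_sqrt_of_sq_le ((TiltA.sq_integral_le i1 i2).trans h2)
  have h4 : ‖m - x‖ = s * ‖Gv W s x‖ := by
    rw [gv_eq hW hs, norm_smul, Real.norm_of_nonneg (inv_pos.2 hs).le, norm_sub_rev, ← hm]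
    field_simp
  have e : Gv W s x - gradient W x = ∫ z, (gradient W z - gradient W x) ∂(nu W s x) := by
    rw [integral_sub gi (integrable_const _)]; simp [Gv]
  rw [e]
  calc ‖∫ z, (gradient W z - gradient W x) ∂(nu W s x)‖
      ≤ ∫ z, δ * (‖z - m‖ + ‖m - x‖) ∂(nu W s x) := by
        refine norm_integral_le_of_norm_le ((i1.add (integrable_const _)).const_mul _)
          (ae_of_all _ fun z => (hW.lip z x).trans ?_)
        exact mul_le_mul_of_nonneg_left (norm_sub_le_norm_sub_add_norm_sub _ _ _) hδ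
    _ = δ * (∫ z, ‖z - m‖ ∂(nu W s x) + ‖m - x‖) := by
        rw [integral_const_mul, integral_add i1 (integrable_const _)]; simp
    _ ≤ _ := by rw [h4]; gcongr

theorem G_size (hW : Pot δ W) (hδ : δ ≤ 1 / 2) {s : ℝ} (hs : 0 < s) (hs1 : s ≤ 1) (x : E d) :
    ‖Gv W s x - Gv W 1 0‖ ≤ δ * (‖x‖ + 4 * (√(d : ℝ) + ‖Gv W 1 0‖)) := by
  have hδ0 := hW.nn
  have h1 := G_naive hW one_pos 0
  have h2 := G_naive hW hs 0
  have h3 := G_lip hW hs x 0
  rw [Real.sqrt_one, one_mul, one_mul] at h1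
  rw [sub_zero] at h3
  have hD : 0 ≤ √(d : ℝ) := Real.sqrt_nonneg _
  have hs2 : √s ≤ 1 := Real.sqrt_le_one.2 hs1
  have h2' : ‖Gv W s 0 - gradient W 0‖ ≤ δ * (√(d : ℝ) + ‖Gv W s 0‖) := by
    refine h2.trans (mul_le_mul_of_nonneg_left ?_ hδ0)
    have a1 := mul_le_of_le_one_left hD hs2
    have a2 := mul_le_of_le_one_left (norm_nonneg (Gv W s 0)) hs1
    linarith
  have t1 : ‖Gv W s 0 - Gv W 1 0‖ ≤ ‖Gv W s 0 - gradient W 0‖ + ‖Gv W 1 0 - gradient W 0‖ := by
    have := norm_sub_le_norm_sub_add_norm_sub (Gv W s 0) (gradient W 0) (Gv W 1 0)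
    rwa [norm_sub_rev (gradient W 0)] at this
  have t2 : ‖Gv W s 0‖ ≤ ‖Gv W s 0 - Gv W 1 0‖ + ‖Gv W 1 0‖ := norm_le_norm_sub_add _ _
  have t3 := norm_sub_le_norm_sub_add_norm_sub (Gv W s x) (Gv W s 0) (Gv W 1 0)
  have t4 := mul_le_mul_of_nonneg_left t2 hδ0
  have t5 := mul_le_mul_of_nonneg_right hδ (norm_nonneg (Gv W s 0 - Gv W 1 0))
  nlinarith

theorem H_op (hW : Pot δ W) {p : ℝ × E d} (h : p ∈ UU d) :
    OpLe (fun i a => Hm W i a p) δ := by
  intro v
  have hs : 0 < p.1 := h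
  have hd := slice_hasFDerivAt (gvec_smooth hW) hs p.2
  have hn := hd.le_of_lip' hW.nn (Filter.Eventually.of_forall fun y => G_lip hW hs y p.2)
  have hb := ((fderiv ℝ (fun p : ℝ × E d => Gv W p.1 p.2) (p.1, p.2)).comp
    (ContinuousLinearMap.inr ℝ ℝ (E d))).le_of_opNorm_le hn (vec v)
  have hsq := pow_le_pow_left₀ (norm_nonneg _) hb 2
  rw [mul_pow, norm_sq_eq_sum, norm_sq_eq_sum] at hsq
  refine le_trans (le_of_eq ?_) hsq
  refine Finset.sum_congr rfl fun i _ => ?_
  congr 1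
  have hG := (MomBA.diffAt (isOpen_UU d) (gvec_smooth hW) h).hasFDerivAt
  have hc : HasFDerivAt (Gc W i) _ p :=
    (EuclideanSpace.proj i : E d →L[ℝ] ℝ).hasFDerivAt.comp p hG
  have e : ((0, vec v) : ℝ × E d) = ∑ a, v a • xd a := by
    ext1
    · simp [xd, Prod.fst_sum]
    · simp only [xd, Prod.snd_sum, Prod.smul_snd]
      exact eq_sum_bv (vec v)
  have e2 : (fderiv ℝ (fun p : ℝ × E d => Gv W p.1 p.2) p (0, vec v)) i =
      fderiv ℝ (Gc W i) p (0, vec v) := by rw [hc.fderiv]; rfl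
  rw [ContinuousLinearMap.comp_apply, ContinuousLinearMap.inr_apply, Prod.mk.eta, e2, e, map_sum]
  refine Finset.sum_congr rfl fun a _ => ?_
  rw [map_smul, smul_eq_mul, mul_comm]
  rfl

theorem adm_pot {V : E d → ℝ} (h : Crest.OracleSampling.Admissible d V) :
    Pot 2 V ∧ SC 1 V ∧ gradient V 0 = 0 := by
  obtain ⟨hV, -, h0, hH⟩ := h
  have hH' : ∀ x v : E d, ‖v‖ ^ 2 ≤ fderiv ℝ (fderiv ℝ V) x v v ∧
      fderiv ℝ (fderiv ℝ V) x v v ≤ 2 * ‖v‖ ^ 2 := fun x v => by
    have := hH x v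
    rwa [iteratedFDeriv_two_apply] at this
  have hV2 : Differentiable ℝ (fderiv ℝ V) :=
    (hV.fderiv_right (m := 1) (by norm_num)).differentiable (by norm_num)
  have hB : ∀ x, ‖fderiv ℝ (fderiv ℝ V) x‖ ≤ 2 := fun x => by
    have sym : ∀ u v, fderiv ℝ (fderiv ℝ V) x u v = fderiv ℝ (fderiv ℝ V) x v u :=
      (hV.contDiffAt (x := x)).isSymmSndFDerivAt (by simp)
    refine ContinuousLinearMap.opNorm_le_bound₂ _ (by norm_num) fun u v => ?_
    have q := sq_le_of_quad (a := fderiv ℝ (fderiv ℝ V) x u u) (b := fderiv ℝ (fderiv ℝ V) x u v)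
      (c := fderiv ℝ (fderiv ℝ V) x v v) fun t => by
        have := (sq_nonneg _).trans (hH' x (t • u + v)).1
        simp only [map_add, map_smul, add_apply, smul_apply, smul_eq_mul, sym v u] at this
        linarith
    have q2 : fderiv ℝ (fderiv ℝ V) x u u * fderiv ℝ (fderiv ℝ V) x v v ≤
        (2 * ‖u‖ ^ 2) * (2 * ‖v‖ ^ 2) :=
      mul_le_mul (hH' x u).2 (hH' x v).2 ((sq_nonneg _).trans (hH' x v).1) (by positivity)
    rw [Real.norm_eq_abs]
    refine abs_le.2 (abs_le_of_sq_le_sq' ?_ (by positivity))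
    nlinarith
  refine ⟨⟨by norm_num, hV, ?_, fun x y => ?_⟩, sc_of_hess hV fun x v => ?_, h0⟩
  · have := sc_of_hess hV (c := 0) fun x v => by
      rw [zero_mul]; exact (sq_nonneg _).trans (hH' x v).1
    unfold SC at this
    simpa using this
  · unfold gradient
    rw [← map_sub, LinearIsometryEquiv.norm_map]
    exact convex_univ.norm_image_sub_le_of_norm_fderiv_le (fun z _ => hV2 z) (fun z _ => hB z)
      (mem_univ _) (mem_univ _)
  · rw [one_mul]; exact (hH' x v).1

end Crest.Agent.R285
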