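import Crest.Agent.R285.PZ
import Crest.Agent.R285.GBound
import Crest.Agent.R285.CalcB

/-!
# R285 Appell: Gram bounds for the polynomials `Bw` and the bound on `∇^k H` with the factor `δ`.

* `bw_deriv`: `∫ B φ dν(s,x) = IZ W s id φ B x / Z x`, `iz_pd`, `mom_one_pd`, `gv_eq`.
* `bw_mean`: `bw_deriv` with `φ = 1` and induction (`∫ Bw 0 = 1`).
* auxiliary `bw_pdz`: `pd (bv a) (Bw (k+1) w x) z = (1/s) ∑ w', Π k (w, a) w' * Bw k w' x z` with constant
  `Π k : Wd (k+1) × Fin d → Wd k → ℝ`,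
  `Π 0 ((_, b), a) _ = kd a b`,
  `Π (k+1) ((w, b), a) (w', b') = Π k (w, a) w' * kd b b' + kd a b * kd w (w', b')`
  (commute `∂_x` and `∂_z` with `pd_comm` and `pz_smooth`).  For the Gram bound one needs the
  operator `T ↦ ((a, w') ↦ ∑ w, Π (w, a) w' * T w)`, i.e. `OpLe (fun (aw : Fin d × Wd k) w => Π k (w, aw.1) aw.2) (k+1)`
  (induction: `opLe_add` of a reindexed `opLe_ext` and a reindexed `opLe_kd`).
* `bw_gram`: induction; `poinc_c1` with `l = 1/s` (`nu_sc`, `pot_sc`) applied to `∑ T w * B w`.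
* `H_mo`: the matrices `A k w i x = ∫ Bw k w x z * ∂_i W z dν(s,x)` satisfy
  `gradOut bv (A k) = A (k+1)`; for `k ≥ 1`, `(A k v)_w = ∫ B_w (ψ - ∫ψ)` with `ψ = ⟪v, ∇W⟫`, so
  (duality, `opLe_of_bilin`, Cauchy-Schwarz, `bw_gram`, `poinc_lip`)
  `OpLe (A k) (δ √s k! / s^{k/2})`.  `A 1` is `Hm` up to reindexing and symmetry; pass from slices to
  `SK` by `Mo_sl`, `AA_of_pointwise`, `AA_subset`; constants: `C ≤ 2^C ≤ κ⁻¹^C`, `s⁻¹ ≤ κ⁻¹^2`.
-/

set_option autoImplicit false

namespace Crest.Agent.R285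

open MeasureTheory Set
open scoped ContDiff

variable {d : ℕ} {W : E d → ℝ} {δ s : ℝ}

namespace AppellA

theorem pd_div {P : Type} [NormedAddCommGroup P] [NormedSpace ℝ P] {φ ψ : P → ℝ} {y : P} (v : P)
    (hφ : DifferentiableAt ℝ φ y) (hψ : DifferentiableAt ℝ ψ y) (hne : ψ y ≠ 0) :
    pd v (fun y => φ y / ψ y) y = pd v φ y / ψ y - φ y * pd v ψ y / ψ y ^ 2 := by
  have h1 := (hasDerivAt_inv hne).comp_hasFDerivAt y hψ.hasFDerivAt
  have h2 := hφ.hasFDerivAt.mul h1
  have h3 : (fun y => φ y / ψ y) = φ * ((fun y : ℝ => y⁻¹) ∘ ψ) := by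
    funext y; simp [div_eq_mul_inv]
  unfold pd
  rw [h3, h2.fderiv]
  simp
  field_simp
  ring

theorem pz_lin (hW : Pot δ W) (hs : 0 < s) (b : Fin d) :
    PZ (fun (x z : E d) => (z b - zb W s x b) / s) := by
  have h1 : PZ (fun (_ z : E d) => (1 / s) * z b) :=
    PZ.mulz (fun _ _ => 1 / s) b (PZ.coef (fun _ => 1 / s) contDiff_const)
  have h2 : PZ (fun (x _ : E d) => -(1 / s) * zb W s x b) :=
    PZ.coef _ (contDiff_const.mul (zb_smooth hW hs b))
  have := PZ.add _ _ h1 h2
  convert this using 3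
  ring

theorem pd_left {G : E d × E d → ℝ} {x z : E d} (h : DifferentiableAt ℝ G (x, z)) (v : E d) :
    pd v (fun x => G (x, z)) x = pd (v, 0) G (x, z) := by
  have := h.hasFDerivAt.comp x (hasFDerivAt_prodMk_left (𝕜 := ℝ) x z)
  unfold pd
  rw [show (fun x => G (x, z)) = G ∘ fun x => (x, z) from rfl, this.fderiv]
  simp

theorem pd_right {G : E d × E d → ℝ} {x z : E d} (h : DifferentiableAt ℝ G (x, z)) (v : E d) :
    pd v (fun z => G (x, z)) z = pd (0, v) G (x, z) := by
  have := h.hasFDerivAt.comp z (hasFDerivAt_prodMk_right (𝕜 := ℝ) x z)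
  unfold pd
  rw [show (fun z => G (x, z)) = G ∘ fun z => (x, z) from rfl, this.fderiv]
  simp

theorem pz_comm {B : E d → E d → ℝ} (h : PZ B) (u v x z : E d) :
    pd u (fun z => pd v (fun x => B x z) x) z = pd v (fun x => pd u (B x) z) x := by
  have hs := pz_smooth h
  have hd : ∀ q, DifferentiableAt ℝ (fun q : E d × E d => B q.1 q.2) q := fun q =>
    hs.differentiable (by simp) q
  have hp : ∀ (t q : E d × E d),
      DifferentiableAt ℝ (pd t (fun q : E d × E d => B q.1 q.2)) q := fun t q =>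
    (PZA.pd_smooth hs t).differentiable (by simp) q
  have e1 : (fun z => pd v (fun x => B x z) x) =
      fun z => pd (v, 0) (fun q : E d × E d => B q.1 q.2) (x, z) := by
    funext z; exact pd_left (hd _) v
  have e2 : (fun x => pd u (B x) z) =
      fun x => pd (0, u) (fun q : E d × E d => B q.1 q.2) (x, z) := by
    funext x; exact pd_right (hd _) u
  rw [e1, e2, pd_right (hp _ _), pd_left (hp _ _)]
  exact pd_comm isOpen_univ hs.contDiffOn _ _ (mem_univ _)

theorem cs {α : Type} [MeasurableSpace α] {μ : Measure α} {f g : α → ℝ}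
    (hf : Integrable (fun x => f x ^ 2) μ) (hg : Integrable (fun x => g x ^ 2) μ)
    (hfg : Integrable (fun x => f x * g x) μ) :
    (∫ x, f x * g x ∂μ) ^ 2 ≤ (∫ x, f x ^ 2 ∂μ) * ∫ x, g x ^ 2 ∂μ := by
  have h : ∀ t : ℝ, 0 ≤ (∫ x, f x ^ 2 ∂μ) * (t * t) + (2 * ∫ x, f x * g x ∂μ) * t +
      ∫ x, g x ^ 2 ∂μ := by
    intro t
    have e : ∫ x, (t * f x + g x) ^ 2 ∂μ = (∫ x, f x ^ 2 ∂μ) * (t * t) +
        (2 * ∫ x, f x * g x ∂μ) * t + ∫ x, g x ^ 2 ∂μ := by
      have : (fun x => (t * f x + g x) ^ 2) =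
          fun x => ((t * t) * f x ^ 2 + (2 * t) * (f x * g x)) + g x ^ 2 := by
        funext x; ring
      have i1 : Integrable (fun x => (t * t) * f x ^ 2 + (2 * t) * (f x * g x)) μ :=
        (hf.const_mul _).add (hfg.const_mul _)
      rw [this, integral_add i1 hg,
        integral_add (hf.const_mul _) (hfg.const_mul _), integral_const_mul, integral_const_mul]
      ring
    rw [← e]
    exact integral_nonneg fun x => sq_nonneg _
  have := discrim_le_zero h
  unfold discrim at this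
  nlinarith

/-- the constant contraction tensor -/
noncomputable def PiT {d : ℕ} : ∀ k, Wd d (k + 1) → Fin d → Wd d k → ℝ
  | 0, wb, a, _ => kd a wb.2
  | k + 1, wb, a, wb' => PiT k wb.1 a wb'.1 * kd wb.2 wb'.2 + kd a wb.2 * kd wb.1 wb'

theorem piT_op (k : ℕ) :
    OpLe (fun (aw : Fin d × Wd d k) (w : Wd d (k + 1)) => PiT k w aw.1 aw.2) ((k : ℝ) + 1) := by
  induction k with
  | zero =>
    have h := opLe_inj (J := Fin d × Wd d 0) (I := Wd d 0 × Fin d) (f := fun w => (w.2, w.1))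
      (fun w w' h => Prod.ext (congrArg Prod.snd h) (congrArg Prod.fst h))
    have e : (fun (aw : Fin d × Wd d 0) (w : Wd d 0 × Fin d) => kd aw (w.2, w.1)) =
        fun (aw : Fin d × Wd d 0) (w : Wd d (0 + 1)) => PiT 0 w aw.1 aw.2 := by
      funext aw w
      obtain ⟨a, u⟩ := aw
      rw [kd_prod]
      have : u = w.1 := Subsingleton.elim (α := Unit) _ _
      rw [this, kd_self, mul_one]; rfl
    rw [e] at h
    exact opLe_mono h zero_le_one (by simp)
  | succ k ih =>
    have h1 := opLe_reindex (J' := Fin d × (Wd d k × Fin d)) (I' := Wd d (k + 1) × Fin d)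
      (Equiv.prodAssoc (Fin d) (Wd d k) (Fin d)).symm (Equiv.refl _) (opLe_ext (K := Fin d) ih)
    have h2 := opLe_inj (J := Fin d × Wd d (k + 1)) (I := Wd d (k + 1) × Fin d)
      (f := fun w => (w.2, w.1))
      (fun w w' h => Prod.ext (congrArg Prod.snd h) (congrArg Prod.fst h))
    have h3 := opLe_add (J := Fin d × Wd d (k + 1)) (I := Wd d (k + 1) × Fin d) h1 h2
      (by positivity) zero_le_one
    have e : ((k + 1 : ℕ) : ℝ) + 1 = (k : ℝ) + 1 + 1 := by push_cast; ring
    rw [e]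
    have e2 : (fun (aw : Fin d × Wd d (k + 1)) (w : Wd d (k + 1 + 1)) => PiT (k + 1) w aw.1 aw.2) =
        fun (aw : Fin d × Wd d (k + 1)) (w : Wd d (k + 1) × Fin d) =>
          kd aw.2.2 w.2 * PiT k w.1 aw.1 aw.2.1 + kd aw (w.2, w.1) := by
      funext aw w
      obtain ⟨a, w'⟩ := aw
      obtain ⟨w, b⟩ := w
      rw [kd_prod, kd_comm w' w, kd_comm w'.2 b]
      simp only [PiT]
      ring
    rw [e2]
    exact h3

end AppellA

open AppellA

theorem bw_pz (hW : Pot δ W) (hs : 0 < s) (k : ℕ) (w : Wd d k) : PZ (Bw W s k w) := by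
  induction k with
  | zero => exact PZ.coef (fun _ => 1) contDiff_const
  | succ k ih => exact PZ.add _ _ (pz_pd (ih w.1) (bv w.2)) (pz_mul (ih w.1) (pz_lin hW hs w.2))

theorem bw_deriv (hW : Pot δ W) (hs : 0 < s) {φ : E d → ℝ} (hφ : Continuous φ) (hp : PolyG φ)
    (k : ℕ) (w : Wd d k) (b : Fin d) (x : E d) :
    pd (bv b) (fun x => ∫ z, Bw W s k w x z * φ z ∂(nu W s x)) x =
      ∫ z, Bw W s (k + 1) (w, b) x z * φ z ∂(nu W s x) := by
  have hB := bw_pz hW hs k w
  have hU : ∀ y : E d, ((s, y) : ℝ × E d) ∈ UU d := fun _ => hs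
  have e1 : (fun x => ∫ z, Bw W s k w x z * φ z ∂(nu W s x)) =
      fun x => IZ W s (fun x => x) φ (Bw W s k w) x / sl s (Mom W fun _ => 1) x := by
    funext x; rw [integral_nu]; rfl
  have hN : DifferentiableAt ℝ (IZ W s (fun x => x) φ (Bw W s k w)) x :=
    (iz_smooth hW hs contDiff_id hφ hp hB).differentiable (by simp) x
  have hZ0 := MomBA.diffAt (isOpen_UU d) (MomBA.Z_smooth hW) (hU x)
  have hZ : DifferentiableAt ℝ (sl s (Mom W fun _ => 1)) x :=
    hZ0.comp x (by fun_prop : DifferentiableAt ℝ (fun y : E d => ((s, y) : ℝ × E d)) x)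
  have hpos : 0 < sl s (Mom W fun _ => 1) x := mom_one_pos hW (hU x)
  rw [e1, pd_div _ hN hZ hpos.ne', pd_sl hZ0, mom_one_pd hW (hU x),
    iz_pd (l := fun x => x) hW hs contDiff_id hφ hp hB, integral_nu]
  have hG : Gc W b (s, x) = (x b - zb W s x b) / s := by
    show Gv W s x b = _
    rw [gv_eq hW hs]; simp [div_eq_inv_mul]
  have hsplit : Mom W (fun z => Bw W s (k + 1) (w, b) x z * φ z) (s, x) =
      IZ W s (fun x => x) φ (fun y z => pd (bv b) (fun y => Bw W s k w y z) y +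
        Bw W s k w y z * (inner ℝ (z - y) (fderiv ℝ (fun x : E d => x) y (bv b)) / s)) x +
      (x b - zb W s x b) / s * IZ W s (fun x => x) φ (Bw W s k w) x := by
    have i1 := iz_integrable hW hs hφ hp (PZ.add _ _ (pz_pd hB (bv b))
      (pz_mul hB (PZA.pz_inner (l := fun x : E d => x) contDiff_id (bv b) s))) x x
    have i2 := (iz_integrable hW hs hφ hp hB x x).const_mul ((x b - zb W s x b) / s)
    unfold IZ Mom
    rw [← integral_const_mul, ← integral_add i1 i2]
    refine integral_congr_ae (Filter.Eventually.of_forall fun z => ?_)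
    have : inner ℝ (z - x) (fderiv ℝ (fun x : E d => x) x (bv b)) = z b - x b := by
      simp [bv, EuclideanSpace.inner_single_right]
    simp only [this, Bw]
    ring
  rw [hsplit, hG]
  have : sl s (Mom W fun _ => 1) x = Mom W (fun _ => 1) (s, x) := rfl
  rw [this] at hpos ⊢
  generalize IZ W s (fun x => x) φ (fun y z => pd (bv b) (fun y => Bw W s k w y z) y +
        Bw W s k w y z * (inner ℝ (z - y) (fderiv ℝ (fun x : E d => x) y (bv b)) / s)) x = A
  field_simp
  ring

theorem bw_mean (hW : Pot δ W) (hs : 0 < s) (k : ℕ) (w : Wd d (k + 1)) (x : E d) :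
    ∫ z, Bw W s (k + 1) w x z ∂(nu W s x) = 0 := by
  haveI := (nu_pm hW hs x).prob
  induction k generalizing x with
  | zero =>
    have h := bw_deriv hW hs (φ := fun _ => 1) continuous_const (polyG_const _) 0 w.1 w.2 x
    have e : (fun x => ∫ z, Bw W s 0 w.1 x z * 1 ∂(nu W s x)) = fun _ => 1 := by
      funext y
      haveI := (nu_pm hW hs y).prob
      simp [Bw]
    rw [e, pd_const] at h
    simpa using h.symm
  | succ k ih =>
    have h := bw_deriv hW hs (φ := fun _ => 1) continuous_const (polyG_const _) (k + 1) w.1 w.2 x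
    have e : (fun x => ∫ z, Bw W s (k + 1) w.1 x z * 1 ∂(nu W s x)) = fun _ => 0 := by
      funext y
      simpa using ih w.1 y (nu_pm hW hs y).prob
    rw [e, pd_const] at h
    simpa using h.symm

namespace AppellA

theorem pd_lin (a b : Fin d) (c : ℝ) (z : E d) :
    pd (bv a) (fun z : E d => (z b - c) / s) z = kd a b / s := by
  have e : (fun z : E d => (z b - c) / s) = fun z => (1 / s) * (z b - c) := by
    funext z; ring
  rw [e, pd_const_mul]
  show 1 / s * pd (bv a) (fun z : E d => z b - c) z = _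
  rw [pd_sub _ (by fun_prop) (by fun_prop), TiltA.pd_coord, pd_const]
  ring

theorem bw_pdz (hW : Pot δ W) (hs : 0 < s) (k : ℕ) (w : Wd d (k + 1)) (a : Fin d) (x z : E d) :
    pd (bv a) (Bw W s (k + 1) w x) z = 1 / s * ∑ w', PiT k w a w' * Bw W s k w' x z := by
  induction k generalizing x z with
  | zero =>
    have e : Bw W s (0 + 1) w x = fun z => (z w.2 - zb W s x w.2) / s := by
      funext z; simp [Bw, pd_const]
    rw [e, pd_lin]
    have : ∑ w' : Wd d 0, PiT 0 w a w' * Bw W s 0 w' x z = kd a w.2 := by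
      show ∑ _w' : Unit, kd a w.2 * 1 = _
      simp
    rw [this]; ring
  | succ k ih =>
    obtain ⟨w, b⟩ := w
    have hB := bw_pz hW hs (k + 1) w
    have e : Bw W s (k + 1 + 1) (w, b) x = fun z => pd (bv b) (fun x => Bw W s (k + 1) w x z) x +
        Bw W s (k + 1) w x z * ((z b - zb W s x b) / s) := rfl
    have d1 : DifferentiableAt ℝ (fun z => pd (bv b) (fun x => Bw W s (k + 1) w x z) x) z :=
      (PZA.smooth_z (pz_pd hB (bv b)) x).differentiable (by simp) z
    have d2 : DifferentiableAt ℝ (Bw W s (k + 1) w x) z :=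
      (PZA.smooth_z hB x).differentiable (by simp) z
    have d3 : DifferentiableAt ℝ (fun z : E d => (z b - zb W s x b) / s) z := by fun_prop
    have d5 : DifferentiableAt ℝ
        (fun z => Bw W s (k + 1) w x z * ((z b - zb W s x b) / s)) z := d2.mul d3
    rw [e, pd_add _ d1 d5, pd_mul _ d2 d3, pz_comm hB, pd_lin, ih]
    have e2 : (fun x => pd (bv a) (Bw W s (k + 1) w x) z) =
        fun x => 1 / s * ∑ w', PiT k w a w' * Bw W s k w' x z := funext fun x => ih w x z
    rw [e2, pd_const_mul]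
    have d4 : ∀ w' : Wd d k, DifferentiableAt ℝ (fun x => PiT k w a w' * Bw W s k w' x z) x :=
      fun w' => (((PZA.smooth_y (bw_pz hW hs k w') z).differentiable (by simp) x).const_mul _)
    show 1 / s * pd (bv b) (fun x => ∑ w', PiT k w a w' * Bw W s k w' x z) x + _ = _
    rw [pd_sum _ d4]
    have e3 : ∑ w' : Wd d (k + 1), PiT (k + 1) (w, b) a w' * Bw W s (k + 1) w' x z =
        ∑ w' : Wd d k, PiT k w a w' * Bw W s (k + 1) (w', b) x z +
          kd a b * Bw W s (k + 1) w x z := by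
      have : ∀ w' : Wd d (k + 1), PiT (k + 1) (w, b) a w' * Bw W s (k + 1) w' x z =
          kd b w'.2 * (PiT k w a w'.1 * Bw W s (k + 1) w' x z) +
            kd w w' * (kd a b * Bw W s (k + 1) w' x z) := fun w' => by
        simp only [PiT]; ring
      rw [Finset.sum_congr rfl fun w' _ => this w', Finset.sum_add_distrib, sum_kd_mul]
      congr 1
      refine (Fintype.sum_prod_type (α₁ := Wd d k) (α₂ := Fin d)
        (fun w' => kd b w'.2 * (PiT k w a w'.1 * Bw W s (k + 1) w' x z))).trans ?_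
      exact Finset.sum_congr rfl fun w' _ =>
        sum_kd_mul b (fun b' => PiT k w a w' * Bw W s (k + 1) (w', b') x z)
    rw [e3]
    have e4 : ∑ w' : Wd d k, PiT k w a w' * Bw W s (k + 1) (w', b) x z =
        ∑ w' : Wd d k, pd (bv b) (fun x => PiT k w a w' * Bw W s k w' x z) x +
        (∑ w' : Wd d k, PiT k w a w' * Bw W s k w' x z) * ((z b - zb W s x b) / s) := by
      rw [Finset.sum_mul, ← Finset.sum_add_distrib]
      refine Finset.sum_congr rfl fun w' _ => ?_
      rw [pd_const_mul]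
      simp only [Bw]; ring
    rw [e4]; ring

theorem pz_comb (hW : Pot δ W) (hs : 0 < s) (k : ℕ) (T : Wd d k → ℝ) :
    PZ (fun x z => ∑ w, T w * Bw W s k w x z) :=
  pz_sum Finset.univ fun w _ => pz_coef_mul (bw_pz hW hs k w) (c := fun _ => T w) contDiff_const

theorem comb_sq_int (hW : Pot δ W) (hs : 0 < s) (k : ℕ) (T : Wd d k → ℝ) (x : E d) :
    Integrable (fun z => (∑ w, T w * Bw W s k w x z) ^ 2) (nu W s x) := by
  have := tg_integrable (nu_pm hW hs x) (pz_tg (pz_mul (pz_comb hW hs k T) (pz_comb hW hs k T)) x)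
  simpa only [sq] using this

theorem comb_mean (hW : Pot δ W) (hs : 0 < s) (k : ℕ) (T : Wd d (k + 1) → ℝ) (x : E d) :
    ∫ z, ∑ w, T w * Bw W s (k + 1) w x z ∂(nu W s x) = 0 := by
  rw [integral_finset_sum _ fun w _ =>
    (tg_integrable (nu_pm hW hs x) (pz_tg (bw_pz hW hs (k + 1) w) x)).const_mul (T w)]
  refine Finset.sum_eq_zero fun w _ => ?_
  rw [integral_const_mul, bw_mean hW hs, mul_zero]

theorem nu_cont (hW : Pot δ W) (s : ℝ) (x : E d) :
    Continuous (fun z => W z + ‖z - x‖ ^ 2 / (2 * s)) :=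
  hW.c2.continuous.add (by fun_prop)

end AppellA

theorem bw_gram (hW : Pot δ W) (hs : 0 < s) (k : ℕ) (x : E d) (T : Wd d k → ℝ) :
    ∫ z, (∑ w, T w * Bw W s k w x z) ^ 2 ∂(nu W s x) ≤
      (k.factorial : ℝ) ^ 2 / s ^ k * ∑ w, T w ^ 2 := by
  induction k with
  | zero =>
    haveI := (nu_pm hW hs x).prob
    show ∫ z, (∑ w : Unit, T w * 1) ^ 2 ∂(nu W s x) ≤ _ * ∑ w : Unit, T w ^ 2
    simp
  | succ k ih =>
    have htg := pz_tg (pz_comb hW hs (k + 1) T) x
    have hP := poinc_c1 (l := 0 + 1 / s) (by positivity) (nu_cont hW s x)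
      (nu_sc (pot_sc hW) hs x) (φ := fun z => ∑ w, T w * Bw W s (k + 1) w x z)
      (htg.1.of_le (by exact_mod_cast le_top)) (tg_polyG htg) (tg_polyG (tg_fderiv htg))
    have hm := comb_mean hW hs k T x
    unfold nu at hm
    rw [hm] at hP
    simp only [sub_zero] at hP
    refine le_trans hP ?_
    have e : ∀ c z, pd (bv c) (fun z => ∑ w, T w * Bw W s (k + 1) w x z) z ^ 2 =
        1 / s ^ 2 * (∑ w', (∑ w, PiT k w c w' * T w) * Bw W s k w' x z) ^ 2 := by
      intro c z
      rw [pd_sum _ fun w => (((PZA.smooth_z (bw_pz hW hs (k + 1) w) x).differentiable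
        (by simp) z).const_mul _)]
      have : ∑ w, pd (bv c) (fun z => T w * Bw W s (k + 1) w x z) z =
          1 / s * ∑ w', (∑ w, PiT k w c w' * T w) * Bw W s k w' x z := by
        simp only [Finset.sum_mul]
        rw [Finset.sum_comm, Finset.mul_sum]
        refine Finset.sum_congr rfl fun w _ => ?_
        rw [pd_const_mul]
        show T w * pd (bv c) (Bw W s (k + 1) w x) z = _
        rw [bw_pdz hW hs, ← mul_assoc, mul_comm (T w), mul_assoc, Finset.mul_sum]
        congr 1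
        exact Finset.sum_congr rfl fun w' _ => by ring
      rw [this]; ring
    simp only [e]
    have hi : ∀ c : Fin d, Integrable (fun z =>
        1 / s ^ 2 * (∑ w', (∑ w, PiT k w c w' * T w) * Bw W s k w' x z) ^ 2)
        (gib fun z => W z + ‖z - x‖ ^ 2 / (2 * s)) := fun c =>
      (comb_sq_int hW hs k _ x).const_mul _
    rw [integral_finset_sum _ fun c _ => hi c]
    have h1 : ∑ c : Fin d, ∫ z, 1 / s ^ 2 * (∑ w', (∑ w, PiT k w c w' * T w) * Bw W s k w' x z) ^ 2
        ∂(gib fun z => W z + ‖z - x‖ ^ 2 / (2 * s)) ≤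
        ∑ c : Fin d, 1 / s ^ 2 * ((k.factorial : ℝ) ^ 2 / s ^ k *
          ∑ w', (∑ w, PiT k w c w' * T w) ^ 2) := Finset.sum_le_sum fun c _ => by
      rw [integral_const_mul]
      exact mul_le_mul_of_nonneg_left (ih _) (by positivity)
    have h2 := piT_op (d := d) k T
    rw [Fintype.sum_prod_type] at h2
    rw [← Finset.mul_sum, ← Finset.mul_sum] at h1
    have h3 := mul_le_mul_of_nonneg_left h2
      (show 0 ≤ (k.factorial : ℝ) ^ 2 / s ^ k by positivity)
    have h4 := mul_le_mul_of_nonneg_left h3 (show 0 ≤ 1 / s ^ 2 by positivity)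
    have h5 := mul_le_mul_of_nonneg_left (h1.trans h4) (show 0 ≤ 1 / (0 + 1 / s) by positivity)
    refine h5.trans (le_of_eq ?_)
    rw [Nat.factorial_succ]
    push_cast
    field_simp
    ring

namespace AppellA

/-- the matrices `∫ B_w ∂_i W dν` -/
noncomputable def AM (W : E d → ℝ) (s : ℝ) (k : ℕ) : MF (E d) (Wd d k) (Fin d) :=
  fun w i x => ∫ z, Bw W s k w x z * gradient W z i ∂(nu W s x)

theorem AM_grad (hW : Pot δ W) (hs : 0 < s) (k : ℕ) :
    gradOut bv (AM W s k) = AM W s (k + 1) := by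
  funext wb i x
  exact bw_deriv hW hs (MomBA.grad_coord_cont hW i) (MomBA.grad_coord_polyG hW i) k wb.1 wb.2 x

theorem AM_op (hW : Pot δ W) (hs : 0 < s) (k : ℕ) (x : E d) {c : ℝ}
    (hc : δ ^ 2 * (((k + 1).factorial : ℝ) ^ 2 / s ^ k) ≤ c ^ 2) :
    OpLe (fun w i => AM W s (k + 1) w i x) c := by
  refine opLe_of_bilin fun u v => ?_
  have hpm := nu_pm hW hs x
  haveI := hpm.prob
  set β : E d → ℝ := fun z => ∑ w, u w * Bw W s (k + 1) w x z with hβ
  set ψ : E d → ℝ := fun z => ∑ i, gradient W z i * v i with hψ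
  have hβtg : TG β := pz_tg (pz_comb hW hs (k + 1) u) x
  have hβc : Continuous β := hβtg.1.continuous
  have hβp : PolyG β := tg_polyG hβtg
  have hψc : Continuous ψ :=
    continuous_finset_sum _ fun i _ => (MomBA.grad_coord_cont hW i).mul continuous_const
  have hψp : PolyG ψ :=
    polyG_sum _ fun i _ => polyG_mul (MomBA.grad_coord_polyG hW i) (polyG_const _)
  set m := ∫ z, ψ z ∂(nu W s x) with hm
  have hχc : Continuous fun z => ψ z - m := hψc.sub continuous_const
  have hχp : PolyG fun z => ψ z - m := polyG_sub hψp (polyG_const _)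
  have hi : ∀ w i, Integrable (fun z => Bw W s (k + 1) w x z * gradient W z i) (nu W s x) :=
    fun w i => polyG_integrable hpm
      ((pz_tg (bw_pz hW hs (k + 1) w) x).1.continuous.mul (MomBA.grad_coord_cont hW i))
      (polyG_mul (tg_polyG (pz_tg (bw_pz hW hs (k + 1) w) x)) (MomBA.grad_coord_polyG hW i))
  have e1 : ∑ w, u w * ∑ i, AM W s (k + 1) w i x * v i = ∫ z, β z * ψ z ∂(nu W s x) := by
    have : (fun z => β z * ψ z) =
        fun z => ∑ w, u w * ∑ i, Bw W s (k + 1) w x z * gradient W z i * v i := by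
      funext z
      simp only [hβ, hψ, Finset.sum_mul]
      refine Finset.sum_congr rfl fun w _ => ?_
      rw [mul_assoc, Finset.mul_sum]
      congr 1
      exact Finset.sum_congr rfl fun i _ => by ring
    rw [this, integral_finset_sum _ fun w _ =>
      (integrable_finset_sum _ fun i _ => (hi w i).mul_const (v i)).const_mul (u w)]
    refine Finset.sum_congr rfl fun w _ => ?_
    rw [integral_const_mul, integral_finset_sum _ fun i _ => (hi w i).mul_const (v i)]
    congr 1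
    exact Finset.sum_congr rfl fun i _ => (integral_mul_const _ _).symm
  have e2 : ∫ z, β z * ψ z ∂(nu W s x) = ∫ z, β z * (ψ z - m) ∂(nu W s x) := by
    have : (fun z => β z * (ψ z - m)) = fun z => β z * ψ z - β z * m := by funext z; ring
    have i1 : Integrable (fun z => β z * ψ z) (nu W s x) :=
      polyG_integrable hpm (hβc.mul hψc) (polyG_mul hβp hψp)
    rw [this, integral_sub i1
      ((polyG_integrable hpm hβc hβp).mul_const m), integral_mul_const, comb_mean hW hs]
    ring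
  have i2 : Integrable (fun z => (ψ z - m) * (ψ z - m)) (nu W s x) :=
    polyG_integrable hpm (hχc.mul hχc) (polyG_mul hχp hχp)
  have h1 := cs (μ := nu W s x) (f := β) (g := fun z => ψ z - m) (comb_sq_int hW hs _ u x)
    (by simpa only [sq] using i2)
    (polyG_integrable hpm (hβc.mul hχc) (polyG_mul hβp hχp))
  have h2 := bw_gram hW hs (k + 1) x u
  have hlip : ∀ y y', |ψ y - ψ y'| ≤ δ * ‖vec v‖ * ‖y - y'‖ := by
    intro y y'
    have : ψ y - ψ y' = inner ℝ (gradient W y - gradient W y') (vec v) := by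
      rw [MomAA.inner_eq_sum]
      simp only [hψ, ← Finset.sum_sub_distrib, vec_apply, PiLp.sub_apply]
      exact Finset.sum_congr rfl fun i _ => by ring
    rw [this]
    refine (abs_real_inner_le_norm _ _).trans ?_
    have := mul_le_mul_of_nonneg_right (hW.lip y y') (norm_nonneg (vec v))
    linarith
  have h3 : ∫ z, (ψ z - m) ^ 2 ∂(nu W s x) ≤ (δ * ‖vec v‖) ^ 2 / (0 + 1 / s) :=
    poinc_lip (l := 0 + 1 / s) (by positivity) (nu_cont hW s x) (nu_sc (pot_sc hW) hs x) hlip
  have h4 : ‖vec v‖ ^ 2 = ∑ i, v i ^ 2 := norm_sq_eq_sum _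
  have hu : 0 ≤ ∑ w, u w ^ 2 := Finset.sum_nonneg fun _ _ => sq_nonneg _
  have hv : 0 ≤ ∑ i, v i ^ 2 := Finset.sum_nonneg fun _ _ => sq_nonneg _
  rw [e1, e2]
  refine h1.trans ((mul_le_mul h2 h3 (integral_nonneg fun _ => sq_nonneg _)
    (by positivity)).trans ?_)
  have e3 : ((k + 1).factorial : ℝ) ^ 2 / s ^ (k + 1) * (∑ w, u w ^ 2) *
      ((δ * ‖vec v‖) ^ 2 / (0 + 1 / s)) =
      δ ^ 2 * (((k + 1).factorial : ℝ) ^ 2 / s ^ k) * (∑ w, u w ^ 2) * ∑ i, v i ^ 2 := by
    rw [mul_pow, h4]; field_simp; ring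
  rw [e3]
  exact mul_le_mul_of_nonneg_right (mul_le_mul_of_nonneg_right hc hu) hv

theorem AM_mo (hW : Pot δ W) (hs : 0 < s) {c : ℝ} (n : ℕ) : ∀ k : ℕ,
    (∀ j ≤ k + n, δ ^ 2 * (((j + 1).factorial : ℝ) ^ 2 / s ^ j) ≤ c ^ 2) →
      Mo bv n c (AM W s (k + 1)) := by
  induction n with
  | zero => exact fun k h y _ => AM_op hW hs k y (h k le_rfl)
  | succ n ih =>
    intro k h
    refine MoS_succ.2 ⟨fun y _ => AM_op hW hs k y (h k (by omega)), ?_⟩
    rw [AM_grad hW hs]
    exact ih (k + 1) fun j hj => h j (by omega)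

theorem slM_Hm (hW : Pot δ W) (hs : 0 < s) :
    slM s (Hm W) = fun i a => AM W s (0 + 1) ((Equiv.uniqueProd (Fin d) Unit).symm i)
      ((Equiv.refl _) a) := by
  funext i a x
  have hU : ((s, x) : ℝ × E d) ∈ UU d := hs
  show Hm W i a (s, x) = _
  rw [hm_symm hW hU, ← AM_grad hW hs]
  show pd (xd i) (Gc W a) (s, x) = pd (bv i) (AM W s 0 () a) x
  rw [← pd_sl (MomBA.diffAt (isOpen_UU d) (gc_smooth hW a) hU)]
  congr 1
  funext y
  show Gv W s y a = ∫ z, 1 * gradient W z a ∂(nu W s y)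
  simp only [one_mul]
  exact MomBA.integral_coord
    (polyG_integrable (nu_pm hW hs y) (pot_grad_cont hW) (pot_grad_polyG hW)) a

end AppellA

theorem H_mo (n : ℕ) : ∃ p : ℕ, ∀ θ : Inst,
    MoS xd (SK θ.d θ.κ) n (θ.δ * θ.κ⁻¹ ^ p) (Hm θ.W) := by
  refine ⟨(n + 1).factorial + n, fun θ => AA_of_pointwise fun p hp => ?_⟩
  have hκ := θ.κ_pos
  have hs : 0 < p.1 := lt_of_lt_of_le (by positivity) hp.1
  have hk : 2 ≤ θ.κ⁻¹ := by
    rw [le_inv_comm₀ (by norm_num) hκ]; have := θ.κ_le; linarith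
  have h1 : Mo bv n (θ.δ * θ.κ⁻¹ ^ ((n + 1).factorial + n)) (AM θ.W p.1 (0 + 1)) := by
    refine AM_mo θ.pot hs n 0 fun j hj => ?_
    rw [mul_pow]
    refine mul_le_mul_of_nonneg_left ?_ (sq_nonneg _)
    have a1 : ((j + 1).factorial : ℝ) ≤ θ.κ⁻¹ ^ (n + 1).factorial := by
      calc ((j + 1).factorial : ℝ) ≤ ((n + 1).factorial : ℝ) := by
            exact_mod_cast Nat.factorial_le (by omega)
        _ ≤ 2 ^ (n + 1).factorial := by exact_mod_cast Nat.lt_two_pow_self.le
        _ ≤ _ := pow_le_pow_left₀ (by norm_num) hk _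
    have a2 : 1 / p.1 ^ j ≤ (θ.κ⁻¹ ^ n) ^ 2 := by
      calc 1 / p.1 ^ j ≤ 1 / (θ.κ ^ 2) ^ j :=
            one_div_le_one_div_of_le (by positivity) (pow_le_pow_left₀ (by positivity) hp.1 _)
        _ = (θ.κ⁻¹ ^ j) ^ 2 := by rw [← pow_mul, ← pow_mul, inv_pow, mul_comm, one_div]
        _ ≤ _ := pow_le_pow_left₀ (by positivity)
            (pow_le_pow_right₀ (by linarith) (by omega)) _
    rw [pow_add, mul_pow, div_eq_mul_one_div]
    exact mul_le_mul (pow_le_pow_left₀ (by positivity) a1 _) a2 (by positivity) (by positivity)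
  have h2 := AA_reindex (J := Wd θ.d (0 + 1)) (Equiv.uniqueProd (Fin θ.d) Unit).symm
    (Equiv.refl (Fin θ.d)) h1
  have h3 := (Mo_sl (isOpen_UU θ.d) (fun _ => hs) (hm_smooth θ.pot)).1
    (by rw [slM_Hm θ.pot hs]; exact h2)
  exact AA_subset h3 fun q hq => by rw [mem_singleton_iff.1 hq]; rfl

end Crest.Agent.R285
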