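import Crest.Agent.R285.Defs

/-!
# R285 Calc: algebra of operator bounds `OpLe` and of the derivative classes `AA`.

All `AA` lemmas are by induction on `n` generalizing the index types `J I` (and the matrices).
Key identities (on an open set `O` where everything is smooth):
* `gradOut (mmul A B) = mmul (gradOut A) B + mmul (ext A D) (gradOut B)`,
* `gradIn (mmul A B) = mmul A (gradIn B) + mmul (gradIn A) (ext B D')`,
* `gradOut (ext A X)` is a reindexing (`Equiv` permuting the product factors) of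
  `ext (gradOut A) X`, etc. (`fderiv_const_mul_field`-type lemmas need no differentiability).
`OpLe` lemmas: Cauchy-Schwarz (`Finset.sum_mul_sq_le_sq_mul_sq`, `Finset.inner_mul_le_norm_mul_norm`);
it may help to translate `OpLe A a` into `‖Matrix.toEuclideanLin A v‖ ≤ |a| * ‖v‖`.
-/

set_option autoImplicit false

namespace Crest.Agent.R285

open MeasureTheory Set
open scoped ContDiff

/-! ### Kronecker delta -/

theorem kd_self {α : Type} (a : α) : kd a a = 1 := by
  simp [kd]

theorem kd_ne {α : Type} {a b : α} (h : a ≠ b) : kd a b = 0 := by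
  simp [kd, h]

theorem kd_comm {α : Type} (a b : α) : kd a b = kd b a := by
  by_cases h : a = b
  · subst h; rfl
  · rw [kd_ne h, kd_ne (Ne.symm h)]

theorem kd_prod {α β : Type} (a a' : α) (b b' : β) : kd (a, b) (a', b') = kd a a' * kd b b' := by
  by_cases h : a = a'
  · by_cases h' : b = b'
    · subst h h'; simp [kd_self]
    · rw [kd_ne h', kd_ne (by simp [h'])]; simp
  · rw [kd_ne h, kd_ne (by simp [h])]; simp

theorem sum_kd_mul {α : Type} [Fintype α] (a : α) (f : α → ℝ) : ∑ b, kd a b * f b = f a := by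
  rw [Finset.sum_eq_single a]
  · simp [kd_self]
  · intro b _ hb; rw [kd_ne (Ne.symm hb)]; simp
  · simp

theorem sum_mul_kd {α : Type} [Fintype α] (a : α) (f : α → ℝ) : ∑ b, f b * kd b a = f a := by
  rw [← sum_kd_mul a f]
  exact Finset.sum_congr rfl fun b _ => by rw [kd_comm, mul_comm]

theorem bv_apply {d : ℕ} (c i : Fin d) : bv c i = kd c i := by
  by_cases h : c = i
  · subst h; simp [bv, kd_self]
  · rw [kd_ne h]; simp [bv, Ne.symm h]

theorem vec_apply {d : ℕ} (f : Fin d → ℝ) (i : Fin d) : vec f i = f i := rfl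

theorem eq_sum_bv {d : ℕ} (v : E d) : v = ∑ c, v c • bv c := by
  ext i
  simp only [WithLp.ofLp_sum, WithLp.ofLp_smul, Finset.sum_apply, Pi.smul_apply, smul_eq_mul]
  simp only [bv_apply]
  exact (sum_mul_kd i (fun c => v c)).symm

theorem norm_sq_eq_sum {d : ℕ} (v : E d) : ‖v‖ ^ 2 = ∑ c, v c ^ 2 := by
  rw [EuclideanSpace.norm_sq_eq]
  simp

/-! ### Operator bounds -/

section OpLe

variable {J I K : Type} [Fintype J] [Fintype I] [Fintype K]

theorem le_of_sq_le_sq_of_nonneg_aux {x y : ℝ} (hy : 0 ≤ y) (h : x ^ 2 ≤ y ^ 2) : x ≤ y :=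
  (abs_le_of_sq_le_sq' h hy).2

theorem opLe_mono {A : J → I → ℝ} {a b : ℝ} (h : OpLe A a) (ha : 0 ≤ a) (hab : a ≤ b) :
    OpLe A b := by
  intro v
  refine (h v).trans (mul_le_mul_of_nonneg_right (by nlinarith) ?_)
  positivity

theorem opLe_zero (a : ℝ) : OpLe (fun (_ : J) (_ : I) => (0 : ℝ)) a := by
  intro v
  simp only [zero_mul, Finset.sum_const_zero, ne_eq, OfNat.ofNat_ne_zero, not_false_eq_true,
    zero_pow]
  positivity

theorem opLe_kd : OpLe (fun i i' : I => kd i i') 1 := by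
  intro v
  simp [sum_kd_mul]

theorem opLe_add {A B : J → I → ℝ} {a b : ℝ} (hA : OpLe A a) (hB : OpLe B b) (ha : 0 ≤ a)
    (hb : 0 ≤ b) : OpLe (fun j i => A j i + B j i) (a + b) := by
  intro v
  set x : J → ℝ := fun j => ∑ i, A j i * v i
  set y : J → ℝ := fun j => ∑ i, B j i * v i
  have h1 : ∀ j, ∑ i, (A j i + B j i) * v i = x j + y j := fun j => by
    simp [x, y, add_mul, Finset.sum_add_distrib]
  simp only [h1]
  have hx : ∑ j, x j ^ 2 ≤ a ^ 2 * ∑ i, v i ^ 2 := hA v
  have hy : ∑ j, y j ^ 2 ≤ b ^ 2 * ∑ i, v i ^ 2 := hB v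
  have hs : 0 ≤ ∑ i, v i ^ 2 := by positivity
  set s := ∑ i, v i ^ 2
  have hcs := Finset.sum_mul_sq_le_sq_mul_sq Finset.univ x y
  have hxy : ∑ j, x j * y j ≤ a * b * s := by
    apply le_of_sq_le_sq_of_nonneg_aux (by positivity)
    calc (∑ j, x j * y j) ^ 2 ≤ (∑ j, x j ^ 2) * ∑ j, y j ^ 2 := hcs
      _ ≤ (a ^ 2 * s) * (b ^ 2 * s) :=
          mul_le_mul hx hy (by positivity) (by positivity)
      _ = (a * b * s) ^ 2 := by ring
  have h2 : ∑ j, (x j + y j) ^ 2 = ∑ j, x j ^ 2 + 2 * ∑ j, x j * y j + ∑ j, y j ^ 2 := by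
    rw [Finset.mul_sum, ← Finset.sum_add_distrib, ← Finset.sum_add_distrib]
    exact Finset.sum_congr rfl fun j _ => by ring
  rw [h2]
  nlinarith

theorem opLe_smul {A : J → I → ℝ} {a : ℝ} (c : ℝ) (hA : OpLe A a) :
    OpLe (fun j i => c * A j i) (|c| * a) := by
  intro v
  have h1 : ∀ j, (∑ i, c * A j i * v i) ^ 2 = c ^ 2 * (∑ i, A j i * v i) ^ 2 := fun j => by
    rw [← mul_pow, Finset.mul_sum]
    congr 1
    exact Finset.sum_congr rfl fun i _ => by ring
  simp only [h1, ← Finset.mul_sum, mul_pow, sq_abs]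
  rw [mul_assoc]
  exact mul_le_mul_of_nonneg_left (hA v) (by positivity)

theorem opLe_mul {A : J → K → ℝ} {B : K → I → ℝ} {a b : ℝ} (hA : OpLe A a) (hB : OpLe B b) :
    OpLe (fun j i => ∑ k, A j k * B k i) (a * b) := by
  intro v
  have h1 : ∀ j, ∑ i, (∑ k, A j k * B k i) * v i = ∑ k, A j k * ∑ i, B k i * v i := fun j => by
    simp only [Finset.sum_mul, Finset.mul_sum]
    rw [Finset.sum_comm]
    exact Finset.sum_congr rfl fun k _ => Finset.sum_congr rfl fun i _ => by ring
  simp only [h1]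
  refine (hA _).trans ?_
  rw [mul_pow, mul_assoc]
  exact mul_le_mul_of_nonneg_left (hB v) (by positivity)

theorem opLe_bilin {A : J → I → ℝ} {a : ℝ} (hA : OpLe A a) (u : J → ℝ) (v : I → ℝ) :
    (∑ j, u j * ∑ i, A j i * v i) ^ 2 ≤ a ^ 2 * (∑ j, u j ^ 2) * ∑ i, v i ^ 2 := by
  refine (Finset.sum_mul_sq_le_sq_mul_sq Finset.univ u _).trans ?_
  calc (∑ j, u j ^ 2) * ∑ j, (∑ i, A j i * v i) ^ 2
      ≤ (∑ j, u j ^ 2) * (a ^ 2 * ∑ i, v i ^ 2) :=
        mul_le_mul_of_nonneg_left (hA v) (by positivity)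
    _ = _ := by ring

theorem opLe_of_bilin {A : J → I → ℝ} {a : ℝ}
    (h : ∀ (u : J → ℝ) (v : I → ℝ),
      (∑ j, u j * ∑ i, A j i * v i) ^ 2 ≤ a ^ 2 * (∑ j, u j ^ 2) * ∑ i, v i ^ 2) :
    OpLe A a := by
  intro v
  have h1 := h (fun j => ∑ i, A j i * v i) v
  simp only [← sq] at h1
  set t := ∑ j, (∑ i, A j i * v i) ^ 2
  have ht : 0 ≤ t := by positivity
  have hs : 0 ≤ a ^ 2 * ∑ i, v i ^ 2 := by positivity
  rcases ht.eq_or_lt with h0 | h0
  · rw [← h0]; exact hs
  · have : t * t ≤ (a ^ 2 * ∑ i, v i ^ 2) * t := by nlinarith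
    exact le_of_mul_le_mul_right this h0

theorem opLe_T {A : J → I → ℝ} {a : ℝ} (hA : OpLe A a) : OpLe (fun i j => A j i) a := by
  apply opLe_of_bilin
  intro u v
  have h1 := opLe_bilin hA v u
  have h2 : ∑ i, u i * ∑ j, A j i * v j = ∑ j, v j * ∑ i, A j i * u i := by
    simp only [Finset.mul_sum]
    rw [Finset.sum_comm]
    exact Finset.sum_congr rfl fun k _ => Finset.sum_congr rfl fun i _ => by ring
  rw [h2]
  calc _ ≤ _ := h1
    _ = _ := by ring

theorem opLe_reindex {J' I' : Type} [Fintype J'] [Fintype I'] {A : J → I → ℝ} {a : ℝ}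
    (σ : J' ≃ J) (τ : I' ≃ I) (hA : OpLe A a) : OpLe (fun j i => A (σ j) (τ i)) a := by
  intro v
  have h1 := hA (fun i => v (τ.symm i))
  rw [← σ.sum_comp, ← τ.sum_comp] at h1
  simp only [Equiv.symm_apply_apply] at h1
  refine le_of_eq_of_le ?_ h1
  refine Finset.sum_congr rfl fun j _ => ?_
  rw [← τ.sum_comp]
  simp

theorem opLe_ext {A : J → I → ℝ} {a : ℝ} (hA : OpLe A a) :
    OpLe (fun (jc : J × K) (ic : I × K) => kd jc.2 ic.2 * A jc.1 ic.1) a := by
  intro v
  simp only [Fintype.sum_prod_type_right]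
  rw [Finset.mul_sum]
  refine Finset.sum_le_sum fun k _ => ?_
  have h1 : ∀ j, ∑ k', ∑ i, kd k k' * A j i * v (i, k') = ∑ i, A j i * v (i, k) := fun j => by
    rw [← sum_kd_mul k (fun k' => ∑ i, A j i * v (i, k'))]
    refine Finset.sum_congr rfl fun k' _ => ?_
    rw [Finset.mul_sum]
    exact Finset.sum_congr rfl fun i _ => by ring
  simp only [h1]
  exact hA (fun i => v (i, k))

theorem opLe_extL {A : J → I → ℝ} {a : ℝ} (hA : OpLe A a) :
    OpLe (fun (jc : K × J) (ic : K × I) => kd jc.1 ic.1 * A jc.2 ic.2) a := by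
  have h1 := opLe_reindex (Equiv.prodComm K J) (Equiv.prodComm K I) (opLe_ext (K := K) hA)
  simpa only [Equiv.prodComm_apply, Prod.snd_swap, Prod.fst_swap] using h1

theorem opLe_entry {A : J → I → ℝ} {a : ℝ} (hA : OpLe A a) (j : J) (i : I) : |A j i| ≤ |a| := by
  have h1 := hA (fun i' => kd i' i)
  simp only [sum_mul_kd] at h1
  have h2 : ∑ i', kd i' i ^ 2 = 1 := by
    simp only [sq, sum_mul_kd, kd_self]
  rw [h2, mul_one] at h1
  have h3 : A j i ^ 2 ≤ ∑ j, A j i ^ 2 :=
    Finset.single_le_sum (f := fun j => A j i ^ 2) (fun _ _ => by positivity) (Finset.mem_univ j)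
  exact sq_le_sq.mp (h3.trans h1)

theorem opLe_hs {A : J → I → ℝ} {a : ℝ} (hA : OpLe A a) :
    ∑ j, ∑ i, A j i ^ 2 ≤ a ^ 2 * (Fintype.card I : ℝ) := by
  rw [Finset.sum_comm]
  have h0 : ∀ i, ∑ j, A j i ^ 2 ≤ a ^ 2 := fun i => by
    have h1 := hA (fun i' => kd i' i)
    simp only [sum_mul_kd] at h1
    have h2 : ∑ i', kd i' i ^ 2 = 1 := by
      simp only [sq, sum_mul_kd, kd_self]
    rwa [h2, mul_one] at h1
  calc ∑ i, ∑ j, A j i ^ 2 ≤ ∑ _i : I, a ^ 2 := Finset.sum_le_sum fun i _ => h0 i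
    _ = _ := by simp [mul_comm]

/-- embedding along an injective map of indices -/
theorem opLe_inj {f : I → J} (hf : Function.Injective f) : OpLe (fun j i => kd j (f i)) 1 := by
  apply opLe_T (A := fun i j => kd j (f i))
  classical
  intro v
  have h1 : ∀ i, ∑ j, kd j (f i) * v j = v (f i) := fun i => by
    rw [← sum_kd_mul (f i) v]
    exact Finset.sum_congr rfl fun j _ => by rw [kd_comm]
  simp only [h1, one_pow, one_mul]
  rw [← Finset.sum_image (s := Finset.univ) (g := f) (f := fun j => v j ^ 2)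
    (fun a _ b _ h => hf h)]
  exact Finset.sum_le_sum_of_subset_of_nonneg (Finset.subset_univ _) fun _ _ _ => by positivity

end OpLe

/-! ### Directional derivatives -/

variable {P : Type} [NormedAddCommGroup P] [NormedSpace ℝ P]

theorem pd_contDiffOn {O : Set P} (hO : IsOpen O) {φ : P → ℝ} (h : ContDiffOn ℝ ∞ φ O) (v : P) :
    ContDiffOn ℝ ∞ (pd v φ) O := by
  have h1 : ContDiffOn ℝ ∞ (fderiv ℝ φ) O := h.fderiv_of_isOpen hO (by simp)
  exact h1.clm_apply contDiffOn_const

theorem pd_comm {O : Set P} (hO : IsOpen O) {φ : P → ℝ} (h : ContDiffOn ℝ ∞ φ O) (v w : P)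
    {y : P} (hy : y ∈ O) : pd v (pd w φ) y = pd w (pd v φ) y := by
  have h0 : ContDiffAt ℝ ∞ φ y := h.contDiffAt (hO.mem_nhds hy)
  have h2 : ContDiffAt ℝ 2 φ y := h0.of_le (WithTop.coe_le_coe.2 le_top : ((2 : ℕ∞) : WithTop ℕ∞) ≤ ∞)
  have hs : IsSymmSndFDerivAt ℝ φ y := h2.isSymmSndFDerivAt (by simp)
  have hd : DifferentiableAt ℝ (fderiv ℝ φ) y :=
    (h2.fderiv_right (m := 1) (by norm_num)).differentiableAt (by norm_num)
  have key : ∀ a b : P, pd a (pd b φ) y = fderiv ℝ (fderiv ℝ φ) y a b := fun a b => by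
    show fderiv ℝ (fun y => fderiv ℝ φ y b) y a = _
    rw [fderiv_clm_apply hd (differentiableAt_const b)]
    simp
  rw [key, key, hs.eq]

theorem pd_congr {O : Set P} (hO : IsOpen O) {φ ψ : P → ℝ} (h : EqOn φ ψ O) (v : P) :
    EqOn (pd v φ) (pd v ψ) O := by
  intro y hy
  show fderiv ℝ φ y v = fderiv ℝ ψ y v
  rw [Filter.EventuallyEq.fderiv_eq (h.eventuallyEq_of_mem (hO.mem_nhds hy))]

theorem pd_const (v : P) (c : ℝ) : pd v (fun _ => c) = fun _ => 0 := by
  funext y
  simp [pd]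

theorem pd_const_mul (v : P) (c : ℝ) (φ : P → ℝ) :
    pd v (fun y => c * φ y) = fun y => c * pd v φ y := by
  funext y
  show fderiv ℝ (fun y => c * φ y) y v = c * fderiv ℝ φ y v
  have : (fun y => c * φ y) = c • φ := rfl
  rw [this, fderiv_const_smul_field]
  rfl

theorem pd_add {φ ψ : P → ℝ} {y : P} (v : P) (hφ : DifferentiableAt ℝ φ y)
    (hψ : DifferentiableAt ℝ ψ y) : pd v (fun y => φ y + ψ y) y = pd v φ y + pd v ψ y := by
  simp only [pd]
  rw [fderiv_fun_add hφ hψ]; rfl

theorem pd_sub {φ ψ : P → ℝ} {y : P} (v : P) (hφ : DifferentiableAt ℝ φ y)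
    (hψ : DifferentiableAt ℝ ψ y) : pd v (fun y => φ y - ψ y) y = pd v φ y - pd v ψ y := by
  simp only [pd]
  rw [fderiv_fun_sub hφ hψ]; rfl

theorem pd_mul {φ ψ : P → ℝ} {y : P} (v : P) (hφ : DifferentiableAt ℝ φ y)
    (hψ : DifferentiableAt ℝ ψ y) :
    pd v (fun y => φ y * ψ y) y = pd v φ y * ψ y + φ y * pd v ψ y := by
  simp only [pd]
  rw [fderiv_fun_mul hφ hψ]
  simp only [ContinuousLinearMap.add_apply, ContinuousLinearMap.smul_apply, smul_eq_mul]
  ring

theorem pd_sum {ι : Type} [Fintype ι] {φ : ι → P → ℝ} {y : P} (v : P)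
    (hφ : ∀ i, DifferentiableAt ℝ (φ i) y) :
    pd v (fun y => ∑ i, φ i y) y = ∑ i, pd v (φ i) y := by
  simp only [pd]
  rw [fderiv_fun_sum fun i _ => hφ i]
  simp

/-- slices -/
theorem pd_sl {d : ℕ} {ψ : ℝ × E d → ℝ} {r : ℝ} {y : E d} (h : DifferentiableAt ℝ ψ (r, y))
    (c : Fin d) : pd (bv c) (sl r ψ) y = pd (xd c) ψ (r, y) := by
  have h1 : HasFDerivAt (fun y : E d => ((r, y) : ℝ × E d)) (ContinuousLinearMap.inr ℝ ℝ (E d)) y :=
    hasFDerivAt_prodMk_right r y
  have h2 := h.hasFDerivAt.comp y h1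
  show fderiv ℝ (ψ ∘ fun y : E d => ((r, y) : ℝ × E d)) y (bv c) = _
  rw [h2.fderiv]
  rfl

theorem isOpen_UU (d : ℕ) : IsOpen (UU d) := by
  exact isOpen_lt continuous_const continuous_fst

theorem isOpen_OO (d : ℕ) : IsOpen (OO d) := by
  exact isOpen_lt (continuous_fst.abs) continuous_const

theorem RR_sq {κ : ℝ} (h0 : 0 < κ) (h : κ ≤ 1 / 2) : RR κ ^ 2 = 1 - κ ^ 2 := by
  exact Real.sq_sqrt (by nlinarith)

theorem RR_lt_one {κ : ℝ} (h0 : 0 < κ) (h : κ ≤ 1 / 2) : RR κ < 1 := by
  have h1 := RR_sq h0 h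
  have h2 : 0 ≤ RR κ := Real.sqrt_nonneg _
  nlinarith

theorem half_le_RR {κ : ℝ} (h0 : 0 < κ) (h : κ ≤ 1 / 2) : 1 / 2 ≤ RR κ := by
  apply Real.le_sqrt_of_sq_le
  nlinarith

/-! ### The classes `AA` -/

variable {D D' J I K : Type} [Fintype D] [Fintype D'] [Fintype J] [Fintype I] [Fintype K]
  {eo : D → P} {ei : D' → P} {S O : Set P} {n : ℕ} {a b : ℝ}

theorem smO_gradOut {D J I : Type} {A : MF P J I} (hO : IsOpen O) (h : SmO O A) (e : D → P) :
    SmO O (gradOut e A) := by
  exact fun jc i => pd_contDiffOn hO (h jc.1 i) _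

theorem smO_gradIn {D J I : Type} {A : MF P J I} (hO : IsOpen O) (h : SmO O A) (e : D → P) :
    SmO O (gradIn e A) := by
  exact fun j ic => pd_contDiffOn hO (h j ic.1) _

theorem smO_mmul {J I : Type} {A : MF P J K} {B : MF P K I} (hA : SmO O A) (hB : SmO O B) :
    SmO O (mmul A B) := by
  exact fun j i => ContDiffOn.sum fun k _ => (hA j k).mul (hB k i)

theorem smO_ext {J I : Type} {A : MF P J I} (hA : SmO O A) (X : Type) : SmO O (ext A X) := by
  exact fun jc ic => contDiffOn_const.mul (hA jc.1 ic.1)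

theorem smO_extL {J I : Type} {A : MF P J I} (hA : SmO O A) (X : Type) : SmO O (extL X A) := by
  exact fun jc ic => contDiffOn_const.mul (hA jc.2 ic.2)

theorem SmO.diffAt {J I : Type} {A : MF P J I} (hA : SmO O A) (hO : IsOpen O) {y : P} (hy : y ∈ O)
    (j : J) (i : I) : DifferentiableAt ℝ (A j i) y :=
  ((hA j i).contDiffAt (hO.mem_nhds hy)).differentiableAt (by simp)

/-- `(J × K) × D ≃ (J × D) × K` -/
def swap23 (J K D : Type) : (J × K) × D ≃ (J × D) × K where
  toFun x := ((x.1.1, x.2), x.1.2)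
  invFun x := ((x.1.1, x.2), x.1.2)
  left_inv _ := rfl
  right_inv _ := rfl

theorem gradOut_mmul {J I : Type} {A : MF P J K} {B : MF P K I} (hO : IsOpen O) (hA : SmO O A)
    (hB : SmO O B) (e : D → P) {y : P} (hy : y ∈ O) (jc : J × D) (i : I) :
    gradOut e (mmul A B) jc i y =
      mmul (gradOut e A) B jc i y + mmul (ext A D) (gradOut e B) jc i y := by
  show pd (e jc.2) (fun y => ∑ k, A jc.1 k y * B k i y) y =
    ∑ k, pd (e jc.2) (A jc.1 k) y * B k i y +
      ∑ kc : K × D, kd jc.2 kc.2 * A jc.1 kc.1 y * pd (e kc.2) (B kc.1 i) y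
  rw [pd_sum _ fun k => (hA.diffAt hO hy _ _).fun_mul (hB.diffAt hO hy _ _), Fintype.sum_prod_type,
    ← Finset.sum_add_distrib]
  refine Finset.sum_congr rfl fun k _ => ?_
  rw [pd_mul _ (hA.diffAt hO hy _ _) (hB.diffAt hO hy _ _)]
  simp only [mul_assoc]
  rw [sum_kd_mul jc.2 (fun c => A jc.1 k y * pd (e c) (B k i) y)]

theorem gradIn_mmul {J I : Type} {A : MF P J K} {B : MF P K I} (hO : IsOpen O) (hA : SmO O A)
    (hB : SmO O B) (e : D → P) {y : P} (hy : y ∈ O) (j : J) (ic : I × D) :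
    gradIn e (mmul A B) j ic y =
      mmul A (gradIn e B) j ic y + mmul (gradIn e A) (ext B D) j ic y := by
  show pd (e ic.2) (fun y => ∑ k, A j k y * B k ic.1 y) y =
    ∑ k, A j k y * pd (e ic.2) (B k ic.1) y +
      ∑ kc : K × D, pd (e kc.2) (A j kc.1) y * (kd kc.2 ic.2 * B kc.1 ic.1 y)
  rw [pd_sum _ fun k => (hA.diffAt hO hy _ _).fun_mul (hB.diffAt hO hy _ _), Fintype.sum_prod_type,
    ← Finset.sum_add_distrib]
  refine Finset.sum_congr rfl fun k _ => ?_
  rw [pd_mul _ (hA.diffAt hO hy _ _) (hB.diffAt hO hy _ _), add_comm]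
  congr 1
  rw [← sum_mul_kd ic.2 (fun c => pd (e c) (A j k) y * B k ic.1 y)]
  exact Finset.sum_congr rfl fun c _ => by ring

theorem AA_empty_in [IsEmpty I] {A : MF P J I} : AA eo ei S n a A := by
  have hop : ∀ {J I : Type} [Fintype J] [Fintype I] [IsEmpty I] (A : J → I → ℝ), OpLe A a := by
    intro J I _ _ _ A v
    simp
  induction n generalizing J I with
  | zero => exact fun y _ => hop _
  | succ n ih => exact ⟨fun y _ => hop _, ih, ih⟩

theorem AA_op {A : MF P J I} (h : AA eo ei S n a A) : ∀ y ∈ S, OpLe (fun j i => A j i y) a := by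
  cases n with
  | zero => exact h
  | succ n => exact h.1

theorem AA_mono {A : MF P J I} (h : AA eo ei S n a A) (ha : 0 ≤ a) (hab : a ≤ b) :
    AA eo ei S n b A := by
  induction n generalizing J I with
  | zero => exact fun y hy => opLe_mono (h y hy) ha hab
  | succ n ih => exact ⟨fun y hy => opLe_mono (h.1 y hy) ha hab, ih h.2.1, ih h.2.2⟩

theorem AA_mono_n {A : MF P J I} {m : ℕ} (h : AA eo ei S n a A) (hm : m ≤ n) :
    AA eo ei S m a A := by
  induction m generalizing n J I with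
  | zero => exact AA_op h
  | succ m ih =>
    obtain ⟨n, rfl⟩ : ∃ k, n = k + 1 := ⟨n - 1, by omega⟩
    exact ⟨h.1, ih h.2.1 (by omega), ih h.2.2 (by omega)⟩

theorem AA_subset {A : MF P J I} {S' : Set P} (h : AA eo ei S n a A) (hS : S' ⊆ S) :
    AA eo ei S' n a A := by
  induction n generalizing J I with
  | zero => exact fun y hy => h y (hS hy)
  | succ n ih => exact ⟨fun y hy => h.1 y (hS hy), ih h.2.1, ih h.2.2⟩

theorem AA_of_pointwise {A : MF P J I} (h : ∀ y ∈ S, AA eo ei {y} n a A) : AA eo ei S n a A := by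
  induction n generalizing J I with
  | zero => exact fun y hy => h y hy y rfl
  | succ n ih =>
    exact ⟨fun y hy => (h y hy).1 y rfl, ih fun y hy => (h y hy).2.1, ih fun y hy => (h y hy).2.2⟩

theorem AA_congr {A B : MF P J I} (hO : IsOpen O) (hS : S ⊆ O)
    (hAB : ∀ j i, EqOn (A j i) (B j i) O) (h : AA eo ei S n a A) : AA eo ei S n a B := by
  have hop : ∀ {J I : Type} [Fintype J] [Fintype I] {A B : MF P J I},
      (∀ j i, EqOn (A j i) (B j i) O) → (∀ y ∈ S, OpLe (fun j i => A j i y) a) →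
      ∀ y ∈ S, OpLe (fun j i => B j i y) a := by
    intro J I _ _ A B hAB h y hy
    have : (fun j i => B j i y) = fun j i => A j i y := by
      funext j i; exact (hAB j i (hS hy)).symm
    rw [this]; exact h y hy
  induction n generalizing J I with
  | zero => exact hop hAB h
  | succ n ih =>
    exact ⟨hop hAB h.1, ih (fun jc i => pd_congr hO (hAB jc.1 i) _) h.2.1,
      ih (fun j ic => pd_congr hO (hAB j ic.1) _) h.2.2⟩

theorem AA_const {T : J → I → ℝ} (hT : OpLe T a) : AA eo ei S n a (fun j i _ => T j i) := by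
  induction n generalizing J I with
  | zero => exact fun y _ => hT
  | succ n ih =>
    refine ⟨fun y _ => hT, ?_, ?_⟩
    · have : gradOut eo (fun j i (_ : P) => T j i) = fun _ _ _ => 0 := by
        funext jc i; exact pd_const _ _
      rw [this]; exact ih (opLe_zero a)
    · have : gradIn ei (fun j i (_ : P) => T j i) = fun _ _ _ => 0 := by
        funext jc i; exact pd_const _ _
      rw [this]; exact ih (opLe_zero a)

theorem AA_add {A B : MF P J I} (hO : IsOpen O) (hS : S ⊆ O) (hA : SmO O A) (hB : SmO O B)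
    (ha : 0 ≤ a) (hb : 0 ≤ b) (h1 : AA eo ei S n a A) (h2 : AA eo ei S n b B) :
    AA eo ei S n (a + b) (fun j i y => A j i y + B j i y) := by
  induction n generalizing J I with
  | zero => exact fun y hy => opLe_add (h1 y hy) (h2 y hy) ha hb
  | succ n ih =>
    refine ⟨fun y hy => opLe_add (h1.1 y hy) (h2.1 y hy) ha hb, ?_, ?_⟩
    · refine AA_congr hO hS ?_ (ih (smO_gradOut hO hA eo) (smO_gradOut hO hB eo) h1.2.1 h2.2.1)
      intro jc i y hy
      exact (pd_add _ (hA.diffAt hO hy _ _) (hB.diffAt hO hy _ _)).symm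
    · refine AA_congr hO hS ?_ (ih (smO_gradIn hO hA ei) (smO_gradIn hO hB ei) h1.2.2 h2.2.2)
      intro j ic y hy
      exact (pd_add _ (hA.diffAt hO hy _ _) (hB.diffAt hO hy _ _)).symm

theorem AA_smul {A : MF P J I} (c : ℝ) (h : AA eo ei S n a A) :
    AA eo ei S n (|c| * a) (fun j i y => c * A j i y) := by
  induction n generalizing J I with
  | zero => exact fun y hy => opLe_smul c (h y hy)
  | succ n ih =>
    refine ⟨fun y hy => opLe_smul c (h.1 y hy), ?_, ?_⟩
    · have : gradOut eo (fun j i y => c * A j i y) = fun j i y => c * gradOut eo A j i y := by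
        funext jc i; exact pd_const_mul _ _ _
      rw [this]; exact ih h.2.1
    · have : gradIn ei (fun j i y => c * A j i y) = fun j i y => c * gradIn ei A j i y := by
        funext jc i; exact pd_const_mul _ _ _
      rw [this]; exact ih h.2.2

theorem AA_sum {ι : Type} [Fintype ι] {A : ι → MF P J I} {c : ι → ℝ} (hO : IsOpen O)
    (hS : S ⊆ O) (hA : ∀ l, SmO O (A l)) (ha : 0 ≤ a) (h : ∀ l, AA eo ei S n a (A l)) :
    AA eo ei S n ((∑ l, |c l|) * a) (fun j i y => ∑ l, c l * A l j i y) := by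
  classical
  have key : ∀ s : Finset ι,
      AA eo ei S n ((∑ l ∈ s, |c l|) * a) (fun j i y => ∑ l ∈ s, c l * A l j i y) := by
    intro s
    induction s using Finset.induction_on with
    | empty => simpa using AA_const (opLe_zero 0)
    | insert l s hl ih =>
      simp only [Finset.sum_insert hl, add_mul]
      exact AA_add hO hS (fun j i => contDiffOn_const.mul (hA l j i))
        (fun j i => ContDiffOn.sum fun l _ => contDiffOn_const.mul (hA l j i))
        (by positivity) (by positivity) (AA_smul (c l) (h l)) ih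
  exact key Finset.univ

theorem AA_reindex {J' I' : Type} [Fintype J'] [Fintype I'] {A : MF P J I} (σ : J' ≃ J)
    (τ : I' ≃ I) (h : AA eo ei S n a A) : AA eo ei S n a (fun j i => A (σ j) (τ i)) := by
  induction n generalizing J I J' I' with
  | zero => exact fun y hy => opLe_reindex σ τ (h y hy)
  | succ n ih =>
    refine ⟨fun y hy => opLe_reindex (A := fun j i => A j i y) σ τ (h.1 y hy), ?_, ?_⟩
    · have h1 := ih (σ.prodCongr (Equiv.refl D)) τ h.2.1
      have : gradOut eo (fun j i => A (σ j) (τ i)) =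
          fun j i => gradOut eo A (σ.prodCongr (Equiv.refl D) j) (τ i) := by
        funext jc i; rfl
      rw [this]; exact h1
    · have h1 := ih σ (τ.prodCongr (Equiv.refl D')) h.2.2
      have : gradIn ei (fun j i => A (σ j) (τ i)) =
          fun j i => gradIn ei A (σ j) (τ.prodCongr (Equiv.refl D') i) := by
        funext jc i; rfl
      rw [this]; exact h1

theorem AA_ext {A : MF P J I} (h : AA eo ei S n a A) : AA eo ei S n a (ext A K) := by
  induction n generalizing J I with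
  | zero => exact fun y hy => opLe_ext (K := K) (A := fun j i => A j i y) (h y hy)
  | succ n ih =>
    refine ⟨fun y hy => opLe_ext (K := K) (A := fun j i => A j i y) (h.1 y hy), ?_, ?_⟩
    · have h1 := AA_reindex (swap23 J K D) (Equiv.refl (I × K)) (ih h.2.1)
      have : gradOut eo (ext A K) =
          fun j i => ext (gradOut eo A) K (swap23 J K D j) (Equiv.refl (I × K) i) := by
        funext jc i; exact pd_const_mul _ _ _
      rw [this]; exact h1
    · have h1 := AA_reindex (Equiv.refl (J × K)) (swap23 I K D') (ih h.2.2)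
      have : gradIn ei (ext A K) =
          fun j i => ext (gradIn ei A) K (Equiv.refl (J × K) j) (swap23 I K D' i) := by
        funext jc i; exact pd_const_mul _ _ _
      rw [this]; exact h1

theorem AA_extL {A : MF P J I} (h : AA eo ei S n a A) : AA eo ei S n a (extL K A) := by
  exact AA_reindex (Equiv.prodComm K J) (Equiv.prodComm K I) (AA_ext (K := K) h)

theorem AA_mul {A : MF P J K} {B : MF P K I} (hO : IsOpen O) (hS : S ⊆ O) (hA : SmO O A)
    (hB : SmO O B) (ha : 0 ≤ a) (hb : 0 ≤ b) (h1 : AA eo ei S n a A) (h2 : AA eo ei S n b B) :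
    AA eo ei S n (2 ^ n * a * b) (mmul A B) := by
  induction n generalizing J I K with
  | zero =>
    intro y hy
    rw [pow_zero, one_mul]
    exact opLe_mul (h1 y hy) (h2 y hy)
  | succ n ih =>
    have hab : 0 ≤ 2 ^ n * a * b := by positivity
    have e2 : (2 : ℝ) ^ (n + 1) * a * b = 2 ^ n * a * b + 2 ^ n * a * b := by ring
    refine ⟨fun y hy => opLe_mono (opLe_mul (h1.1 y hy) (h2.1 y hy)) (by positivity) ?_, ?_, ?_⟩
    · have : (1 : ℝ) ≤ 2 ^ (n + 1) := one_le_pow₀ (by norm_num)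
      have h3 : 0 ≤ a * b := by positivity
      nlinarith
    · rw [e2]
      refine AA_congr hO hS ?_ (AA_add hO hS (smO_mmul (smO_gradOut hO hA eo) hB)
        (smO_mmul (smO_ext hA D) (smO_gradOut hO hB eo)) hab hab
        (ih (smO_gradOut hO hA eo) hB h1.2.1 (AA_mono_n h2 (Nat.le_succ n)))
        (ih (smO_ext hA D) (smO_gradOut hO hB eo) (AA_ext (AA_mono_n h1 (Nat.le_succ n))) h2.2.1))
      intro jc i y hy
      exact (gradOut_mmul hO hA hB eo hy jc i).symm
    · rw [e2]
      refine AA_congr hO hS ?_ (AA_add hO hS (smO_mmul hA (smO_gradIn hO hB ei))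
        (smO_mmul (smO_gradIn hO hA ei) (smO_ext hB D')) hab hab
        (ih hA (smO_gradIn hO hB ei) (AA_mono_n h1 (Nat.le_succ n)) h2.2.2)
        (ih (smO_gradIn hO hA ei) (smO_ext hB D') h1.2.2 (AA_ext (AA_mono_n h2 (Nat.le_succ n)))))
      intro j ic y hy
      exact (gradIn_mmul hO hA hB ei hy j ic).symm

theorem AA_constL {T : K → J → ℝ} {t : ℝ} {A : MF P J I} (hO : IsOpen O) (hS : S ⊆ O)
    (hA : SmO O A) (hT : OpLe T t) (h : AA eo ei S n a A) :
    AA eo ei S n (t * a) (fun k i y => ∑ j, T k j * A j i y) := by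
  induction n generalizing J I K with
  | zero => exact fun y hy => opLe_mul hT (h y hy)
  | succ n ih =>
    refine ⟨fun y hy => opLe_mul hT (h.1 y hy), ?_, ?_⟩
    · refine AA_congr hO hS ?_ (ih (smO_gradOut hO hA eo) (opLe_ext (K := D) hT) h.2.1)
      intro kc i y hy
      show ∑ jc : J × D, kd kc.2 jc.2 * T kc.1 jc.1 * pd (eo jc.2) (A jc.1 i) y =
        pd (eo kc.2) (fun y => ∑ j, T kc.1 j * A j i y) y
      rw [pd_sum _ fun j => (differentiableAt_const _).fun_mul (hA.diffAt hO hy _ _),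
        Fintype.sum_prod_type]
      refine Finset.sum_congr rfl fun j _ => ?_
      rw [pd_const_mul]
      simp only [mul_assoc]
      exact sum_kd_mul kc.2 (fun c => T kc.1 j * pd (eo c) (A j i) y)
    · refine AA_congr hO hS ?_ (ih (smO_gradIn hO hA ei) hT h.2.2)
      intro k ic y hy
      show ∑ j, T k j * pd (ei ic.2) (A j ic.1) y = pd (ei ic.2) (fun y => ∑ j, T k j * A j ic.1 y) y
      rw [pd_sum _ fun j => (differentiableAt_const _).fun_mul (hA.diffAt hO hy _ _)]
      refine Finset.sum_congr rfl fun j _ => ?_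
      rw [pd_const_mul]

theorem AA_constR {T : I → K → ℝ} {t : ℝ} {A : MF P J I} (hO : IsOpen O) (hS : S ⊆ O)
    (hA : SmO O A) (hT : OpLe T t) (h : AA eo ei S n a A) :
    AA eo ei S n (a * t) (fun j k y => ∑ i, A j i y * T i k) := by
  have hc : ∀ (v : P) (c : ℝ) (φ : P → ℝ), pd v (fun y => φ y * c) = fun y => pd v φ y * c := by
    intro v c φ
    simp only [mul_comm _ c]
    exact pd_const_mul v c φ
  induction n generalizing J I K with
  | zero => exact fun y hy => opLe_mul (h y hy) hT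
  | succ n ih =>
    refine ⟨fun y hy => opLe_mul (h.1 y hy) hT, ?_, ?_⟩
    · refine AA_congr hO hS ?_ (ih (smO_gradOut hO hA eo) hT h.2.1)
      intro jc k y hy
      show ∑ i, pd (eo jc.2) (A jc.1 i) y * T i k = pd (eo jc.2) (fun y => ∑ i, A jc.1 i y * T i k) y
      rw [pd_sum _ fun j => (hA.diffAt hO hy _ _).fun_mul (differentiableAt_const _)]
      refine Finset.sum_congr rfl fun j _ => ?_
      rw [hc]
    · refine AA_congr hO hS ?_ (ih (smO_gradIn hO hA ei) (opLe_ext (K := D') hT) h.2.2)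
      intro j kc y hy
      show ∑ ic : I × D', pd (ei ic.2) (A j ic.1) y * (kd ic.2 kc.2 * T ic.1 kc.1) =
        pd (ei kc.2) (fun y => ∑ i, A j i y * T i kc.1) y
      rw [pd_sum _ fun j => (hA.diffAt hO hy _ _).fun_mul (differentiableAt_const _),
        Fintype.sum_prod_type]
      refine Finset.sum_congr rfl fun i _ => ?_
      rw [hc]
      beta_reduce
      rw [← sum_mul_kd kc.2 (fun c => pd (ei c) (A j i) y * T i kc.1)]
      exact Finset.sum_congr rfl fun c _ => by ring

theorem AA_toMo {A : MF P J I} (h : AA eo ei S n a A) : MoS eo S n a A := by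
  induction n generalizing J I with
  | zero => exact h
  | succ n ih => exact ⟨h.1, ih h.2.1, AA_empty_in⟩

/-- unfolding of `MoS` -/
theorem MoS_succ {A : MF P J I} : MoS eo S (n + 1) a A ↔
    (∀ y ∈ S, OpLe (fun j i => A j i y) a) ∧ MoS eo S n a (gradOut eo A) := by
  exact ⟨fun h => ⟨h.1, h.2.1⟩, fun h => ⟨h.1, h.2, AA_empty_in⟩⟩

end Crest.Agent.R285
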