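import Crest.Agent.R285.Defs

/-!
# R285 Quad: quadrature rules and the Picard iteration.

* `exists_quad`: nodes `(m + θ_j)/N`, `m < N`, `θ_j = j/K`, `j < K` (index `Fin (N * K)` through
  `finProdFinEquiv`), weights `w τ (m, j) = ∫_{[m/N, (m+1)/N] ∩ [0, τ]} ℓ_j (N x - m) dx` with the Lagrange
  basis `ℓ_j` (`Lagrange.basis`, `Lagrange.eq_interpolate`).  On each piece `g 1` is its Taylor polynomial of
  degree `K - 1` (vector valued, exactly interpolated) plus a remainder bounded by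
  `N^{-(K-1)} ∫_piece ‖g (K+1)‖` (`taylor_chain`, by induction on the order with the fundamental theorem
  of calculus `intervalIntegral.integral_eq_sub_of_hasDeriv_right_of_le` or the mean value
  inequality `image_norm_le_of_norm_deriv_right_le_deriv_boundary`).
* `exists_dq`: nodes `j/(K+1)`, `j ≤ K`, `a j = ℓ_j'(0)`.
* `pic_err`, `pic_lin`, `pic_shift`: induction on `k`.
-/

set_option autoImplicit false

namespace Crest.Agent.R285

open MeasureTheory Set
open scoped ContDiff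


namespace QuadA

theorem taylorV {V : Type} [NormedAddCommGroup V] [NormedSpace ℝ V] [CompleteSpace V] (n : ℕ) :
    ∀ (g : ℕ → ℝ → V)
    (_ : ∀ k ≤ n, ∀ x ∈ Icc (0 : ℝ) 1, HasDerivWithinAt (g k) (g (k + 1) x) (Icc 0 1) x)
    (_ : ContinuousOn (g (n + 1)) (Icc 0 1)) {α β x : ℝ} (_ : 0 ≤ α) (_ : β ≤ 1)
    (_ : x ∈ Icc α β),
    ‖g 0 x - ∑ k ∈ Finset.range (n + 1), ((x - α) ^ k / (k.factorial : ℝ)) • g k α‖ ≤
      (β - α) ^ n * ∫ y in α..β, ‖g (n + 1) y‖ := by
  induction n with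
  | zero =>
    intro g hg hc α β x h0 h1 hx
    have hsub : Icc α β ⊆ Icc (0 : ℝ) 1 := Icc_subset_Icc h0 h1
    have hsub' : Icc α x ⊆ Icc (0 : ℝ) 1 := Icc_subset_Icc h0 (hx.2.trans h1)
    have hcont : ContinuousOn (g 0) (Icc α x) := fun y hy =>
      ((hg 0 le_rfl y (hsub' hy)).continuousWithinAt).mono hsub'
    have hint : IntervalIntegrable (g 1) volume α x :=
      (hc.mono hsub').intervalIntegrable_of_Icc hx.1
    have hftc : ∫ y in α..x, g 1 y = g 0 x - g 0 α := by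
      refine intervalIntegral.integral_eq_sub_of_hasDeriv_right_of_le hx.1 hcont ?_ hint
      intro y hy
      have hy' : y ∈ Ioo (0 : ℝ) 1 := ⟨lt_of_le_of_lt h0 hy.1, lt_of_lt_of_le hy.2 (hx.2.trans h1)⟩
      exact ((hg 0 le_rfl y (Ioo_subset_Icc_self hy')).hasDerivAt
        (Icc_mem_nhds hy'.1 hy'.2)).hasDerivWithinAt
    simp only [zero_add, Finset.range_one, Finset.sum_singleton, pow_zero, Nat.factorial_zero,
      Nat.cast_one, div_one, one_smul, one_mul]
    rw [← hftc]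
    refine (intervalIntegral.norm_integral_le_integral_norm hx.1).trans ?_
    have hint2 : IntervalIntegrable (fun y => ‖g 1 y‖) volume α β :=
      ((hc.mono hsub).norm).intervalIntegrable_of_Icc (hx.1.trans hx.2)
    refine intervalIntegral.integral_mono_interval le_rfl hx.1 hx.2 ?_ hint2
    exact Filter.Eventually.of_forall fun y => norm_nonneg _
  | succ n ih =>
    intro g hg hc α β x h0 h1 hx
    have hsub : Icc α β ⊆ Icc (0 : ℝ) 1 := Icc_subset_Icc h0 h1
    set I : ℝ := ∫ y in α..β, ‖g (n + 1 + 1) y‖ with hI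
    have hb : ∀ y ∈ Icc α β, ‖g 1 y - ∑ k ∈ Finset.range (n + 1),
        ((y - α) ^ k / (k.factorial : ℝ)) • g (k + 1) α‖ ≤ (β - α) ^ n * I := by
      intro y hy
      exact ih (fun k => g (k + 1)) (fun k hk z hz => hg (k + 1) (by omega) z hz) hc h0 h1 hy
    have hd : ∀ y ∈ Icc α β, HasDerivWithinAt
        (fun y => g 0 y - ∑ k ∈ Finset.range (n + 1 + 1), ((y - α) ^ k / (k.factorial : ℝ)) • g k α)
        (g 1 y - ∑ k ∈ Finset.range (n + 1), ((y - α) ^ k / (k.factorial : ℝ)) • g (k + 1) α)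
        (Icc α β) y := by
      intro y hy
      refine ((hg 0 (by omega) y (hsub hy)).mono hsub).sub ?_
      simp only [Finset.sum_range_succ' _ (n + 1)]
      refine HasDerivAt.hasDerivWithinAt ?_
      refine HasDerivAt.add ?_ (by simpa using hasDerivAt_const y (g 0 α)) |>.congr_deriv (add_zero _)
      refine HasDerivAt.fun_sum fun k _ => ?_
      have h2 : HasDerivAt (fun y : ℝ => (y - α) ^ (k + 1) / ((k + 1).factorial : ℝ))
          ((y - α) ^ k / (k.factorial : ℝ)) y := by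
        have h3 : HasDerivAt (fun y : ℝ => (y - α) ^ (k + 1)) (((k + 1 : ℕ) : ℝ) * (y - α) ^ k) y := by
          simpa using ((hasDerivAt_id y).sub_const α).fun_pow (k + 1)
        refine (h3.div_const ((k + 1).factorial : ℝ)).congr_deriv ?_
        rw [Nat.factorial_succ, Nat.cast_mul]
        have : ((k + 1 : ℕ) : ℝ) ≠ 0 := by positivity
        have : (k.factorial : ℝ) ≠ 0 := by positivity
        field_simp
      exact h2.smul_const _
    have hmv := (convex_Icc α β).norm_image_sub_le_of_norm_hasDerivWithin_le hd hb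
      (left_mem_Icc.2 (hx.1.trans hx.2)) hx
    have h0' : g 0 α - ∑ k ∈ Finset.range (n + 1 + 1),
        ((α - α) ^ k / (k.factorial : ℝ)) • g k α = 0 := by
      rw [Finset.sum_range_succ']
      simp
    rw [h0', sub_zero] at hmv
    refine hmv.trans ?_
    have hI0 : 0 ≤ I := intervalIntegral.integral_nonneg (hx.1.trans hx.2) fun y _ => norm_nonneg _
    have hβα : 0 ≤ β - α := by linarith [hx.1, hx.2]
    rw [Real.norm_eq_abs, abs_of_nonneg (by linarith [hx.1])]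
    calc (β - α) ^ n * I * (x - α) ≤ (β - α) ^ n * I * (β - α) := by
          apply mul_le_mul_of_nonneg_left (by linarith [hx.2]); positivity
      _ = (β - α) ^ (n + 1) * I := by ring

/-- inverse Vandermonde coefficients -/
theorem exists_coef (K : ℕ) (θ : Fin K → ℝ) (hθ : Function.Injective θ) :
    ∃ c : Fin K → ℕ → ℝ, ∀ m < K, ∀ k, ∑ j, c j k * θ j ^ m = if k = m then 1 else 0 := by
  classical
  refine ⟨fun j k => (Lagrange.basis Finset.univ θ j).coeff k, fun m hm k => ?_⟩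
  have h := Lagrange.eq_interpolate (s := Finset.univ) (v := θ) (f := (Polynomial.X ^ m : Polynomial ℝ))
    hθ.injOn (by simpa using hm)
  have h2 := congrArg (fun p => Polynomial.coeff p k) h
  simp only [Lagrange.interpolate_apply, Polynomial.finsetSum_coeff, Polynomial.coeff_C_mul,
    Polynomial.coeff_X_pow, Polynomial.eval_pow, Polynomial.eval_X] at h2
  rw [h2]
  exact Finset.sum_congr rfl fun j _ => mul_comm _ _

theorem node_inj (K : ℕ) (hK : 0 < K) : Function.Injective fun j : Fin K => ((j : ℕ) : ℝ) / K := by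
  intro i j h
  have hK' : (K : ℝ) ≠ 0 := by positivity
  have : ((i : ℕ) : ℝ) = (j : ℕ) := by
    simp only at h
    field_simp at h
    exact h
  exact Fin.ext (by exact_mod_cast this)

theorem node_mem (K : ℕ) (j : Fin K) : ((j : ℕ) : ℝ) / K ∈ Icc (0 : ℝ) 1 := by
  have hK : (0 : ℝ) < K := by have := j.2; exact_mod_cast (by omega : 0 < K)
  refine ⟨by positivity, ?_⟩
  rw [div_le_one hK]
  exact_mod_cast j.2.le

/-- the one-piece rule -/
theorem exists_rule (K : ℕ) (hK : 0 < K) :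
    ∃ (θ : Fin K → ℝ) (Λ : Fin K → ℝ → ℝ) (B : ℝ), 0 ≤ B ∧ (∀ j, θ j ∈ Icc (0 : ℝ) 1) ∧
      (∀ s ∈ Icc (0 : ℝ) 1, ∑ j, |Λ j s| ≤ B) ∧
      ∀ s : ℝ, ∀ m < K, ∑ j, Λ j s * θ j ^ m = s ^ (m + 1) / ((m : ℝ) + 1) := by
  obtain ⟨c, hc⟩ := exists_coef K _ (node_inj K hK)
  refine ⟨fun j => ((j : ℕ) : ℝ) / K,
    fun j s => ∑ k ∈ Finset.range K, c j k * (s ^ (k + 1) / ((k : ℝ) + 1)),
    ∑ j, ∑ k ∈ Finset.range K, |c j k|, by positivity, node_mem K, fun s hs => ?_, fun s m hm => ?_⟩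
  · refine Finset.sum_le_sum fun j _ => (Finset.abs_sum_le_sum_abs _ _).trans
      (Finset.sum_le_sum fun k _ => ?_)
    rw [abs_mul]
    refine mul_le_of_le_one_right (abs_nonneg _) ?_
    rw [abs_of_nonneg (by have := hs.1; positivity), div_le_one (by positivity)]
    have : s ^ (k + 1) ≤ 1 := pow_le_one₀ hs.1 hs.2
    have : (0 : ℝ) ≤ k := by positivity
    linarith
  · simp only [Finset.sum_mul]
    rw [Finset.sum_comm]
    have : ∀ k ∈ Finset.range K, ∑ j : Fin K, c j k * (s ^ (k + 1) / ((k : ℝ) + 1)) *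
        (((j : ℕ) : ℝ) / K) ^ m = if k = m then s ^ (m + 1) / ((m : ℝ) + 1) else 0 := by
      intro k _
      have h := hc m hm k
      have : ∑ j : Fin K, c j k * (s ^ (k + 1) / ((k : ℝ) + 1)) * (((j : ℕ) : ℝ) / K) ^ m =
          (∑ j : Fin K, c j k * (((j : ℕ) : ℝ) / K) ^ m) * (s ^ (k + 1) / ((k : ℝ) + 1)) := by
        rw [Finset.sum_mul]; exact Finset.sum_congr rfl fun j _ => by ring
      rw [this, h]
      split_ifs with hk
      · subst hk; simp
      · simp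
    rw [Finset.sum_congr rfl this, Finset.sum_ite_eq']
    simp [hm]

/-- error on one piece -/
theorem piece_err {V : Type} [NormedAddCommGroup V] [NormedSpace ℝ V] [CompleteSpace V] {n : ℕ}
    (θ : Fin (n + 1) → ℝ) (lam : Fin (n + 1) → ℝ) {B s : ℝ} (hθ : ∀ j, θ j ∈ Icc (0 : ℝ) 1)
    (hB : ∑ j, |lam j| ≤ B) (hs : s ∈ Icc (0 : ℝ) 1)
    (hex : ∀ m < n + 1, ∑ j, lam j * θ j ^ m = s ^ (m + 1) / ((m : ℝ) + 1))
    (g : ℕ → ℝ → V)
    (hg : ∀ k ≤ n + 1, ∀ x ∈ Icc (0 : ℝ) 1, HasDerivWithinAt (g k) (g (k + 1) x) (Icc 0 1) x)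
    (hc : ContinuousOn (g (n + 1 + 1)) (Icc 0 1)) {α h : ℝ} (h0 : 0 ≤ α) (hh : 0 ≤ h)
    (h1 : α + h ≤ 1) :
    ‖g 0 (α + h * s) - g 0 α - ∑ j, (h * lam j) • g 1 (α + h * θ j)‖ ≤
      (1 + B) * h ^ (n + 1) * ∫ y in α..(α + h), ‖g (n + 1 + 1) y‖ := by
  set I : ℝ := ∫ y in α..(α + h), ‖g (n + 1 + 1) y‖ with hI
  have hI0 : 0 ≤ I := intervalIntegral.integral_nonneg (by linarith) fun y _ => norm_nonneg _
  have hmem : ∀ u ∈ Icc (0 : ℝ) 1, α + h * u ∈ Icc α (α + h) := fun u hu =>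
    ⟨by nlinarith [hu.1], by nlinarith [hu.2]⟩
  have e1 := taylorV (n + 1) g hg hc h0 h1 (hmem s hs)
  have e2 : ∀ j, ‖g 1 (α + h * θ j) - ∑ k ∈ Finset.range (n + 1),
      ((h * θ j) ^ k / (k.factorial : ℝ)) • g (k + 1) α‖ ≤ h ^ n * I := by
    intro j
    have := taylorV n (fun k => g (k + 1)) (fun k hk z hz => hg (k + 1) (by omega) z hz) hc h0 h1
      (hmem _ (hθ j))
    simpa using this
  simp only [add_sub_cancel_left] at e1
  have key : ∑ j, (h * lam j) • ∑ k ∈ Finset.range (n + 1),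
      ((h * θ j) ^ k / (k.factorial : ℝ)) • g (k + 1) α =
      ∑ k ∈ Finset.range (n + 1), ((h * s) ^ (k + 1) / ((k + 1).factorial : ℝ)) • g (k + 1) α := by
    simp only [Finset.smul_sum, smul_smul]
    rw [Finset.sum_comm]
    refine Finset.sum_congr rfl fun k hk => ?_
    rw [← Finset.sum_smul]
    congr 1
    have hk' := hex k (Finset.mem_range.1 hk)
    have : ∑ j, h * lam j * ((h * θ j) ^ k / (k.factorial : ℝ)) =
        h ^ (k + 1) / (k.factorial : ℝ) * ∑ j, lam j * θ j ^ k := by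
      rw [Finset.mul_sum]; exact Finset.sum_congr rfl fun j _ => by ring
    rw [this, hk', Nat.factorial_succ]
    push_cast
    have : ((k : ℝ) + 1) ≠ 0 := by positivity
    have : (k.factorial : ℝ) ≠ 0 := by positivity
    field_simp
    ring
  have hsplit : g 0 (α + h * s) - g 0 α - ∑ j, (h * lam j) • g 1 (α + h * θ j) =
      (g 0 (α + h * s) - ∑ k ∈ Finset.range (n + 1 + 1),
        ((h * s) ^ k / (k.factorial : ℝ)) • g k α) -
      ∑ j, (h * lam j) • (g 1 (α + h * θ j) - ∑ k ∈ Finset.range (n + 1),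
        ((h * θ j) ^ k / (k.factorial : ℝ)) • g (k + 1) α) := by
    rw [Finset.sum_range_succ' _ (n + 1), ← key]
    simp only [smul_sub, Finset.sum_sub_distrib, pow_zero, Nat.factorial_zero, Nat.cast_one,
      div_one, one_smul]
    abel
  rw [hsplit]
  refine (norm_sub_le _ _).trans ?_
  have e3 : ‖∑ j, (h * lam j) • (g 1 (α + h * θ j) - ∑ k ∈ Finset.range (n + 1),
        ((h * θ j) ^ k / (k.factorial : ℝ)) • g (k + 1) α)‖ ≤ B * (h ^ (n + 1) * I) := by
    refine (norm_sum_le _ _).trans ?_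
    calc _ ≤ ∑ j, |lam j| * (h ^ (n + 1) * I) := by
          refine Finset.sum_le_sum fun j _ => ?_
          rw [norm_smul, Real.norm_eq_abs, abs_mul, abs_of_nonneg hh]
          calc h * |lam j| * _ ≤ h * |lam j| * (h ^ n * I) :=
                mul_le_mul_of_nonneg_left (e2 j) (by positivity)
            _ = _ := by ring
      _ = (∑ j, |lam j|) * (h ^ (n + 1) * I) := by rw [Finset.sum_mul]
      _ ≤ _ := mul_le_mul_of_nonneg_right hB (by positivity)
  nlinarith [e1, e3]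

/-- relative position of `τ` in the `m`-th piece -/
noncomputable def pos (N : ℕ) (m : ℕ) (τ : ℝ) : ℝ := max 0 (min 1 (N * τ - m))

theorem pos_mem (N m : ℕ) (τ : ℝ) : pos N m τ ∈ Icc (0 : ℝ) 1 :=
  ⟨le_max_left _ _, max_le zero_le_one (min_le_left _ _)⟩

theorem tele {V : Type} [AddCommGroup V] (F : ℝ → V) {N : ℕ} (hN : 1 ≤ N) {τ : ℝ}
    (hτ : τ ∈ Icc (0 : ℝ) 1) :
    F τ - F 0 = ∑ m ∈ Finset.range N, (F ((m : ℝ) / N + 1 / N * pos N m τ) - F ((m : ℝ) / N)) := by
  have hN' : (0 : ℝ) < N := by exact_mod_cast hN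
  have h := Finset.sum_range_sub (fun m : ℕ => F (min τ ((m : ℝ) / N))) N
  simp only [Nat.cast_zero, zero_div, div_self hN'.ne', min_eq_left hτ.2, min_eq_right hτ.1] at h
  rw [← h]
  refine Finset.sum_congr rfl fun m _ => ?_
  rcases le_total τ ((m : ℝ) / N) with h1 | h1
  · have h2 : τ ≤ ((m + 1 : ℕ) : ℝ) / N := h1.trans (by gcongr; omega)
    have h3 : pos N m τ = 0 := by
      unfold pos
      refine max_eq_left ((min_le_right _ _).trans ?_)
      rw [le_div_iff₀ hN'] at h1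
      linarith
    rw [min_eq_left h1, min_eq_left h2, h3]
    simp
  · rw [min_eq_right h1]
    congr 2
    have h1' := h1
    rw [div_le_iff₀ hN'] at h1'
    have h3 : pos N m τ = min 1 (N * τ - m) := by
      unfold pos
      exact max_eq_right (le_min zero_le_one (by linarith))
    rw [h3]
    rcases le_total τ (((m + 1 : ℕ) : ℝ) / N) with h2 | h2
    · rw [min_eq_left h2]
      rw [le_div_iff₀ hN'] at h2
      push_cast at h2
      rw [min_eq_right (by linarith)]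
      field_simp
      ring
    · rw [min_eq_right h2]
      rw [div_le_iff₀ hN'] at h2
      push_cast at h2 ⊢
      rw [min_eq_left (by linarith)]
      field_simp

theorem comp_err {V : Type} [NormedAddCommGroup V] [NormedSpace ℝ V] [CompleteSpace V] {n : ℕ}
    (θ : Fin (n + 1) → ℝ) (Λ : Fin (n + 1) → ℝ → ℝ) {B : ℝ} (hθ : ∀ j, θ j ∈ Icc (0 : ℝ) 1)
    (hB : ∀ s ∈ Icc (0 : ℝ) 1, ∑ j, |Λ j s| ≤ B)
    (hex : ∀ s : ℝ, ∀ m < n + 1, ∑ j, Λ j s * θ j ^ m = s ^ (m + 1) / ((m : ℝ) + 1))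
    {N : ℕ} (hN : 1 ≤ N) (g : ℕ → ℝ → V)
    (hg : ∀ k ≤ n + 1, ∀ x ∈ Icc (0 : ℝ) 1, HasDerivWithinAt (g k) (g (k + 1) x) (Icc 0 1) x)
    (hc : ContinuousOn (g (n + 1 + 1)) (Icc 0 1)) {τ : ℝ} (hτ : τ ∈ Icc (0 : ℝ) 1) :
    ‖g 0 τ - g 0 0 - ∑ m : Fin N, ∑ j, (1 / (N : ℝ) * Λ j (pos N m τ)) •
        g 1 (((m : ℕ) : ℝ) / N + 1 / N * θ j)‖ ≤
      (1 + B) / (N : ℝ) ^ (n + 1) * ∫ y in (0 : ℝ)..1, ‖g (n + 1 + 1) y‖ := by
  have hN' : (0 : ℝ) < N := by exact_mod_cast hN
  rw [tele (g 0) hN hτ, Fin.sum_univ_eq_sum_range (fun m => ∑ j, (1 / (N : ℝ) * Λ j (pos N m τ)) •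
        g 1 ((m : ℝ) / N + 1 / N * θ j)) N, ← Finset.sum_sub_distrib]
  refine (norm_sum_le _ _).trans ?_
  have hle : ∀ m < N, (m : ℝ) / N + 1 / N ≤ 1 := by
    intro m hm
    rw [← add_div, div_le_one hN']
    exact_mod_cast hm
  have hsum : ∑ m ∈ Finset.range N, ∫ y in ((m : ℝ) / N)..(((m + 1 : ℕ) : ℝ) / N),
      ‖g (n + 1 + 1) y‖ = ∫ y in (0 : ℝ)..1, ‖g (n + 1 + 1) y‖ := by
    have := intervalIntegral.sum_integral_adjacent_intervals (f := fun y => ‖g (n + 1 + 1) y‖)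
      (μ := volume) (a := fun m : ℕ => (m : ℝ) / N) (n := N) (fun m hm => by
        refine (hc.norm.mono ?_).intervalIntegrable_of_Icc (by gcongr; omega)
        refine Icc_subset_Icc (by positivity) ?_
        rw [div_le_one hN']; exact_mod_cast hm)
    simpa [div_self hN'.ne'] using this
  rw [← hsum, Finset.mul_sum]
  refine Finset.sum_le_sum fun m hm => ?_
  have := piece_err θ (fun j => Λ j (pos N m τ)) hθ (hB _ (pos_mem N m τ)) (pos_mem N m τ)
    (hex _) g hg hc (α := (m : ℝ) / N) (h := 1 / N) (by positivity) (by positivity)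
    (hle m (Finset.mem_range.1 hm))
  refine this.trans (le_of_eq ?_)
  have e : (m : ℝ) / N + 1 / N = ((m + 1 : ℕ) : ℝ) / N := by push_cast; ring
  rw [e, one_div, inv_pow, div_eq_mul_inv (1 + B)]

end QuadA

open QuadA

/-- Taylor formula for a chain of derivatives on `[α, β] ⊆ [0, 1]` -/
theorem taylor_chain {d : ℕ} (n : ℕ) (g : ℕ → ℝ → E d)
    (hg : ∀ k ≤ n, ∀ x ∈ Icc (0 : ℝ) 1, HasDerivWithinAt (g k) (g (k + 1) x) (Icc 0 1) x)
    (hc : ContinuousOn (g (n + 1)) (Icc 0 1)) {α β x : ℝ} (h0 : 0 ≤ α) (h1 : β ≤ 1)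
    (hx : x ∈ Icc α β) :
    ‖g 0 x - ∑ k ∈ Finset.range (n + 1), ((x - α) ^ k / (k.factorial : ℝ)) • g k α‖ ≤
      (β - α) ^ n * ∫ y in α..β, ‖g (n + 1) y‖ := taylorV n g hg hc h0 h1 hx

theorem exists_quad (K : ℕ) (hK : 1 ≤ K) :
    ∃ C : ℝ, 1 ≤ C ∧ ∀ C' ≥ C, ∀ N : ℕ, 1 ≤ N → Nonempty (Quad K C' N) := by
  obtain ⟨n, rfl⟩ : ∃ n, K = n + 1 := ⟨K - 1, by omega⟩
  obtain ⟨θ, Λ, B, hB0, hθ, hB, hex⟩ := exists_rule (n + 1) (by omega)
  refine ⟨1 + B + (n + 1 : ℕ), by have : (0 : ℝ) ≤ (n + 1 : ℕ) := by positivity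
                                  linarith, fun C' hC' N hN => ?_⟩
  have hN' : (0 : ℝ) < N := by exact_mod_cast hN
  have hK0 : (0 : ℝ) ≤ (n + 1 : ℕ) := by positivity
  let e : Fin N × Fin (n + 1) ≃ Fin (N * (n + 1)) := finProdFinEquiv
  have hsum : ∀ {V : Type} [AddCommMonoid V] (F : Fin N × Fin (n + 1) → V),
      ∑ i, F (e.symm i) = ∑ m, ∑ j, F (m, j) := by
    intro V _ F
    rw [Equiv.sum_comp e.symm F, Fintype.sum_prod_type]
  have herr : ∀ {V : Type} [NormedAddCommGroup V] [NormedSpace ℝ V] [CompleteSpace V]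
      (g : ℕ → ℝ → V),
      (∀ k ≤ n + 1, ∀ x ∈ Icc (0 : ℝ) 1, HasDerivWithinAt (g k) (g (k + 1) x) (Icc 0 1) x) →
      ContinuousOn (g (n + 1 + 1)) (Icc 0 1) → ∀ τ ∈ Icc (0 : ℝ) 1,
      ‖g 0 τ - g 0 0 - ∑ i : Fin (N * (n + 1)),
        (1 / (N : ℝ) * Λ (e.symm i).2 (pos N (e.symm i).1 τ)) •
          g 1 ((((e.symm i).1 : ℕ) : ℝ) / N + 1 / N * θ (e.symm i).2)‖ ≤
        C' / (N : ℝ) ^ (n + 1) * ∫ y in (0 : ℝ)..1, ‖g (n + 1 + 1) y‖ := by
    intro V _ _ _ g hg hc τ hτ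
    rw [hsum (fun p => (1 / (N : ℝ) * Λ p.2 (pos N p.1 τ)) •
          g 1 (((p.1 : ℕ) : ℝ) / N + 1 / N * θ p.2))]
    refine (comp_err θ Λ hθ hB hex hN g hg hc hτ).trans ?_
    refine mul_le_mul_of_nonneg_right ?_
      (intervalIntegral.integral_nonneg zero_le_one fun y _ => norm_nonneg _)
    gcongr
    linarith
  refine ⟨⟨N * (n + 1), fun i => (((e.symm i).1 : ℕ) : ℝ) / N + 1 / N * θ (e.symm i).2,
    fun τ i => 1 / (N : ℝ) * Λ (e.symm i).2 (pos N (e.symm i).1 τ), ?_, ?_, ?_, ?_, ?_⟩⟩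
  · rw [Nat.cast_mul, mul_comm]
    exact mul_le_mul_of_nonneg_right (by linarith) hN'.le
  · intro i
    have h1 := hθ (e.symm i).2
    have h2 : ((((e.symm i).1 : ℕ) : ℝ) + 1) ≤ N := by exact_mod_cast (e.symm i).1.2
    refine ⟨by have := h1.1; positivity, ?_⟩
    rw [one_div, ← div_eq_inv_mul, ← add_div, div_le_one hN']
    linarith [h1.2]
  · intro τ hτ
    rw [hsum (fun p => |1 / (N : ℝ) * Λ p.2 (pos N p.1 τ)|)]
    calc _ ≤ ∑ m : Fin N, 1 / (N : ℝ) * B := by
          refine Finset.sum_le_sum fun m _ => ?_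
          simp only [abs_mul, abs_of_nonneg (by positivity : (0 : ℝ) ≤ 1 / N)]
          rw [← Finset.mul_sum]
          exact mul_le_mul_of_nonneg_left (hB _ (pos_mem _ _ _)) (by positivity)
      _ = B := by
          simp only [Finset.sum_const, Finset.card_univ, Fintype.card_fin, nsmul_eq_mul]
          field_simp
      _ ≤ C' := by linarith
  · intro τ hτ m hm
    let p : Polynomial ℝ := Polynomial.C (1 / ((m : ℝ) + 1)) * Polynomial.X ^ (m + 1)
    have hz : Polynomial.derivative^[n + 1 + 1] p = 0 := by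
      refine Polynomial.iterate_derivative_eq_zero ?_
      refine lt_of_le_of_lt (Polynomial.natDegree_C_mul_X_pow_le _ _) (by omega)
    have h := herr (fun k x => (Polynomial.derivative^[k] p).eval x)
      (fun k _ x _ => by
        rw [Function.iterate_succ_apply']
        exact (Polynomial.hasDerivAt _ x).hasDerivWithinAt)
      (Polynomial.continuousOn _) τ hτ
    simp only [hz, Polynomial.eval_zero, norm_zero, intervalIntegral.integral_zero, mul_zero,
      norm_le_zero_iff, sub_eq_zero] at h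
    have hm1 : ((m : ℝ) + 1) ≠ 0 := by positivity
    have hp1 : ∀ x : ℝ, (Polynomial.derivative^[1] p).eval x = x ^ m := by
      intro x
      simp only [p, Function.iterate_one, Polynomial.derivative_C_mul, Polynomial.derivative_X_pow,
        Polynomial.eval_mul, Polynomial.eval_C, Polynomial.eval_pow, Polynomial.eval_X,
        Nat.add_sub_cancel]
      push_cast
      field_simp
    simp only [hp1, smul_eq_mul] at h
    rw [← h]
    simp [p]
    ring
  · intro d g hg hc τ hτ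
    exact herr g hg hc τ hτ

theorem exists_dq (K : ℕ) : ∃ C : ℝ, 1 ≤ C ∧ ∀ C' ≥ C, Nonempty (DQ K C') := by
  obtain ⟨c, hc⟩ := exists_coef (K + 1) _ (node_inj (K + 1) (by omega))
  have h0 : (0 : ℝ) ≤ ∑ j, |c j 1| := by positivity
  have h1 : (0 : ℝ) ≤ (K + 1 : ℕ) := by positivity
  refine ⟨1 + (K + 1 : ℕ) + ∑ j, |c j 1|, by linarith, fun C' hC' => ⟨⟨K + 1,
    fun j => ((j : ℕ) : ℝ) / (K + 1 : ℕ), fun j => c j 1, by linarith, node_mem (K + 1),
    by linarith, fun m hm => ?_⟩⟩⟩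
  rw [hc m (by omega) 1]
  by_cases h : m = 1
  · simp [h]
  · simp [h, Ne.symm h]

theorem pic_err {Q : Type} [NormedAddCommGroup Q] [NormedSpace ℝ Q] {n : ℕ} {t : Fin n → ℝ}
    {w : ℝ → Fin n → ℝ} {C l ϱ S : ℝ} (ht : ∀ i, t i ∈ Icc (0 : ℝ) 1)
    (hw : ∀ τ ∈ Icc (0 : ℝ) 1, ∑ i, |w τ i| ≤ C) {β : ℝ → Q → Q} (hl : 0 ≤ l)
    (hβ : ∀ i x y, ‖β (t i) x - β (t i) y‖ ≤ l * ‖x - y‖) {y : ℝ → Q}
    (hϱ : ∀ τ ∈ Icc (0 : ℝ) 1, ‖y τ - y 0 - ∑ i, w τ i • β (t i) (y (t i))‖ ≤ ϱ)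
    (hS : ∀ τ ∈ Icc (0 : ℝ) 1, ‖y τ - y 0‖ ≤ S) (k : ℕ) {τ : ℝ} (hτ : τ ∈ Icc (0 : ℝ) 1) :
    ‖pic t w β (y 0) k τ - y τ‖ ≤ (∑ i ∈ Finset.range k, (C * l) ^ i) * ϱ + (C * l) ^ k * S := by
  induction k generalizing τ with
  | zero =>
    simp only [pic, Finset.range_zero, Finset.sum_empty, zero_mul, pow_zero, one_mul, zero_add]
    rw [norm_sub_rev]
    exact hS τ hτ
  | succ k ih =>
    set e : ℝ := (∑ i ∈ Finset.range k, (C * l) ^ i) * ϱ + (C * l) ^ k * S with he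
    have he0 : 0 ≤ e := (norm_nonneg _).trans (ih hτ)
    have h1 : pic t w β (y 0) (k + 1) τ - y τ =
        ∑ i, w τ i • (β (t i) (pic t w β (y 0) k (t i)) - β (t i) (y (t i))) -
          (y τ - y 0 - ∑ i, w τ i • β (t i) (y (t i))) := by
      simp only [pic, smul_sub, Finset.sum_sub_distrib]
      abel
    have h2 : ‖∑ i, w τ i • (β (t i) (pic t w β (y 0) k (t i)) - β (t i) (y (t i)))‖ ≤
        C * (l * e) := by
      refine (norm_sum_le _ _).trans ?_
      calc _ ≤ ∑ i, |w τ i| * (l * e) := by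
            refine Finset.sum_le_sum fun i _ => ?_
            rw [norm_smul, Real.norm_eq_abs]
            refine mul_le_mul_of_nonneg_left ((hβ i _ _).trans ?_) (abs_nonneg _)
            exact mul_le_mul_of_nonneg_left (ih (ht i)) hl
        _ = (∑ i, |w τ i|) * (l * e) := by rw [Finset.sum_mul]
        _ ≤ _ := mul_le_mul_of_nonneg_right (hw τ hτ) (by positivity)
    rw [h1]
    refine (norm_sub_le _ _).trans ((add_le_add h2 (hϱ τ hτ)).trans (le_of_eq ?_))
    rw [Finset.sum_range_succ', he]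
    simp only [pow_succ, ← Finset.sum_mul]
    ring

/-- for a linear field the Picard iterates are the Taylor polynomials of the exponential -/
theorem pic_lin {Q : Type} [AddCommGroup Q] [Module ℝ Q] {K N : ℕ} {C : ℝ} (q : Quad K C N)
    (L : Q →ₗ[ℝ] Q) (p0 : Q) {k : ℕ} (hk : k ≤ K) {τ : ℝ} (hτ : τ ∈ Icc (0 : ℝ) 1) :
    pic q.t q.w (fun _ => L) p0 k τ =
      ∑ m ∈ Finset.range (k + 1), (τ ^ m / (m.factorial : ℝ)) • (L ^ m) p0 := by
  induction k generalizing τ with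
  | zero => simp [pic]
  | succ k ih =>
    rw [Finset.sum_range_succ']
    simp only [pic, pow_zero, Nat.factorial_zero, Nat.cast_one, div_one, one_smul,
      Module.End.one_apply]
    rw [add_comm]
    congr 1
    have : ∀ i, q.w τ i • L (pic q.t q.w (fun _ => L) p0 k (q.t i)) =
        ∑ m ∈ Finset.range (k + 1), (q.w τ i * q.t i ^ m / (m.factorial : ℝ)) • (L ^ (m + 1)) p0 := by
      intro i
      rw [ih (by omega) (q.t_mem i), map_sum, Finset.smul_sum]
      refine Finset.sum_congr rfl fun m _ => ?_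
      rw [map_smul, smul_smul, pow_succ', Module.End.mul_apply, mul_div_assoc]
    simp only [this]
    rw [Finset.sum_comm]
    refine Finset.sum_congr rfl fun m hm => ?_
    rw [← Finset.sum_smul, ← Finset.sum_div, q.exact τ hτ m (by
      have := Finset.mem_range.1 hm; omega), Nat.factorial_succ]
    congr 1
    push_cast
    rw [div_div]

theorem pic_shift {Q : Type} [AddCommGroup Q] [Module ℝ Q] {n : ℕ} (t : Fin n → ℝ)
    (w : ℝ → Fin n → ℝ) (β : ℝ → Q → Q) (p0 c : Q) (k : ℕ) (τ : ℝ) :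
    pic t w (fun s p => β s (p + c)) p0 k τ + c = pic t w β (p0 + c) k τ := by
  induction k generalizing τ with
  | zero => simp [pic]
  | succ k ih =>
    simp only [pic, ih]
    abel

end Crest.Agent.R285
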