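import Crest.Agent.R285.Tm
import Crest.Agent.R285.Quad
import Crest.Agent.R285.Calc

/-!
# R285 Build: syntactic bounds for the terms `kmT`, `hmcT`, `bT`, `outβ`, `xl`.

First compute `b1 b2 b3 cnt wt` and `Good` of `add`, `smul`, `sum`, `sub` (note `smul 0 t = lin 0 0`):
`cnt (sub A B t) ≤ cnt t + (if b1 t = 0 then 0 else cnt A) + (if b2 t = 0 then 0 else cnt B)`,
`wt (sub A B t) = wt t + |b1 t| wt A + |b2 t| wt B`,
`b_i (sub A B t) = b1 t * b_i A + b2 t * b_i B (+ b3 t)`, and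
`Good lo B₁ Γ₁ Λ₁ t → Nice lo B₂ Γ₂ Λ₂ A → Nice lo B₂ Γ₂ Λ₂ B →
  Good lo (B₁(2B₂+1)+B₂) (Γ₁+2Γ₂) (Λ₁+2B₁Λ₂+Λ₂) (sub A B t)`.
Then bound `picT` by induction on the number of iterations (constants may grow like `C^K`).  For
`kmβ` and `outβ` both components have `b1 = b2 = 0`, so `cnt` and `wt` of the iterates are at most
(number of nodes) × `cnt β`, resp. `Cq × wt β`, and `b1, b2` of the iterates are those of `zz`, `ww`;
for `outβ` also `b3 = 0`.  All `s` are `1 - r²` with `r ∈ [0, RR κ]`, or `κ²`, or `1`.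
Exact coefficients (`b1 = b2 = b3 = 0` for `bT`): evaluate in the linear model (`ev_model`, `ev_bT`):
there `kmS r0 r1 y = y - (r1 - r0) • e₃` (`Quad.exact` with `m = 0`, `K ≥ 1`), `hmcF` is, after the shift
by `(0, r • e₃)`, the linear map `L (ζ, y) = (-h y, h ζ)` (`pic_shift`, `pic_lin`), and `DQ.exact` picks the
term of order one.
-/

set_option autoImplicit false

namespace Crest.Agent.R285

open MeasureTheory Set
open scoped ContDiff

open Tm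

namespace BuildA

theorem addLin_spec (c1 c2 : ℝ) (u : Tm) : (addLin c1 c2 u).b1 = c1 + u.b1 ∧
    (addLin c1 c2 u).b2 = c2 + u.b2 ∧ (addLin c1 c2 u).b3 = u.b3 ∧ (addLin c1 c2 u).cnt = u.cnt ∧
    (addLin c1 c2 u).wt = u.wt := by
  induction u with
  | lin a b => simp [addLin, Tm.b1, Tm.b2, Tm.b3, cnt, wt]
  | plus a s x r _ ih => simp [addLin, Tm.b1, Tm.b2, Tm.b3, cnt, wt, ih]

theorem add_spec (t u : Tm) : (add t u).b1 = t.b1 + u.b1 ∧
    (add t u).b2 = t.b2 + u.b2 ∧ (add t u).b3 = t.b3 + u.b3 ∧ (add t u).cnt = t.cnt + u.cnt ∧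
    (add t u).wt = t.wt + u.wt := by
  induction t with
  | lin a b => simp [add, Tm.b1, Tm.b2, Tm.b3, cnt, wt, addLin_spec]
  | plus a s x r _ ih =>
    simp only [add, Tm.b1, Tm.b2, Tm.b3, cnt, wt, ih, true_and]
    refine ⟨by ring, by ring, by ring⟩

theorem b1_add (t u : Tm) : (add t u).b1 = t.b1 + u.b1 := (add_spec t u).1
theorem b2_add (t u : Tm) : (add t u).b2 = t.b2 + u.b2 := (add_spec t u).2.1
theorem b3_add (t u : Tm) : (add t u).b3 = t.b3 + u.b3 := (add_spec t u).2.2.1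
theorem cnt_add (t u : Tm) : (add t u).cnt = t.cnt + u.cnt := (add_spec t u).2.2.2.1
theorem wt_add (t u : Tm) : (add t u).wt = t.wt + u.wt := (add_spec t u).2.2.2.2

theorem smul0_spec (c : ℝ) (u : Tm) : (smul0 c u).b1 = c * u.b1 ∧
    (smul0 c u).b2 = c * u.b2 ∧ (smul0 c u).b3 = c * u.b3 ∧ (smul0 c u).cnt = u.cnt ∧
    (smul0 c u).wt = |c| * u.wt := by
  induction u with
  | lin a b => simp [smul0, Tm.b1, Tm.b2, Tm.b3, cnt, wt]
  | plus a s x r _ ih => simp [smul0, Tm.b1, Tm.b2, Tm.b3, cnt, wt, ih, mul_add, abs_mul]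

theorem b1_smul (c : ℝ) (u : Tm) : (smul c u).b1 = c * u.b1 := by
  unfold smul; split_ifs with h
  · simp [h, Tm.b1]
  · exact (smul0_spec c u).1
theorem b2_smul (c : ℝ) (u : Tm) : (smul c u).b2 = c * u.b2 := by
  unfold smul; split_ifs with h
  · simp [h, Tm.b2]
  · exact (smul0_spec c u).2.1
theorem b3_smul (c : ℝ) (u : Tm) : (smul c u).b3 = c * u.b3 := by
  unfold smul; split_ifs with h
  · simp [h, Tm.b3]
  · exact (smul0_spec c u).2.2.1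
theorem cnt_smul (c : ℝ) (u : Tm) : (smul c u).cnt = if c = 0 then 0 else u.cnt := by
  unfold smul; split_ifs with h
  · simp [cnt]
  · exact (smul0_spec c u).2.2.2.1
theorem cnt_smul_le (c : ℝ) (u : Tm) : (smul c u).cnt ≤ u.cnt := by
  rw [cnt_smul]; split_ifs <;> omega
theorem wt_smul (c : ℝ) (u : Tm) : (smul c u).wt = |c| * u.wt := by
  unfold smul; split_ifs with h
  · simp [h, wt]
  · exact (smul0_spec c u).2.2.2.2

theorem sum_succ {n : ℕ} (f : Fin (n + 1) → Tm) : sum f = add (f 0) (sum fun i => f i.succ) := by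
  unfold sum; rw [List.ofFn_succ, List.foldr_cons]

theorem sum_spec {n : ℕ} (f : Fin n → Tm) : (sum f).b1 = ∑ i, (f i).b1 ∧
    (sum f).b2 = ∑ i, (f i).b2 ∧ (sum f).b3 = ∑ i, (f i).b3 ∧ (sum f).cnt = ∑ i, (f i).cnt ∧
    (sum f).wt = ∑ i, (f i).wt := by
  induction n with
  | zero => simp [sum, zero, Tm.b1, Tm.b2, Tm.b3, cnt, wt]
  | succ n ih =>
    simp only [sum_succ, add_spec, ih, Fin.sum_univ_succ, and_self]

theorem sub_spec (A B t : Tm) : (sub A B t).b1 = t.b1 * A.b1 + t.b2 * B.b1 ∧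
    (sub A B t).b2 = t.b1 * A.b2 + t.b2 * B.b2 ∧
    (sub A B t).b3 = t.b1 * A.b3 + t.b2 * B.b3 + t.b3 ∧
    (sub A B t).cnt = t.cnt + (smul t.b1 A).cnt + (smul t.b2 B).cnt ∧
    (sub A B t).wt = t.wt + |t.b1| * A.wt + |t.b2| * B.wt := by
  induction t with
  | lin a b =>
    simp [sub, add_spec, b1_smul, b2_smul, b3_smul, wt_smul, Tm.b1, Tm.b2, Tm.b3, cnt, wt]
  | plus a s x r _ ih =>
    simp only [sub, Tm.b1, Tm.b2, Tm.b3, cnt, wt, ih, true_and]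
    refine ⟨by ring, by omega, by ring⟩

section
variable {lo B Γ Λ : ℝ}

theorem good_addLin (c1 c2 : ℝ) {u : Tm} (h : Good lo B Γ Λ u) : Good lo B Γ Λ (addLin c1 c2 u) := by
  induction u with
  | lin a b => trivial
  | plus a s x r _ ih => exact ⟨h.1, h.2.1, h.2.2.1, h.2.2.2.1, ih h.2.2.2.2⟩

theorem good_add {t u : Tm} (h : Good lo B Γ Λ t) (hu : Good lo B Γ Λ u) :
    Good lo B Γ Λ (add t u) := by
  induction t with
  | lin a b => exact good_addLin a b hu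
  | plus a s x r _ ih => exact ⟨h.1, h.2.1, h.2.2.1, h.2.2.2.1, ih h.2.2.2.2⟩

theorem good_smul (c : ℝ) {u : Tm} (h : Good lo B Γ Λ u) : Good lo B Γ Λ (smul c u) := by
  unfold smul; split_ifs
  · trivial
  · induction u with
    | lin a b => trivial
    | plus a s x r _ ih => exact ⟨h.1, h.2.1, h.2.2.1, h.2.2.2.1, ih h.2.2.2.2⟩

theorem good_sum {n : ℕ} {f : Fin n → Tm} (h : ∀ i, Good lo B Γ Λ (f i)) :
    Good lo B Γ Λ (sum f) := by
  induction n with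
  | zero => simp [sum, zero, Good]
  | succ n ih => rw [sum_succ]; exact good_add (h 0) (ih fun i => h i.succ)

theorem top_smul {c a : ℝ} (hc : |c| ≤ a) {u : Tm} (h : Top B Γ Λ u) :
    Top (a * B) Γ (a * Λ) (smul c u) := by
  have ha : 0 ≤ a := (abs_nonneg _).trans hc
  refine ⟨?_, ?_, ?_, ?_, ?_⟩
  · rw [b1_smul, abs_mul]; exact mul_le_mul hc h.h1 (abs_nonneg _) ha
  · rw [b2_smul, abs_mul]; exact mul_le_mul hc h.h2 (abs_nonneg _) ha
  · rw [b3_smul, abs_mul]; exact mul_le_mul hc h.h3 (abs_nonneg _) ha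
  · exact le_trans (by exact_mod_cast cnt_smul_le c u) h.hc
  · rw [wt_smul]; exact mul_le_mul hc h.hw (wt_nonneg _) ha

theorem nice_smul {c : ℝ} (hc : |c| ≤ 1) {u : Tm} (h : Nice lo B Γ Λ u) :
    Nice lo B Γ Λ (smul c u) :=
  ⟨by simpa using top_smul hc h.1, good_smul c h.2⟩

theorem nice_lin {a b : ℝ} (ha : |a| ≤ B) (hb : |b| ≤ B) (hΓ : 0 ≤ Γ) (hΛ : 0 ≤ Λ) :
    Nice lo B Γ Λ (lin a b) :=
  ⟨⟨ha, hb, by simpa [Tm.b3] using (abs_nonneg _).trans ha, by simpa [cnt] using hΓ,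
    by simpa [wt] using hΛ⟩, trivial⟩

theorem good_Gt {s : ℝ} {x : Tm} (h1 : lo ≤ s) (h2 : s ≤ 1) (h : Nice lo B Γ Λ x) :
    Good lo B Γ Λ (Gt s x) := ⟨h1, h2, h.1, h.2, trivial⟩

theorem Gt_spec (s : ℝ) (x : Tm) : (Gt s x).b1 = 0 ∧ (Gt s x).b2 = 0 ∧ (Gt s x).b3 = 1 ∧
    (Gt s x).cnt = 1 ∧ (Gt s x).wt = 1 := by
  simp [Gt, zero, Tm.b1, Tm.b2, Tm.b3, cnt, wt]

theorem zz_spec : zz.b1 = 1 ∧ zz.b2 = 0 ∧ zz.b3 = 0 ∧ zz.cnt = 0 ∧ zz.wt = 0 := by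
  simp [zz, Tm.b1, Tm.b2, Tm.b3, cnt, wt]

theorem ww_spec : ww.b1 = 0 ∧ ww.b2 = 1 ∧ ww.b3 = 0 ∧ ww.cnt = 0 ∧ ww.wt = 0 := by
  simp [ww, Tm.b1, Tm.b2, Tm.b3, cnt, wt]

theorem zero_spec : zero.b1 = 0 ∧ zero.b2 = 0 ∧ zero.b3 = 0 ∧ zero.cnt = 0 ∧ zero.wt = 0 := by
  simp [zero, Tm.b1, Tm.b2, Tm.b3, cnt, wt]

end

section
variable {lo c g l : ℝ}

theorem top_sub (hc : 1 ≤ c) (hg : 0 ≤ g) (hl : 0 ≤ l) {A B t : Tm}
    (ht : Top c (c * g) (c * l) t) (hA : Top c (c * g) (c * l) A) (hB : Top c (c * g) (c * l) B) :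
    Top (3 * c ^ 2) (3 * c ^ 2 * g) (3 * c ^ 2 * l) (sub A B t) := by
  obtain ⟨e1, e2, e3, e4, e5⟩ := sub_spec A B t
  have hc0 : 0 ≤ c := by linarith
  have hm : ∀ {x y : ℝ}, |x| ≤ c → |y| ≤ c → |x * y| ≤ c ^ 2 := fun hx hy => by
    rw [abs_mul, sq]; exact mul_le_mul hx hy (abs_nonneg _) hc0
  have hcc : c ≤ c ^ 2 := by nlinarith
  refine ⟨?_, ?_, ?_, ?_, ?_⟩
  · rw [e1]
    have := (abs_add_le _ _).trans (add_le_add (hm ht.h1 hA.h1) (hm ht.h2 hB.h1))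
    nlinarith
  · rw [e2]
    have := (abs_add_le _ _).trans (add_le_add (hm ht.h1 hA.h2) (hm ht.h2 hB.h2))
    nlinarith
  · rw [e3]
    have := (abs_add_le _ _).trans (add_le_add ((abs_add_le _ _).trans
      (add_le_add (hm ht.h1 hA.h3) (hm ht.h2 hB.h3))) ht.h3)
    nlinarith
  · have h : (sub A B t).cnt ≤ t.cnt + A.cnt + B.cnt := by
      have := cnt_smul_le t.b1 A
      have := cnt_smul_le t.b2 B
      omega
    have h' : ((sub A B t).cnt : ℝ) ≤ t.cnt + A.cnt + B.cnt := by exact_mod_cast h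
    have := mul_le_mul_of_nonneg_right hcc hg
    linarith [ht.hc, hA.hc, hB.hc]
  · rw [e5]
    have a1 : |t.b1| * A.wt ≤ c * (c * l) := mul_le_mul ht.h1 hA.hw (wt_nonneg _) hc0
    have a2 : |t.b2| * B.wt ≤ c * (c * l) := mul_le_mul ht.h2 hB.hw (wt_nonneg _) hc0
    have := mul_le_mul_of_nonneg_right hcc hl
    nlinarith [ht.hw]

theorem good_up {c' : ℝ} (hg : 0 ≤ g) (hl : 0 ≤ l) (h : c ≤ c') {t : Tm}
    (ht : Good lo c (c * g) (c * l) t) : Good lo c' (c' * g) (c' * l) t :=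
  ht.mono h (mul_le_mul_of_nonneg_right h hg) (mul_le_mul_of_nonneg_right h hl)

theorem nice_up {c' : ℝ} (hg : 0 ≤ g) (hl : 0 ≤ l) (h : c ≤ c') {t : Tm}
    (ht : Nice lo c (c * g) (c * l) t) : Nice lo c' (c' * g) (c' * l) t :=
  ht.mono h (mul_le_mul_of_nonneg_right h hg) (mul_le_mul_of_nonneg_right h hl)

theorem le3 (hc : 1 ≤ c) : c ≤ 3 * c ^ 2 := by nlinarith

theorem good_sub (hc : 1 ≤ c) (hg : 0 ≤ g) (hl : 0 ≤ l) {A B t : Tm}
    (ht : Good lo c (c * g) (c * l) t) (hA : Nice lo c (c * g) (c * l) A)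
    (hB : Nice lo c (c * g) (c * l) B) :
    Good lo (3 * c ^ 2) (3 * c ^ 2 * g) (3 * c ^ 2 * l) (sub A B t) := by
  induction t with
  | lin a b =>
    exact good_up hg hl (le3 hc) (good_add (good_smul a hA.2) (good_smul b hB.2))
  | plus a s x r ihx ih =>
    exact ⟨ht.1, ht.2.1, top_sub hc hg hl ht.2.2.1 hA.1 hB.1, ihx ht.2.2.2.1, ih ht.2.2.2.2⟩

theorem nice_sub (hc : 1 ≤ c) (hg : 0 ≤ g) (hl : 0 ≤ l) {A B t : Tm}
    (ht : Nice lo c (c * g) (c * l) t) (hA : Nice lo c (c * g) (c * l) A)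
    (hB : Nice lo c (c * g) (c * l) B) :
    Nice lo (3 * c ^ 2) (3 * c ^ 2 * g) (3 * c ^ 2 * l) (sub A B t) :=
  ⟨top_sub hc hg hl ht.1 hA.1 hB.1, good_sub hc hg hl ht.2 hA hB⟩

theorem nice_zz (hc : 1 ≤ c) (hg : 0 ≤ g) (hl : 0 ≤ l) : Nice lo c (c * g) (c * l) zz :=
  nice_lin (by simpa using hc) (by simp; linarith) (by positivity) (by positivity)

theorem nice_ww (hc : 1 ≤ c) (hg : 0 ≤ g) (hl : 0 ≤ l) : Nice lo c (c * g) (c * l) ww :=
  nice_lin (by simp; linarith) (by simpa using hc) (by positivity) (by positivity)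

end

/-- weighted sums -/
theorem wsum_le {n : ℕ} {w f : Fin n → ℝ} {C a : ℝ} (hw : ∑ i, |w i| ≤ C) (ha : 0 ≤ a)
    (hf : ∀ i, |f i| ≤ a) : |∑ i, w i * f i| ≤ C * a := by
  refine (Finset.abs_sum_le_sum_abs _ _).trans ?_
  calc ∑ i, |w i * f i| ≤ ∑ i, |w i| * a := Finset.sum_le_sum fun i _ => by
        rw [abs_mul]; exact mul_le_mul_of_nonneg_left (hf i) (abs_nonneg _)
    _ = (∑ i, |w i|) * a := by rw [Finset.sum_mul]
    _ ≤ C * a := mul_le_mul_of_nonneg_right hw ha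

theorem comb_b {n : ℕ} (w : Fin n → ℝ) (f : Fin n → Tm) :
    (sum fun i => smul (w i) (f i)).b1 = ∑ i, w i * (f i).b1 ∧
    (sum fun i => smul (w i) (f i)).b2 = ∑ i, w i * (f i).b2 ∧
    (sum fun i => smul (w i) (f i)).b3 = ∑ i, w i * (f i).b3 := by
  simp [sum_spec, b1_smul, b2_smul, b3_smul]

theorem comb_cnt {n : ℕ} (w : Fin n → ℝ) {f : Fin n → Tm} {γ : ℝ} (h : ∀ i, ((f i).cnt : ℝ) ≤ γ) :
    ((sum fun i => smul (w i) (f i)).cnt : ℝ) ≤ n * γ := by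
  rw [(sum_spec _).2.2.2.1]
  push_cast
  refine (Finset.sum_le_sum fun i _ => le_trans (by exact_mod_cast cnt_smul_le _ _) (h i)).trans ?_
  simp

theorem comb_wt {n : ℕ} {w : Fin n → ℝ} {f : Fin n → Tm} {C a : ℝ} (hw : ∑ i, |w i| ≤ C)
    (ha : 0 ≤ a) (h : ∀ i, (f i).wt ≤ a) : (sum fun i => smul (w i) (f i)).wt ≤ C * a := by
  rw [(sum_spec _).2.2.2.2]
  simp only [wt_smul]
  refine (le_abs_self _).trans (wsum_le (by simpa using hw) ha fun i => ?_)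
  rw [abs_of_nonneg (wt_nonneg _)]; exact h i

/-- general Picard bound (few nodes) -/
theorem picT_gen (Cq : ℝ) (hCq : 1 ≤ Cq) (c : ℝ) (hc : 1 ≤ c) (m : ℕ) : ∃ c' : ℝ, c ≤ c' ∧
    ∀ {n : ℕ} (t : Fin n → ℝ) (w : ℝ → Fin n → ℝ) (β : ℝ → Tm × Tm) (lo g l : ℝ), 0 ≤ g → 0 ≤ l →
      (n : ℝ) ≤ Cq → (∀ i, t i ∈ Icc (0 : ℝ) 1) → (∀ τ ∈ Icc (0 : ℝ) 1, ∑ i, |w τ i| ≤ Cq) →
      (∀ i, Nice lo c (c * g) (c * l) (β (t i)).1 ∧ Nice lo c (c * g) (c * l) (β (t i)).2) →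
      ∀ τ ∈ Icc (0 : ℝ) 1, Nice lo c' (c' * g) (c' * l) (picT t w β m τ).1 ∧
        Nice lo c' (c' * g) (c' * l) (picT t w β m τ).2 := by
  induction m with
  | zero =>
    exact ⟨c, le_rfl, fun t w β lo g l hg hl _ _ _ _ τ _ => ⟨nice_zz hc hg hl, nice_ww hc hg hl⟩⟩
  | succ m ih =>
    obtain ⟨c', hc', ih⟩ := ih
    have h1 : 1 ≤ c' := hc.trans hc'
    have h3 : 3 * c' ^ 2 ≤ Cq * (3 * c' ^ 2) := le_mul_of_one_le_left (by positivity) hCq
    have h4 : 3 * c' ^ 2 ≤ 1 + Cq * (3 * c' ^ 2) := by linarith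
    refine ⟨1 + Cq * (3 * c' ^ 2), hc'.trans ((le3 h1).trans h4),
      fun t w β lo g l hg hl hn ht hw hβ τ hτ => ?_⟩
    have key : ∀ (u : Tm) (f : Fin _ → Tm), |u.b1| ≤ 1 → |u.b2| ≤ 1 → u.b3 = 0 → u.cnt = 0 →
        u.wt = 0 → Good lo 0 0 0 u →
        (∀ i, Nice lo (3 * c' ^ 2) (3 * c' ^ 2 * g) (3 * c' ^ 2 * l) (f i)) →
        Nice lo (1 + Cq * (3 * c' ^ 2)) ((1 + Cq * (3 * c' ^ 2)) * g) ((1 + Cq * (3 * c' ^ 2)) * l)
          (add u (sum fun i => smul (w τ i) (f i))) := by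
      intro u f u1 u2 u3 u4 u5 u6 hf
      have h0 : 0 ≤ 3 * c' ^ 2 := by positivity
      refine ⟨⟨?_, ?_, ?_, ?_, ?_⟩, good_add (u6.mono (by positivity) (by positivity)
        (by positivity)) (good_up hg hl h4 (good_sum fun i => good_smul _ (hf i).2))⟩
      · rw [b1_add, (comb_b _ _).1]
        exact (abs_add_le _ _).trans (add_le_add u1 (wsum_le (hw τ hτ) h0 fun i => (hf i).1.h1))
      · rw [b2_add, (comb_b _ _).2.1]
        exact (abs_add_le _ _).trans (add_le_add u2 (wsum_le (hw τ hτ) h0 fun i => (hf i).1.h2))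
      · rw [b3_add, (comb_b _ _).2.2, u3, zero_add]
        linarith [wsum_le (hw τ hτ) h0 fun i => (hf i).1.h3]
      · rw [cnt_add, u4, zero_add]
        refine (comb_cnt _ fun i => (hf i).1.hc).trans ?_
        have := mul_le_mul_of_nonneg_right hn (mul_nonneg h0 hg)
        nlinarith
      · rw [wt_add, u5, zero_add]
        refine (comb_wt (hw τ hτ) (mul_nonneg h0 hl) fun i => (hf i).1.hw).trans ?_
        nlinarith
    have ih' := fun i => ih t w β lo g l hg hl hn ht hw hβ (t i) (ht i)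
    exact ⟨key zz _ (by simp [zz_spec]) (by simp [zz_spec]) zz_spec.2.2.1 zz_spec.2.2.2.1
        zz_spec.2.2.2.2 trivial fun i =>
        nice_sub h1 hg hl (nice_up hg hl hc' (hβ i).1) (ih' i).1 (ih' i).2,
      key ww _ (by simp [ww_spec]) (by simp [ww_spec]) ww_spec.2.2.1 ww_spec.2.2.2.1
        ww_spec.2.2.2.2 trivial fun i =>
        nice_sub h1 hg hl (nice_up hg hl hc' (hβ i).2) (ih' i).1 (ih' i).2⟩

/-- fields without linear part -/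
structure Flat (a3 γ a : ℝ) (u : Tm) : Prop where
  e1 : u.b1 = 0
  e2 : u.b2 = 0
  e3 : |u.b3| ≤ a3
  ec : (u.cnt : ℝ) ≤ γ
  ew : u.wt ≤ a

theorem flat_sub {a3 γ a : ℝ} {u : Tm} (h : Flat a3 γ a u) (A B : Tm) : Flat a3 γ a (sub A B u) := by
  obtain ⟨e1, e2, e3, e4, e5⟩ := sub_spec A B u
  refine ⟨by simp [e1, h.e1, h.e2], by simp [e2, h.e1, h.e2], ?_, ?_, ?_⟩
  · simpa [e3, h.e1, h.e2] using h.e3
  · simpa [e4, h.e1, h.e2, cnt_smul] using h.ec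
  · simpa [e5, h.e1, h.e2] using h.ew

theorem flat_comb {n : ℕ} {w : Fin n → ℝ} {f : Fin n → Tm} {C a3 γ a : ℝ} (hw : ∑ i, |w i| ≤ C)
    (h3 : 0 ≤ a3) (ha : 0 ≤ a) (h : ∀ i, Flat a3 γ a (f i)) :
    Flat (C * a3) (n * γ) (C * a) (sum fun i => smul (w i) (f i)) :=
  ⟨by simp [(comb_b _ _).1, (h _).e1], by simp [(comb_b _ _).2.1, (h _).e2],
    by rw [(comb_b _ _).2.2]; exact wsum_le hw h3 fun i => (h i).e3,
    comb_cnt _ fun i => (h i).ec, comb_wt hw ha fun i => (h i).ew⟩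

theorem picT_top {n : ℕ} {t : Fin n → ℝ} {w : ℝ → Fin n → ℝ} {β : ℝ → Tm × Tm} {C a3 γ a : ℝ}
    (hC : 0 ≤ C) (h3 : 0 ≤ a3) (hγ : 0 ≤ γ) (ha : 0 ≤ a)
    (hβ : ∀ i, Flat a3 γ a (β (t i)).1 ∧ Flat a3 γ a (β (t i)).2) (m : ℕ) {τ : ℝ}
    (hw : ∑ i, |w τ i| ≤ C) :
    ((picT t w β m τ).1.b1 = 1 ∧ (picT t w β m τ).1.b2 = 0 ∧ |(picT t w β m τ).1.b3| ≤ C * a3 ∧
      ((picT t w β m τ).1.cnt : ℝ) ≤ n * γ ∧ (picT t w β m τ).1.wt ≤ C * a) ∧
    ((picT t w β m τ).2.b1 = 0 ∧ (picT t w β m τ).2.b2 = 1 ∧ |(picT t w β m τ).2.b3| ≤ C * a3 ∧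
      ((picT t w β m τ).2.cnt : ℝ) ≤ n * γ ∧ (picT t w β m τ).2.wt ≤ C * a) := by
  cases m with
  | zero =>
    simp only [picT, zz_spec, ww_spec, abs_zero, Nat.cast_zero, true_and]
    exact ⟨⟨by positivity, by positivity, by positivity⟩, by positivity, by positivity, by positivity⟩
  | succ m =>
    have f1 := flat_comb hw h3 ha fun i =>
      flat_sub (hβ i).1 (picT t w β m (t i)).1 (picT t w β m (t i)).2
    have f2 := flat_comb hw h3 ha fun i =>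
      flat_sub (hβ i).2 (picT t w β m (t i)).1 (picT t w β m (t i)).2
    simp only [picT, add_spec, zz_spec, ww_spec, f1.e1, f1.e2, f2.e1, f2.e2, add_zero, zero_add,
      true_and]
    exact ⟨⟨f1.e3, f1.ec, f1.ew⟩, f2.e3, f2.ec, f2.ew⟩

theorem picT_flat (c : ℝ) (hc : 1 ≤ c) (m : ℕ) : ∃ c' : ℝ, c ≤ c' ∧
    ∀ {n : ℕ} (t : Fin n → ℝ) (w : ℝ → Fin n → ℝ) (β : ℝ → Tm × Tm) (lo g l C a3 γ a : ℝ),
      0 ≤ g → 0 ≤ l → 0 ≤ C → 0 ≤ a3 → 0 ≤ γ → 0 ≤ a → C * a3 ≤ c → n * γ ≤ c * g → C * a ≤ c * l →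
      (∀ i, t i ∈ Icc (0 : ℝ) 1) → (∀ τ ∈ Icc (0 : ℝ) 1, ∑ i, |w τ i| ≤ C) →
      (∀ i, Flat a3 γ a (β (t i)).1 ∧ Flat a3 γ a (β (t i)).2) →
      (∀ i, Good lo c (c * g) (c * l) (β (t i)).1 ∧ Good lo c (c * g) (c * l) (β (t i)).2) →
      ∀ τ ∈ Icc (0 : ℝ) 1, Nice lo c' (c' * g) (c' * l) (picT t w β m τ).1 ∧
        Nice lo c' (c' * g) (c' * l) (picT t w β m τ).2 := by
  induction m with
  | zero =>
    exact ⟨c, le_rfl, fun t w β lo g l C a3 γ a hg hl _ _ _ _ _ _ _ _ _ _ _ τ _ =>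
      ⟨nice_zz hc hg hl, nice_ww hc hg hl⟩⟩
  | succ m ih =>
    obtain ⟨c', hc', ih⟩ := ih
    have h1 : 1 ≤ c' := hc.trans hc'
    have h2 : c ≤ 3 * c' ^ 2 := hc'.trans (le3 h1)
    refine ⟨3 * c' ^ 2, h2,
      fun t w β lo g l C a3 γ a hg hl hC h3 hγ ha k1 k2 k3 ht hw hβ hG τ hτ => ?_⟩
    have ih' := fun i => ih t w β lo g l C a3 γ a hg hl hC h3 hγ ha k1 k2 k3 ht hw hβ hG (t i) (ht i)
    obtain ⟨⟨a1, a2, a3', a4, a5⟩, b1', b2', b3', b4, b5⟩ :=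
      picT_top hC h3 hγ ha hβ (m + 1) (hw τ hτ)
    have g1 := mul_le_mul_of_nonneg_right h2 hg
    have g2 := mul_le_mul_of_nonneg_right h2 hl
    refine ⟨⟨⟨by rw [a1]; simp; linarith, by rw [a2]; simp; positivity, by linarith, by linarith,
      by linarith⟩, ?_⟩, ⟨by rw [b1']; simp; positivity, by rw [b2']; simp; linarith, by linarith,
      by linarith, by linarith⟩, ?_⟩
    · exact good_add (show Good _ _ _ _ zz from trivial) (good_sum fun i => good_smul _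
        (good_sub h1 hg hl (good_up hg hl hc' (hG i).1) (ih' i).1 (ih' i).2))
    · exact good_add (show Good _ _ _ _ ww from trivial) (good_sum fun i => good_smul _
        (good_sub h1 hg hl (good_up hg hl hc' (hG i).2) (ih' i).1 (ih' i).2))

/-! ### exact coefficients -/

theorem kmS_const {M : Type} [AddCommGroup M] [Module ℝ M] (m : M) {K N : ℕ} {C : ℝ} (hK : 1 ≤ K)
    (k : Kit K C N) (r0 r1 : ℝ) (y : M) : kmS (fun _ _ => m) k r0 r1 y = y - (r1 - r0) • m := by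
  obtain ⟨K', rfl⟩ : ∃ K', K = K' + 1 := ⟨K - 1, by omega⟩
  have h := k.qN.exact 1 ⟨zero_le_one, le_rfl⟩ 0 (by omega)
  simp only [pow_zero, mul_one, zero_add, one_pow, Nat.cast_zero, div_one] at h
  simp only [kmS, pic]
  rw [← Finset.sum_smul, h, one_smul, neg_smul, sub_eq_add_neg y]

theorem bT_const {M : Type} [AddCommGroup M] [Module ℝ M] (m : M) {K N : ℕ} {C : ℝ} (hK : 1 ≤ K)
    (hN : 1 ≤ N) (k : Kit K C N) (r : ℝ) (p : M × M) : (bT k r).ev (fun _ _ => m) p = 0 := by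
  have hN' : (0 : ℝ) < N := by exact_mod_cast hN
  let L : (M × M) →ₗ[ℝ] (M × M) := LinearMap.prod ((-(1 / (N : ℝ))) • LinearMap.snd ℝ M M)
    ((1 / (N : ℝ)) • LinearMap.fst ℝ M M)
  have hF : (fun (_ : ℝ) => hmcF (fun _ _ => m) (1 / (N : ℝ)) r) =
      fun (s : ℝ) (q : M × M) => (fun _ => L) s (q + (0, r • m)) := by
    funext s q
    simp [hmcF, L, add_comm]
  rw [ev_bT, sub_eq_zero]
  simp only [kmS_const m hK]
  have key : ∀ i, (pic k.q1.t k.q1.w (fun _ => hmcF (fun _ _ => m) (1 / (N : ℝ)) r)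
      (p.1, p.2 - (r - 0) • m) K (k.dq.t i)).2 - (0 - r) • m =
      ∑ j ∈ Finset.range (K + 1), (k.dq.t i ^ j / (j.factorial : ℝ)) • ((L ^ j) p).2 := by
    intro i
    have h1 := pic_shift k.q1.t k.q1.w (fun _ => (L : M × M → M × M)) (p.1, p.2 - (r - 0) • m)
      (0, r • m) K (k.dq.t i)
    have h2 : ((p.1, p.2 - (r - 0) • m) : M × M) + (0, r • m) = p := by simp
    rw [h2, pic_lin k.q1 L p le_rfl (k.dq.t_mem i)] at h1
    have h3 := congrArg Prod.snd h1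
    simp only [Prod.snd_add, Prod.snd_sum, Prod.smul_snd] at h3
    rw [hF, ← h3]
    simp
  simp only [key, Finset.smul_sum, smul_smul]
  rw [Finset.sum_comm]
  have : ∀ j ∈ Finset.range (K + 1), ∑ i, (k.dq.a i * N * (k.dq.t i ^ j / (j.factorial : ℝ))) •
      ((L ^ j) p).2 = if j = 1 then p.1 else 0 := by
    intro j hj
    rw [← Finset.sum_smul]
    have e : ∑ i, (k.dq.a i * N * (k.dq.t i ^ j / (j.factorial : ℝ))) =
        (∑ i, k.dq.a i * k.dq.t i ^ j) * (N / (j.factorial : ℝ)) := by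
      rw [Finset.sum_mul]; exact Finset.sum_congr rfl fun i _ => by ring
    rw [e, k.dq.exact j (by have := Finset.mem_range.1 hj; omega)]
    split_ifs with h
    · subst h
      simp [L, smul_smul, hN'.ne']
    · simp
  rw [Finset.sum_congr rfl this, Finset.sum_ite_eq']
  simp [show 1 < K + 1 by omega]

theorem bT_b {K N : ℕ} {C : ℝ} (hK : 1 ≤ K) (hN : 1 ≤ N) (k : Kit K C N) (r : ℝ) :
    (bT k r).b1 = 0 ∧ (bT k r).b2 = 0 ∧ (bT k r).b3 = 0 := by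
  have h := ev_model (bT k r)
  rw [bT_const _ hK hN] at h
  simpa [Prod.ext_iff, eq_comm] using h

end BuildA

open BuildA

set_option maxHeartbeats 2000000 in
theorem build (K : ℕ) (hK : 1 ≤ K) (Cq : ℝ) (hCq : 1 ≤ Cq) : ∃ C : ℝ, 1 ≤ C ∧
    ∀ (N : ℕ) (k : Kit K Cq N) (κ : ℝ), 1 ≤ N → 0 < κ → κ ≤ 1 / 2 →
      (∀ r0 ∈ Icc 0 (RR κ), ∀ r1 ∈ Icc 0 (RR κ), (kmT k r0 r1).Nice (κ ^ 2) C (C * N) C) ∧
      (∀ r ∈ Icc 0 (RR κ), ∀ t ∈ Icc (0 : ℝ) 1,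
        (hmcT k r t).1.Nice (κ ^ 2) C (C * N) C ∧ (hmcT k r t).2.Nice (κ ^ 2) C (C * N) C) ∧
      (∀ c : ℝ, (outβ k κ c).1.Good (κ ^ 2) C (C * N) C ∧ (outβ k κ c).2.Good (κ ^ 2) C (C * N) C ∧
        (outβ k κ c).1.b1 = 0 ∧ (outβ k κ c).1.b2 = 0 ∧ (outβ k κ c).2.b1 = 0 ∧
        (outβ k κ c).2.b2 = 0 ∧ (outβ k κ c).1.wt ≤ C * (N : ℝ) ^ 3 * |c| ∧
        (outβ k κ c).2.wt ≤ C * (N : ℝ) ^ 3 * |c|) ∧
      (∀ (c : ℝ) (l : Fin k.q1.n),
        (xl k κ c l).Nice (κ ^ 2) C (C * (N : ℝ) ^ 2) (C * (N : ℝ) ^ 3 * (1 + |c|)) ∧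
        (xl k κ c l).b2 = RR κ) ∧
      (smul (RR κ)⁻¹ (kmT k 0 (RR κ))).Nice (κ ^ 2) C (C * N) C := by
  obtain ⟨c1, hc1, H1⟩ := picT_flat Cq hCq K
  have h1 : 1 ≤ c1 := hCq.trans hc1
  obtain ⟨c2, hc2, H2⟩ := picT_gen Cq hCq c1 h1 K
  have h2 : 1 ≤ c2 := h1.trans hc2
  obtain ⟨c3, hc3e⟩ : ∃ c3, c3 = 3 * (3 * c2 ^ 2) ^ 2 := ⟨_, rfl⟩
  have h23 : c2 ≤ 3 * c2 ^ 2 := le3 h2
  have hc3 : c2 ≤ c3 := hc3e ▸ h23.trans (le3 (h2.trans h23))
  have h3 : 1 ≤ c3 := h2.trans hc3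
  obtain ⟨c4, hc4e⟩ : ∃ c4, c4 = 2 * Cq ^ 3 * c3 := ⟨_, rfl⟩
  have hq2 : 1 ≤ Cq ^ 2 := one_le_pow₀ hCq
  have hq3 : 1 ≤ Cq ^ 3 := one_le_pow₀ hCq
  have hc4 : 2 * c3 ≤ c4 := by rw [hc4e]; nlinarith
  have h4 : 1 ≤ c4 := by linarith
  obtain ⟨c5, hc5, H5⟩ := picT_flat c4 h4 K
  have h5 : 1 ≤ c5 := h4.trans hc5
  have h6 : c5 ≤ 3 * c5 ^ 2 := le3 h5
  refine ⟨3 * c5 ^ 2, h5.trans h6, fun N k κ hN hκ0 hκ => ?_⟩
  set C := 3 * c5 ^ 2 with hC
  have hN1 : (1 : ℝ) ≤ N := by exact_mod_cast hN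
  have hN0 : (0 : ℝ) ≤ N := by linarith
  have hR1 := RR_lt_one hκ0 hκ
  have hR2 := half_le_RR hκ0 hκ
  have hRs := RR_sq hκ0 hκ
  have fin : ∀ {c : ℝ} {t : Tm}, c ≤ C → Nice (κ ^ 2) c (c * N) (c * 1) t →
      Nice (κ ^ 2) C (C * N) C t := fun hc h => by simpa using nice_up hN0 zero_le_one hc h
  have finG : ∀ {c : ℝ} {t : Tm}, c ≤ C → Good (κ ^ 2) c (c * N) (c * 1) t →
      Good (κ ^ 2) C (C * N) C t := fun hc h => by simpa using good_up hN0 zero_le_one hc h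
  have hGt : ∀ {c : ℝ}, 1 ≤ c → ∀ r ∈ Icc 0 (RR κ),
      Good (κ ^ 2) c (c * N) (c * 1) (Gt (1 - r ^ 2) (smul r ww)) := by
    intro c hc r hr
    refine good_Gt ?_ ?_ (nice_smul ?_ (nice_ww hc hN0 zero_le_one))
    · nlinarith [hr.1, hr.2]
    · nlinarith
    · rw [abs_of_nonneg hr.1]; linarith [hr.2]
  have hkβ : ∀ r0 ∈ Icc 0 (RR κ), ∀ r1 ∈ Icc 0 (RR κ), ∀ s,
      Flat 1 1 1 (kmβ r0 r1 s).1 ∧ Flat 1 1 1 (kmβ r0 r1 s).2 := by
    intro r0 h0 r1 h1' s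
    have ha : |-(r1 - r0)| ≤ 1 := by
      rw [abs_le]; constructor <;> linarith [h0.1, h0.2, h1'.1, h1'.2]
    refine ⟨⟨zero_spec.1, zero_spec.2.1, by simp [kmβ, zero_spec], by simp [kmβ, zero_spec],
      by simp [kmβ, zero_spec]⟩, ⟨by simp [kmβ, b1_smul, Gt_spec], by simp [kmβ, b2_smul, Gt_spec],
      by simpa only [kmβ, b3_smul, Gt_spec, mul_one] using ha, ?_,
      by simpa only [kmβ, wt_smul, Gt_spec, mul_one] using ha⟩⟩
    have := cnt_smul_le (-(r1 - r0)) (Gt (1 - (r0 + s * (r1 - r0)) ^ 2) (smul (r0 + s * (r1 - r0)) ww))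
    rw [(Gt_spec _ _).2.2.2.1] at this
    simp only [kmβ]
    exact_mod_cast this
  have hkm : ∀ r0 ∈ Icc 0 (RR κ), ∀ r1 ∈ Icc 0 (RR κ),
      (kmT k r0 r1).Nice (κ ^ 2) c1 (c1 * N) (c1 * 1) := by
    intro r0 h0 r1 h1'
    refine (H1 k.qN.t k.qN.w (kmβ r0 r1) (κ ^ 2) N 1 Cq 1 1 1 hN0 zero_le_one (by linarith)
      zero_le_one zero_le_one zero_le_one (by simp) (by simpa using k.qN.n_le) le_rfl k.qN.t_mem
      k.qN.w_sum (fun i => hkβ r0 h0 r1 h1' _) (fun i => ⟨trivial, good_smul _ (hGt hCq _ ?_)⟩)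
      1 ⟨zero_le_one, le_rfl⟩).2
    have ht := k.qN.t_mem i
    constructor <;> nlinarith [h0.1, h0.2, h1'.1, h1'.2, ht.1, ht.2]
  have hkmb : ∀ r0 ∈ Icc 0 (RR κ), ∀ r1 ∈ Icc 0 (RR κ),
      (kmT k r0 r1).b1 = 0 ∧ (kmT k r0 r1).b2 = 1 := by
    intro r0 h0 r1 h1'
    have := (picT_top (w := k.qN.w) (C := Cq) (by linarith) zero_le_one zero_le_one zero_le_one
      (fun i => hkβ r0 h0 r1 h1' (k.qN.t i)) K (k.qN.w_sum 1 ⟨zero_le_one, le_rfl⟩)).2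
    exact ⟨this.1, this.2.1⟩
  have hq1n : (k.q1.n : ℝ) ≤ Cq := by simpa using k.q1.n_le
  have hh : |1 / (N : ℝ)| ≤ 1 := by
    rw [abs_of_nonneg (by positivity), div_le_one (by linarith)]; exact hN1
  have hhm : ∀ r ∈ Icc 0 (RR κ), ∀ t ∈ Icc (0 : ℝ) 1,
      (hmcT k r t).1.Nice (κ ^ 2) c2 (c2 * N) (c2 * 1) ∧
        (hmcT k r t).2.Nice (κ ^ 2) c2 (c2 * N) (c2 * 1) := by
    intro r hr t ht
    have hr1 : |r| ≤ 1 := by rw [abs_of_nonneg hr.1]; linarith [hr.2]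
    refine H2 k.q1.t k.q1.w _ (κ ^ 2) N 1 hN0 zero_le_one hq1n k.q1.t_mem k.q1.w_sum
      (fun i => ⟨nice_smul (by rwa [abs_neg]) ⟨⟨?_, ?_, ?_, ?_, ?_⟩,
        good_add (show Good _ _ _ _ ww from trivial) (good_smul _ (hGt h1 r hr))⟩,
        nice_smul hh (nice_zz h1 hN0 zero_le_one)⟩) t ht
    · simp [b1_add, b1_smul, ww_spec, Gt_spec]; linarith
    · simp [b2_add, b2_smul, ww_spec, Gt_spec]; linarith
    · simp only [b3_add, b3_smul, ww_spec, Gt_spec, zero_add, mul_one]; linarith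
    · have := cnt_smul_le r (Gt (1 - r ^ 2) (smul r ww))
      rw [(Gt_spec _ _).2.2.2.1] at this
      have h' : ((smul r (Gt (1 - r ^ 2) (smul r ww))).cnt : ℝ) ≤ 1 := by exact_mod_cast this
      simp only [cnt_add, ww_spec, zero_add]
      nlinarith
    · simp only [wt_add, wt_smul, ww_spec, Gt_spec, zero_add, mul_one]; linarith
  have h0R : (0 : ℝ) ∈ Icc 0 (RR κ) := ⟨le_rfl, by linarith⟩
  have hRR : RR κ ∈ Icc 0 (RR κ) := ⟨by linarith, le_rfl⟩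
  have hbT : ∀ r ∈ Icc 0 (RR κ), Good (κ ^ 2) c3 (c3 * N) (c3 * 1) (bT k r) ∧
      Flat 0 (Cq * c3 * N) (Cq * c3 * N) (bT k r) := by
    intro r hr
    have hu : ∀ i, Nice (κ ^ 2) c3 (c3 * N) (c3 * 1)
        (sub zz (sub zz (kmT k 0 r) (hmcT k r (k.dq.t i)).2) (kmT k r 0)) := by
      intro i
      rw [hc3e]
      exact nice_sub (h2.trans h23) hN0 zero_le_one
        (nice_up hN0 zero_le_one (hc2.trans h23) (hkm r hr 0 h0R))
        (nice_zz (h2.trans h23) hN0 zero_le_one)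
        (nice_sub h2 hN0 zero_le_one (hhm r hr _ (k.dq.t_mem i)).2 (nice_zz h2 hN0 zero_le_one)
          (nice_up hN0 zero_le_one hc2 (hkm 0 h0R r hr)))
    obtain ⟨e1, e2, e3⟩ := bT_b hK hN k r
    refine ⟨good_add (good_sum fun i => good_smul _ (hu i).2)
      (good_smul _ (show Good _ _ _ _ zz from trivial)), e1, e2, by simp [e3], ?_, ?_⟩
    · have := comb_cnt (fun i => k.dq.a i * N) fun i => (hu i).1.hc
      have h' := mul_le_mul_of_nonneg_right k.dq.n_le (show 0 ≤ c3 * N by positivity)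
      simp only [bT, cnt_add, cnt_smul, zz_spec, ite_self, add_zero]
      linarith
    · have hw : ∑ i, |k.dq.a i * N| ≤ Cq * N := by
        simp only [abs_mul, abs_of_nonneg hN0, ← Finset.sum_mul]
        exact mul_le_mul_of_nonneg_right k.dq.a_sum hN0
      have := comb_wt hw (by positivity) fun i => (hu i).1.hw
      simp only [bT, wt_add, wt_smul, zz_spec, mul_zero, add_zero]
      linarith
  have hRt : ∀ j, RR κ * k.q2.t j ∈ Icc 0 (RR κ) := fun j =>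
    ⟨mul_nonneg (by linarith) (k.q2.t_mem j).1,
      mul_le_of_le_one_right (by linarith) (k.q2.t_mem j).2⟩
  have hR1' : |RR κ| ≤ 1 := by rw [abs_of_nonneg (by linarith)]; linarith
  have hN2 : (N : ℝ) ≤ (N : ℝ) ^ 2 := by nlinarith
  have hN3 : (1 : ℝ) ≤ (N : ℝ) ^ 3 := one_le_pow₀ hN1
  have hout : ∀ c : ℝ, (Good (κ ^ 2) c3 (c3 * N) (c3 * 1) (outβ k κ c).1 ∧
      Good (κ ^ 2) c3 (c3 * N) (c3 * 1) (outβ k κ c).2) ∧
      Flat 0 (2 * Cq ^ 2 * c3 * N ^ 2) (2 * Cq ^ 2 * c3 * N ^ 3 * |c|) (outβ k κ c).1 ∧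
      Flat 0 (2 * Cq ^ 2 * c3 * N ^ 2) (2 * Cq ^ 2 * c3 * N ^ 3 * |c|) (outβ k κ c).2 := by
    intro c
    have hq : 1 ≤ Cq ^ 2 * c3 := one_le_mul_of_one_le_of_one_le hq2 h3
    refine ⟨⟨good_smul _ (good_add (good_Gt le_rfl (by nlinarith) (nice_smul hR1'
      (nice_up hN0 zero_le_one (hc2.trans hc3) (hkm 0 h0R _ hRR)))) (good_smul _
      (good_Gt (by nlinarith) le_rfl (nice_lin (by simp; linarith) (by simp; linarith)
        (by positivity) (by positivity))))),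
      good_sum fun j => good_smul _ (hbT _ (hRt j)).1⟩, ⟨?_, ?_, ?_, ?_, ?_⟩, ?_⟩
    · simp [outβ, b1_smul, b1_add, Gt_spec]
    · simp [outβ, b2_smul, b2_add, Gt_spec]
    · simp [outβ, b3_smul, b3_add, Gt_spec]
    · have : (outβ k κ c).1.cnt ≤ 2 := by
        refine (cnt_smul_le _ _).trans ?_
        simp [cnt_add, cnt_smul, Gt_spec]
      have h' : ((outβ k κ c).1.cnt : ℝ) ≤ 2 := by exact_mod_cast this
      have : 1 ≤ Cq ^ 2 * c3 * N ^ 2 := one_le_mul_of_one_le_of_one_le hq (hN1.trans hN2)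
      linarith
    · have : 1 ≤ Cq ^ 2 * c3 * N ^ 3 := one_le_mul_of_one_le_of_one_le hq hN3
      have e : (outβ k κ c).1.wt = 2 * |c| := by
        simp [outβ, wt_smul, wt_add, Gt_spec]; ring
      rw [e]
      nlinarith [abs_nonneg c]
    · have hw : ∑ j, |-(c * (k.q2.v j / RR κ))| ≤ 2 * Cq * N ^ 2 * |c| := by
        have : ∀ j, |-(c * (k.q2.v j / RR κ))| ≤ 2 * |c| * |k.q2.v j| := by
          intro j
          rw [abs_neg, abs_mul, abs_div, abs_of_nonneg (show 0 ≤ RR κ by linarith)]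
          have : |k.q2.v j| / RR κ ≤ 2 * |k.q2.v j| := by
            rw [div_le_iff₀ (by linarith)]; nlinarith [abs_nonneg (k.q2.v j)]
          nlinarith [abs_nonneg c]
        refine (Finset.sum_le_sum fun j _ => this j).trans ?_
        rw [← Finset.mul_sum]
        have := mul_le_mul_of_nonneg_left k.q2.v_sum (show 0 ≤ 2 * |c| by positivity)
        linarith
      have f := flat_comb hw le_rfl (by positivity) fun j => (hbT _ (hRt j)).2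
      refine ⟨f.e1, f.e2, f.e3.trans (by simp), f.ec.trans ?_, f.ew.trans (le_of_eq (by ring))⟩
      have := mul_le_mul_of_nonneg_right k.q2.n_le (show 0 ≤ Cq * c3 * N by positivity)
      have h' : 0 ≤ Cq ^ 2 * c3 * N ^ 2 := by positivity
      nlinarith
  have hc14 : c1 ≤ c4 := by linarith
  have hc4C : c4 ≤ C := hc5.trans h6
  refine ⟨fun r0 h0 r1 h1' => fin (hc14.trans hc4C) (hkm r0 h0 r1 h1'), fun r hr t ht =>
    ⟨fin (by linarith) (hhm r hr t ht).1, fin (by linarith) (hhm r hr t ht).2⟩, fun c => ?_,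
    fun c l => ?_, ?_⟩
  · obtain ⟨⟨g1, g2⟩, f1, f2⟩ := hout c
    have hle : 2 * Cq ^ 2 * c3 * N ^ 3 * |c| ≤ C * N ^ 3 * |c| := by
      have : 2 * Cq ^ 2 * c3 ≤ C := by
        refine le_trans ?_ hc4C
        rw [hc4e]
        have : Cq ^ 2 ≤ Cq ^ 3 := pow_le_pow_right₀ hCq (by omega)
        gcongr
      gcongr
    exact ⟨finG (by linarith) g1, finG (by linarith) g2, f1.e1, f1.e2, f2.e1, f2.e2,
      f1.ew.trans hle, f2.ew.trans hle⟩
  · obtain ⟨⟨g1, g2⟩, f1, f2⟩ := hout c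
    have hl1 : (1 : ℝ) ≤ N ^ 3 * (1 + |c|) :=
      one_le_mul_of_one_le_of_one_le hN3 (by linarith [abs_nonneg c])
    have up : ∀ {a b : ℝ} {t : Tm}, 0 ≤ a → a ≤ b → Good (κ ^ 2) a (a * N) (a * 1) t →
        Good (κ ^ 2) b (b * N ^ 2) (b * (N ^ 3 * (1 + |c|))) t := fun ha hab h =>
      h.mono hab (mul_le_mul hab hN2 hN0 (ha.trans hab))
        (mul_le_mul hab hl1 zero_le_one (ha.trans hab))
    have hP := H5 k.q1.t k.q1.w (fun _ => outβ k κ c) (κ ^ 2) (N ^ 2) (N ^ 3 * (1 + |c|)) Cq 0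
      (2 * Cq ^ 2 * c3 * N ^ 2) (2 * Cq ^ 2 * c3 * N ^ 3 * |c|) (by positivity) (by positivity)
      (by linarith) le_rfl (by positivity) (by positivity) (by linarith)
      (by
        have := mul_le_mul_of_nonneg_right hq1n (show 0 ≤ 2 * Cq ^ 2 * c3 * N ^ 2 by positivity)
        rw [hc4e]; linarith)
      (by
        have : 0 ≤ 2 * Cq ^ 3 * c3 * N ^ 3 := by positivity
        rw [hc4e]; nlinarith)
      k.q1.t_mem k.q1.w_sum (fun _ => ⟨f1, f2⟩)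
      (fun _ => ⟨up (by linarith) (by linarith) g1, up (by linarith) (by linarith) g2⟩)
      (k.q1.t l) (k.q1.t_mem l)
    have hk := hkm 0 h0R _ hRR
    have hk' : Nice (κ ^ 2) c5 (c5 * N ^ 2) (c5 * (N ^ 3 * (1 + |c|))) (kmT k 0 (RR κ)) :=
      hk.mono (by linarith) (mul_le_mul (by linarith) hN2 hN0 (by linarith))
        (mul_le_mul (by linarith) hl1 zero_le_one (by linarith))
    refine ⟨?_, ?_⟩
    · have := nice_smul hR1' (nice_sub h5 (by positivity) (by positivity) hk' hP.1 hP.2)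
      rw [mul_assoc C]
      exact this
    · have ht := picT_top (t := k.q1.t) (w := k.q1.w) (β := fun _ => outβ k κ c) (C := Cq)
        (by linarith) le_rfl (by positivity) (by positivity) (fun _ => ⟨f1, f2⟩) K
        (k.q1.w_sum _ (k.q1.t_mem l))
      simp only [xl, outT, b2_smul, (sub_spec _ _ _).2.1, (hkmb 0 h0R _ hRR).1,
        (hkmb 0 h0R _ hRR).2, ht.2.2.1]
      ring
  · have hk := hkm 0 h0R _ hRR
    have hi : |(RR κ)⁻¹| ≤ 2 := by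
      rw [abs_of_nonneg (by positivity), inv_le_comm₀ (by linarith) (by norm_num)]
      linarith
    refine ⟨(top_smul hi hk.1).mono (by linarith) ?_ (by linarith),
      finG (hc14.trans hc4C) (good_smul _ hk.2)⟩
    exact mul_le_mul_of_nonneg_right (hc14.trans hc4C) hN0

end Crest.Agent.R285
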