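import Crest.Agent.R285.Lie
import Crest.Agent.R285.Quad

/-!
# R285 Coll: the Picard iteration follows the truncated Lie series.

`Y τ = lieS B K M τ p` is a polynomial of degree `K` in `τ`; with
`Y' t = ∑ m < K, t^m/m! • (XV B)^[m+1] M p`, `Quad.exact` gives `Y τ = Y 0 + ∑ i, w τ i • Y' (t i)`, so
`pic_err` applies with `ϱ p = C ∑ i ‖Y' (t i) - β (Y (t i))‖`, `S p = ∑_{1 ≤ m ≤ K} ‖(XV B)^[m] M p‖`.
`Y' t = lieS B K (XV B M) t p - t^K/K! • (XV B)^[K+1] M p` (`Function.iterate_succ`), and `lie_weak2` for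
`(M, XV B M)` with `f (y, ψ) = ‖ψ - β y‖` (Lipschitz constant `1 + l`) bounds
`∫ ‖lieS (XV B M) t - β (Y t)‖ ≤ η + (1 + l) (2ρ)`.  Integrability: `pic` is Lipschitz in the starting
point, or use the pointwise bound and continuity.
-/

set_option autoImplicit false

namespace Crest.Agent.R285

open MeasureTheory Set
open scoped ContDiff

theorem pic_continuous {Q : Type} [NormedAddCommGroup Q] [NormedSpace ℝ Q] {n : ℕ} (t : Fin n → ℝ)
    (w : ℝ → Fin n → ℝ) {β : ℝ → Q → Q} (hβ : ∀ i, Continuous (β (t i))) (k : ℕ) (τ : ℝ) :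
    Continuous (fun p0 => pic t w β p0 k τ) := by
  induction k generalizing τ with
  | zero => exact continuous_id
  | succ k ih =>
    simp only [pic]
    exact continuous_id.add (continuous_finsetSum _ fun i _ =>
      ((hβ i).comp (ih (t i))).const_smul _)

theorem coll {P : Type} [NormedAddCommGroup P] [NormedSpace ℝ P] [MeasurableSpace P]
    [BorelSpace P] [SecondCountableTopology P] {Q : Type} [NormedAddCommGroup Q] [NormedSpace ℝ Q]
    [FiniteDimensional ℝ Q] {μ : Measure P} {B : P → P} (h : SF μ B) {M : P → Q} (hM : TG M)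
    {K : ℕ} {C : ℝ} (q : Quad K C 1) {β : Q → Q} {l η ρ S : ℝ} (hl : 0 ≤ l)
    (hβ : ∀ x y, ‖β x - β y‖ ≤ l * ‖x - y‖)
    (hη : ∫ p, ‖XV B M p - β (M p)‖ ∂μ ≤ η)
    (hρ1 : ∫ p, ‖(XV B)^[K + 1] M p‖ ∂μ ≤ ρ) (hρ2 : ∫ p, ‖(XV B)^[K + 2] M p‖ ∂μ ≤ ρ)
    (hS : ∀ m, 1 ≤ m → m ≤ K → ∫ p, ‖(XV B)^[m] M p‖ ∂μ ≤ S) (k : ℕ) {τ : ℝ}
    (hτ : τ ∈ Icc (0 : ℝ) 1) :
    L1le μ (fun p => pic q.t q.w (fun _ => β) (M p) k τ - lieS B K M τ p)
      ((∑ i ∈ Finset.range k, (C * l) ^ i) * (C ^ 2 * (η + (3 + 2 * l) * ρ)) +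
        (C * l) ^ k * (K * S)) := by
  have hpm := h.pm
  have hB := h.tg
  have hC0 : 0 ≤ C := (Finset.sum_nonneg fun i _ => abs_nonneg _).trans (q.w_sum τ hτ)
  have hβc : Continuous β := by
    have : LipschitzWith ⟨l, hl⟩ β := LipschitzWith.of_dist_le_mul fun x y => by
      rw [dist_eq_norm, dist_eq_norm]; exact hβ x y
    exact this.continuous
  have hX : ∀ m, Integrable ((XV B)^[m] M) μ := fun m => tg_integrable hpm (tg_xv_iter hB hM m)
  have hβi : ∀ {F : P → Q}, TG F → Integrable (fun p => β (F p)) μ := fun {F} hF =>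
    polyG_integrable hpm (hβc.comp hF.1.continuous) (polyG_comp (polyG_of_lip hβ) (tg_polyG hF))
  have hη0 : 0 ≤ η := (integral_nonneg fun p => norm_nonneg _).trans hη
  have hρ0 : 0 ≤ ρ := (integral_nonneg fun p => norm_nonneg _).trans hρ1
  let Y' : ℝ → P → Q := fun t p =>
    ∑ m ∈ Finset.range K, (t ^ m / (m.factorial : ℝ)) • (XV B)^[m + 1] M p
  have hY' : ∀ t p, Y' t p = lieS B K (XV B M) t p - (t ^ K / (K.factorial : ℝ)) •
      (XV B)^[K + 1] M p := by
    intro t p
    simp only [Y', lieS, Finset.sum_range_succ, Function.iterate_succ, Function.comp_apply]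
    abel
  have hY : ∀ t p, lieS B K M t p - M p =
      ∑ m ∈ Finset.range K, (t ^ (m + 1) / ((m + 1).factorial : ℝ)) • (XV B)^[m + 1] M p := by
    intro t p
    simp only [lieS, Finset.sum_range_succ']
    simp
  let D : Fin q.n → P → Q := fun i p => Y' (q.t i) p - β (lieS B K M (q.t i) p)
  have hL : ∀ t, Integrable (fun p => lieS B K (XV B M) t p - β (lieS B K M t p)) μ := fun t =>
    (tg_integrable hpm (lieS_tg hB (tg_xv hB hM) K t)).sub (hβi (lieS_tg hB hM K t))
  have hDeq : ∀ i, D i = fun p => (lieS B K (XV B M) (q.t i) p - β (lieS B K M (q.t i) p)) -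
      (q.t i ^ K / (K.factorial : ℝ)) • (XV B)^[K + 1] M p := by
    intro i; funext p; simp only [D, hY']; abel
  have hDi : ∀ i, Integrable (D i) μ := fun i => by
    rw [hDeq]; exact (hL _).sub ((hX _).smul (q.t i ^ K / (K.factorial : ℝ)))
  have hfac : ∀ (t : ℝ) (m : ℕ), t ∈ Icc (0 : ℝ) 1 → |t ^ m / (m.factorial : ℝ)| ≤ 1 := by
    intro t m ht
    have h1 : (1 : ℝ) ≤ m.factorial := by exact_mod_cast m.factorial_pos
    rw [abs_of_nonneg (by have := ht.1; positivity), div_le_one (by linarith)]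
    exact (pow_le_one₀ ht.1 ht.2).trans h1
  have hDb : ∀ i, ∫ p, ‖D i p‖ ∂μ ≤ η + (3 + 2 * l) * ρ := by
    intro i
    have hw := lie_weak2 h hM (tg_xv hB hM) K (f := fun z : Q × Q => ‖z.2 - β z.1‖) (L := 1 + l)
      (by linarith) (fun x y => by
        refine (abs_norm_sub_norm_le _ _).trans ?_
        have e : x.2 - β x.1 - (y.2 - β y.1) = (x.2 - y.2) - (β x.1 - β y.1) := by abel
        rw [e]
        refine (norm_sub_le _ _).trans ?_
        have a1 : ‖x.2 - y.2‖ ≤ ‖x - y‖ := norm_snd_le (x - y)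
        have a2 : ‖x.1 - y.1‖ ≤ ‖x - y‖ := norm_fst_le (x - y)
        have a3 := (hβ x.1 y.1).trans (mul_le_mul_of_nonneg_left a2 hl)
        linarith) (q.t_mem i)
    have e2 : (XV B)^[K + 1] (XV B M) = (XV B)^[K + 2] M := rfl
    rw [e2] at hw
    have hw2 := (abs_le.1 hw).2
    simp only at hw2
    have hw3 : (1 + l) * (∫ p, ‖(XV B)^[K + 1] M p‖ ∂μ + ∫ p, ‖(XV B)^[K + 2] M p‖ ∂μ) ≤
        (1 + l) * (ρ + ρ) := mul_le_mul_of_nonneg_left (add_le_add hρ1 hρ2) (by linarith)
    have h4 : ∫ p, ‖D i p‖ ∂μ ≤ ∫ p, (‖lieS B K (XV B M) (q.t i) p - β (lieS B K M (q.t i) p)‖ +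
        ‖(XV B)^[K + 1] M p‖) ∂μ := by
      refine integral_mono (hDi i).norm ((hL _).norm.add (hX _).norm) fun p => ?_
      rw [hDeq]
      refine (norm_sub_le _ _).trans (add_le_add le_rfl ?_)
      rw [norm_smul, Real.norm_eq_abs]
      exact mul_le_of_le_one_left (norm_nonneg _) (hfac _ _ (q.t_mem i))
    rw [integral_add (hL _).norm (hX _).norm] at h4
    linarith
  let ϱ : P → ℝ := fun p => C * ∑ i, ‖D i p‖
  let S' : P → ℝ := fun p => ∑ m ∈ Finset.range K, ‖(XV B)^[m + 1] M p‖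
  have hϱi : Integrable ϱ μ := (integrable_finsetSum _ fun i _ => (hDi i).norm).const_mul C
  have hSi : Integrable S' μ := integrable_finsetSum _ fun m _ => (hX _).norm
  have hϱb : ∫ p, ϱ p ∂μ ≤ C ^ 2 * (η + (3 + 2 * l) * ρ) := by
    simp only [ϱ]
    rw [integral_const_mul, integral_finsetSum _ fun i _ => (hDi i).norm, sq, mul_assoc]
    refine mul_le_mul_of_nonneg_left ?_ hC0
    refine (Finset.sum_le_sum fun i _ => hDb i).trans ?_
    simp only [Finset.sum_const, Finset.card_univ, Fintype.card_fin, nsmul_eq_mul]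
    have := q.n_le
    simp only [Nat.cast_one, mul_one] at this
    exact mul_le_mul_of_nonneg_right this (by positivity)
  have hSb : ∫ p, S' p ∂μ ≤ K * S := by
    simp only [S']
    rw [integral_finsetSum _ fun m _ => (hX _).norm]
    refine (Finset.sum_le_sum fun m hm => hS (m + 1) (by omega)
      (Finset.mem_range.1 hm)).trans ?_
    simp
  have hpt : ∀ p, ‖pic q.t q.w (fun _ => β) (M p) k τ - lieS B K M τ p‖ ≤
      (∑ i ∈ Finset.range k, (C * l) ^ i) * ϱ p + (C * l) ^ k * S' p := by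
    intro p
    have := pic_err (y := fun t => lieS B K M t p) (β := fun _ => β) (ϱ := ϱ p) (S := S' p)
      q.t_mem q.w_sum hl (fun _ => hβ) (fun σ hσ => ?_) (fun σ hσ => ?_) k hτ
    · simpa only [lieS_zero] using this
    · simp only [lieS_zero]
      have e1 : lieS B K M σ p - M p = ∑ i, q.w σ i • Y' (q.t i) p := by
        rw [hY]
        simp only [Y', Finset.smul_sum, smul_smul]
        rw [Finset.sum_comm]
        refine Finset.sum_congr rfl fun m hm => ?_
        rw [← Finset.sum_smul]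
        congr 1
        simp only [← mul_div_assoc]
        rw [← Finset.sum_div, q.exact σ hσ m (Finset.mem_range.1 hm), Nat.factorial_succ]
        push_cast
        rw [div_div]
      rw [e1, ← Finset.sum_sub_distrib]
      refine (norm_sum_le _ _).trans ?_
      simp only [ϱ, Finset.mul_sum]
      refine Finset.sum_le_sum fun i _ => ?_
      rw [← smul_sub, norm_smul, Real.norm_eq_abs]
      refine mul_le_mul_of_nonneg_right ?_ (norm_nonneg _)
      exact (Finset.single_le_sum (f := fun i => |q.w σ i|) (fun i _ => abs_nonneg _)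
        (Finset.mem_univ i)).trans (q.w_sum σ hσ)
    · simp only [lieS_zero]
      rw [hY]
      refine (norm_sum_le _ _).trans (Finset.sum_le_sum fun m _ => ?_)
      rw [norm_smul, Real.norm_eq_abs]
      exact mul_le_of_le_one_left (norm_nonneg _) (hfac _ _ hσ)
  have hbi : Integrable (fun p => (∑ i ∈ Finset.range k, (C * l) ^ i) * ϱ p +
      (C * l) ^ k * S' p) μ := (hϱi.const_mul _).add (hSi.const_mul _)
  have hcont : Continuous fun p => pic q.t q.w (fun _ => β) (M p) k τ - lieS B K M τ p :=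
    ((pic_continuous q.t q.w (β := fun _ => β) (fun _ => hβc) k τ).comp hM.1.continuous).sub
      (lieS_tg hB hM K τ).1.continuous
  have hint : Integrable (fun p => pic q.t q.w (fun _ => β) (M p) k τ - lieS B K M τ p) μ :=
    hbi.mono' hcont.aestronglyMeasurable (Filter.Eventually.of_forall hpt)
  refine ⟨hint, (integral_mono hint.norm hbi hpt).trans ?_⟩
  rw [integral_add (hϱi.const_mul _) (hSi.const_mul _), integral_const_mul _ ϱ,
    integral_const_mul _ S']
  have : 0 ≤ C * l := mul_nonneg hC0 hl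
  exact add_le_add (mul_le_mul_of_nonneg_left hϱb (by positivity))
    (mul_le_mul_of_nonneg_left hSb (by positivity))

end Crest.Agent.R285
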