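import Crest.Agent.R285.Tilt

/-!
# R285 MomA: smoothness of `Mom W φ (s, x) = ∫ φ z exp (-W z - ‖z - x‖²/(2s)) dz`.

`HasFDerivAt` by `hasFDerivAt_integral_of_dominated_of_fderiv_le` on a small ball around `p ∈ UU`
(dominate using `W z ≥ -C (1 + ‖z‖)` and `‖z - x‖²/(2s) ≥ c‖z‖² - C`).  The derivative of `ker W · z`
at `p` in direction `(σ, v)` is `ker W p z * (σ ‖z - x‖²/(2s²) + ⟪z - x, v⟫/s)`.  Expanding in
coordinates, `fderiv (Mom W φ) p` is a finite combination, with coefficients smooth on `UU`, of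
`Mom W φ`, `Mom W (φ * z c)`, `Mom W (φ * ‖z‖²)` times fixed linear forms, so `ContDiffOn ℝ n` follows by
induction on `n` for all `φ` simultaneously (`contDiffOn_succ_iff_fderiv_of_isOpen`,
`contDiffOn_infty`).
-/

set_option autoImplicit false

namespace Crest.Agent.R285

open MeasureTheory Set
open scoped ContDiff

variable {d : ℕ} {W : E d → ℝ} {δ : ℝ} {φ : E d → ℝ} {p : ℝ × E d}

theorem mom_integrable (hW : Pot δ W) (hφ : Continuous φ) (hp : PolyG φ) (h : p ∈ UU d) :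
    Integrable (fun z => φ z * ker W p z) := by
  have := conf_integrable (nu_conf hW h p.2) hφ.aestronglyMeasurable hp
  refine this.congr (ae_of_all _ fun z => ?_)
  simp only [ker, smul_eq_mul]
  ring

theorem mom_one_pos (hW : Pot δ W) (h : p ∈ UU d) : 0 < Mom W (fun _ => 1) p := by
  have := conf_Z_pos (nu_conf hW h p.2)
  simpa [Mom, ker] using this

theorem integral_nu (W : E d → ℝ) (φ : E d → ℝ) (s : ℝ) (x : E d) :
    ∫ z, φ z ∂(nu W s x) = Mom W φ (s, x) / Mom W (fun _ => 1) (s, x) := by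
  unfold nu
  rw [integral_gib, smul_eq_mul, div_eq_inv_mul]
  simp only [Mom, ker, one_mul, smul_eq_mul]
  congr 2
  funext z
  ring

namespace MomAA

/-- the logarithmic derivative of the kernel -/
noncomputable def LK (q : ℝ × E d) (z : E d) : ℝ × E d →L[ℝ] ℝ :=
  (‖z - q.2‖ ^ 2 / (2 * q.1 ^ 2)) • ContinuousLinearMap.fst ℝ ℝ (E d) +
    (q.1)⁻¹ • (innerSL ℝ (z - q.2)).comp (ContinuousLinearMap.snd ℝ ℝ (E d))

theorem LK_apply (q : ℝ × E d) (z : E d) (v : ℝ × E d) :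
    LK q z v = v.1 * ‖z - q.2‖ ^ 2 / (2 * q.1 ^ 2) + inner ℝ (z - q.2) v.2 / q.1 := by
  simp only [LK, add_apply, smul_apply, ContinuousLinearMap.coe_fst', smul_eq_mul,
    ContinuousLinearMap.comp_apply, ContinuousLinearMap.coe_snd', innerSL_apply_apply]
  ring

theorem LK_norm (q : ℝ × E d) (hq : 0 < q.1) (z : E d) :
    ‖LK q z‖ ≤ ‖z - q.2‖ ^ 2 / (2 * q.1 ^ 2) + ‖z - q.2‖ / q.1 := by
  refine ContinuousLinearMap.opNorm_le_bound _ (by positivity) fun v => ?_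
  rw [LK_apply, Real.norm_eq_abs]
  have h1 : |v.1| ≤ ‖v‖ := norm_fst_le v
  have h2 : |inner ℝ (z - q.2) v.2| ≤ ‖z - q.2‖ * ‖v‖ :=
    (abs_real_inner_le_norm _ _).trans (mul_le_mul_of_nonneg_left (norm_snd_le v) (norm_nonneg _))
  refine (abs_add_le _ _).trans ?_
  rw [abs_div, abs_div, abs_mul, abs_of_pos hq, abs_of_pos (by positivity : 0 < 2 * q.1 ^ 2),
    abs_of_nonneg (by positivity : 0 ≤ ‖z - q.2‖ ^ 2)]
  calc |v.1| * ‖z - q.2‖ ^ 2 / (2 * q.1 ^ 2) + |inner ℝ (z - q.2) v.2| / q.1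
      ≤ ‖v‖ * ‖z - q.2‖ ^ 2 / (2 * q.1 ^ 2) + ‖z - q.2‖ * ‖v‖ / q.1 := by gcongr
    _ = _ := by ring

theorem ker_hasFDerivAt (W : E d → ℝ) (z : E d) {q : ℝ × E d} (hq : 0 < q.1) :
    HasFDerivAt (fun q => ker W q z) (ker W q z • LK q z) q := by
  have h1 : HasFDerivAt (fun q : ℝ × E d => z - q.2) (-ContinuousLinearMap.snd ℝ ℝ (E d)) q :=
    (hasFDerivAt_snd (𝕜 := ℝ) (p := q)).const_sub z
  have h2 := (TiltA.hasFDerivAt_half_sq (z - q.2)).comp q h1
  have h3 : HasFDerivAt (fun q : ℝ × E d => (q.1)⁻¹)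
      ((-(q.1 ^ 2)⁻¹) • ContinuousLinearMap.fst ℝ ℝ (E d)) q :=
    (hasDerivAt_inv hq.ne').comp_hasFDerivAt q (hasFDerivAt_fst (𝕜 := ℝ) (p := q))
  have h4 := ((h2.mul h3).const_add (W z)).neg.exp
  have e : (fun q : ℝ × E d => ker W q z) = fun q : ℝ × E d =>
      Real.exp (-(W z + ‖z - q.2‖ ^ 2 / 2 * (q.1)⁻¹)) := by
    funext q; unfold ker; congr 3; ring
  have e' : ker W q z = Real.exp (-(W z + ‖z - q.2‖ ^ 2 / 2 * (q.1)⁻¹)) := congrFun e q
  rw [e, e']
  refine h4.congr_fderiv ?_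
  ext v
  · simp [LK_apply]; ring
  · simp [LK_apply, inner_sub_left]; ring

theorem polyG_sub_const (x : E d) : PolyG (fun z : E d => ‖z - x‖) :=
  polyG_norm (polyG_sub polyG_id (polyG_const x))

theorem mom_hasFDerivAt (hW : Pot δ W) (hφ : Continuous φ) (hp : PolyG φ) (h : p ∈ UU d) :
    HasFDerivAt (Mom W φ) (∫ z, (φ z * ker W p z) • LK p z) p ∧
      Integrable (fun z => (φ z * ker W p z) • LK p z) := by
  have hs : 0 < p.1 := h
  have hWc := hW.c2.continuous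
  set S : Set (ℝ × E d) := {q | p.1 / 2 < q.1 ∧ q.1 < 2 * p.1 ∧ ‖q.2 - p.2‖ < 1} with hS
  have hSo : IsOpen S := by
    refine (isOpen_lt continuous_const continuous_fst).inter
      ((isOpen_lt continuous_fst continuous_const).inter
        (isOpen_lt (continuous_snd.sub continuous_const).norm continuous_const))
  have hpS : p ∈ S := ⟨by linarith, by linarith, by simp⟩
  set ψ : E d → ℝ := fun z => Real.exp (1 / (4 * p.1)) * (‖φ z‖ *
    (2 / p.1 ^ 2 * ((‖z - p.2‖ + 1) * (‖z - p.2‖ + 1)) + 2 / p.1 * (‖z - p.2‖ + 1))) with hψ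
  have hψc : Continuous ψ := by simp only [hψ]; fun_prop
  have pa : PolyG (fun z : E d => ‖z - p.2‖ + 1) := polyG_add (polyG_sub_const _) (polyG_const _)
  have hψp : PolyG ψ := polyG_mul (polyG_const _) (polyG_mul (polyG_norm hp)
    (polyG_add (polyG_mul (polyG_const _) (polyG_mul pa pa)) (polyG_mul (polyG_const _) pa)))
  have hbi : Integrable (fun z => ψ z * ker W (4 * p.1, p.2) z) :=
    mom_integrable hW hψc hψp (show 0 < 4 * p.1 by positivity)
  have hbound : ∀ z, ∀ q ∈ S, ‖(φ z * ker W q z) • LK q z‖ ≤ ψ z * ker W (4 * p.1, p.2) z := by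
    rintro z q ⟨q1, q2, q3⟩
    have hq : 0 < q.1 := by linarith
    have t1 : ‖z - q.2‖ ≤ ‖z - p.2‖ + 1 := by
      have := norm_sub_le_norm_sub_add_norm_sub z p.2 q.2
      rw [norm_sub_rev p.2] at this
      linarith
    have t2 : ‖z - p.2‖ ≤ ‖z - q.2‖ + 1 := by
      have := norm_sub_le_norm_sub_add_norm_sub z q.2 p.2
      linarith
    have t3 : ‖z - p.2‖ ^ 2 ≤ 2 * ‖z - q.2‖ ^ 2 + 2 := by
      have := pow_le_pow_left₀ (norm_nonneg _) t2 2
      nlinarith [sq_nonneg (‖z - q.2‖ - 1)]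
    have k1 : ker W q z ≤ Real.exp (1 / (4 * p.1)) * ker W (4 * p.1, p.2) z := by
      unfold ker
      rw [← Real.exp_add]
      apply Real.exp_le_exp.2
      have a1 : ‖z - q.2‖ ^ 2 / (4 * p.1) ≤ ‖z - q.2‖ ^ 2 / (2 * q.1) :=
        div_le_div_of_nonneg_left (by positivity) (by positivity) (by linarith)
      have a2 : ‖z - p.2‖ ^ 2 / (2 * (4 * p.1)) ≤ (2 * ‖z - q.2‖ ^ 2 + 2) / (2 * (4 * p.1)) := by
        gcongr
      have a3 : (2 * ‖z - q.2‖ ^ 2 + 2) / (2 * (4 * p.1)) =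
          ‖z - q.2‖ ^ 2 / (4 * p.1) + 1 / (4 * p.1) := by field_simp
      simp only
      linarith
    have k2 : ‖LK q z‖ ≤
        2 / p.1 ^ 2 * ((‖z - p.2‖ + 1) * (‖z - p.2‖ + 1)) + 2 / p.1 * (‖z - p.2‖ + 1) := by
      refine (LK_norm q hq z).trans ?_
      calc ‖z - q.2‖ ^ 2 / (2 * q.1 ^ 2) + ‖z - q.2‖ / q.1
          ≤ (‖z - p.2‖ + 1) ^ 2 / (2 * (p.1 / 2) ^ 2) + (‖z - p.2‖ + 1) / (p.1 / 2) := by
            gcongr
        _ = _ := by field_simp
    have k0 : 0 < ker W q z := Real.exp_pos _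
    have k0' : 0 < ker W (4 * p.1, p.2) z := Real.exp_pos _
    rw [norm_smul, norm_mul, Real.norm_of_nonneg k0.le]
    calc ‖φ z‖ * ker W q z * ‖LK q z‖
        ≤ ‖φ z‖ * (Real.exp (1 / (4 * p.1)) * ker W (4 * p.1, p.2) z) *
          (2 / p.1 ^ 2 * ((‖z - p.2‖ + 1) * (‖z - p.2‖ + 1)) + 2 / p.1 * (‖z - p.2‖ + 1)) := by
          gcongr
      _ = _ := by simp only [hψ]; ring
  have hmeas : AEStronglyMeasurable (fun z => (φ z * ker W p z) • LK p z) volume := by
    apply Continuous.aestronglyMeasurable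
    unfold ker LK
    fun_prop
  refine ⟨?_, hbi.mono' hmeas (ae_of_all _ fun z => hbound z p hpS)⟩
  refine hasFDerivAt_integral_of_dominated_of_fderiv_le (μ := volume)
    (F := fun q z => φ z * ker W q z) (F' := fun q z => (φ z * ker W q z) • LK q z)
    (bound := fun z => ψ z * ker W (4 * p.1, p.2) z) (hSo.mem_nhds hpS)
    (Filter.Eventually.of_forall fun q => ?_) (mom_integrable hW hφ hp h) hmeas
    (ae_of_all _ hbound) hbi (ae_of_all _ fun z q hq => ?_)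
  · apply Continuous.aestronglyMeasurable
    unfold ker
    fun_prop
  · have hq0 : 0 < q.1 := by have := hq.1; linarith
    have := (ker_hasFDerivAt W z hq0).const_mul (φ z)
    rwa [smul_smul] at this

theorem mom_fderiv' (hW : Pot δ W) (hφ : Continuous φ) (hp : PolyG φ) (h : p ∈ UU d)
    (v : ℝ × E d) :
    fderiv ℝ (Mom W φ) p v =
      Mom W (fun z => φ z * (v.1 * ‖z - p.2‖ ^ 2 / (2 * p.1 ^ 2) +
        inner ℝ (z - p.2) v.2 / p.1)) p := by
  obtain ⟨h1, h2⟩ := mom_hasFDerivAt hW hφ hp h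
  rw [h1.fderiv, ContinuousLinearMap.integral_apply h2]
  unfold Mom
  congr 1
  funext z
  rw [smul_apply, LK_apply, smul_eq_mul]
  ring

theorem mom_add {ψ : E d → ℝ} (hW : Pot δ W) (hφ : Continuous φ) (hp : PolyG φ)
    (hψ : Continuous ψ) (hq : PolyG ψ) (h : p ∈ UU d) :
    Mom W (fun z => φ z + ψ z) p = Mom W φ p + Mom W ψ p := by
  unfold Mom
  rw [← integral_add (mom_integrable hW hφ hp h) (mom_integrable hW hψ hq h)]
  simp only [add_mul]

theorem mom_const_mul (W : E d → ℝ) (φ : E d → ℝ) (c : ℝ) (p : ℝ × E d) :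
    Mom W (fun z => c * φ z) p = c * Mom W φ p := by
  unfold Mom
  rw [← integral_const_mul]
  simp only [mul_assoc]

theorem mom_lin2 {ψ : E d → ℝ} (hW : Pot δ W) (hφ : Continuous φ) (hp : PolyG φ)
    (hψ : Continuous ψ) (hq : PolyG ψ) (h : p ∈ UU d) (a b : ℝ) :
    Mom W (fun z => a * φ z + b * ψ z) p = a * Mom W φ p + b * Mom W ψ p := by
  rw [← mom_const_mul, ← mom_const_mul]
  exact mom_add hW (hφ.const_mul _) (polyG_mul (polyG_const _) hp) (hψ.const_mul _)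
    (polyG_mul (polyG_const _) hq) h

theorem mom_lin3 {ψ χ : E d → ℝ} (hW : Pot δ W) (hφ : Continuous φ) (hp : PolyG φ)
    (hψ : Continuous ψ) (hq : PolyG ψ) (hχ : Continuous χ) (hr : PolyG χ) (h : p ∈ UU d)
    (a b c : ℝ) :
    Mom W (fun z => a * φ z + (b * ψ z + c * χ z)) p =
      a * Mom W φ p + (b * Mom W ψ p + c * Mom W χ p) := by
  rw [← mom_lin2 hW hψ hq hχ hr h, ← mom_const_mul]
  exact mom_add hW (hφ.const_mul _) (polyG_mul (polyG_const _) hp)
    ((hψ.const_mul _).add (hχ.const_mul _))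
    (polyG_add (polyG_mul (polyG_const _) hq) (polyG_mul (polyG_const _) hr)) h

theorem mom_sum {ι : Type} (s : Finset ι) {ψ : ι → E d → ℝ} (hW : Pot δ W)
    (hψ : ∀ i, Continuous (ψ i)) (hq : ∀ i, PolyG (ψ i)) (h : p ∈ UU d) :
    Mom W (fun z => ∑ i ∈ s, ψ i z) p = ∑ i ∈ s, Mom W (ψ i) p := by
  unfold Mom
  rw [← integral_finsetSum _ fun i _ => mom_integrable hW (hψ i) (hq i) h]
  simp only [Finset.sum_mul]

theorem inner_eq_sum (x y : E d) : inner ℝ x y = ∑ c, x c * y c := by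
  simp [PiLp.inner_apply, mul_comm]

theorem coord_cont (c : Fin d) : Continuous fun z : E d => z c := by fun_prop

theorem mom_fderiv_expand (hW : Pot δ W) (hφ : Continuous φ) (hp : PolyG φ) (h : p ∈ UU d)
    (v : ℝ × E d) :
    fderiv ℝ (Mom W φ) p v =
      ∑ c, (v.1 / (2 * p.1 ^ 2) * Mom W (fun z => φ z * z c * z c) p +
        ((v.2 c / p.1 - v.1 * p.2 c / p.1 ^ 2) * Mom W (fun z => φ z * z c) p +
        (v.1 * p.2 c ^ 2 / (2 * p.1 ^ 2) - p.2 c * v.2 c / p.1) * Mom W φ p)) := by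
  have hs : 0 < p.1 := h
  have c1 : ∀ c : Fin d, Continuous fun z : E d => φ z * z c := fun c => hφ.mul (coord_cont c)
  have c2 : ∀ c : Fin d, Continuous fun z : E d => φ z * z c * z c :=
    fun c => (c1 c).mul (coord_cont c)
  have p1 : ∀ c : Fin d, PolyG fun z : E d => φ z * z c := fun c => polyG_mul hp (polyG_coord c)
  have p2 : ∀ c : Fin d, PolyG fun z : E d => φ z * z c * z c :=
    fun c => polyG_mul (p1 c) (polyG_coord c)
  rw [mom_fderiv' hW hφ hp h]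
  have e : (fun z => φ z * (v.1 * ‖z - p.2‖ ^ 2 / (2 * p.1 ^ 2) +
        inner ℝ (z - p.2) v.2 / p.1)) = fun z => ∑ c, (v.1 / (2 * p.1 ^ 2) * (φ z * z c * z c) +
        ((v.2 c / p.1 - v.1 * p.2 c / p.1 ^ 2) * (φ z * z c) +
        (v.1 * p.2 c ^ 2 / (2 * p.1 ^ 2) - p.2 c * v.2 c / p.1) * φ z)) := by
    funext z
    rw [norm_sq_eq_sum, inner_eq_sum, Finset.mul_sum, Finset.sum_div, Finset.sum_div,
      ← Finset.sum_add_distrib, Finset.mul_sum]
    refine Finset.sum_congr rfl fun c _ => ?_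
    simp only [PiLp.sub_apply]
    field_simp
    ring
  rw [e, mom_sum _ hW (fun c => ?_) (fun c => ?_) h]
  · exact Finset.sum_congr rfl fun c _ => mom_lin3 hW (c2 c) (p2 c) (c1 c) (p1 c) hφ hp h _ _ _
  · exact ((c2 c).const_mul _).add (((c1 c).const_mul _).add (hφ.const_mul _))
  · exact polyG_add (polyG_mul (polyG_const _) (p2 c))
      (polyG_add (polyG_mul (polyG_const _) (p1 c)) (polyG_mul (polyG_const _) hp))

theorem mom_contDiffOn (hW : Pot δ W) (n : ℕ) : ∀ {φ : E d → ℝ}, Continuous φ → PolyG φ →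
    ContDiffOn ℝ n (Mom W φ) (UU d) := by
  have hdiff : ∀ {φ : E d → ℝ}, Continuous φ → PolyG φ → DifferentiableOn ℝ (Mom W φ) (UU d) :=
    fun hφ hp q hq => (mom_hasFDerivAt hW hφ hp hq).1.differentiableAt.differentiableWithinAt
  induction n with
  | zero =>
    intro φ hφ hp
    simpa using (hdiff hφ hp).continuousOn
  | succ n ih =>
    intro φ hφ hp
    rw [Nat.cast_succ, contDiffOn_succ_iff_fderiv_of_isOpen (isOpen_UU d)]
    refine ⟨hdiff hφ hp, by simp, ?_⟩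
    rw [contDiffOn_clm_apply]
    intro v
    refine ContDiffOn.congr ?_ fun q hq => mom_fderiv_expand hW hφ hp hq v
    have f1 : ContDiffOn ℝ n (fun q : ℝ × E d => q.1) (UU d) := contDiffOn_fst
    have f2 : ∀ c, ContDiffOn ℝ n (fun q : ℝ × E d => q.2 c) (UU d) := fun c =>
      ((EuclideanSpace.proj c : E d →L[ℝ] ℝ).contDiff.comp contDiff_snd).contDiffOn
    have n1 : ∀ q ∈ UU d, q.1 ≠ 0 := fun q hq => ne_of_gt hq
    have n2 : ∀ q ∈ UU d, q.1 ^ 2 ≠ 0 := fun q hq => pow_ne_zero _ (n1 q hq)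
    have n3 : ∀ q ∈ UU d, 2 * q.1 ^ 2 ≠ 0 := fun q hq => mul_ne_zero two_ne_zero (n2 q hq)
    refine ContDiffOn.sum fun c _ => ?_
    have m0 := ih hφ hp
    have m1 := ih (hφ.mul (coord_cont c)) (polyG_mul hp (polyG_coord c))
    have m2 := ih ((hφ.mul (coord_cont c)).mul (coord_cont c))
      (polyG_mul (polyG_mul hp (polyG_coord c)) (polyG_coord c))
    refine ((contDiffOn_const.div (contDiffOn_const.mul (f1.pow 2)) n3).mul m2).add
      ((((contDiffOn_const.div f1 n1).sub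
        ((contDiffOn_const.mul (f2 c)).div (f1.pow 2) n2)).mul m1).add
      ((((contDiffOn_const.mul ((f2 c).pow 2)).div (contDiffOn_const.mul (f1.pow 2)) n3).sub
        (((f2 c).mul contDiffOn_const).div f1 n1)).mul m0))

end MomAA

open MomAA

theorem mom_smooth (hW : Pot δ W) (hφ : Continuous φ) (hp : PolyG φ) :
    ContDiffOn ℝ ∞ (Mom W φ) (UU d) :=
  contDiffOn_infty.2 fun n => mom_contDiffOn hW n hφ hp

theorem mom_fderiv (hW : Pot δ W) (hφ : Continuous φ) (hp : PolyG φ) (h : p ∈ UU d)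
    (v : ℝ × E d) :
    fderiv ℝ (Mom W φ) p v =
      Mom W (fun z => φ z * (v.1 * ‖z - p.2‖ ^ 2 / (2 * p.1 ^ 2) +
        inner ℝ (z - p.2) v.2 / p.1)) p :=
  mom_fderiv' hW hφ hp h v

theorem mom_pd_x (hW : Pot δ W) (hφ : Continuous φ) (hp : PolyG φ) (h : p ∈ UU d) (c : Fin d) :
    pd (xd c) (Mom W φ) p = (Mom W (fun z => φ z * z c) p - p.2 c * Mom W φ p) / p.1 := by
  unfold pd
  rw [mom_fderiv hW hφ hp h]
  have e : (fun z => φ z * ((xd c : ℝ × E d).1 * ‖z - p.2‖ ^ 2 / (2 * p.1 ^ 2) +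
        inner ℝ (z - p.2) (xd c : ℝ × E d).2 / p.1)) =
      fun z => (p.1)⁻¹ * (φ z * z c) + (-(p.2 c / p.1)) * φ z := by
    funext z
    simp only [xd, bv, EuclideanSpace.inner_single_right, PiLp.sub_apply]
    simp
    ring
  rw [e, mom_lin2 (φ := fun z => φ z * z c) hW (hφ.mul (coord_cont c))
    (polyG_mul hp (polyG_coord c)) hφ hp h]
  ring

end Crest.Agent.R285
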