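import Crest.Agent.R285.Gauss
import Crest.Agent.R285.MomA

/-!
# R285 Marg: scaling, marginals, invariance of the proximal sampler.

* scaling: change of variables `z ↦ c + τ • z` (`integral_comp_smul`, `integral_add_left_eq_self`,
  `Measure.map_addHaar_smul`); `gradient (V (c + τ •·)) y = τ • gradient V (c + τ • y)`.
* `mu_eq`: for bounded measurable (or via `lintegral`) `f`,
  `∫∫ f (r z + σ ξ) = C ∫∫ f y exp (-W z - ‖z‖²/2 - ‖y - r z‖²/(2σ²)) dy dz` (`σ² = 1 - r²`) and
  `‖z‖²/2 + ‖y - r z‖²/(2σ²) = ‖y‖²/2 + ‖z - r y‖²/(2σ²)`; both sides are probability measures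
  (the left one is then automatically the normalisation of `exp (-‖y‖²/2) Mom W 1 (σ², r y)`).
* `prox_inv`: the density of `noisy (gib V) τ` is proportional to `Mom V 1 (τ², y)`; Fubini.
-/

set_option autoImplicit false

namespace Crest.Agent.R285

open MeasureTheory Set
open scoped ContDiff

variable {d : ℕ}

namespace MargA

open scoped ENNReal

theorem lint_aff {F : E d → ℝ≥0∞} (hF : Measurable F) (c : E d) {τ : ℝ} (hτ : τ ≠ 0) :
    ∫⁻ z, F (c + τ • z) = ENNReal.ofReal |(τ ^ Module.finrank ℝ (E d))⁻¹| * ∫⁻ z, F z := by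
  have h1 := lintegral_map (μ := (volume : Measure (E d))) (f := fun y => F (c + y))
    (g := fun z => τ • z) (hF.comp (measurable_const_add c)) (measurable_const_smul τ)
  rw [← h1, Measure.map_addHaar_smul _ hτ, lintegral_smul_measure, lintegral_add_left_eq_self,
    smul_eq_mul]

theorem int_aff (F : E d → ℝ) (c : E d) (τ : ℝ) :
    ∫ z, F (c + τ • z) = |(τ ^ Module.finrank ℝ (E d))⁻¹| * ∫ z, F z := by
  rw [Measure.integral_comp_smul volume (fun y => F (c + y)) τ, integral_add_left_eq_self,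
    smul_eq_mul]

theorem gib_map_aff {U : E d → ℝ} (hU : Measurable U) (c : E d) {τ : ℝ} (hτ : τ ≠ 0) :
    (gib fun z => U (c + τ • z)).map (fun z => c + τ • z) = gib U := by
  refine Measure.ext_of_lintegral _ fun F hF => ?_
  rw [lintegral_map hF (by fun_prop)]
  unfold gib
  rw [lintegral_tilted, lintegral_tilted, int_aff (fun y => Real.exp (-U y)) c τ]
  set a := |(τ ^ Module.finrank ℝ (E d))⁻¹| with ha
  have ha0 : 0 < a := abs_pos.2 (inv_ne_zero (pow_ne_zero _ hτ))
  rw [lint_aff (F := fun y => ENNReal.ofReal (Real.exp (-U y) / (a * ∫ z, Real.exp (-U z))) * F y)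
    (by fun_prop) c hτ, ← lintegral_const_mul' _ _ ENNReal.ofReal_ne_top]
  congr 1
  funext y
  rw [← mul_assoc, ← ENNReal.ofReal_mul ha0.le]
  congr 2
  rw [← mul_div_assoc, mul_div_mul_left _ _ ha0.ne']

theorem grad_aff {V : E d → ℝ} (hV : Differentiable ℝ V) (c : E d) (τ : ℝ) (y : E d) :
    gradient (fun y => V (c + τ • y)) y = τ • gradient V (c + τ • y) := by
  have h1 : HasFDerivAt (fun y : E d => c + τ • y) (τ • ContinuousLinearMap.id ℝ (E d)) y :=
    ((hasFDerivAt_id y).const_smul τ).const_add c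
  have h2 := (hV (c + τ • y)).hasFDerivAt.comp y h1
  have h3 : fderiv ℝ (fun y => V (c + τ • y)) y = τ • fderiv ℝ V (c + τ • y) := by
    rw [show (fun y => V (c + τ • y)) = V ∘ fun y => c + τ • y from rfl, h2.fderiv]
    ext v
    simp
  unfold gradient
  rw [h3, map_smul]

/-- the Gaussian kernel -/
noncomputable def gk (τ : ℝ) (y : E d) : ℝ := Real.exp (-(‖y‖ ^ 2 / (2 * τ ^ 2)))

theorem gk_conf {τ : ℝ} (hτ : 0 < τ) : Conf (fun y : E d => ‖y‖ ^ 2 / (2 * τ ^ 2)) :=
  ⟨by fun_prop, 1 / (2 * τ ^ 2), 0, by positivity, fun y => by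
    simp only [sub_zero, one_div, div_eq_inv_mul, mul_one, le_refl]⟩

theorem gT_gib (m : E d) {τ : ℝ} (hτ : 0 < τ) :
    gT m τ = gib fun y => ‖y - m‖ ^ 2 / (2 * τ ^ 2) := by
  rw [← gib_map_aff (U := fun y => ‖y - m‖ ^ 2 / (2 * τ ^ 2)) (by fun_prop) m hτ.ne']
  unfold gT gam
  congr 2
  funext y
  rw [add_sub_cancel_left, norm_smul, mul_pow, Real.norm_eq_abs, sq_abs]
  field_simp

/-- the unnormalised density of `noisy (gib V) τ` -/
noncomputable def MM (V : E d → ℝ) (τ : ℝ) (y : E d) : ℝ :=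
  ∫ z, Real.exp (-(V z + ‖z - y‖ ^ 2 / (2 * τ ^ 2)))

theorem conf_add {V : E d → ℝ} (hV : Conf V) {τ : ℝ} (y : E d) :
    Conf (fun z => V z + ‖z - y‖ ^ 2 / (2 * τ ^ 2)) := by
  obtain ⟨hc, c, C, hc0, h⟩ := hV
  exact ⟨by fun_prop, c, C, hc0, fun z => (h z).trans (le_add_of_nonneg_right (by positivity))⟩

theorem exp_split (V : E d → ℝ) (τ : ℝ) (y z : E d) :
    Real.exp (-(V z + ‖z - y‖ ^ 2 / (2 * τ ^ 2))) = Real.exp (-V z) * gk τ (y - z) := by
  rw [gk, ← Real.exp_add, norm_sub_rev, neg_add]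

theorem conv_int {τ : ℝ} (hτ : 0 < τ) {φ : E d → ℝ} (hφ : Integrable φ) :
    ∫ y, ∫ z, φ z * gk τ (y - z) = (∫ z, φ z) * ∫ y : E d, gk τ y :=
  integral_convolution (ContinuousLinearMap.mul ℝ ℝ) hφ (conf_integrable_exp (gk_conf hτ))

theorem MM_int {V : E d → ℝ} (hV : Conf V) {τ : ℝ} (hτ : 0 < τ) :
    ∫ y, MM V τ y = (∫ z, Real.exp (-V z)) * ∫ y : E d, gk τ y := by
  simp only [MM, exp_split]
  exact conv_int hτ (conf_integrable_exp hV)

theorem noisy_gib {V : E d → ℝ} (hV : Conf V) {τ : ℝ} (hτ : 0 < τ) :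
    noisy (gib V) τ = gib fun y => -Real.log (MM V τ y) := by
  have hp := (gib_pm hV).prob
  have hc := hV.1
  have hZ := conf_Z_pos hV
  have hG : 0 < ∫ y : E d, gk τ y := conf_Z_pos (gk_conf hτ)
  refine Measure.ext_of_lintegral _ fun F hF => ?_
  have h1 : ∫⁻ y, F y ∂(noisy (gib V) τ) = ∫⁻ x, ∫⁻ y, F y ∂(gT x τ) ∂(gib V) := by
    unfold noisy gT
    rw [lintegral_map hF (by fun_prop), lintegral_prod _ (by fun_prop)]
    congr 1
    funext x
    rw [lintegral_map hF (by fun_prop)]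
  have h2 : ∀ x, ∫⁻ y, F y ∂(gT x τ) =
      ∫⁻ y, ENNReal.ofReal (gk τ (y - x) / ∫ y : E d, gk τ y) * F y := by
    intro x
    rw [gT_gib x hτ]
    unfold gib
    rw [lintegral_tilted]
    have := integral_sub_right_eq_self (μ := (volume : Measure (E d))) (gk τ) x
    simp only [gk] at this ⊢
    rw [this]
  have h3 : ∀ y, Real.exp (- -Real.log (MM V τ y)) = MM V τ y := fun y => by
    rw [neg_neg]
    exact Real.exp_log (conf_Z_pos (conf_add hV y))
  simp only [h1, h2]
  unfold gib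
  rw [lintegral_tilted, lintegral_tilted]
  simp only [h3]
  rw [MM_int hV hτ]
  have hm : Measurable (gk (d := d) τ) := by unfold gk; fun_prop
  have h4 : ∀ x, ENNReal.ofReal (Real.exp (-V x) / ∫ x, Real.exp (-V x)) *
      ∫⁻ y, ENNReal.ofReal (gk τ (y - x) / ∫ y : E d, gk τ y) * F y =
      ∫⁻ y, ENNReal.ofReal (Real.exp (-V x) * gk τ (y - x) /
        ((∫ x, Real.exp (-V x)) * ∫ y : E d, gk τ y)) * F y := by
    intro x
    rw [← lintegral_const_mul' _ _ ENNReal.ofReal_ne_top]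
    congr 1
    funext y
    rw [← mul_assoc, ← ENNReal.ofReal_mul (by positivity), div_mul_div_comm]
  simp only [h4]
  rw [lintegral_lintegral_swap (by fun_prop)]
  congr 1
  funext y
  rw [lintegral_mul_const _ (by fun_prop)]
  congr 1
  have h5 := conf_integrable_exp (conf_add hV (τ := τ) y)
  simp only [exp_split] at h5
  rw [← ofReal_integral_eq_lintegral_ofReal (h5.div_const _)
    (ae_of_all _ fun x => by unfold gk; positivity), integral_div]
  simp only [MM, exp_split]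

end MargA

open MargA

theorem scale_pot {V : E d → ℝ} {δ : ℝ} (h : Pot δ V) (c : E d) (τ : ℝ) :
    Pot (τ ^ 2 * δ) (fun y => V (c + τ • y)) := by
  refine ⟨mul_nonneg (sq_nonneg τ) h.nn, h.c2.comp (by fun_prop), ⟨convex_univ, ?_⟩, fun x y => ?_⟩
  · intro x _ y _ a b ha hb hab
    have h1 := h.cvx.2 (mem_univ (c + τ • x)) (mem_univ (c + τ • y)) ha hb hab
    have e : a • (c + τ • x) + b • (c + τ • y) = c + τ • (a • x + b • y) := by
      have : c = (a + b) • c := by rw [hab, one_smul]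
      conv_rhs => rw [this]
      module
    rwa [e] at h1
  · have hd : Differentiable ℝ V := h.c2.differentiable (by norm_num)
    rw [grad_aff hd, grad_aff hd, ← smul_sub, norm_smul]
    have h1 := h.lip (c + τ • x) (c + τ • y)
    rw [add_sub_add_left_eq_sub, ← smul_sub, norm_smul] at h1
    refine (mul_le_mul_of_nonneg_left h1 (norm_nonneg _)).trans_eq ?_
    rw [Real.norm_eq_abs, ← sq_abs]
    ring

theorem scale_nu (V : E d → ℝ) (hV : Continuous V) (c : E d) {τ s : ℝ} (hτ : 0 < τ) (hs : 0 < s)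
    (x : E d) :
    (nu (fun y => V (c + τ • y)) s x).map (fun z => c + τ • z) = nu V (τ ^ 2 * s) (c + τ • x) := by
  unfold nu
  rw [← gib_map_aff (U := fun z => V z + ‖z - (c + τ • x)‖ ^ 2 / (2 * (τ ^ 2 * s))) (by fun_prop)
    c hτ.ne']
  congr 2
  funext z
  rw [add_sub_add_left_eq_sub, ← smul_sub, norm_smul, mul_pow, Real.norm_eq_abs, sq_abs]
  field_simp

theorem scale_G {V : E d → ℝ} {δ : ℝ} (h : Pot δ V) (c : E d) {τ s : ℝ} (hτ : 0 < τ) (hs : 0 < s)
    (x : E d) : Gv (fun y => V (c + τ • y)) s x = τ • Gv V (τ ^ 2 * s) (c + τ • x) := by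
  have hd : Differentiable ℝ V := h.c2.differentiable (by norm_num)
  unfold Gv
  rw [← scale_nu V h.c2.continuous c hτ hs x,
    integral_map (by fun_prop) (pot_grad_cont h).aestronglyMeasurable, ← integral_smul]
  simp only [grad_aff hd]

theorem mu_eq {W : E d → ℝ} {δ r : ℝ} (h : Pot δ W) (h0 : 0 < r) (h1 : r < 1) :
    (mu W r).map (fun y => r⁻¹ • y) = noisy (nu W 1 0) (√(1 - r ^ 2) / r) := by
  have hσ : 0 < 1 - r ^ 2 := by nlinarith
  have hτ : 0 < √(1 - r ^ 2) / r := div_pos (Real.sqrt_pos.2 hσ) h0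
  have hc := h.c2.continuous
  unfold nu
  rw [noisy_gib (nu_conf h one_pos 0) hτ]
  set U : E d → ℝ := fun y =>
    -Real.log (MM (fun z => W z + ‖z - 0‖ ^ 2 / (2 * 1)) (√(1 - r ^ 2) / r) y) with hU
  have hm : Measurable U := by
    refine Measurable.neg (Measurable.log ?_)
    refine (StronglyMeasurable.integral_prod_right (f := fun y z : E d =>
      Real.exp (-(W z + ‖z - 0‖ ^ 2 / (2 * 1) + ‖z - y‖ ^ 2 / (2 * (√(1 - r ^ 2) / r) ^ 2))))
      (Continuous.stronglyMeasurable ?_)).measurable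
    unfold Function.uncurry
    fun_prop
  rw [← gib_map_aff hm 0 (inv_ne_zero h0.ne')]
  simp only [zero_add]
  congr 1
  unfold mu
  rw [← gib_add_const (U := fun z => U (r⁻¹ • z)) ((d : ℝ) / 2 * Real.log (1 - r ^ 2))]
  congr 1
  funext y
  have hM : MM (fun z => W z + ‖z - 0‖ ^ 2 / (2 * 1)) (√(1 - r ^ 2) / r) (r⁻¹ • y) =
      Real.exp (-(‖y‖ ^ 2 / 2)) * Mom W (fun _ => 1) (1 - r ^ 2, r • y) := by
    unfold MM Mom ker
    rw [← integral_const_mul]
    congr 1
    funext z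
    rw [one_mul, ← Real.exp_add]
    congr 1
    simp only
    rw [div_pow, Real.sq_sqrt hσ.le, sub_zero, norm_sub_sq_real, norm_sub_sq_real, inner_smul_right,
      inner_smul_right, norm_smul, norm_smul, mul_pow, mul_pow, Real.norm_eq_abs, Real.norm_eq_abs,
      sq_abs, sq_abs]
    field_simp
    ring
  have hpos : 0 < Mom W (fun _ => 1) (1 - r ^ 2, r • y) := mom_one_pos h hσ
  simp only [hU, hM, Wt]
  rw [Real.log_mul (Real.exp_pos _).ne' hpos.ne', Real.log_exp]
  ring

theorem prox_inv {V : E d → ℝ} {δ τ : ℝ} (h : Pot δ V) (hV : Conf V) (hτ : 0 < τ) {f : E d → ℝ}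
    {L : NNReal} (hf : LipschitzWith L f) :
    ∫ y, ∫ z, f z ∂(nu V (τ ^ 2) y) ∂(noisy (gib V) τ) = ∫ z, f z ∂(gib V) := by
  have _ := h
  have hG : 0 < ∫ y : E d, gk τ y := conf_Z_pos (gk_conf hτ)
  have h3 : ∀ y, Real.exp (- -Real.log (MM V τ y)) = MM V τ y := fun y => by
    rw [neg_neg]
    exact Real.exp_log (conf_Z_pos (conf_add hV y))
  rw [noisy_gib hV hτ, integral_gib, integral_gib]
  simp only [h3]
  have h4 : ∀ y, MM V τ y • ∫ z, f z ∂(nu V (τ ^ 2) y) =
      ∫ z, (Real.exp (-V z) • f z) * gk τ (y - z) := by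
    intro y
    unfold nu
    rw [integral_gib, smul_smul]
    have hp : 0 < MM V τ y := conf_Z_pos (conf_add hV y)
    rw [show (∫ z, Real.exp (-(V z + ‖z - y‖ ^ 2 / (2 * τ ^ 2)))) = MM V τ y from rfl,
      mul_inv_cancel₀ hp.ne', one_smul]
    congr 1
    funext z
    rw [exp_split, smul_eq_mul, smul_eq_mul]
    ring
  simp only [h4]
  have hi : Integrable fun z => Real.exp (-V z) • f z :=
    conf_integrable hV hf.continuous.aestronglyMeasurable
      (polyG_of_lip (L := L) fun x y => by simpa [dist_eq_norm] using hf.dist_le_mul x y)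
  rw [conv_int hτ hi, MM_int hV hτ, smul_eq_mul, smul_eq_mul]
  field_simp

theorem target_eq {V : E d → ℝ} (hV : Conf V) : Crest.OracleSampling.target d V = gib V := by
  have hc := hV.1
  have hZ := conf_Z_pos hV
  unfold Crest.OracleSampling.target gib Measure.tilted
  simp only
  rw [withDensity_apply _ MeasurableSet.univ, Measure.restrict_univ,
    ← ofReal_integral_eq_lintegral_ofReal (conf_integrable_exp hV)
      (ae_of_all _ fun x => (Real.exp_pos _).le), ← withDensity_smul _ (by fun_prop)]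
  congr 1
  funext x
  rw [Pi.smul_apply, smul_eq_mul, ← ENNReal.ofReal_inv_of_pos hZ,
    ← ENNReal.ofReal_mul (by positivity), div_eq_inv_mul]

end Crest.Agent.R285
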