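import Crest.Agent.R285.Quad

/-!
# R285 Quad2: recovering `f 1 - f 0` from the values of `q t = t f t - ∫₀ᵗ f`.

Pieces `[α, α + ℓ]`, `ℓ = 1/N`, `α = m ℓ`.  With `θ_j = j/(K+1)`, `j = 0..K+1`, and the Lagrange basis
`ℓ_j` of these `K + 2` nodes, put `Λ_m Q = ∫₀¹ Q'(θ)/(m + θ) dθ` for `m ≥ 1` and
`Λ_0 Q = ∫₀¹ (Q'.divX)(θ) dθ`; `|Λ_m ℓ_j| ≤ C_K`.  If `f` is a polynomial of degree `≤ K` on the piece,
`Q θ = q (α + ℓ θ) - q α` is a polynomial of degree `≤ K + 1` with `Q' = ℓ (m + θ) d/dθ f(α + ℓ θ)`, so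
`f (α + ℓ) - f α = ℓ⁻¹ Λ_m Q = ∑_j ℓ⁻¹ Λ_m ℓ_j * (q (α + ℓ θ_j) - q α)`.  (It suffices to check this for
the monomials `(x - α)^k`, `k ≤ K`, scalar identities.)  Nodes: `α + ℓ θ_j` with weights
`N Λ_m ℓ_j` and `α` with weight `- N ∑_j Λ_m ℓ_j`.  In general `f = g 1` is its Taylor polynomial plus
a remainder `ρ` with `‖ρ‖ ≤ ℓ^K ∫_piece ‖g (K+2)‖` (`taylor_chain`), and
`‖x ρ x - α ρ α - ∫_α^x ρ‖ ≤ 3 sup ‖ρ‖`.  Sum over the pieces.
-/

set_option autoImplicit false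

namespace Crest.Agent.R285

open MeasureTheory Set
open scoped ContDiff

namespace Quad2A

open QuadA

theorem exists_mu (K m : ℕ) : ∃ μ : ℕ → ℝ, μ 0 = 0 ∧ (∀ i, |μ i| ≤ 2) ∧
    ∀ k, 1 ≤ k → k ≤ K → (m : ℝ) * μ k + (k : ℝ) / (k + 1) * μ (k + 1) = 1 := by
  rcases Nat.eq_zero_or_pos m with rfl | hm
  · refine ⟨fun i => if i ≤ 1 then 0 else (i : ℝ) / ((i : ℝ) - 1), by simp, fun i => ?_,
      fun k hk _ => ?_⟩
    · dsimp only
      split_ifs with h
      · simp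
      · have : (2 : ℝ) ≤ i := by exact_mod_cast (by omega : 2 ≤ i)
        rw [abs_of_nonneg (div_nonneg (by linarith) (by linarith)), div_le_iff₀ (by linarith)]
        linarith
    · have hk' : (1 : ℝ) ≤ k := by exact_mod_cast hk
      simp only [Nat.cast_zero, zero_mul, zero_add]
      rw [if_neg (by omega)]
      push_cast
      rw [add_sub_cancel_right]
      field_simp
  · have hm' : (1 : ℝ) ≤ m := by exact_mod_cast hm
    let ν : ℕ → ℝ := fun i => Nat.rec 0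
      (fun i x => (1 - ((K - i : ℕ) : ℝ) / (((K - i : ℕ) : ℝ) + 1) * x) / m) i
    have hν : ∀ i, ν (i + 1) = (1 - ((K - i : ℕ) : ℝ) / (((K - i : ℕ) : ℝ) + 1) * ν i) / m :=
      fun i => rfl
    have hb : ∀ i, 0 ≤ ν i ∧ ν i ≤ 1 := by
      intro i
      induction i with
      | zero => simp [ν]
      | succ i ih =>
        rw [hν]
        have h0 : (0 : ℝ) ≤ ((K - i : ℕ) : ℝ) := by positivity
        have h1 : 0 ≤ ((K - i : ℕ) : ℝ) / (((K - i : ℕ) : ℝ) + 1) := by positivity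
        have h2 : ((K - i : ℕ) : ℝ) / (((K - i : ℕ) : ℝ) + 1) ≤ 1 := by
          rw [div_le_one (by positivity)]; linarith
        have h3 : ((K - i : ℕ) : ℝ) / (((K - i : ℕ) : ℝ) + 1) * ν i ≤ 1 := mul_le_one₀ h2 ih.1 ih.2
        have h4 : 0 ≤ ((K - i : ℕ) : ℝ) / (((K - i : ℕ) : ℝ) + 1) * ν i := mul_nonneg h1 ih.1
        refine ⟨div_nonneg (by linarith) (by linarith), ?_⟩
        rw [div_le_one (by linarith)]
        linarith
    refine ⟨fun i => if i = 0 then 0 else ν (K + 1 - i), by simp, fun i => ?_, fun k hk hK => ?_⟩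
    · dsimp only
      split_ifs
      · simp
      · rw [abs_of_nonneg (hb _).1]; linarith [(hb (K + 1 - i)).2]
    · simp only
      rw [if_neg (by omega), if_neg (by omega), show K + 1 - k = (K - k) + 1 by omega, hν,
        show K - (K - k) = k by omega, show K + 1 - (k + 1) = K - k by omega]
      field_simp
      ring

theorem exists_rule2 (K : ℕ) : ∃ (θ : Fin (K + 2) → ℝ) (lam : ℕ → Fin (K + 2) → ℝ) (B : ℝ),
    0 ≤ B ∧ (∀ j, θ j ∈ Icc (0 : ℝ) 1) ∧ (∀ m, ∑ j, |lam m j| ≤ B) ∧ (∀ m, ∑ j, lam m j = 0) ∧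
    ∀ m k : ℕ, 1 ≤ k → k ≤ K → (m : ℝ) * ∑ j, lam m j * θ j ^ k +
      (k : ℝ) / (k + 1) * ∑ j, lam m j * θ j ^ (k + 1) = 1 := by
  obtain ⟨c, hc⟩ := exists_coef (K + 2) _ (node_inj (K + 2) (by omega))
  choose μ h0 hb hμ using exists_mu K
  have key : ∀ m, ∀ k < K + 2, ∑ j : Fin (K + 2), (∑ i ∈ Finset.range (K + 2), c j i * μ m i) *
      (((j : ℕ) : ℝ) / (K + 2 : ℕ)) ^ k = μ m k := by
    intro m k hk
    simp only [Finset.sum_mul]
    rw [Finset.sum_comm]
    have : ∀ i ∈ Finset.range (K + 2), ∑ j : Fin (K + 2), c j i * μ m i *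
        (((j : ℕ) : ℝ) / (K + 2 : ℕ)) ^ k = if i = k then μ m k else 0 := by
      intro i _
      have h := hc k hk i
      have : ∑ j : Fin (K + 2), c j i * μ m i * (((j : ℕ) : ℝ) / (K + 2 : ℕ)) ^ k =
          (∑ j : Fin (K + 2), c j i * (((j : ℕ) : ℝ) / (K + 2 : ℕ)) ^ k) * μ m i := by
        rw [Finset.sum_mul]; exact Finset.sum_congr rfl fun j _ => by ring
      rw [this, h]
      split_ifs with hk
      · subst hk; simp
      · simp
    rw [Finset.sum_congr rfl this, Finset.sum_ite_eq']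
    simp [hk]
  refine ⟨fun j => ((j : ℕ) : ℝ) / (K + 2 : ℕ),
    fun m j => ∑ i ∈ Finset.range (K + 2), c j i * μ m i,
    ∑ j, ∑ i ∈ Finset.range (K + 2), |c j i| * 2, by positivity, node_mem (K + 2), fun m => ?_,
    fun m => ?_, fun m k hk hK => ?_⟩
  · refine Finset.sum_le_sum fun j _ => (Finset.abs_sum_le_sum_abs _ _).trans
      (Finset.sum_le_sum fun i _ => ?_)
    rw [abs_mul]
    exact mul_le_mul_of_nonneg_left (hb m i) (abs_nonneg _)
  · have := key m 0 (by omega)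
    simpa [h0] using this
  · rw [key m k (by omega), key m (k + 1) (by omega)]
    exact hμ m k hk hK

theorem piece2 {V : Type} [NormedAddCommGroup V] [NormedSpace ℝ V] [CompleteSpace V] {K : ℕ}
    (θ : Fin (K + 2) → ℝ) (lam : Fin (K + 2) → ℝ) {B : ℝ} (hθ : ∀ j, θ j ∈ Icc (0 : ℝ) 1)
    (hB : ∑ j, |lam j| ≤ B) (h0 : ∑ j, lam j = 0) {m N : ℕ} (hm : m < N)
    (hex : ∀ k : ℕ, 1 ≤ k → k ≤ K → (m : ℝ) * ∑ j, lam j * θ j ^ k +
      (k : ℝ) / (k + 1) * ∑ j, lam j * θ j ^ (k + 1) = 1)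
    (g : ℕ → ℝ → V)
    (hg : ∀ k ≤ K + 1, ∀ x ∈ Icc (0 : ℝ) 1, HasDerivWithinAt (g k) (g (k + 1) x) (Icc 0 1) x)
    (hc : ContinuousOn (g (K + 2)) (Icc 0 1)) :
    ‖g 1 ((m : ℝ) / N + 1 / N) - g 1 ((m : ℝ) / N) - ∑ j, ((N : ℝ) * lam j) •
      (((m : ℝ) / N + 1 / N * θ j) • g 1 ((m : ℝ) / N + 1 / N * θ j) -
        (g 0 ((m : ℝ) / N + 1 / N * θ j) - g 0 0))‖ ≤
      (1 + 2 * B) * N / (N : ℝ) ^ K *
        ∫ y in ((m : ℝ) / N)..((m : ℝ) / N + 1 / N), ‖g (K + 2) y‖ := by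
  have hN1 : (1 : ℝ) ≤ N := by exact_mod_cast (by omega : 1 ≤ N)
  have hN : (0 : ℝ) < N := by linarith
  set α : ℝ := (m : ℝ) / N with hα
  set h : ℝ := 1 / (N : ℝ) with hh
  have hh0 : 0 ≤ h := by positivity
  have hh1 : h ≤ 1 := by rw [hh, div_le_one hN]; exact hN1
  have hα0 : 0 ≤ α := by positivity
  have hα1 : α + h ≤ 1 := by
    rw [hα, hh, ← add_div, div_le_one hN]; exact_mod_cast hm
  have hNh : (N : ℝ) * h = 1 := by rw [hh]; field_simp
  have hαh : α = m * h := by rw [hα, hh]; ring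
  set I : ℝ := ∫ y in α..(α + h), ‖g (K + 2) y‖ with hI
  have hI0 : 0 ≤ I := intervalIntegral.integral_nonneg (by linarith) fun y _ => norm_nonneg _
  have hmem : ∀ u ∈ Icc (0 : ℝ) 1, α + h * u ∈ Icc α (α + h) := fun u hu =>
    ⟨by nlinarith [hu.1], by nlinarith [hu.2]⟩
  let P : ℝ → V := fun u => ∑ k ∈ Finset.range (K + 1),
    ((h * u) ^ k / (k.factorial : ℝ)) • g (k + 1) α
  let P' : ℝ → V := fun u => ∑ k ∈ Finset.range (K + 1),
    ((h * u) ^ (k + 1) / ((k + 1).factorial : ℝ)) • g (k + 1) α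
  have e1 : ∀ u ∈ Icc (0 : ℝ) 1, ‖g 1 (α + h * u) - P u‖ ≤ h ^ K * I := by
    intro u hu
    have := taylorV K (fun k => g (k + 1)) (fun k hk z hz => hg (k + 1) (by omega) z hz) hc hα0 hα1
      (hmem _ hu)
    simpa [P] using this
  have e2 : ∀ u ∈ Icc (0 : ℝ) 1, ‖g 0 (α + h * u) - (P' u + g 0 α)‖ ≤ h ^ K * I := by
    intro u hu
    have := taylorV (K + 1) g hg hc hα0 hα1 (hmem _ hu)
    rw [Finset.sum_range_succ'] at this
    simp only [add_sub_cancel_left, pow_zero, Nat.factorial_zero, Nat.cast_one, div_one,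
      one_smul] at this
    refine this.trans (mul_le_mul_of_nonneg_right ?_ hI0)
    exact pow_le_pow_of_le_one hh0 hh1 (by omega)
  have key : ∑ j, ((N : ℝ) * lam j) • ((α + h * θ j) • P (θ j) - P' (θ j)) = P 1 - g 1 α := by
    have : ∀ j, ((N : ℝ) * lam j) • ((α + h * θ j) • P (θ j) - P' (θ j)) =
        ∑ k ∈ Finset.range (K + 1), ((N : ℝ) * lam j * ((α + h * θ j) *
          ((h * θ j) ^ k / (k.factorial : ℝ)) -
          (h * θ j) ^ (k + 1) / ((k + 1).factorial : ℝ))) • g (k + 1) α := by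
      intro j
      simp only [P, P', Finset.smul_sum, smul_smul, ← Finset.sum_sub_distrib, ← sub_smul]
    simp only [this]
    rw [Finset.sum_comm]
    have hP : P 1 - g 1 α = ∑ k ∈ Finset.range (K + 1),
        (if k = 0 then 0 else h ^ k / (k.factorial : ℝ)) • g (k + 1) α := by
      simp only [P, Finset.sum_range_succ']
      simp
    rw [hP]
    refine Finset.sum_congr rfl fun k hk => ?_
    rw [← Finset.sum_smul]
    congr 1
    have hk1 : ((k : ℝ) + 1) ≠ 0 := by positivity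
    have hk2 : (k.factorial : ℝ) ≠ 0 := by positivity
    have : ∑ j, (N : ℝ) * lam j * ((α + h * θ j) * ((h * θ j) ^ k / (k.factorial : ℝ)) -
          (h * θ j) ^ (k + 1) / ((k + 1).factorial : ℝ)) =
        (N * h) * (h ^ k / (k.factorial : ℝ)) * ((m : ℝ) * ∑ j, lam j * θ j ^ k +
          (k : ℝ) / (k + 1) * ∑ j, lam j * θ j ^ (k + 1)) := by
      simp only [Finset.mul_sum, mul_add, ← Finset.sum_add_distrib]
      refine Finset.sum_congr rfl fun j _ => ?_
      rw [hαh, Nat.factorial_succ]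
      push_cast
      field_simp
      ring
    rw [this, hNh, one_mul]
    split_ifs with hk0
    · subst hk0; simp [h0]
    · rw [hex k (by omega) (by have := Finset.mem_range.1 hk; omega), mul_one]
  have hsplit : g 1 (α + h) - g 1 α - ∑ j, ((N : ℝ) * lam j) •
      ((α + h * θ j) • g 1 (α + h * θ j) - (g 0 (α + h * θ j) - g 0 0)) =
      (g 1 (α + h * 1) - P 1) - ∑ j, ((N : ℝ) * lam j) •
        ((α + h * θ j) • (g 1 (α + h * θ j) - P (θ j)) -
          (g 0 (α + h * θ j) - (P' (θ j) + g 0 α))) := by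
    have hz : ∑ j, ((N : ℝ) * lam j) • (g 0 0 - g 0 α) = 0 := by
      rw [← Finset.sum_smul, ← Finset.mul_sum, h0]; simp
    have : ∑ j, ((N : ℝ) * lam j) •
        ((α + h * θ j) • g 1 (α + h * θ j) - (g 0 (α + h * θ j) - g 0 0)) =
        ∑ j, ((N : ℝ) * lam j) • ((α + h * θ j) • (g 1 (α + h * θ j) - P (θ j)) -
          (g 0 (α + h * θ j) - (P' (θ j) + g 0 α))) +
        ∑ j, ((N : ℝ) * lam j) • ((α + h * θ j) • P (θ j) - P' (θ j)) +
        ∑ j, ((N : ℝ) * lam j) • (g 0 0 - g 0 α) := by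
      simp only [← Finset.sum_add_distrib, ← smul_add]
      refine Finset.sum_congr rfl fun j _ => ?_
      congr 1
      simp only [smul_sub]
      abel
    rw [this, key, hz, mul_one]
    abel
  rw [hsplit]
  refine (norm_sub_le _ _).trans ?_
  have e3 : ‖∑ j, ((N : ℝ) * lam j) • ((α + h * θ j) • (g 1 (α + h * θ j) - P (θ j)) -
      (g 0 (α + h * θ j) - (P' (θ j) + g 0 α)))‖ ≤ B * (N * (2 * (h ^ K * I))) := by
    refine (norm_sum_le _ _).trans ?_
    calc _ ≤ ∑ j, |lam j| * (N * (2 * (h ^ K * I))) := by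
          refine Finset.sum_le_sum fun j _ => ?_
          rw [norm_smul, Real.norm_eq_abs, abs_mul, abs_of_nonneg hN.le]
          have a1 : ‖(α + h * θ j) • (g 1 (α + h * θ j) - P (θ j))‖ ≤ h ^ K * I := by
            have hm := hmem _ (hθ j)
            rw [norm_smul, Real.norm_eq_abs, abs_of_nonneg (by linarith [hm.1])]
            calc _ ≤ 1 * (h ^ K * I) :=
                  mul_le_mul (by linarith [hm.2]) (e1 _ (hθ j)) (norm_nonneg _) zero_le_one
              _ = _ := one_mul _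
          have a2 := (norm_sub_le _ _).trans (add_le_add a1 (e2 _ (hθ j)))
          calc (N : ℝ) * |lam j| * _ ≤ N * |lam j| * (h ^ K * I + h ^ K * I) :=
                mul_le_mul_of_nonneg_left a2 (by positivity)
            _ = _ := by ring
      _ = (∑ j, |lam j|) * (N * (2 * (h ^ K * I))) := by rw [Finset.sum_mul]
      _ ≤ _ := mul_le_mul_of_nonneg_right hB (by positivity)
  have e4 := e1 1 ⟨zero_le_one, le_rfl⟩
  have e5 : h ^ K * I ≤ N * (h ^ K * I) := le_mul_of_one_le_left (by positivity) hN1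
  have e6 : (1 + 2 * B) * N / (N : ℝ) ^ K * I = N * (h ^ K * I) + B * (N * (2 * (h ^ K * I))) := by
    rw [hh, one_div, inv_pow, div_eq_mul_inv]; ring
  rw [e6]
  linarith

end Quad2A

open Quad2A

theorem exists_quad2 (K : ℕ) :
    ∃ C : ℝ, 1 ≤ C ∧ ∀ C' ≥ C, ∀ N : ℕ, 1 ≤ N → Nonempty (Quad2 K C' N) := by
  obtain ⟨θ, lam, B, hB0, hθ, hB, h0, hex⟩ := exists_rule2 K
  have hK0 : (0 : ℝ) ≤ (K + 2 : ℕ) := by positivity
  refine ⟨1 + 2 * B + (K + 2 : ℕ), by linarith, fun C' hC' N hN => ?_⟩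
  have hN' : (0 : ℝ) < N := by exact_mod_cast hN
  let e : Fin N × Fin (K + 2) ≃ Fin (N * (K + 2)) := finProdFinEquiv
  have hsum : ∀ {V : Type} [AddCommMonoid V] (F : Fin N × Fin (K + 2) → V),
      ∑ i, F (e.symm i) = ∑ m, ∑ j, F (m, j) := by
    intro V _ F
    rw [Equiv.sum_comp e.symm F, Fintype.sum_prod_type]
  refine ⟨⟨N * (K + 2), fun i => (((e.symm i).1 : ℕ) : ℝ) / N + 1 / N * θ (e.symm i).2,
    fun i => (N : ℝ) * lam (e.symm i).1 (e.symm i).2, ?_, ?_, ?_, ?_⟩⟩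
  · rw [Nat.cast_mul, mul_comm]
    exact mul_le_mul_of_nonneg_right (by linarith) hN'.le
  · intro i
    have h1 := hθ (e.symm i).2
    have h2 : ((((e.symm i).1 : ℕ) : ℝ) + 1) ≤ N := by exact_mod_cast (e.symm i).1.2
    refine ⟨by have := h1.1; positivity, ?_⟩
    rw [one_div, ← div_eq_inv_mul, ← add_div, div_le_one hN']
    linarith [h1.2]
  · rw [hsum (fun p => |(N : ℝ) * lam p.1 p.2|)]
    calc _ ≤ ∑ m : Fin N, (N : ℝ) * B := by
          refine Finset.sum_le_sum fun m _ => ?_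
          simp only [abs_mul, abs_of_nonneg hN'.le]
          rw [← Finset.mul_sum]
          exact mul_le_mul_of_nonneg_left (hB _) hN'.le
      _ = B * (N : ℝ) ^ 2 := by
          simp only [Finset.sum_const, Finset.card_univ, Fintype.card_fin, nsmul_eq_mul]
          ring
      _ ≤ C' * (N : ℝ) ^ 2 := mul_le_mul_of_nonneg_right (by linarith) (by positivity)
  · intro d g hg hc
    rw [hsum (fun p => ((N : ℝ) * lam p.1 p.2) • (((((p.1 : ℕ) : ℝ) / N + 1 / N * θ p.2)) •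
      g 1 (((p.1 : ℕ) : ℝ) / N + 1 / N * θ p.2) -
        (g 0 (((p.1 : ℕ) : ℝ) / N + 1 / N * θ p.2) - g 0 0)))]
    have htel : g 1 1 - g 1 0 = ∑ m ∈ Finset.range N,
        (g 1 ((m : ℝ) / N + 1 / N) - g 1 ((m : ℝ) / N)) := by
      have h := Finset.sum_range_sub (fun m : ℕ => g 1 ((m : ℝ) / N)) N
      simp only [Nat.cast_zero, zero_div, div_self hN'.ne'] at h
      rw [← h]
      refine Finset.sum_congr rfl fun m _ => ?_
      push_cast
      rw [add_div]
    rw [htel, Fin.sum_univ_eq_sum_range (fun m => ∑ j, ((N : ℝ) * lam m j) •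
      ((((m : ℝ) / N + 1 / N * θ j)) • g 1 ((m : ℝ) / N + 1 / N * θ j) -
        (g 0 ((m : ℝ) / N + 1 / N * θ j) - g 0 0))) N, ← Finset.sum_sub_distrib]
    refine (norm_sum_le _ _).trans ?_
    have hs : ∑ m ∈ Finset.range N, ∫ y in ((m : ℝ) / N)..(((m + 1 : ℕ) : ℝ) / N),
        ‖g (K + 2) y‖ = ∫ y in (0 : ℝ)..1, ‖g (K + 2) y‖ := by
      have := intervalIntegral.sum_integral_adjacent_intervals (f := fun y => ‖g (K + 2) y‖)
        (μ := volume) (a := fun m : ℕ => (m : ℝ) / N) (n := N) (fun m hm => by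
          refine (hc.norm.mono ?_).intervalIntegrable_of_Icc (by gcongr; omega)
          refine Icc_subset_Icc (by positivity) ?_
          rw [div_le_one hN']; exact_mod_cast hm)
      simpa [div_self hN'.ne'] using this
    rw [← hs, Finset.mul_sum]
    refine Finset.sum_le_sum fun m hm => ?_
    refine (piece2 θ (lam m) hθ (hB m) (h0 m) (Finset.mem_range.1 hm) (hex m) g hg hc).trans ?_
    have e1 : (m : ℝ) / N + 1 / N = ((m + 1 : ℕ) : ℝ) / N := by push_cast; ring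
    rw [e1]
    refine mul_le_mul_of_nonneg_right ?_
      (intervalIntegral.integral_nonneg (by gcongr; omega) fun y _ => norm_nonneg _)
    gcongr
    linarith

theorem exists_kit (K : ℕ) (hK : 1 ≤ K) :
    ∃ C : ℝ, 1 ≤ C ∧ ∀ N : ℕ, 1 ≤ N → Nonempty (Kit K C N) := by
  obtain ⟨C1, h1, H1⟩ := exists_quad K hK
  obtain ⟨C2, _, H2⟩ := exists_dq K
  obtain ⟨C3, _, H3⟩ := exists_quad2 K
  refine ⟨max C1 (max C2 C3), h1.trans (le_max_left _ _), fun N hN => ?_⟩
  obtain ⟨a⟩ := H1 _ (le_max_left C1 (max C2 C3)) 1 le_rfl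
  obtain ⟨b⟩ := H1 _ (le_max_left C1 (max C2 C3)) N hN
  obtain ⟨c⟩ := H2 (max C1 (max C2 C3)) ((le_max_left _ _).trans (le_max_right _ _))
  obtain ⟨e⟩ := H3 (max C1 (max C2 C3)) ((le_max_right _ _).trans (le_max_right _ _)) N hN
  exact ⟨⟨a, b, c, e⟩⟩

end Crest.Agent.R285
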