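import Crest.Agent.R285.CoreA
import Crest.Agent.R285.Quad2
import Crest.Agent.R285.Marg

/-!
# R285 Core: the noise cancelling mean estimator and the Kim-Milman sampler.

Take the kit from `exists_kit`, `n = k.q1.n`, `w = k.q1.w 1`, `x = xl k κ c`,
`xs = smul (RR κ)⁻¹ (kmT k 0 (RR κ))`, `Φ` from `exists_flow`.
Let `r_j = R t_j`, `A i c' y = ∑ j, c (v_j / R) (JT Φ i c' (r_j, y) - kd i c')`, `B = BA A`; `AA_sum`,
`flow_mo` give `a = |c| 2 Cq N² δ κ⁻¹^p`, `BA_bound (K + 2)` with `Ψ = id`.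
`XV B id q = B q = (c ∑ (v_j/R) (Φ_j + r_j g_j - ω), - c ∑ (v_j/R) (J_j ζ - ζ))` (`flow_nat`; `dv` is
linear, `dv (unc kd) = U0`).  With `β q = (ev outβ.1 q, ev outβ.2 q)` (Lipschitz by `ev_lip`, `build`):
`η ≤ |c| (q2_err + δ km_err) + |c| 2 Cq N² core_inner`.  The estimator minus `c • m` is
`(pic β q (K+1) 1).1` (`ev_xl`, `ev_outβ_fst`, `∑ w 1 l = 1` by `Quad.exact`), `coll` and `lie_weak` with
`M = id`, `f ∘ (· + c m) ∘ fst`.  Second part: `km_err 0 R`, `flow_map`, `mu_eq`.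
-/

set_option autoImplicit false

namespace Crest.Agent.R285

open MeasureTheory Set
open scoped ContDiff

namespace CoreB

theorem pow_dom (C : ℝ) (p0 : ℕ) : ∃ p : ℕ, ∀ k : ℝ, 2 ≤ k → C * k ^ p0 ≤ k ^ p := by
  refine ⟨⌈C⌉₊ + p0, fun k hk => ?_⟩
  rw [pow_add]
  gcongr
  calc C ≤ (⌈C⌉₊ : ℝ) := Nat.le_ceil C
    _ ≤ 2 ^ ⌈C⌉₊ := by exact_mod_cast Nat.lt_two_pow_self.le
    _ ≤ k ^ ⌈C⌉₊ := by gcongr

theorem lip_l1 {Ω α : Type} [MeasurableSpace Ω] [NormedAddCommGroup α] {μ : Measure Ω}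
    [IsProbabilityMeasure μ] {F G : Ω → α} (hF : Integrable F μ) (hG : Integrable G μ)
    {f : α → ℝ} (hf : ∀ x y, |f x - f y| ≤ ‖x - y‖) :
    |∫ o, f (F o) ∂μ - ∫ o, f (G o) ∂μ| ≤ ∫ o, ‖F o - G o‖ ∂μ := by
  have hl : LipschitzWith 1 f := LipschitzWith.of_dist_le_mul fun x y => by
    simpa [Real.dist_eq, dist_eq_norm] using hf x y
  have hi : ∀ {F : Ω → α}, Integrable F μ → Integrable (fun o => f (F o)) μ := by
    intro F hF
    refine Integrable.mono' ((integrable_const |f 0|).add hF.norm)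
      (hl.continuous.comp_aestronglyMeasurable hF.1) (ae_of_all _ fun o => ?_)
    have := hf (F o) 0
    rw [sub_zero] at this
    have h2 := abs_sub_abs_le_abs_sub (f (F o)) (f 0)
    simp only [Real.norm_eq_abs, Pi.add_apply]
    linarith
  rw [← integral_sub (hi hF) (hi hG)]
  refine abs_integral_le_integral_abs.trans ?_
  exact integral_mono ((hi hF).sub (hi hG)).abs (hF.sub hG).norm fun o => hf _ _

theorem l1_snd {d : ℕ} {F : E d → E d} {e : ℝ} (h : L1le (gam d) F e) :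
    L1le (gam2 d) (fun q => F q.2) e := by
  refine ⟨h.1.comp_snd _, ?_⟩
  unfold gam2
  rw [integral_fun_snd (fun y => ‖F y‖)]
  simpa using h.2

theorem pd_coord {d : ℕ} (c i : Fin d) : pd (bv c) (fun y : E d => y i) = fun _ => kd c i := by
  funext y
  unfold pd
  have : (fun y : E d => y i) = EuclideanSpace.proj (𝕜 := ℝ) i := rfl
  rw [this, ContinuousLinearMap.fderiv, ← bv_apply]
  rfl

theorem dv_comb {d n : ℕ} (cj : Fin n → ℝ) (J : Fin n → MF (E d) (Fin d) (Fin d))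
    (hJ : ∀ j, TGm (J j)) (i : Fin d) (o : E d) :
    dv bv (U0 d) (unc fun i c y => ∑ j, cj j * (J j i c y - kd i c)) i o =
      ∑ j, cj j * (dv bv (U0 d) (unc (J j)) i o - o i) := by
  have hd : ∀ j c, DifferentiableAt ℝ (J j i c) o := fun j c =>
    ((hJ j i c).1.differentiable (by simp)) o
  have h1 : ∀ c, pd (bv c) (fun y => ∑ j, cj j * (J j i c y - kd i c)) o =
      ∑ j, cj j * pd (bv c) (J j i c) o := by
    intro c
    rw [pd_sum _ (fun j => ((hd j c).sub_const _).const_mul _)]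
    refine Finset.sum_congr rfl fun j _ => ?_
    rw [pd_const_mul]
    simp only
    rw [pd_sub _ (hd j c) (differentiableAt_const _), pd_const, sub_zero]
  have h2 : o i = ∑ c, o c * kd i c := by
    rw [← sum_kd_mul i (fun c => o c)]
    exact Finset.sum_congr rfl fun c _ => mul_comm _ _
  simp only [dv, unc, U0, h1]
  conv_rhs => rw [h2]
  simp only [← Finset.sum_sub_distrib, Finset.mul_sum]
  rw [Finset.sum_comm]
  refine Finset.sum_congr rfl fun j _ => Finset.sum_congr rfl fun c _ => by ring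

end CoreB

open CoreB Tm

theorem core (K : ℕ) (hK : 1 ≤ K) : ∃ (Cf : ℝ) (p : ℕ), 1 ≤ Cf ∧ CoreSpec K Cf p := by
  obtain ⟨Cq, hCq, hkit⟩ := exists_kit K hK
  obtain ⟨Cb, hCb, hbuild⟩ := build K hK Cq hCq
  obtain ⟨p1, hp1⟩ := km_err K hK Cq hCq
  obtain ⟨p2, hp2⟩ := q2_err K Cq hCq
  obtain ⟨p3, hp3⟩ := core_inner K hK Cq hCq
  obtain ⟨p4, hp4⟩ := flow_mo (2 * (K + 2))
  obtain ⟨CB, hCB, hBA⟩ := BA_bound (K + 2)
  set C0 : ℝ := 20 * (K + 1) * Cq ^ 3 * Cb ^ 2 * CB with hC0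
  obtain ⟨p, hp⟩ := pow_dom C0 (p1 + p2 + p3 + p4)
  refine ⟨Cq, p, hCq, fun κ N c hκ hκ2 hN => ?_⟩
  obtain ⟨k⟩ := hkit N hN
  obtain ⟨-, -, hout, hxl, hxs⟩ := hbuild N k κ hN hκ hκ2
  have hk2 : 2 ≤ κ⁻¹ := by rw [le_inv_comm₀ two_pos hκ]; linarith
  have hk1 : 1 ≤ κ⁻¹ := by linarith
  set X := κ⁻¹ ^ (p1 + p2 + p3 + p4) with hX
  set Y := κ⁻¹ ^ p with hY
  have hX1 : 1 ≤ X := one_le_pow₀ hk1
  have hXY : C0 * X ≤ Y := hp _ hk2
  have hN1 : (1 : ℝ) ≤ N := by exact_mod_cast hN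
  have hK0 : (0 : ℝ) ≤ K := Nat.cast_nonneg K
  have hq2 : 1 ≤ Cq ^ 2 := one_le_pow₀ hCq
  have hq3 : Cq ^ 2 ≤ Cq ^ 3 := pow_le_pow_right₀ hCq (by norm_num)
  have hq1 : Cq ≤ Cq ^ 2 := by nlinarith
  have hb2 : Cb ≤ Cb ^ 2 := by nlinarith
  have hm : ∀ {a1 a2 a3 a4 a5 : ℝ}, 0 ≤ a1 → a1 ≤ 20 * (K + 1) → 0 ≤ a2 → a2 ≤ Cq ^ 3 → 0 ≤ a3 →
      a3 ≤ Cb ^ 2 → 0 ≤ a4 → a4 ≤ CB → 0 ≤ a5 → a5 ≤ X → a1 * a2 * a3 * a4 * a5 ≤ Y := by
    intro a1 a2 a3 a4 a5 _ _ _ _ _ _ _ _ _ _
    refine le_trans ?_ hXY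
    rw [hC0]; gcongr
  have hCbY : 2 * Cb ≤ Y := by
    have := hm (a1 := 2) (a2 := 1) (a3 := Cb) (a4 := 1) (a5 := 1) (by norm_num) (by linarith)
      zero_le_one (by linarith) (by linarith) hb2 zero_le_one hCB zero_le_one hX1
    linarith
  have hc1 : 1 ≤ 1 + |c| := by linarith [abs_nonneg c]
  have hN2 : (N : ℝ) ≤ (N : ℝ) ^ 2 := by nlinarith
  have hN3 : (N : ℝ) ^ 2 ≤ (N : ℝ) ^ 3 := pow_le_pow_right₀ hN1 (by norm_num)
  have hN4 : (N : ℝ) ^ 3 ≤ (N : ℝ) ^ 4 := pow_le_pow_right₀ hN1 (by norm_num)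
  have hCbY' : Cb ≤ Y := by linarith
  have h01 : (1 : ℝ) ∈ Icc (0 : ℝ) 1 := ⟨zero_le_one, le_rfl⟩
  refine ⟨k.q1.n, k.q1.w 1, xl k κ c, smul (RR κ)⁻¹ (kmT k 0 (RR κ)), by simpa using k.q1.n_le,
    k.q1.w_sum 1 h01, fun l => ⟨(hxl c l).1.mono hCbY' (by gcongr) (by gcongr), (hxl c l).2⟩,
    hxs.mono hCbY' (by gcongr) ?_, fun θ hθ hs => ?_⟩
  · calc Cb = Cb * 1 * 1 := by ring
      _ ≤ _ := by gcongr; linarith
  subst hθ
  obtain ⟨Φ, hΦ⟩ := exists_flow θ.pot θ.δ_le
  have hδ := θ.pot.nn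
  have hR := half_le_RR hκ hκ2
  have hR1 := RR_lt_one hκ hκ2
  have hRsq := RR_sq hκ hκ2
  have hR0 : 0 < RR θ.κ := by linarith
  have hRm : RR θ.κ ∈ Icc 0 (RR θ.κ) := ⟨hR0.le, le_rfl⟩
  have h0m : (0 : ℝ) ∈ Icc 0 (RR θ.κ) := ⟨le_rfl, hR0.le⟩
  have hrj : ∀ j, RR θ.κ * k.q2.t j ∈ Icc 0 (RR θ.κ) := fun j =>
    ⟨mul_nonneg hR0.le (k.q2.t_mem j).1, by nlinarith [(k.q2.t_mem j).2]⟩
  have hsz : √(θ.d : ℝ) ≤ θ.sz := by unfold Inst.sz; linarith [norm_nonneg θ.m]
  have hd0 := Real.sqrt_nonneg (θ.d : ℝ)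
  have hX1' : θ.κ⁻¹ ^ p1 ≤ X := pow_le_pow_right₀ hk1 (by omega)
  have hX2 : θ.κ⁻¹ ^ p2 ≤ X := pow_le_pow_right₀ hk1 (by omega)
  have hX3 : θ.κ⁻¹ ^ p3 ≤ X := pow_le_pow_right₀ hk1 (by omega)
  have hX4 : θ.κ⁻¹ ^ p4 ≤ X := pow_le_pow_right₀ hk1 (by omega)
  have hsm : ∀ {y n' c' : ℝ}, 0 ≤ y → y ≤ Y → 0 ≤ n' → n' ≤ (N : ℝ) ^ 4 → 0 ≤ c' → c' ≤ 1 + |c| →
      y * n' * c' * θ.δ ≤ 1 := by
    intro y n' c' _ _ _ _ _ _
    refine le_trans ?_ hs
    gcongr
  have hY0 : 0 ≤ Y := by linarith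
  have hCqY : Cq ≤ Y := by
    have := hm (a1 := 1) (a2 := Cq) (a3 := 1) (a4 := 1) (a5 := 1) (by norm_num) (by linarith)
      (by linarith) (by linarith) zero_le_one (by linarith) zero_le_one hCB zero_le_one hX1
    linarith
  have hXY' : 2 * X ≤ Y := by
    have := hm (a1 := 2) (a2 := 1) (a3 := 1) (a4 := 1) (a5 := X) (by norm_num) (by linarith)
      (by linarith) (by linarith) zero_le_one (by linarith) zero_le_one hCB (by linarith) le_rfl
    linarith
  have sa : Cq * θ.δ * N ≤ 1 := by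
    have := hsm (y := Cq) (n' := N) (c' := 1) (by linarith) hCqY (by linarith) (by linarith)
      zero_le_one hc1
    linarith
  have sb : θ.κ⁻¹ ^ p3 * N * θ.δ ≤ 1 := by
    have := hsm (y := θ.κ⁻¹ ^ p3) (n' := N) (c' := 1) (by positivity) (by linarith) (by linarith)
      (by linarith) zero_le_one hc1
    linarith
  have sc : Cb * θ.δ ≤ 1 / 2 := by
    have := hsm (y := 2 * Cb) (n' := 1) (c' := 1) (by linarith) hCbY (by linarith) (by linarith)
      zero_le_one hc1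
    linarith
  have hkm := hp1 θ N k Φ hN hΦ sa 0 h0m _ hRm
  simp only [hΦ.init] at hkm
  have hNK : (0 : ℝ) < (N : ℝ) ^ K := by positivity
  set Z := θ.sz / (N : ℝ) ^ K with hZ
  have hZ0 : 0 ≤ Z := div_nonneg (by linarith) hNK.le
  have hkm2 : ∫ o, ‖kmS (Gv θ.W) k 0 (RR θ.κ) o - Φ (RR θ.κ, o)‖ ∂(gam θ.d) ≤ X * Z := by
    refine hkm.2.trans ?_
    rw [hZ, div_mul_eq_mul_div, mul_div_assoc]
    gcongr
  have hfin : Y * (N : ℝ) ^ 3 * (1 + |c|) / (N : ℝ) ^ K * θ.sz = Y * (N : ℝ) ^ 3 * (1 + |c|) * Z := by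
    rw [hZ]; ring
  rw [hfin]
  have hΦi : Integrable (fun o => Φ (RR θ.κ, o)) (gam θ.d) :=
    tg_integrable gam_pm (flow_tg θ hΦ hRm).1
  constructor
  · -- the mean estimator
    have hGl : ∀ s, θ.κ ^ 2 ≤ s → s ≤ 1 → ∀ x y, ‖Gv θ.W s x - Gv θ.W s y‖ ≤ θ.δ * ‖x - y‖ :=
      fun s h1 _ x y => G_lip θ.pot (lt_of_lt_of_le (pow_pos hκ 2) h1) x y
    obtain ⟨g1, g2, b11, b12, b21, b22, w1, w2⟩ := hout c
    set β : E θ.d × E θ.d → E θ.d × E θ.d := fun q =>
      ((outβ k θ.κ c).1.ev (Gv θ.W) q, (outβ k θ.κ c).2.ev (Gv θ.W) q) with hβ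
    set l := Cb * (N : ℝ) ^ 3 * |c| * θ.δ * (4 * Cb) with hl
    have hl0 : 0 ≤ l := by positivity
    have hβl : ∀ x y, ‖β x - β y‖ ≤ l * ‖x - y‖ := by
      intro x y
      have e1 := ev_lip hδ (by linarith) sc hGl g1 x y
      have e2 := ev_lip hδ (by linarith) sc hGl g2 x y
      simp only [b11, b12, b21, b22, zero_smul, add_zero, sub_zero] at e1 e2
      rw [Prod.norm_def]
      exact max_le (e1.trans (by rw [hl]; gcongr)) (e2.trans (by rw [hl]; gcongr))
    have hβc : Continuous β := by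
      have : LipschitzWith l.toNNReal β := LipschitzWith.of_dist_le_mul fun x y => by
        rw [dist_eq_norm, dist_eq_norm, Real.coe_toNNReal _ hl0]; exact hβl x y
      exact this.continuous
    have sd : Cq * l ≤ 1 / N := by
      rw [le_div_iff₀ (by linarith)]
      have h1 := hm (a1 := 4) (a2 := Cq) (a3 := Cb ^ 2) (a4 := 1) (a5 := 1) (by norm_num)
        (by linarith) (by linarith) (by linarith) (by positivity) le_rfl zero_le_one hCB
        zero_le_one hX1
      have := hsm (y := 4 * Cq * Cb ^ 2 * 1 * 1) (n' := (N : ℝ) ^ 4) (c' := |c|) (by positivity)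
        h1 (by positivity) le_rfl (abs_nonneg c) (by linarith)
      rw [hl]; nlinarith
    have hu1 : 1 / (N : ℝ) ≤ 1 := by rw [div_le_one (by linarith)]; exact hN1
    have hl1 : l ≤ 1 := by nlinarith
    set cj : Fin k.q2.n → ℝ := fun j => c * (k.q2.v j / RR θ.κ) with hcj
    have hcjs : ∑ j, |cj j| ≤ |c| * (2 * Cq * (N : ℝ) ^ 2) := by
      have : ∀ j, |cj j| ≤ |c| * (2 * |k.q2.v j|) := by
        intro j
        rw [hcj]
        simp only [abs_mul, abs_div, abs_of_pos hR0]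
        gcongr
        rw [div_le_iff₀ hR0]; nlinarith [abs_nonneg (k.q2.v j)]
      refine (Finset.sum_le_sum fun j _ => this j).trans ?_
      rw [← Finset.mul_sum, ← Finset.mul_sum, mul_assoc 2]
      gcongr
      exact k.q2.v_sum
    set J : Fin k.q2.n → MF (E θ.d) (Fin θ.d) (Fin θ.d) :=
      fun j => slM (RR θ.κ * k.q2.t j) (JT Φ) with hJ
    have hJt : ∀ j, TGm (J j) := fun j => (flow_tg θ hΦ (hrj j)).2
    set A : MF (E θ.d) (Fin θ.d) (Fin θ.d) := fun i c' y => ∑ j, cj j * (J j i c' y - kd i c')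
      with hA
    have hJt' : ∀ j i c', TG (fun y => J j i c' y - kd i c') := fun j i c' =>
      (hJt j i c').sub (Function.HasTemperateGrowth.const _)
    have hAt : TGm A := fun i c' => Function.HasTemperateGrowth.sum fun j _ =>
      (Function.HasTemperateGrowth.const _).mul (hJt' j i c')
    set a := (∑ j, |cj j|) * (θ.δ * θ.κ⁻¹ ^ p4) with ha
    have ha0 : 0 ≤ a := by positivity
    have hA1 : Mo bv (2 * (K + 2)) a A :=
      AA_sum (A := fun j i c' y => J j i c' y - kd i c') isOpen_univ le_rfl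
        (fun j i c' => (hJt' j i c').1.contDiffOn) (by positivity)
        (fun j => (hp4 θ Φ hΦ _ (hrj j)).2.2.2.1)
    have hA2 : Mo bv (2 * (K + 2)) a (mT A) :=
      AA_sum (A := fun j c' i y => J j i c' y - kd i c') isOpen_univ le_rfl
        (fun j c' i => (hJt' j i c').1.contDiffOn) (by positivity)
        (fun j => (hp4 θ Φ hΦ _ (hrj j)).2.2.2.2)
    have se : CB * a ≤ 1 / N := by
      rw [le_div_iff₀ (by linarith)]
      have h1 := hm (a1 := 2) (a2 := Cq) (a3 := 1) (a4 := CB) (a5 := X) (by norm_num)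
        (by linarith) (by linarith) (by linarith) (by positivity) (by linarith) (by linarith) le_rfl
        (by linarith) le_rfl
      have h2 := hsm (y := 2 * Cq * 1 * CB * X) (n' := (N : ℝ) ^ 3) (c' := |c|) (by positivity)
        h1 (by positivity) hN4 (abs_nonneg c) (by linarith)
      calc CB * a * N ≤ CB * (|c| * (2 * Cq * (N : ℝ) ^ 2) * (θ.δ * X)) * N := by
            rw [ha]; gcongr
        _ = _ := by ring
        _ ≤ 1 := h2
    set M : E θ.d × E θ.d → E θ.d × E θ.d := fun p => (p.1, p.2) with hM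
    have hMt : TG M := Function.HasTemperateGrowth.id'
    have hSF := BA_sf hAt
    have hid : Mo bv (2 * (K + 2)) 1 (fun c i : Fin θ.d => pd (bv c) (fun y : E θ.d => y i)) := by
      simp only [pd_coord]
      exact AA_const opLe_kd
    have hXm : ∀ m, 1 ≤ m → m ≤ K + 2 → ∫ q, ‖(XV (BA A))^[m] M q‖ ∂(gam2 θ.d) ≤
        (1 / (N : ℝ)) ^ m * CB * √(θ.d : ℝ) := by
      intro m h1 h2
      refine (hBA θ.d A a ha0 hAt hA1 hA2 (fun y => y) 1 le_rfl Function.HasTemperateGrowth.id'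
        hid m h1 h2).2.trans ?_
      rw [mul_one]
      gcongr
    have hρ : ∀ m, K ≤ m → 1 ≤ m → m ≤ K + 2 → ∫ q, ‖(XV (BA A))^[m] M q‖ ∂(gam2 θ.d) ≤
        CB * Z := by
      intro m h0 h1 h2
      refine (hXm m h1 h2).trans ?_
      calc _ ≤ (1 / (N : ℝ)) ^ K * CB * θ.sz := by
            gcongr ?_ * _ * ?_
            exact pow_le_pow_of_le_one (by positivity) hu1 h0
        _ = _ := by rw [hZ, div_pow, one_pow]; ring
    have hS : ∀ m, 1 ≤ m → m ≤ K → ∫ q, ‖(XV (BA A))^[m] M q‖ ∂(gam2 θ.d) ≤ CB * θ.sz := by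
      intro m h1 h2
      refine (hXm m h1 (by omega)).trans ?_
      calc _ ≤ 1 * CB * θ.sz := by
            gcongr
            exact pow_le_one₀ (by positivity) hu1
        _ = _ := by ring
    -- the defect of the vector field
    have hq2e := l1_snd (hp2 θ N k Φ hN hΦ)
    have hkm3 := l1_snd hkm
    have hin := fun j => hp3 θ N k Φ hN hΦ sb _ (hrj j)
    have hη : ∫ q, ‖XV (BA A) M q - β (M q)‖ ∂(gam2 θ.d) ≤
        |c| * (4 * Cq * X * (N : ℝ) ^ 3 * Z) := by
      have hi1 := (hq2e.1.norm.const_mul |c|).add (hkm3.1.norm.const_mul (|c| * θ.δ))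
      have hi2 := integrable_finset_sum Finset.univ fun j _ => (hin j).1.norm.const_mul |cj j|
      refine (integral_mono_of_nonneg (ae_of_all _ fun q => norm_nonneg _) (hi1.add hi2)
        (ae_of_all _ fun q => ?_)).trans ?_
      · have eX : XV (BA A) M q = BA A q := by
          have : M = id := rfl
          simp [XV, this]
        simp only [Pi.add_apply]
        rw [eX, Prod.norm_def]
        refine max_le ?_ ?_
        · refine le_add_of_le_of_nonneg ?_ (Finset.sum_nonneg fun j _ => by positivity)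
          have e1 : (BA A q).1 = c • ∑ j, (k.q2.v j / RR θ.κ) • (Φ (RR θ.κ * k.q2.t j, q.2) +
              (RR θ.κ * k.q2.t j) • gv θ.W (RR θ.κ * k.q2.t j, Φ (RR θ.κ * k.q2.t j, q.2)) -
                q.2) := by
            ext i
            simp only [BA, vec_apply, hA]
            rw [dv_comb cj J hJt]
            simp only [hJ, PiLp.smul_apply, WithLp.ofLp_sum, Finset.sum_apply, PiLp.sub_apply,
              PiLp.add_apply, smul_eq_mul, Finset.mul_sum]
            refine Finset.sum_congr rfl fun j _ => ?_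
            rw [flow_nat θ.pot θ.δ_le hΦ (hrj j).1 (lt_of_le_of_lt (hrj j).2 hR1)]
            simp only [Ur, hcj]; ring
          have e2 : gv θ.W (RR θ.κ, Φ (RR θ.κ, q.2)) =
              Gv θ.W (θ.κ ^ 2) (RR θ.κ • Φ (RR θ.κ, q.2)) := by
            simp only [gv]; rw [hRsq, sub_sub_cancel]
          have e3 := hGl _ le_rfl (by nlinarith) (RR θ.κ • kmS (Gv θ.W) k 0 (RR θ.κ) q.2)
            (RR θ.κ • Φ (RR θ.κ, q.2))
          rw [← smul_sub, norm_smul, Real.norm_of_nonneg hR0.le] at e3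
          rw [Prod.fst_sub, e1, e2]
          simp only [hβ, hM, ev_outβ_fst]
          set Q2 := ∑ j, (k.q2.v j / RR θ.κ) • (Φ (RR θ.κ * k.q2.t j, q.2) +
              (RR θ.κ * k.q2.t j) • gv θ.W (RR θ.κ * k.q2.t j, Φ (RR θ.κ * k.q2.t j, q.2)) - q.2)
          set G1 := Gv θ.W (θ.κ ^ 2) (RR θ.κ • kmS (Gv θ.W) k 0 (RR θ.κ) q.2)
          set G2 := Gv θ.W (θ.κ ^ 2) (RR θ.κ • Φ (RR θ.κ, q.2))
          have e4 : c • Q2 - c • (G1 - Gv θ.W 1 0) = -(c • ((G2 - θ.m - Q2) + (G1 - G2))) := by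
            simp only [Inst.m, smul_sub, smul_add]; abel
          rw [e4, norm_neg, norm_smul, Real.norm_eq_abs, mul_assoc, ← mul_add]
          gcongr
          refine (norm_add_le _ _).trans ?_
          gcongr
          refine e3.trans ?_
          have := norm_nonneg (kmS (Gv θ.W) k 0 (RR θ.κ) q.2 - Φ (RR θ.κ, q.2))
          gcongr
          nlinarith
        · refine le_add_of_nonneg_of_le (by positivity) ?_
          have e1 : (BA A q - β (M q)).2 = ∑ j, cj j • ((bT k (RR θ.κ * k.q2.t j)).ev (Gv θ.W) q -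
              ((vec fun c' => ∑ i, JT Φ i c' (RR θ.κ * k.q2.t j, q.2) * q.1 i) - q.1)) := by
            rw [Prod.snd_sub]
            simp only [hβ, hM, ev_outβ_snd]
            ext c'
            have h2 : q.1 c' = ∑ i, kd i c' * q.1 i := by
              rw [← sum_kd_mul c' (fun i => q.1 i)]
              exact Finset.sum_congr rfl fun i _ => by rw [kd_comm]
            simp only [BA, vec_apply, hA, hJ, slM, sl, PiLp.smul_apply, WithLp.ofLp_sum,
              Finset.sum_apply, PiLp.sub_apply, smul_eq_mul, Finset.sum_mul]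
            rw [Finset.sum_comm, ← Finset.sum_neg_distrib, ← Finset.sum_sub_distrib]
            refine Finset.sum_congr rfl fun j _ => ?_
            conv_rhs => rw [h2]
            rw [← Finset.sum_sub_distrib, mul_sub, Finset.mul_sum]
            have : ∀ i, cj j * (JT Φ i c' (RR θ.κ * k.q2.t j, q.2) - kd i c') * q.1 i =
                cj j * (JT Φ i c' (RR θ.κ * k.q2.t j, q.2) * q.1 i - kd i c' * q.1 i) :=
              fun i => by ring
            simp only [this]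
            simp only [hcj]
            ring
          rw [e1]
          refine (norm_sum_le _ _).trans (Finset.sum_le_sum fun j _ => ?_)
          rw [norm_smul, Real.norm_eq_abs]
      · rw [integral_add' hi1 hi2, integral_add' (hq2e.1.norm.const_mul _)
          (hkm3.1.norm.const_mul _), integral_const_mul, integral_const_mul,
          integral_finset_sum _ fun j _ => (hin j).1.norm.const_mul |cj j|]
        have eZ : ∀ t : ℝ, t * N / (N : ℝ) ^ K * θ.sz = t * N * Z := fun t => by rw [hZ]; ring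
        have i1 := hq2e.2.trans_eq (eZ _)
        have i2 := hkm3.2.trans (by
          rw [div_mul_eq_mul_div, mul_div_assoc, ← hZ]; gcongr : _ ≤ X * Z)
        have i3 : ∑ j, ∫ q, |cj j| * ‖(bT k (RR θ.κ * k.q2.t j)).ev (Gv θ.W) q -
            ((vec fun c' => ∑ i, JT Φ i c' (RR θ.κ * k.q2.t j, q.2) * q.1 i) - q.1)‖ ∂(gam2 θ.d) ≤
            (∑ j, |cj j|) * (X * N * Z) := by
          rw [Finset.sum_mul]
          refine Finset.sum_le_sum fun j _ => ?_
          rw [integral_const_mul]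
          gcongr
          refine ((hin j).2.trans_eq (eZ _)).trans ?_
          gcongr
        have hδ1 : θ.δ ≤ 1 := by linarith [θ.δ_le]
        have hN3' : 1 ≤ Cq * (N : ℝ) ^ 3 := by nlinarith
        have hN3'' : (N : ℝ) ≤ Cq * (N : ℝ) ^ 3 := by nlinarith
        calc _ ≤ |c| * (X * (Cq * (N : ℝ) ^ 3) * Z) + |c| * (Cq * (N : ℝ) ^ 3) * (X * Z) +
              |c| * (2 * Cq * (N : ℝ) ^ 2) * (X * N * Z) := by
              refine add_le_add (add_le_add ?_ ?_) (i3.trans (by gcongr))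
              · exact mul_le_mul_of_nonneg_left (i1.trans (by gcongr)) (abs_nonneg c)
              · exact mul_le_mul (mul_le_mul_of_nonneg_left (hδ1.trans hN3') (abs_nonneg c)) i2
                  (integral_nonneg fun _ => norm_nonneg _) (by positivity)
          _ = _ := by ring
    have hco := coll hSF hMt k.q1 hl0 hβl hη (hρ _ (by omega) (by omega) (by omega))
      (hρ _ (by omega) (by omega) le_rfl) hS (K + 1) h01
    intro f hf
    have hf1 : ∀ x y, |f x - f y| ≤ ‖x - y‖ := fun x y => by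
      simpa [Real.dist_eq, dist_eq_norm] using hf.dist_le_mul x y
    set f' : E θ.d × E θ.d → ℝ := fun q => f (q.1 + c • θ.m) with hf'
    have hf2 : ∀ x y, |f' x - f' y| ≤ ‖x - y‖ := fun x y => by
      refine (hf1 _ _).trans ?_
      rw [add_sub_add_right_eq_sub]
      exact norm_fst_le (x - y)
    have eo : (fun q : E θ.d × E θ.d => q.1 + c • ∑ l, k.q1.w 1 l • Gv θ.W (θ.κ ^ 2)
        ((xl k θ.κ c l).ev (Gv θ.W) q)) =
        fun q => (pic k.q1.t k.q1.w (fun _ => β) (M q) (K + 1) 1).1 + c • θ.m := by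
      funext q
      have hw : ∑ l, k.q1.w 1 l = 1 := by simpa using k.q1.exact 1 h01 0 (by omega)
      simp only [pic, Prod.fst_add, Prod.fst_sum, Prod.smul_fst, ev_xl]
      simp only [hβ, hM, ev_outβ_fst, Inst.m]
      rw [add_assoc]
      congr 1
      simp only [smul_sub, Finset.sum_sub_distrib, ← Finset.sum_smul, hw, one_smul,
        sub_add_cancel, Finset.smul_sum]
      exact Finset.sum_congr rfl fun l _ => smul_comm _ _ _
    have hpc : Continuous fun q => pic k.q1.t k.q1.w (fun _ => β) (M q) (K + 1) 1 :=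
      pic_continuous _ _ (fun _ => hβc) _ _
    have hLi : Integrable (lieS (BA A) K M 1) (gam2 θ.d) :=
      tg_integrable gam2_pm (lieS_tg hSF.tg hMt K 1)
    have hPi : Integrable (fun q => pic k.q1.t k.q1.w (fun _ => β) (M q) (K + 1) 1) (gam2 θ.d) := by
      have := hco.1.add hLi
      refine this.congr (ae_of_all _ fun q => ?_)
      simp
    have hoc : Continuous fun q =>
        (pic k.q1.t k.q1.w (fun _ => β) (M q) (K + 1) 1).1 + c • θ.m :=
      hpc.fst.add continuous_const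
    rw [eo, integral_map hoc.measurable.aemeasurable hf.continuous.aestronglyMeasurable,
      integral_gT hf.continuous]
    have e5 : ∫ ξ, f (c • θ.m + (1 : ℝ) • ξ) ∂(gam θ.d) = ∫ q, f' (M q) ∂(gam2 θ.d) := by
      unfold gam2
      rw [integral_fun_fst (fun y => f (y + c • θ.m))]
      simp [add_comm]
    rw [e5]
    have t1 := (lip_l1 hPi hLi hf2).trans hco.2
    have t2 := (lie_weak hSF hMt K zero_le_one (fun x y => by simpa using hf2 x y) h01).trans
      (by rw [one_mul]; exact hρ _ (by omega) (by omega) (by omega) : _ ≤ CB * Z)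
    refine ((abs_sub_le _ _ _).trans (add_le_add t1 t2)).trans ?_
    have u1 : ∑ i ∈ Finset.range (K + 1), (Cq * l) ^ i ≤ K + 1 := by
      refine (Finset.sum_le_card_nsmul _ _ 1 fun i _ =>
        pow_le_one₀ (by positivity) (sd.trans hu1)).trans ?_
      simp
    have u2 : (Cq * l) ^ (K + 1) * (K * (CB * θ.sz)) ≤ K * CB * Z := by
      have hsz0 : 0 ≤ θ.sz := by linarith
      calc _ ≤ (1 / (N : ℝ)) ^ K * (K * (CB * θ.sz)) := by
            gcongr ?_ * _
            exact (pow_le_pow_left₀ (by positivity) sd _).trans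
              (pow_le_pow_of_le_one (by positivity) hu1 (by omega))
        _ = _ := by rw [hZ, div_pow, one_pow]; ring
    have u3 : (∑ i ∈ Finset.range (K + 1), (Cq * l) ^ i) *
        (Cq ^ 2 * (|c| * (4 * Cq * X * (N : ℝ) ^ 3 * Z) + (3 + 2 * l) * (CB * Z))) ≤
        (K + 1) * (Cq ^ 2 * (|c| * (4 * Cq * X * (N : ℝ) ^ 3 * Z) + 5 * (CB * Z))) := by
      gcongr; linarith
    have v1 := hm (a1 := 4 * (K + 1)) (a2 := Cq ^ 3) (a3 := 1) (a4 := 1) (a5 := X) (by positivity)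
      (by linarith) (by positivity) le_rfl zero_le_one (by linarith) zero_le_one hCB (by linarith)
      le_rfl
    have v2 := hm (a1 := 6 * (K + 1)) (a2 := Cq ^ 2) (a3 := 1) (a4 := CB) (a5 := 1) (by positivity)
      (by linarith) (by positivity) hq3 zero_le_one (by linarith) (by linarith) le_rfl zero_le_one
      hX1
    have v3 : (4 * (K + 1) * Cq ^ 3 * 1 * 1 * X) * ((N : ℝ) ^ 3 * |c| * Z) ≤
        Y * ((N : ℝ) ^ 3 * |c| * Z) := by gcongr
    have v4 : (6 * (K + 1) * Cq ^ 2 * 1 * CB * 1) * (1 * Z) ≤ Y * ((N : ℝ) ^ 3 * Z) := by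
      gcongr; linarith
    have v5 : (K + 1) * 1 * (CB * Z) ≤ (K + 1) * Cq ^ 2 * (CB * Z) := by gcongr
    nlinarith
  · -- the sampler
    intro f hf
    have hf1 : ∀ x y, |f x - f y| ≤ ‖x - y‖ := fun x y => by
      simpa [Real.dist_eq, dist_eq_norm] using hf.dist_le_mul x y
    have hki : Integrable (fun o => kmS (Gv θ.W) k 0 (RR θ.κ) o) (gam θ.d) := by
      refine (hkm.1.add hΦi).congr (ae_of_all _ fun q => ?_)
      simp
    have e1 : θ.κ / RR θ.κ = √(1 - RR θ.κ ^ 2) / RR θ.κ := by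
      rw [hRsq, sub_sub_cancel, Real.sqrt_sq hκ.le]
    have hΦm : Measurable (sl (RR θ.κ) Φ) := (flow_tg θ hΦ hRm).1.1.continuous.measurable
    have hm1 : Measurable fun y : E θ.d => (RR θ.κ)⁻¹ • y := by fun_prop
    have hm2 : AEMeasurable (fun q : E θ.d × E θ.d => (RR θ.κ)⁻¹ • kmS (Gv θ.W) k 0 (RR θ.κ) q.2)
        (gam2 θ.d) := ((hki.smul (RR θ.κ)⁻¹).comp_snd (gam θ.d)).1.aemeasurable
    simp only [ev_smul, ev_kmT]
    rw [e1, ← mu_eq θ.pot hR0 hR1, ← flow_map θ hΦ hRm, Measure.map_map hm1 hΦm,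
      integral_map (hm1.comp hΦm).aemeasurable hf.continuous.aestronglyMeasurable,
      integral_map hm2 hf.continuous.aestronglyMeasurable]
    unfold gam2
    rw [integral_fun_snd (fun o => f ((RR θ.κ)⁻¹ • kmS (Gv θ.W) k 0 (RR θ.κ) o))]
    simp only [probReal_univ, one_smul]
    refine (lip_l1 (hki.smul (RR θ.κ)⁻¹) (hΦi.smul (RR θ.κ)⁻¹) hf1).trans ?_
    simp only [Pi.smul_apply, ← smul_sub, norm_smul, integral_const_mul]
    have h2 : ‖(RR θ.κ)⁻¹‖ ≤ 2 := by
      rw [Real.norm_of_nonneg (by positivity), inv_le_comm₀ hR0 two_pos]; linarith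
    calc _ ≤ 2 * (X * Z) := by gcongr
      _ = 2 * X * 1 * 1 * Z := by ring
      _ ≤ _ := by gcongr; linarith

end Crest.Agent.R285
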