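import Crest.Agent.R285.TG

/-!
# R285 Tilt: Gibbs measures, integration by parts.

* integrability: `‖φ y‖ e^{-U y} ≤ C (1+‖y‖)^k e^{C - c‖y‖²}`; e.g. `(1+‖y‖)^k ≤ C' e^{c‖y‖²/2}` and
  Gaussian integrability (`GaussianFourier.integrable_cexp_neg_mul_sq_norm_add`, or
  `integrable_rpow_neg_one_add_norm_sq`/`integrable_one_add_norm` after bounding
  `e^{-c‖y‖²} ≤ C (1+‖y‖)^{-(d+1)}`).
* `sc_conf`: the continuous convex function `g = U - l/2‖·‖²` satisfies
  `g y ≥ g 0 - (sup_{‖v‖ ≤ 1} |g v - g 0|) * max 1 ‖y‖` (write `0` as a convex combination of `y`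
  and `-y/‖y‖`).
* `gib_ibp`: `integral_mul_fderiv_eq_neg_fderiv_mul_of_integrable` for `φ` and `exp (-U)`.
* `ibp_gam2`: Fubini (`integral_prod`, `integral_prod_symm`) and `ibp_gam` on slices.
* `pi_norm`: IBP with `φ = y c` gives `∫ ⟪∇V y, y⟫ = d`, and `⟪∇V y, y⟫ ≥ ‖y‖²` by monotonicity of the
  gradient of the convex function `V - ‖·‖²/2` (derivative of `t ↦ g (t • y)` is monotone); Jensen.
-/

set_option autoImplicit false

namespace Crest.Agent.R285

open MeasureTheory Set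
open scoped ContDiff

variable {d : ℕ}

namespace TiltA

theorem pow_exp_bound {c : ℝ} (hc : 0 < c) (m : ℕ) :
    ∃ K : ℝ, 0 ≤ K ∧ ∀ t : ℝ, 0 ≤ t → (1 + t) ^ m * Real.exp (-(c * t ^ 2)) ≤ K := by
  refine ⟨(m.factorial : ℝ) * Real.exp (1 + 1 / (4 * c)), by positivity, fun t ht => ?_⟩
  have h1 : (1 + t) ^ m ≤ (m.factorial : ℝ) * Real.exp (1 + t) := by
    have := Real.pow_div_factorial_le_exp (1 + t) (by positivity) m
    have hf : (0 : ℝ) < m.factorial := by exact_mod_cast m.factorial_pos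
    rw [div_le_iff₀ hf] at this
    linarith
  have h2 : 1 + t + -(c * t ^ 2) ≤ 1 + 1 / (4 * c) := by
    have : 0 ≤ c * (t - 1 / (2 * c)) ^ 2 := by positivity
    have e : c * (t - 1 / (2 * c)) ^ 2 = c * t ^ 2 - t + 1 / (4 * c) := by
      field_simp; ring
    linarith
  calc (1 + t) ^ m * Real.exp (-(c * t ^ 2))
      ≤ (m.factorial : ℝ) * Real.exp (1 + t) * Real.exp (-(c * t ^ 2)) := by gcongr
    _ = (m.factorial : ℝ) * Real.exp (1 + t + -(c * t ^ 2)) := by rw [mul_assoc, ← Real.exp_add]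
    _ ≤ _ := by gcongr

theorem sq_integral_le {α : Type} [MeasurableSpace α] {μ : Measure α} [IsProbabilityMeasure μ]
    {f : α → ℝ} (h1 : Integrable f μ) (h2 : Integrable (fun x => f x ^ 2) μ) :
    (∫ x, f x ∂μ) ^ 2 ≤ ∫ x, f x ^ 2 ∂μ := by
  set m := ∫ x, f x ∂μ with hm
  have h0 : 0 ≤ ∫ x, (f x ^ 2 - (2 * m) * f x + m ^ 2) ∂μ :=
    integral_nonneg fun x => by
      have : 0 ≤ (f x - m) ^ 2 := sq_nonneg _
      show (0 : ℝ) ≤ f x ^ 2 - (2 * m) * f x + m ^ 2
      nlinarith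
  have h3 : Integrable (fun x => f x ^ 2 - (2 * m) * f x) μ := h2.sub (h1.const_mul _)
  rw [integral_add h3 (integrable_const _),
    integral_sub h2 (h1.const_mul _), integral_const_mul, ← hm] at h0
  simp at h0
  nlinarith

theorem hasFDerivAt_half_sq (y : E d) :
    HasFDerivAt (fun y : E d => ‖y‖ ^ 2 / 2) (innerSL ℝ y) y := by
  have h := (hasStrictFDerivAt_norm_sq y).hasFDerivAt.const_mul (1 / 2 : ℝ)
  have e1 : (fun y : E d => ‖y‖ ^ 2 / 2) = fun y => 1 / 2 * ‖y‖ ^ 2 := by ext z; ring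
  have e2 : innerSL ℝ y = (1 / 2 : ℝ) • 2 • innerSL ℝ y := by ext z; simp
  rw [e1, e2]
  exact h

theorem pd_coord (c c' : Fin d) (y : E d) : pd (bv c) (fun y : E d => y c') y = kd c c' := by
  have : HasFDerivAt (fun y : E d => y c') (EuclideanSpace.proj c' : E d →L[ℝ] ℝ) y :=
    (EuclideanSpace.proj c' : E d →L[ℝ] ℝ).hasFDerivAt
  unfold pd
  rw [this.fderiv, ← bv_apply]
  rfl

theorem coord_contDiff (c : Fin d) : ContDiff ℝ 1 (fun y : E d => y c) :=
  (EuclideanSpace.proj c : E d →L[ℝ] ℝ).contDiff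

theorem coord_fderiv_polyG (c : Fin d) : PolyG (fderiv ℝ (fun y : E d => y c)) := by
  have : fderiv ℝ (fun y : E d => y c) = fun _ => (EuclideanSpace.proj c : E d →L[ℝ] ℝ) := by
    funext y
    exact (EuclideanSpace.proj c : E d →L[ℝ] ℝ).hasFDerivAt.fderiv
  rw [this]
  exact polyG_const _

theorem polyG_pd {P : Type} [NormedAddCommGroup P] [NormedSpace ℝ P] {φ : P → ℝ}
    (h : PolyG (fderiv ℝ φ)) (v : P) : PolyG (pd v φ) := by
  refine polyG_of_le (polyG_mul (polyG_norm h) (polyG_const ‖v‖)) fun y => ?_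
  rw [Real.norm_of_nonneg (by positivity : 0 ≤ ‖fderiv ℝ φ y‖ * ‖v‖)]
  exact (fderiv ℝ φ y).le_opNorm v

theorem pd_cont {P : Type} [NormedAddCommGroup P] [NormedSpace ℝ P] {φ : P → ℝ}
    (h : ContDiff ℝ 1 φ) (v : P) : Continuous (pd v φ) :=
  (h.continuous_fderiv (by norm_num)).clm_apply continuous_const

end TiltA

open TiltA

theorem conf_integrable {F : Type} [NormedAddCommGroup F] [NormedSpace ℝ F] {U : E d → ℝ}
    (hU : Conf U) {φ : E d → F} (hm : AEStronglyMeasurable φ volume) (hφ : PolyG φ) :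
    Integrable (fun y => Real.exp (-U y) • φ y) := by
  obtain ⟨hc, c, C, hc0, hC⟩ := hU
  obtain ⟨k, C', hk⟩ := hφ
  obtain ⟨K, hK0, hK⟩ := pow_exp_bound hc0 (k + (d + 1))
  have hint : Integrable (fun y : E d => (1 + ‖y‖) ^ (-((d + 1 : ℕ) : ℝ))) volume :=
    integrable_one_add_norm (by simp)
  refine (hint.const_mul (Real.exp C * |C'| * K)).mono' ?_ (ae_of_all _ fun y => ?_)
  · exact (Real.continuous_exp.comp hc.neg).aestronglyMeasurable.smul hm
  · have hp : 0 < 1 + ‖y‖ := by positivity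
    rw [norm_smul, Real.norm_of_nonneg (Real.exp_pos _).le, Real.rpow_neg hp.le,
      Real.rpow_natCast]
    have h1 : Real.exp (-U y) ≤ Real.exp C * Real.exp (-(c * ‖y‖ ^ 2)) := by
      rw [← Real.exp_add]; exact Real.exp_le_exp.2 (by linarith [hC y])
    have h2 : ‖φ y‖ ≤ |C'| * (1 + ‖y‖) ^ k :=
      (hk y).trans (mul_le_mul_of_nonneg_right (le_abs_self _) (by positivity))
    have h3 := hK ‖y‖ (norm_nonneg _)
    have hq : 0 < (1 + ‖y‖) ^ (d + 1) := by positivity
    calc Real.exp (-U y) * ‖φ y‖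
        ≤ (Real.exp C * Real.exp (-(c * ‖y‖ ^ 2))) * (|C'| * (1 + ‖y‖) ^ k) := by gcongr
      _ = Real.exp C * |C'| * ((1 + ‖y‖) ^ (k + (d + 1)) * Real.exp (-(c * ‖y‖ ^ 2))) *
          ((1 + ‖y‖) ^ (d + 1))⁻¹ := by
          rw [pow_add _ k]; field_simp
      _ ≤ Real.exp C * |C'| * K * ((1 + ‖y‖) ^ (d + 1))⁻¹ := by gcongr

theorem conf_integrable_exp {U : E d → ℝ} (hU : Conf U) :
    Integrable (fun y => Real.exp (-U y)) := by
  simpa using conf_integrable hU (φ := fun _ => (1 : ℝ)) aestronglyMeasurable_const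
    (polyG_const _)

theorem conf_Z_pos {U : E d → ℝ} (hU : Conf U) : 0 < ∫ y, Real.exp (-U y) :=
  integral_exp_pos (conf_integrable_exp hU)

theorem gib_pm {U : E d → ℝ} (hU : Conf U) : PM (gib U) := by
  refine ⟨isProbabilityMeasure_tilted (conf_integrable_exp hU), fun k => ?_⟩
  unfold gib
  rw [integrable_tilted_iff (conf_integrable_exp hU)]
  refine conf_integrable hU (by fun_prop) ⟨k, 1, fun y => ?_⟩
  rw [Real.norm_of_nonneg (by positivity), one_mul]
  exact pow_le_pow_left₀ (norm_nonneg _) (by linarith) k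

theorem integral_gib {F : Type} [NormedAddCommGroup F] [NormedSpace ℝ F] (U : E d → ℝ)
    (φ : E d → F) :
    ∫ y, φ y ∂(gib U) = (∫ y, Real.exp (-U y))⁻¹ • ∫ y, Real.exp (-U y) • φ y := by
  unfold gib
  rw [integral_tilted, ← integral_smul]
  congr 1
  funext y
  rw [smul_smul, div_eq_inv_mul]

theorem gib_add_const {U : E d → ℝ} (c : ℝ) : gib (fun y => U y + c) = gib U := by
  unfold gib Measure.tilted
  congr 1
  funext y
  congr 1
  have e : ∀ z, Real.exp (-(U z + c)) = Real.exp (-U z) * Real.exp (-c) := fun z => by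
    rw [← Real.exp_add]; congr 1; ring
  simp only [e]
  rw [integral_mul_const, mul_div_mul_right _ _ (Real.exp_pos _).ne']

theorem sc_conf {U : E d → ℝ} {l : ℝ} (hl : 0 < l) (hc : Continuous U) (h : SC l U) : Conf U := by
  set g : E d → ℝ := fun y => U y - l / 2 * ‖y‖ ^ 2 with hg
  have hgc : Continuous g := by fun_prop
  obtain ⟨M, hM⟩ := (isCompact_closedBall (0 : E d) 1).exists_bound_of_continuousOn
    hgc.continuousOn
  have hM0 : |g 0| ≤ M := hM 0 (by simp)
  have hMn : 0 ≤ M := (abs_nonneg _).trans hM0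
  have key : ∀ y, -(2 * M) * (1 + ‖y‖) ≤ g y := by
    intro y
    by_cases hy : ‖y‖ ≤ 1
    · have h1 : |g y| ≤ M := hM y (by simpa using hy)
      have := neg_abs_le (g y)
      nlinarith [norm_nonneg y]
    · push Not at hy
      have ht : 0 < ‖y‖ := by linarith
      have hu : |g (‖y‖⁻¹ • y)| ≤ M := hM _ (by
        simp [norm_smul, ht.ne'])
      have hi : ‖y‖⁻¹ ≤ 1 := inv_le_one_of_one_le₀ hy.le
      have hcv := h.2 (mem_univ 0) (mem_univ y) (sub_nonneg.2 hi) (inv_pos.2 ht).le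
        (sub_add_cancel 1 ‖y‖⁻¹)
      simp only [smul_zero, zero_add, smul_eq_mul] at hcv
      change g (‖y‖⁻¹ • y) ≤ (1 - ‖y‖⁻¹) * g 0 + ‖y‖⁻¹ * g y at hcv
      have h2 : ‖y‖ * g (‖y‖⁻¹ • y) ≤ (‖y‖ - 1) * g 0 + g y := by
        have := mul_le_mul_of_nonneg_left hcv ht.le
        have e : ‖y‖ * ((1 - ‖y‖⁻¹) * g 0 + ‖y‖⁻¹ * g y) = (‖y‖ - 1) * g 0 + g y := by
          field_simp
        linarith
      have h3 := neg_abs_le (g (‖y‖⁻¹ • y))
      have h4 := le_abs_self (g 0)
      have h5 : (‖y‖ - 1) * g 0 ≤ (‖y‖ - 1) * M :=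
        mul_le_mul_of_nonneg_left (h4.trans hM0) (by linarith)
      have h6 : ‖y‖ * (-M) ≤ ‖y‖ * g (‖y‖⁻¹ • y) :=
        mul_le_mul_of_nonneg_left (by linarith) ht.le
      nlinarith
  refine ⟨hc, l / 4, 2 * M + 4 * M ^ 2 / l, by positivity, fun y => ?_⟩
  have h1 := key y
  have h2 : 0 ≤ l / 4 * (‖y‖ - 4 * M / l) ^ 2 := by positivity
  have e : l / 4 * (‖y‖ - 4 * M / l) ^ 2 = l / 4 * ‖y‖ ^ 2 - 2 * M * ‖y‖ + 4 * M ^ 2 / l := by
    field_simp; ring
  simp only [hg] at h1
  nlinarith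

theorem gib_ibp {U : E d → ℝ} (hU : Conf U) (h1 : ContDiff ℝ 1 U) (hp : PolyG (fderiv ℝ U))
    {φ : E d → ℝ} (hφ : ContDiff ℝ 1 φ) (p0 : PolyG φ) (p1 : PolyG (fderiv ℝ φ)) (v : E d) :
    ∫ y, pd v φ y ∂(gib U) = ∫ y, pd v U y * φ y ∂(gib U) := by
  rw [integral_gib, integral_gib]
  congr 1
  have hd : ∀ y, HasFDerivAt (fun y => Real.exp (-U y))
      (Real.exp (-U y) • (-fderiv ℝ U y)) y := fun y =>
    ((h1.differentiable (by norm_num) y).hasFDerivAt.neg).exp
  have e : ∀ y, fderiv ℝ (fun y => Real.exp (-U y)) y v * φ y =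
      -(Real.exp (-U y) • (pd v U y * φ y)) := fun y => by
    rw [(hd y).fderiv]; simp [pd]; ring
  have i1 : Integrable (fun y => Real.exp (-U y) • (pd v U y * φ y)) :=
    conf_integrable hU ((pd_cont h1 v).mul hφ.continuous).aestronglyMeasurable
      (polyG_mul (polyG_pd hp v) p0)
  have i2 : Integrable (fun y => Real.exp (-U y) • pd v φ y) :=
    conf_integrable hU (pd_cont hφ v).aestronglyMeasurable (polyG_pd p1 v)
  have i3 : Integrable (fun y => Real.exp (-U y) • φ y) :=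
    conf_integrable hU hφ.continuous.aestronglyMeasurable p0
  have := integral_mul_fderiv_eq_neg_fderiv_mul_of_integrable (μ := (volume : Measure (E d)))
    (f := fun y => Real.exp (-U y)) (g := φ) (v := v)
    (by simp only [e]; exact i1.neg) i2 i3
    (fun y _ => (hd y).differentiableAt) (fun y _ => hφ.differentiable (by norm_num) y)
  simp only [e, integral_neg, neg_neg] at this
  exact this

theorem gam_conf : Conf (fun y : E d => ‖y‖ ^ 2 / 2) :=
  ⟨by fun_prop, 1 / 2, 0, by norm_num, fun y => by linarith⟩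

theorem gam_pm : PM (gam d) := gib_pm gam_conf

instance gam_prob : IsProbabilityMeasure (gam d) := gam_pm.prob

instance gam2_prob : IsProbabilityMeasure (gam2 d) := by
  unfold gam2; infer_instance

theorem gam2_pm : PM (gam2 d) := by
  refine ⟨inferInstance, fun k => ?_⟩
  have h1 : Integrable (fun p : E d × E d => ‖p.1‖ ^ k) (gam2 d) :=
    (gam_pm.mom k).comp_fst (gam d)
  have h2 : Integrable (fun p : E d × E d => ‖p.2‖ ^ k) (gam2 d) :=
    (gam_pm.mom k).comp_snd (gam d)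
  refine (h1.add h2).mono' (by fun_prop) (ae_of_all _ fun p => ?_)
  rw [Real.norm_of_nonneg (by positivity), Prod.norm_def]
  have a1 : 0 ≤ ‖p.1‖ ^ k := by positivity
  have a2 : 0 ≤ ‖p.2‖ ^ k := by positivity
  simp only [Pi.add_apply]
  rcases le_total ‖p.1‖ ‖p.2‖ with h | h
  · rw [max_eq_right h]; linarith
  · rw [max_eq_left h]; linarith

theorem ibp_gam : IBP (gam d) bv (U0 d) := by
  refine ⟨gam_pm, fun c => (EuclideanSpace.proj c : E d →L[ℝ] ℝ).hasTemperateGrowth,
    fun c φ hφ p0 p1 => ?_⟩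
  have hf : fderiv ℝ (fun y : E d => ‖y‖ ^ 2 / 2) = fun y => innerSL ℝ y :=
    funext fun y => (hasFDerivAt_half_sq y).fderiv
  have hc : ContDiff ℝ 1 (fun y : E d => ‖y‖ ^ 2 / 2) := (contDiff_norm_sq ℝ).div_const 2
  have hp : PolyG (fderiv ℝ (fun y : E d => ‖y‖ ^ 2 / 2)) := by
    rw [hf]
    exact polyG_of_le polyG_id fun y => (innerSL_apply_norm ℝ y).le
  have := gib_ibp gam_conf hc hp hφ p0 p1 (bv c)
  unfold gam
  rw [this]
  congr 1
  funext y
  congr 1
  unfold pd
  rw [hf]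
  simp [bv, U0, EuclideanSpace.inner_single_right]

theorem ibp_gam2 : IBP (gam2 d) e2 (co2 (d := d)) := by
  have tg : TGv (co2 (d := d)) := by
    rintro (i | c)
    · exact ((EuclideanSpace.proj i : E d →L[ℝ] ℝ).comp
        (ContinuousLinearMap.fst ℝ (E d) (E d))).hasTemperateGrowth
    · exact ((EuclideanSpace.proj c : E d →L[ℝ] ℝ).comp
        (ContinuousLinearMap.snd ℝ (E d) (E d))).hasTemperateGrowth
  refine ⟨gam2_pm, tg, fun c φ hφ p0 p1 => ?_⟩
  have i1 : Integrable (pd (e2 c) φ) ((gam d).prod (gam d)) :=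
    polyG_integrable gam2_pm (pd_cont hφ _) (polyG_pd p1 _)
  have i2 : Integrable (fun p => co2 c p * φ p) ((gam d).prod (gam d)) :=
    polyG_integrable gam2_pm ((tg c).1.continuous.mul hφ.continuous)
      (polyG_mul (tg_polyG (tg c)) p0)
  -- generic slice lemma
  have slice : ∀ (L : E d →L[ℝ] E d × E d) (q : E d × E d) (i : Fin d),
      ∫ x, fderiv ℝ φ (L x + q) (L (bv i)) ∂(gam d) = ∫ x, x i * φ (L x + q) ∂(gam d) := by
    intro L q i
    have hA : ∀ x, HasFDerivAt (fun x => L x + q) L x := fun x => L.hasFDerivAt.add_const q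
    have hd : ∀ x, HasFDerivAt (fun x => φ (L x + q)) ((fderiv ℝ φ (L x + q)).comp L) x :=
      fun x => (hφ.differentiable (by norm_num) _).hasFDerivAt.comp x (hA x)
    have hpA : PolyG (fun x => L x + q) :=
      polyG_add (tg_polyG L.hasTemperateGrowth) (polyG_const q)
    have hp1 : PolyG (fderiv ℝ (fun x => φ (L x + q))) := by
      refine polyG_of_le (polyG_mul (polyG_norm (polyG_comp p1 hpA)) (polyG_const ‖L‖))
        fun x => ?_
      rw [(hd x).fderiv, Real.norm_of_nonneg (by positivity)]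
      exact ContinuousLinearMap.opNorm_comp_le _ _
    have := ibp_gam.ibp i (fun x => φ (L x + q))
      (hφ.comp (L.contDiff.add contDiff_const)) (polyG_comp p0 hpA) hp1
    simp only [pd, U0] at this
    simp only [fun x => (hd x).fderiv, ContinuousLinearMap.comp_apply] at this
    exact this
  unfold gam2
  rcases c with i | c
  · rw [integral_prod_symm _ i1, integral_prod_symm _ i2]
    congr 1
    funext y
    have := slice (ContinuousLinearMap.inl ℝ (E d) (E d)) (0, y) i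
    simpa [pd, e2, co2] using this
  · rw [integral_prod _ i1, integral_prod _ i2]
    congr 1
    funext x
    have := slice (ContinuousLinearMap.inr ℝ (E d) (E d)) (x, 0) c
    simpa [pd, e2, co2] using this

theorem gam_norm_sq : ∫ y, ‖y‖ ^ 2 ∂(gam d) = d := by
  have h : ∀ c : Fin d, ∫ y, y c ^ 2 ∂(gam d) = 1 := fun c => by
    have := ibp_gam.ibp c (fun y : E d => y c) (coord_contDiff c) (polyG_coord c)
      (coord_fderiv_polyG c)
    simp only [pd_coord, kd_self, U0] at this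
    simp only [sq]
    rw [← this]; simp
  simp only [norm_sq_eq_sum]
  rw [integral_finsetSum _ fun c _ => ?_]
  · simp [h]
  · simp only [sq]
    exact polyG_integrable gam_pm
      ((coord_contDiff c).continuous.mul (coord_contDiff c).continuous)
      (polyG_mul (polyG_coord c) (polyG_coord c))

theorem gam_norm : ∫ y, ‖y‖ ∂(gam d) ≤ √(d : ℝ) := by
  apply Real.le_sqrt_of_sq_le
  rw [← gam_norm_sq]
  exact sq_integral_le (by simpa using gam_pm.mom 1) (gam_pm.mom 2)

/-- the potential of `nu W s x` is `(l + 1/s)`-strongly convex -/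
theorem nu_sc {W : E d → ℝ} {l s : ℝ} (h : SC l W) (hs : 0 < s) (x : E d) :
    SC (l + 1 / s) (fun z => W z + ‖z - x‖ ^ 2 / (2 * s)) := by
  have h1 : ConvexOn ℝ univ (fun z : E d => ((-(1 / s)) • innerSL ℝ x) z + ‖x‖ ^ 2 / (2 * s)) :=
    (((-(1 / s)) • innerSL ℝ x).toLinearMap.convexOn convex_univ).add_const _
  have h2 := ConvexOn.add h h1
  unfold SC
  refine h2.congr fun z _ => ?_
  simp only [Pi.add_apply, smul_apply, innerSL_apply_apply, smul_eq_mul]
  rw [norm_sub_sq_real, real_inner_comm]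
  field_simp
  ring

theorem pot_sc {W : E d → ℝ} {δ : ℝ} (h : Pot δ W) : SC 0 W := by
  unfold SC
  simpa using h.cvx

theorem nu_conf {W : E d → ℝ} {δ s : ℝ} (h : Pot δ W) (hs : 0 < s) (x : E d) :
    Conf (fun z => W z + ‖z - x‖ ^ 2 / (2 * s)) := by
  have hc := h.c2.continuous
  exact sc_conf (l := 0 + 1 / s) (by positivity) (by fun_prop) (nu_sc (pot_sc h) hs x)

theorem nu_pm {W : E d → ℝ} {δ s : ℝ} (h : Pot δ W) (hs : 0 < s) (x : E d) : PM (nu W s x) :=
  gib_pm (nu_conf h hs x)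

theorem pot_grad_cont {W : E d → ℝ} {δ : ℝ} (h : Pot δ W) : Continuous (gradient W) :=
  (InnerProductSpace.toDual ℝ (E d)).symm.continuous.comp (h.c2.continuous_fderiv (by norm_num))

theorem pot_grad_polyG {W : E d → ℝ} {δ : ℝ} (h : Pot δ W) : PolyG (gradient W) :=
  polyG_of_lip h.lip

theorem pot_fderiv_polyG {W : E d → ℝ} {δ : ℝ} (h : Pot δ W) : PolyG (fderiv ℝ W) :=
  polyG_of_le (pot_grad_polyG h) fun y => by
    unfold gradient
    rw [LinearIsometryEquiv.norm_map]

theorem pd_bv_eq_grad (W : E d → ℝ) (c : Fin d) (y : E d) : pd (bv c) W y = gradient W y c := by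
  have h1 : fderiv ℝ W y (bv c) = inner ℝ (gradient W y) (bv c) :=
    (InnerProductSpace.toDual_symm_apply (𝕜 := ℝ) (E := E d)).symm
  unfold pd
  rw [h1, bv, EuclideanSpace.inner_single_right]
  simp

theorem pi_norm {V : E d → ℝ} {δ : ℝ} (h : Pot δ V) (hs : SC 1 V) (h0 : gradient V 0 = 0) :
    ∫ y, ‖y‖ ∂(gib V) ≤ √(d : ℝ) := by
  have hconf : Conf V := sc_conf one_pos h.c2.continuous hs
  have hpm := gib_pm hconf
  have := hpm.prob
  have hV1 : ContDiff ℝ 1 V := h.c2.of_le (by norm_num)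
  have hf0 : fderiv ℝ V 0 = 0 := by
    have : (InnerProductSpace.toDual ℝ (E d)).symm (fderiv ℝ V 0) = 0 := h0
    simpa using this
  -- monotonicity of the gradient
  have mono : ∀ y : E d, ‖y‖ ^ 2 ≤ fderiv ℝ V y y := by
    intro y
    set g : E d → ℝ := fun y => V y - 1 / 2 * ‖y‖ ^ 2 with hg
    have hgd : ∀ z, HasFDerivAt g (fderiv ℝ V z - innerSL ℝ z) z := fun z => by
      have := (hV1.differentiable (by norm_num) z).hasFDerivAt.sub (hasFDerivAt_half_sq z)
      have e : g = V - fun y => ‖y‖ ^ 2 / 2 := by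
        funext w; simp only [hg, Pi.sub_apply]; ring
      rw [e]
      exact this
    have hcv : ConvexOn ℝ univ (fun t : ℝ => g (t • y)) := by
      have := ConvexOn.comp_linearMap hs (LinearMap.toSpanSingleton ℝ (E d) y)
      rw [preimage_univ] at this
      exact this
    have hd : ∀ t : ℝ, HasDerivAt (fun t : ℝ => g (t • y))
        ((fderiv ℝ V (t • y) - innerSL ℝ (t • y)) y) t := fun t => by
      have h1 : HasDerivAt (fun t : ℝ => t • y) y t := by
        simpa using (hasDerivAt_id t).smul_const y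
      exact (hgd (t • y)).comp_hasDerivAt t h1
    have a1 := hcv.le_slope_of_hasDerivAt (mem_univ 0) (mem_univ 1) one_pos (hd 0)
    have a2 := hcv.slope_le_of_hasDerivAt (mem_univ 0) (mem_univ 1) one_pos (hd 1)
    have a3 := a1.trans a2
    simp only [zero_smul, one_smul, hf0, map_zero, sub_zero, zero_apply,
      sub_apply, innerSL_apply_apply, real_inner_self_eq_norm_sq] at a3
    linarith
  have dec : ∀ y : E d, fderiv ℝ V y y = ∑ c, pd (bv c) V y * y c := fun y => by
    conv_lhs => rw [eq_sum_bv y]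
    rw [← eq_sum_bv y]
    calc fderiv ℝ V y y = fderiv ℝ V y (∑ c, y c • bv c) := by rw [← eq_sum_bv y]
      _ = _ := by
        rw [map_sum]
        exact Finset.sum_congr rfl fun c _ => by rw [map_smul, smul_eq_mul, mul_comm]; rfl
  have ic : ∀ c : Fin d, Integrable (fun y : E d => pd (bv c) V y * y c) (gib V) := fun c =>
    polyG_integrable hpm ((pd_cont hV1 _).mul (coord_contDiff c).continuous)
      (polyG_mul (polyG_pd (pot_fderiv_polyG h) _) (polyG_coord c))
  have h1 : ∀ c : Fin d, ∫ y, pd (bv c) V y * y c ∂(gib V) = 1 := fun c => by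
    rw [← gib_ibp hconf hV1 (pot_fderiv_polyG h) (coord_contDiff c) (polyG_coord c)
      (coord_fderiv_polyG c) (bv c)]
    simp [pd_coord, kd_self]
  have h2 : ∫ y, ‖y‖ ^ 2 ∂(gib V) ≤ d := by
    calc ∫ y, ‖y‖ ^ 2 ∂(gib V) ≤ ∫ y, ∑ c, pd (bv c) V y * y c ∂(gib V) :=
          integral_mono (hpm.mom 2) (integrable_finsetSum _ fun c _ => ic c)
            fun y => (mono y).trans (dec y).le
      _ = d := by
          rw [integral_finsetSum _ fun c _ => ic c]
          simp [h1]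
  apply Real.le_sqrt_of_sq_le
  exact (sq_integral_le (by simpa using hpm.mom 1) (hpm.mom 2)).trans h2

end Crest.Agent.R285
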