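import Crest.Agent.R285.Sob
import Crest.Agent.R285.CalcB
import Crest.Agent.R285.Tilt

/-!
# R285 Skew: the vector fields `BA A`.

On `P = E d × E d` with `e2`, `co2`, `ibp_gam2` let `Ω : MF P D D` (`D = Fin d ⊕ Fin d`) be the
antisymmetric block matrix `Ω (inl i) (inr c) p = A i c p.2 = - Ω (inr c) (inl i) p`, other blocks `0`.
Then the coordinates of `BA A` are `B = dv e2 co2 (unc Ω)`, `BA A p = ∑ c, B c p • e2 c`.
* divergence free: `∫ ∑_c B_c ∂_c φ = ∫ φ * dv B` (IBP for `φ B_c`) and `dv B = 0` pointwise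
  (antisymmetry, `pd_comm`, `∂_c co2 c' = kd c c'`).
* `X g := fderiv g (BA A) = dv (app (extL J (mT Ω)) (grad g))` pointwise (antisymmetry, `pd_comm`).
  `mT Ω` is `Mo e2 n (2a)`: sum of two constant-matrix multiples (`AA_constL/R`, `opLe_inj`, `opLe_T`) of
  `A ∘ snd`, `mT A ∘ snd` (`AA_pull` with `l = snd`, `To c' c = kd c' (inr c)`).
  So `Hs (n+1) M (grad g) → Hs n (2^(2n+3) a M) (X g)` (`hs_app`, `hs_dv` with `b = 1`); iterate.
* for `M p = (p.1, Ψ p.2)` with coordinates `g j = co2 j ∘ M`, `grad g` is a reindexing of `unc` of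
  the block diagonal matrix `diag (I, ∂_c Ψ_i ∘ snd)` (`hs_unc`, `card = 2d`); the coordinates of
  `(XV B)^[m] M` are `X^[m] g` (continuous linear maps commute with `fderiv`); `l1_of_n2`.
-/

set_option autoImplicit false

namespace Crest.Agent.R285

open MeasureTheory Set
open scoped ContDiff

namespace SkewA

theorem anti_sum {D : Type} [Fintype D] {S : D → D → ℝ} (h : ∀ j c, S j c = -S c j) :
    ∑ j, ∑ c, S j c = 0 := by
  have : ∑ j, ∑ c, S j c = -∑ j, ∑ c, S j c := by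
    conv_lhs => rw [Finset.sum_comm]
    rw [← Finset.sum_neg_distrib]
    refine Finset.sum_congr rfl fun j _ => ?_
    rw [← Finset.sum_neg_distrib]
    exact Finset.sum_congr rfl fun c _ => h c j
  linarith

section Abstract

variable {P : Type} [NormedAddCommGroup P] [NormedSpace ℝ P] {D J : Type} [Fintype D]
  {e : D → P} {U : D → P → ℝ} {Ω : MF P D D} {B : P → P}

theorem tg_diff {f : P → ℝ} (h : TG f) (y : P) : DifferentiableAt ℝ f y :=
  h.1.differentiable (by simp) y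

theorem pd_neg' {φ ψ : P → ℝ} (h : φ = fun y => -ψ y) (v y : P) : pd v φ y = -pd v ψ y := by
  rw [h]
  simp only [pd]
  rw [fderiv_fun_neg]
  rfl

theorem pd_comm' {f : P → ℝ} (h : TG f) (v w y : P) : pd v (pd w f) y = pd w (pd v f) y :=
  pd_comm isOpen_univ h.1.contDiffOn v w (mem_univ y)

theorem dv_dv (hU : TGv U) (hdU : ∀ c c' y, pd (e c) (U c') y = kd c c') (hΩ : TGm Ω)
    (anti : ∀ j c, Ω j c = fun y => -Ω c j y) (y : P) :
    ∑ j, (U j y * dv e U (unc Ω) j y - pd (e j) (dv e U (unc Ω) j) y) = 0 := by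
  have e1 : ∀ j, pd (e j) (dv e U (unc Ω) j) y = ∑ c, (kd j c * Ω j c y +
      U c y * pd (e j) (Ω j c) y - pd (e j) (pd (e c) (Ω j c)) y) := by
    intro j
    have : dv e U (unc Ω) j = fun y => ∑ c, (U c y * Ω j c y - pd (e c) (Ω j c) y) := rfl
    rw [this, pd_sum _ fun c => tg_diff (((hU c).fun_mul (hΩ j c)).fun_sub (tg_pd (hΩ j c) _)) y]
    refine Finset.sum_congr rfl fun c _ => ?_
    rw [pd_sub _ (tg_diff ((hU c).fun_mul (hΩ j c)) y) (tg_diff (tg_pd (hΩ j c) _) y),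
      pd_mul _ (tg_diff (hU c) y) (tg_diff (hΩ j c) y), hdU]
  have e2 : ∀ j, U j y * dv e U (unc Ω) j y =
      ∑ c, (U j y * U c y * Ω j c y - U j y * pd (e c) (Ω j c) y) := by
    intro j
    unfold dv
    rw [Finset.mul_sum]
    exact Finset.sum_congr rfl fun c _ => by simp only [unc]; ring
  simp_rw [e1, e2, ← Finset.sum_sub_distrib]
  refine anti_sum fun j c => ?_
  have a1 : Ω j c y = -Ω c j y := congrFun (anti j c) y
  have a2 : ∀ v, pd v (Ω j c) y = -pd v (Ω c j) y := fun v => pd_neg' (anti j c) v y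
  have a3 : pd (e j) (pd (e c) (Ω j c)) y = -pd (e c) (pd (e j) (Ω c j)) y := by
    rw [pd_comm' (hΩ j c)]
    exact pd_neg' (funext fun z => pd_neg' (anti j c) _ z) _ y
  rw [a1, a2, a2, a3, kd_comm j c]
  ring

theorem xv_eq (hB : ∀ y, B y = ∑ j, dv e U (unc Ω) j y • e j) (φ : P → ℝ) (y : P) :
    fderiv ℝ φ y (B y) = ∑ j, dv e U (unc Ω) j y * pd (e j) φ y := by
  rw [hB]
  simp [pd]

theorem xv_dv [Fintype J] (hΩ : TGm Ω) (anti : ∀ j c, Ω j c = fun y => -Ω c j y)
    (hB : ∀ y, B y = ∑ j, dv e U (unc Ω) j y • e j) {g : J → P → ℝ} (hg : TGv g) :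
    (fun j => XV B (g j)) = dv e U (app (extL J (mT Ω)) (grad e g)) := by
  funext j y
  have e0 : ∀ c, app (extL J (mT Ω)) (grad e g) (j, c) =
      fun y => ∑ c', Ω c' c y * pd (e c') (g j) y := by
    intro c
    funext y
    simp only [app, extL, mT, grad, Fintype.sum_prod_type, mul_assoc, ← Finset.mul_sum]
    exact sum_kd_mul j fun j' => ∑ c', Ω c' c y * pd (e c') (g j') y
  have e1 : ∀ c, pd (e c) (fun y => ∑ c', Ω c' c y * pd (e c') (g j) y) y =
      ∑ c', (pd (e c) (Ω c' c) y * pd (e c') (g j) y + Ω c' c y * pd (e c) (pd (e c') (g j)) y) := by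
    intro c
    rw [pd_sum _ fun c' => tg_diff ((hΩ c' c).fun_mul (tg_pd (hg j) _)) y]
    exact Finset.sum_congr rfl fun c' _ =>
      pd_mul _ (tg_diff (hΩ c' c) y) (tg_diff (tg_pd (hg j) _) y)
  have e2 : ∑ c, ∑ c', Ω c' c y * pd (e c) (pd (e c') (g j)) y = 0 := by
    refine anti_sum fun c c' => ?_
    rw [congrFun (anti c' c) y, pd_comm' (hg j)]
    ring
  show fderiv ℝ (g j) y (B y) = _
  rw [xv_eq hB]
  unfold dv
  simp only [e0, e1, Finset.sum_add_distrib, Finset.sum_sub_distrib, e2, add_zero, unc,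
    Finset.mul_sum, sub_mul, Finset.sum_mul]
  congr 1
  · rw [Finset.sum_comm]
    exact Finset.sum_congr rfl fun c _ => Finset.sum_congr rfl fun c' _ => by ring
  · rw [Finset.sum_comm]

theorem xv_clm {Q Q' : Type} [NormedAddCommGroup Q] [NormedSpace ℝ Q] [NormedAddCommGroup Q']
    [NormedSpace ℝ Q'] (l : Q →L[ℝ] Q') {M : P → Q} (hB : TG B) (hM : TG M) (m : ℕ) :
    (XV B)^[m] (fun p => l (M p)) = fun p => l ((XV B)^[m] M p) := by
  induction m with
  | zero => rfl
  | succ m ih =>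
    rw [Function.iterate_succ_apply', Function.iterate_succ_apply', ih]
    funext p
    have h := ((tg_xv_iter hB hM m).1.differentiable (by simp) p).hasFDerivAt
    have h2 : fderiv ℝ (fun p => l ((XV B)^[m] M p)) p = _ := (l.hasFDerivAt.comp p h).fderiv
    unfold XV at h2 ⊢
    rw [h2]
    rfl

variable [MeasurableSpace P] [BorelSpace P] [SecondCountableTopology P] {μ : Measure P}

theorem sf_abs (h : IBP μ e U) (hdU : ∀ c c' y, pd (e c) (U c') y = kd c c') (hΩ : TGm Ω)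
    (anti : ∀ j c, Ω j c = fun y => -Ω c j y)
    (hB : ∀ y, B y = ∑ j, dv e U (unc Ω) j y • e j) : SF μ B := by
  have hb : TGv (dv e U (unc Ω)) := tgv_dv h.tg fun jc => hΩ jc.1 jc.2
  set b := dv e U (unc Ω) with hbd
  refine ⟨h.pm, ?_, fun φ h1 p0 p1 => ?_⟩
  · rw [show B = fun y => ∑ j, b j y • e j from funext hB]
    exact Function.HasTemperateGrowth.sum fun j _ =>
      (hb j).fun_smul (Function.HasTemperateGrowth.const _)
  have b1 : ∀ j, ContDiff ℝ 1 (b j) := fun j => (hb j).1.of_le (by exact_mod_cast le_top)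
  have cpd : ∀ v, Continuous (pd v φ) := fun v =>
    (h1.continuous_fderiv one_ne_zero).clm_apply continuous_const
  have ppd : ∀ v, PolyG (pd v φ) := by
    intro v
    have : PolyG (fun o => ‖fderiv ℝ φ o‖ * ‖v‖) := polyG_mul (polyG_norm p1) (polyG_const _)
    exact polyG_of_le this fun o => ((fderiv ℝ φ o).le_opNorm v).trans (le_abs_self _)
  have i1 : ∀ j, Integrable (fun y => b j y * pd (e j) φ y) μ := fun j =>
    polyG_integrable h.pm ((b1 j).continuous.mul (cpd _)) (polyG_mul (tg_polyG (hb j)) (ppd _))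
  have i2 : ∀ j, Integrable (fun y => pd (e j) (b j) y * φ y) μ := fun j =>
    polyG_integrable h.pm ((tg_pd (hb j) _).1.continuous.mul h1.continuous)
      (polyG_mul (tg_polyG (tg_pd (hb j) _)) p0)
  have i3 : ∀ j, Integrable (fun y => U j y * (b j y * φ y)) μ := fun j =>
    polyG_integrable h.pm ((h.tg j).1.continuous.mul ((b1 j).continuous.mul h1.continuous))
      (polyG_mul (tg_polyG (h.tg j)) (polyG_mul (tg_polyG (hb j)) p0))
  have k : ∀ j, ∫ y, b j y * pd (e j) φ y ∂μ =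
      ∫ y, (U j y * (b j y * φ y) - pd (e j) (b j) y * φ y) ∂μ := by
    intro j
    have k := h.ibp j (fun y => b j y * φ y) ((b1 j).mul h1) (polyG_mul (tg_polyG (hb j)) p0) (by
      have : fderiv ℝ (fun y => b j y * φ y) =
          fun y => b j y • fderiv ℝ φ y + φ y • fderiv ℝ (b j) y := by
        funext y
        exact fderiv_fun_mul (tg_diff (hb j) y) (h1.differentiable one_ne_zero y)
      rw [this]
      exact polyG_add (polyG_smul (tg_polyG (hb j)) p1) (polyG_smul p0 (tg_polyG (tg_fderiv (hb j)))))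
    have hpd : ∀ y, pd (e j) (fun y => b j y * φ y) y =
        pd (e j) (b j) y * φ y + b j y * pd (e j) φ y := fun y =>
      pd_mul _ (tg_diff (hb j) y) (h1.differentiable one_ne_zero y)
    simp_rw [hpd] at k
    rw [integral_add (i2 j) (i1 j)] at k
    rw [integral_sub (i3 j) (i2 j)]
    linarith
  simp_rw [xv_eq hB]
  rw [integral_finsetSum _ fun j _ => i1 j]
  simp_rw [k]
  rw [← integral_finsetSum
    (f := fun j y => U j y * (b j y * φ y) - pd (e j) (b j) y * φ y) _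
    fun j _ => (i3 j).sub (i2 j)]
  have : ∀ y, ∑ j, (U j y * (b j y * φ y) - pd (e j) (b j) y * φ y) = 0 := by
    intro y
    have := dv_dv h.tg hdU hΩ anti y
    rw [← hbd] at this
    calc _ = (∑ j, (U j y * b j y - pd (e j) (b j) y)) * φ y := by
          rw [Finset.sum_mul]
          exact Finset.sum_congr rfl fun j _ => by ring
      _ = 0 := by rw [this, zero_mul]
  simp [this]

theorem hs_step [Fintype J] (h : IBP μ e U) (hdU : ∀ c c' y, pd (e c) (U c') y = kd c c')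
    (hΩ : TGm Ω) (anti : ∀ j c, Ω j c = fun y => -Ω c j y)
    (hB : ∀ y, B y = ∑ j, dv e U (unc Ω) j y • e j) {N : ℕ} {a : ℝ} (ha : 0 ≤ a)
    (hm : Mo e N a (mT Ω)) {g : J → P → ℝ} (hg : TGv g) {n : ℕ} (hn : n + 1 ≤ N) {M : ℝ}
    (hM : 0 ≤ M) (hs : Hs μ e (n + 1) M (grad e g)) :
    Hs μ e n (2 ^ (2 * N) * a * M) (fun j => XV B (g j)) := by
  have tE : TGm (extL J (mT Ω)) := fun jc ic =>
    (Function.HasTemperateGrowth.const _).fun_mul (hΩ ic.2 jc.2)
  have hU : Mo e n 1 (dU e U) := by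
    have : dU e U = fun c c' _ => kd c c' := by
      funext c c' y
      exact hdU c c' y
    rw [this]
    exact AA_const opLe_kd
  rw [xv_dv hΩ anti hB hg]
  refine hs_mono (hs_dv h le_rfl hU (tgv_app tE (tgv_grad hg)) (by positivity)
    (hs_app h.pm tE (tgv_grad hg) ha hM (AA_extL (AA_mono_n hm hn)) hs)) (by positivity) ?_
  calc 2 ^ (n + 1) * 1 * (2 ^ (n + 1) * a * M) = 2 ^ (2 * (n + 1)) * a * M := by ring
    _ ≤ _ := by
      gcongr
      norm_num

theorem hs_iter [Fintype J] (h : IBP μ e U) (hdU : ∀ c c' y, pd (e c) (U c') y = kd c c')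
    (hΩ : TGm Ω) (anti : ∀ j c, Ω j c = fun y => -Ω c j y)
    (hB : ∀ y, B y = ∑ j, dv e U (unc Ω) j y • e j) {N : ℕ} {a : ℝ} (ha : 0 ≤ a)
    (hm : Mo e N a (mT Ω)) {g : J → P → ℝ} (hg : TGv g) {M : ℝ} (hM : 0 ≤ M)
    (hs : Hs μ e N M (grad e g)) (m : ℕ) : ∀ n, n + 2 * m + 1 ≤ N →
      Hs μ e n ((2 ^ (2 * N) * a) ^ (m + 1) * M) (fun j => (XV B)^[m + 1] (g j)) := by
  have tB := (sf_abs h hdU hΩ anti hB).tg
  induction m with
  | zero =>
    intro n hn
    rw [zero_add, pow_one]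
    exact hs_step h hdU hΩ anti hB ha hm hg (by omega) hM (hs_mono_n hs (by omega))
  | succ m ih =>
    intro n hn
    have := hs_step h hdU hΩ anti hB ha hm (g := fun j => (XV B)^[m + 1] (g j))
      (fun j => tg_xv_iter tB (hg j) _) (n := n) (by omega) (by positivity) (ih (n + 2) (by omega)).2
    simp only [Function.iterate_succ_apply' (XV B) (m + 1)]
    rwa [pow_succ' _ (m + 1), mul_assoc _ _ M]

end Abstract

variable {d : ℕ}

/-- the antisymmetric block matrix -/
def Om (A : MF (E d) (Fin d) (Fin d)) : MF (E d × E d) (Fin d ⊕ Fin d) (Fin d ⊕ Fin d)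
  | .inl _, .inl _ => fun _ => 0
  | .inl i, .inr c => fun p => A i c p.2
  | .inr c, .inl i => fun p => -A i c p.2
  | .inr _, .inr _ => fun _ => 0

theorem tg_snd {f : E d → ℝ} (h : TG f) : TG fun p : E d × E d => f p.2 :=
  h.comp (ContinuousLinearMap.snd ℝ (E d) (E d)).hasTemperateGrowth

theorem Om_tg {A : MF (E d) (Fin d) (Fin d)} (hA : TGm A) : TGm (Om A)
  | .inl _, .inl _ => Function.HasTemperateGrowth.const _
  | .inl i, .inr c => tg_snd (hA i c)
  | .inr c, .inl i => (tg_snd (hA i c)).fun_neg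
  | .inr _, .inr _ => Function.HasTemperateGrowth.const _

theorem Om_anti (A : MF (E d) (Fin d) (Fin d)) : ∀ j c, Om A j c = fun y => -Om A c j y
  | .inl _, .inl _ => by funext y; simp [Om]
  | .inl i, .inr c => by funext y; simp [Om]
  | .inr c, .inl i => rfl
  | .inr _, .inr _ => by funext y; simp [Om]

/-- coordinates as continuous linear maps -/
noncomputable def coL : Fin d ⊕ Fin d → (E d × E d →L[ℝ] ℝ)
  | .inl i => (EuclideanSpace.proj i : E d →L[ℝ] ℝ).comp (ContinuousLinearMap.fst ℝ (E d) (E d))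
  | .inr i => (EuclideanSpace.proj i : E d →L[ℝ] ℝ).comp (ContinuousLinearMap.snd ℝ (E d) (E d))

theorem coL_eq : ∀ j : Fin d ⊕ Fin d, co2 j = coL j
  | .inl _ => rfl
  | .inr _ => rfl

theorem kd_ll (a b : Fin d) : kd (Sum.inl a : Fin d ⊕ Fin d) (.inl b) = kd a b := by simp [kd]
theorem kd_rr (a b : Fin d) : kd (Sum.inr a : Fin d ⊕ Fin d) (.inr b) = kd a b := by simp [kd]
theorem kd_lr (a b : Fin d) : kd (Sum.inl a : Fin d ⊕ Fin d) (.inr b) = 0 := by simp [kd]
theorem kd_rl (a b : Fin d) : kd (Sum.inr a : Fin d ⊕ Fin d) (.inl b) = 0 := by simp [kd]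

theorem dU_co (c c' : Fin d ⊕ Fin d) (y : E d × E d) : pd (e2 c) (co2 c') y = kd c c' := by
  rw [coL_eq]
  simp only [pd, ContinuousLinearMap.fderiv]
  rcases c with a | a <;> rcases c' with b | b
  · rw [kd_ll]; exact bv_apply a b
  · rw [kd_lr]; rfl
  · rw [kd_rl]; rfl
  · rw [kd_rr]; exact bv_apply a b

theorem pd_snd {f : E d → ℝ} (h : Differentiable ℝ f) (v p : E d × E d) :
    pd v (fun p : E d × E d => f p.2) p = pd v.2 f p.2 := by
  have : fderiv ℝ (fun p : E d × E d => f p.2) p = _ :=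
    ((h p.2).hasFDerivAt.comp p hasFDerivAt_snd).fderiv
  simp only [pd]
  rw [this]
  rfl

theorem pd_zero (f : E d → ℝ) (y : E d) : pd 0 f y = 0 := by simp [pd]

theorem BA_eq {A : MF (E d) (Fin d) (Fin d)} (hA : TGm A) (p : E d × E d) :
    BA A p = ∑ j, dv e2 co2 (unc (Om A)) j p • e2 j := by
  have dA : ∀ i c, Differentiable ℝ (A i c) := fun i c => (hA i c).1.differentiable (by simp)
  have e1 : ∀ i, dv e2 co2 (unc (Om A)) (.inl i) p = dv bv (U0 d) (unc A) i p.2 := by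
    intro i
    simp only [dv, unc, Fintype.sum_sum_type, Om, pd_const, mul_zero, sub_zero,
      Finset.sum_const_zero, zero_add, pd_snd (dA _ _)]
    rfl
  have e2' : ∀ c, dv e2 co2 (unc (Om A)) (.inr c) p = -∑ i, A i c p.2 * p.1 i := by
    intro c
    have : ∀ i, pd (e2 (.inl i)) (fun p : E d × E d => -A i c p.2) p = 0 := by
      intro i
      rw [pd_neg' rfl, pd_snd (dA _ _)]
      simp [e2, pd_zero]
    simp only [dv, unc, Fintype.sum_sum_type, Om, pd_const, mul_zero, sub_zero,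
      Finset.sum_const_zero, add_zero, this, ← Finset.sum_neg_distrib]
    exact Finset.sum_congr rfl fun i _ => by simp only [co2, Sum.elim_inl]; ring
  rw [Fintype.sum_sum_type]
  simp only [e1, e2']
  refine Prod.ext ?_ ?_
  · simp only [e2, Sum.elim_inl, Sum.elim_inr, Prod.fst_add, Prod.fst_sum, Prod.smul_fst,
      smul_zero, Finset.sum_const_zero, add_zero]
    exact eq_sum_bv _
  · simp only [e2, Sum.elim_inl, Sum.elim_inr, Prod.snd_add, Prod.snd_sum, Prod.smul_snd,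
      smul_zero, Finset.sum_const_zero, zero_add]
    exact eq_sum_bv _

/-- a matrix on `E d` placed in a block -/
noncomputable def blk (f g : Fin d → Fin d ⊕ Fin d) (A : MF (E d) (Fin d) (Fin d)) :
    MF (E d × E d) (Fin d ⊕ Fin d) (Fin d ⊕ Fin d) :=
  fun j i p => ∑ a, kd j (f a) * ∑ c, A a c p.2 * kd i (g c)

theorem blk_smooth (f g : Fin d → Fin d ⊕ Fin d) {A : MF (E d) (Fin d) (Fin d)} (hA : TGm A) :
    SmO univ (blk f g A) := fun _ _ =>
  ContDiffOn.sum fun a _ => contDiffOn_const.mul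
    (ContDiffOn.sum fun c _ => (tg_snd (hA a c)).1.contDiffOn.mul contDiffOn_const)

theorem blk_mo {f g : Fin d → Fin d ⊕ Fin d} (hf : Function.Injective f)
    (hg : Function.Injective g) {A : MF (E d) (Fin d) (Fin d)} (hA : TGm A) {n : ℕ} {a : ℝ}
    (h : Mo bv n a A) : Mo e2 n a (blk f g A) := by
  have h1 := AA_pull (eo' := e2) (ei' := (noE : Empty → E d × E d)) (S' := univ) 0
    (ContinuousLinearMap.snd ℝ (E d) (E d)) (fun c' c => kd c' (Sum.inr c)) (fun x => x.elim)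
    (fun c' => ?_) (opLe_inj Sum.inr_injective) (fun x => x.elim) (fun v => by simp)
    isOpen_univ (subset_refl _) (fun i c => (hA i c).1.contDiffOn) (fun _ _ => mem_univ _) h
  · simp only [zero_add, ContinuousLinearMap.coe_snd'] at h1
    have s1 : SmO univ (fun j i (y : E d × E d) => A j i y.2) :=
      fun j i => (tg_snd (hA j i)).1.contDiffOn
    have h2 := AA_constR isOpen_univ (subset_refl _) s1 (opLe_T (opLe_inj hg)) h1
    have h3 := AA_constL isOpen_univ (subset_refl _)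
      (fun j k => ContDiffOn.sum fun i _ => (s1 j i).mul contDiffOn_const) (opLe_inj hf) h2
    rwa [one_mul, mul_one] at h3
  · rcases c' with i | c
    · simp [e2, kd_lr]
    · simp only [e2, Sum.elim_inr, ContinuousLinearMap.coe_snd', kd_rr]
      ext i
      simp only [WithLp.ofLp_sum, WithLp.ofLp_smul, Finset.sum_apply, Pi.smul_apply, smul_eq_mul]
      exact (sum_kd_mul c fun b => bv b i).symm

theorem blk_on {f g : Fin d → Fin d ⊕ Fin d} (hf : Function.Injective f)
    (hg : Function.Injective g) (A : MF (E d) (Fin d) (Fin d)) (a c : Fin d) (p : E d × E d) :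
    blk f g A (f a) (g c) p = A a c p.2 := by
  have kf : ∀ b, kd (f a) (f b) = kd a b := fun b => by simp [kd, hf.eq_iff]
  have kg : ∀ b, kd (g c) (g b) = kd b c := fun b => by simp [kd, hg.eq_iff, eq_comm]
  simp only [blk, kf, kg]
  rw [sum_kd_mul a fun b => ∑ c', A b c' p.2 * kd c' c, sum_mul_kd c fun c' => A a c' p.2]

theorem mT_Om_mo {A : MF (E d) (Fin d) (Fin d)} (hA : TGm A) {n : ℕ} {a : ℝ} (ha : 0 ≤ a)
    (h1 : Mo bv n a A) (h2 : Mo bv n a (mT A)) : Mo e2 n (2 * a) (mT (Om A)) := by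
  have hA' : TGm (mT A) := fun i c => hA c i
  have k := AA_add isOpen_univ (subset_refl _) (blk_smooth _ _ hA')
    (fun j i => contDiffOn_const.mul (blk_smooth _ _ hA j i)) ha (by positivity)
    (blk_mo Sum.inr_injective Sum.inl_injective hA' h2)
    (AA_smul (-1) (blk_mo Sum.inl_injective Sum.inr_injective hA h1))
  rw [abs_neg, abs_one, one_mul, ← two_mul] at k
  refine AA_congr isOpen_univ (subset_refl _) (fun j i p _ => ?_) k
  rcases j with j | j <;> rcases i with i | i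
  · simp [blk, kd_lr, mT, Om]
  · simp only [blk_on Sum.inl_injective Sum.inr_injective]
    simp [blk, kd_lr, mT, Om]
  · simp only [blk_on Sum.inr_injective Sum.inl_injective]
    simp [blk, kd_rl, mT, Om]
  · simp [blk, kd_rl, mT, Om]

theorem jac_mo {Ψ : E d → E d} (hΨ : TG Ψ) {n : ℕ} {b : ℝ} (hb : 1 ≤ b)
    (h : Mo bv n b (fun c i => pd (bv c) (fun y => Ψ y i))) :
    Mo e2 n (2 * b) (fun c j => pd (e2 c) (fun p : E d × E d => coL j (p.1, Ψ p.2))) := by
  have hA : TGm (fun c i => pd (bv c) (fun y => Ψ y i)) := fun c i => tg_pd (tg_coord hΨ i) _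
  have hI : TGm (fun (c i : Fin d) (_ : E d) => kd c i) :=
    fun c i => Function.HasTemperateGrowth.const _
  have k := AA_add isOpen_univ (subset_refl _) (blk_smooth _ _ hI) (blk_smooth _ _ hA)
    zero_le_one (by linarith) (blk_mo Sum.inl_injective Sum.inl_injective hI (AA_const opLe_kd))
    (blk_mo Sum.inr_injective Sum.inr_injective hA h)
  refine AA_mono (AA_congr isOpen_univ (subset_refl _) (fun c j p _ => ?_) k) (by linarith)
    (by linarith)
  have dΨ : ∀ i, Differentiable ℝ (fun y => Ψ y i) := fun i =>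
    (tg_coord hΨ i).1.differentiable (by simp)
  rcases j with j | j
  · have : (fun p : E d × E d => coL (.inl j) (p.1, Ψ p.2)) = co2 (.inl j) := rfl
    simp only [this, dU_co]
    rcases c with c | c
    · simp only [blk_on Sum.inl_injective Sum.inl_injective]
      simp [blk, kd_lr, kd_ll]
    · simp [blk, kd_lr, kd_rl]
  · have : (fun p : E d × E d => coL (.inr j) (p.1, Ψ p.2)) =
        fun p : E d × E d => (fun y => Ψ y j) p.2 := rfl
    simp only [this, pd_snd (dΨ j)]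
    rcases c with c | c
    · simp [blk, kd_lr, kd_rl, e2, pd_zero]
    · simp only [blk_on Sum.inr_injective Sum.inr_injective]
      simp [blk, kd_rl, e2]

theorem norm_sq_le (q : E d × E d) : ‖q‖ ^ 2 ≤ ∑ j, coL j q ^ 2 := by
  rw [Fintype.sum_sum_type]
  have h1 : ∑ i, coL (.inl i) q ^ 2 = ‖q.1‖ ^ 2 := (norm_sq_eq_sum q.1).symm
  have h2 : ∑ i, coL (.inr i) q ^ 2 = ‖q.2‖ ^ 2 := (norm_sq_eq_sum q.2).symm
  rw [h1, h2, Prod.norm_def]
  rcases le_total ‖q.1‖ ‖q.2‖ with h | h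
  · rw [max_eq_right h]; nlinarith [sq_nonneg ‖q.1‖]
  · rw [max_eq_left h]; nlinarith [sq_nonneg ‖q.2‖]

end SkewA

open SkewA

theorem BA_sf {d : ℕ} {A : MF (E d) (Fin d) (Fin d)} (hA : TGm A) : SF (gam2 d) (BA A) :=
  sf_abs ibp_gam2 dU_co (Om_tg hA) (Om_anti A) (BA_eq hA)

theorem BA_bound (k : ℕ) : ∃ C : ℝ, 1 ≤ C ∧ ∀ (d : ℕ) (A : MF (E d) (Fin d) (Fin d)) (a : ℝ),
    0 ≤ a → TGm A → Mo bv (2 * k) a A → Mo bv (2 * k) a (mT A) →
    ∀ (Ψ : E d → E d) (b : ℝ), 1 ≤ b → TG Ψ →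
      Mo bv (2 * k) b (fun c i => pd (bv c) (fun y => Ψ y i)) →
      ∀ m, 1 ≤ m → m ≤ k →
        L1le (gam2 d) ((XV (BA A))^[m] fun p : E d × E d => (p.1, Ψ p.2))
          ((C * a) ^ m * (C * b) * √(d : ℝ)) := by
  have h2k : (1 : ℝ) ≤ 2 ^ (2 * (2 * k)) := one_le_pow₀ (by norm_num)
  refine ⟨4 * 2 ^ (2 * (2 * k)), by linarith, ?_⟩
  intro d A a ha hA h1 h2 Ψ b hb hΨ h3 m m1 m2
  obtain ⟨m, rfl⟩ : ∃ m', m = m' + 1 := ⟨m - 1, by omega⟩
  have tB := (BA_sf hA).tg
  have tM : TG (fun p : E d × E d => (p.1, Ψ p.2)) :=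
    tg_prodMk (ContinuousLinearMap.fst ℝ (E d) (E d)).hasTemperateGrowth
      (hΨ.comp (ContinuousLinearMap.snd ℝ (E d) (E d)).hasTemperateGrowth)
  set g : Fin d ⊕ Fin d → E d × E d → ℝ := fun j p => coL j (p.1, Ψ p.2) with hg
  have tg : TGv g := fun j => (coL j).hasTemperateGrowth.comp tM
  have s0 := hs_reindex (Equiv.prodComm (Fin d ⊕ Fin d) (Fin d ⊕ Fin d))
    (hs_unc gam2_pm (fun c j => tg_pd (tg j) (e2 c)) (jac_mo hΨ hb h3))
  have s1 := hs_iter ibp_gam2 dU_co (Om_tg hA) (Om_anti A) (BA_eq hA) (by positivity)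
    (mT_Om_mo hA ha h1 h2) tg (by positivity) s0 m 0 (by omega)
  have s2 := l1_of_n2 gam2_pm (tg_xv_iter tB tM (m + 1))
    (fun j => tg_xv_iter tB (tg j) (m + 1)) (fun y => ?_) (by positivity) (hs_n2 s1)
  · refine ⟨s2.1, s2.2.trans ?_⟩
    have hs : √((Fintype.card (Fin d ⊕ Fin d) : ℕ) : ℝ) ≤ 2 * √(d : ℝ) := by
      rw [Fintype.card_sum, Fintype.card_fin]
      refine Real.sqrt_le_iff.2 ⟨by positivity, ?_⟩
      rw [mul_pow, Real.sq_sqrt (Nat.cast_nonneg d)]
      push_cast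
      linarith [(Nat.cast_nonneg d : (0 : ℝ) ≤ d)]
    have e1 : 2 ^ (2 * (2 * k)) * (2 * a) ≤ 4 * 2 ^ (2 * (2 * k)) * a := by
      have : 0 ≤ 2 ^ (2 * (2 * k)) * a := by positivity
      linarith
    have e2 : 2 * b * √((Fintype.card (Fin d ⊕ Fin d) : ℕ) : ℝ) ≤
        4 * 2 ^ (2 * (2 * k)) * b * √(d : ℝ) := by
      calc _ ≤ 2 * b * (2 * √(d : ℝ)) := by gcongr
        _ = 4 * 1 * b * √(d : ℝ) := by ring
        _ ≤ _ := by gcongr
    rw [mul_assoc _ _ √(d : ℝ)]
    gcongr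
  · simp only [hg, xv_clm _ tB tM]
    exact norm_sq_le _

end Crest.Agent.R285
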