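import Crest.Agent.R285.KMerr
import Crest.Agent.R285.Coll
import Crest.Agent.R285.Skew
import Crest.Agent.R285.Build

/-!
# R285 CoreA: the term `bT k r` approximates `(J_r - I) ζ`.

Let `h = 1/N`, `A = - h • slM r (JT Φ)`, `B = BA A` (`BA_sf`, `flow_tg`), `𝐏 p = (p.1, Φ (r, p.2))`.
`XV B 𝐏 p = hmcF (Gv W) h r (𝐏 p)` (`flow_nat`, `fderiv_flow_sl`, `pp_jt`), `hmcF` is `2h`-Lipschitz.
`BA_bound (K + 2)` with `a = h κ⁻¹^p` (`flow_mo (2(K+2))`, `AA_smul`), for `Ψ = sl r Φ` and `Ψ = id`.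
With `ω_t = (lieS B K id t p).2`: `∑ a_i ω_{t_i} = (XV B id p).2 = h • J ζ` (`DQ.exact`), so the function
to bound is `∑ i (a_i N) • (kmS r 0 (ỹ_i) - ω_{t_i})` (`ev_bT`) where
`ỹ_i = (pic hmcF (ζ, kmS 0 r ω) K t_i).2`.  Compare successively with
`kmS r 0 (pic hmcF (𝐏 p) K t_i).2` (Lipschitz bounds `ev_lip'`, `build`, `ev_kmT`, `ev_hmcT`; `km_err 0 r`,
`IsFlow.init`), `kmS r 0 (lieS B K 𝐏 t_i p).2` (`coll` with `η = 0`), and `ω_{t_i}` (`lie_weak2` for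
`(𝐏, id)` with `f (x, y) = ‖kmS r 0 x.2 - y.2‖`, `km_err r 0`).  Constants: `C ≤ 2^C ≤ κ⁻¹^C`.
-/

set_option autoImplicit false

namespace Crest.Agent.R285

open MeasureTheory Set
open scoped ContDiff

namespace CoreAA

section L1
variable {α Q Q' : Type} [MeasurableSpace α] [NormedAddCommGroup Q] [NormedAddCommGroup Q']
  {μ : Measure α}

theorem l1_mono {F : α → Q} {e e' : ℝ} (h : L1le μ F e) (he : e ≤ e') : L1le μ F e' :=
  ⟨h.1, h.2.trans he⟩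

theorem l1_add {F G : α → Q} {e e' : ℝ} (h : L1le μ F e) (h' : L1le μ G e') :
    L1le μ (fun p => F p + G p) (e + e') := by
  refine ⟨h.1.add h'.1, ?_⟩
  calc ∫ p, ‖F p + G p‖ ∂μ ≤ ∫ p, (‖F p‖ + ‖G p‖) ∂μ :=
        integral_mono (h.1.add h'.1).norm (h.1.norm.add h'.1.norm) fun p => norm_add_le _ _
    _ = ∫ p, ‖F p‖ ∂μ + ∫ p, ‖G p‖ ∂μ := integral_add h.1.norm h'.1.norm
    _ ≤ e + e' := add_le_add h.2 h'.2

theorem l1_of_le {F : α → Q} {G : α → Q'} {e c : ℝ} (hm : AEStronglyMeasurable F μ)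
    (h : L1le μ G e) (hc : 0 ≤ c) (hle : ∀ p, ‖F p‖ ≤ c * ‖G p‖) : L1le μ F (c * e) := by
  have hi : Integrable F μ := (h.1.norm.const_mul c).mono' hm (Filter.Eventually.of_forall hle)
  refine ⟨hi, ?_⟩
  calc ∫ p, ‖F p‖ ∂μ ≤ ∫ p, c * ‖G p‖ ∂μ := integral_mono hi.norm (h.1.norm.const_mul c) hle
    _ = c * ∫ p, ‖G p‖ ∂μ := integral_const_mul _ _
    _ ≤ c * e := mul_le_mul_of_nonneg_left h.2 hc

theorem l1_sum [NormedSpace ℝ Q] {ι : Type} (s : Finset ι) {F : ι → α → Q} {c : ι → ℝ} {e : ℝ}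
    (h : ∀ i ∈ s, L1le μ (F i) e) :
    L1le μ (fun p => ∑ i ∈ s, c i • F i p) ((∑ i ∈ s, |c i|) * e) := by
  classical
  induction s using Finset.induction_on with
  | empty => exact ⟨by simp, by simp⟩
  | insert a s has ih =>
    simp only [Finset.sum_insert has, add_mul]
    have ha := h a (Finset.mem_insert_self _ _)
    refine l1_add (l1_of_le (ha.1.smul (c a)).1 ha (abs_nonneg _) fun p => ?_)
      (ih fun i hi => h i (Finset.mem_insert_of_mem hi))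
    rw [norm_smul, Real.norm_eq_abs]

end L1

theorem l1_snd {d : ℕ} {Q : Type} [NormedAddCommGroup Q] {F : E d → Q} {e : ℝ}
    (h : L1le (gam d) F e) : L1le (gam2 d) (fun p => F p.2) e := by
  refine ⟨h.1.comp_snd _, ?_⟩
  have := integral_fun_snd (μ := gam d) (ν := gam d) fun y => ‖F y‖
  unfold gam2
  rw [this]
  simpa using h.2

theorem cont_of_lip {Q Q' : Type} [NormedAddCommGroup Q] [NormedAddCommGroup Q'] {f : Q → Q'}
    {L : ℝ} (hL : 0 ≤ L) (h : ∀ x y, ‖f x - f y‖ ≤ L * ‖x - y‖) : Continuous f :=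
  (LipschitzWith.of_dist_le_mul (K := ⟨L, hL⟩) fun x y => by
    rw [dist_eq_norm, dist_eq_norm]; exact h x y).continuous

theorem pow_ge (x : ℝ) : ∃ m : ℕ, ∀ κ : ℝ, 0 < κ → κ ≤ 1 / 2 → x ≤ κ⁻¹ ^ m := by
  obtain ⟨m, hm⟩ := pow_unbounded_of_one_lt x (by norm_num : (1 : ℝ) < 2)
  refine ⟨m, fun κ h0 h1 => hm.le.trans (pow_le_pow_left₀ (by norm_num) ?_ m)⟩
  rw [le_inv_comm₀ (by norm_num) h0]
  linarith

variable {d : ℕ} {W : E d → ℝ} {δ : ℝ} {Φ : ℝ × E d → E d}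

/-- the matrix field generating the Hamiltonian flow in the Gaussian coordinates -/
noncomputable def AH (Φ : ℝ × E d → E d) (h r : ℝ) : MF (E d) (Fin d) (Fin d) :=
  fun i c y => -h * slM r (JT Φ) i c y

theorem BA_fst (hW : Pot δ W) (hδ : δ ≤ 1 / 4) (hΦ : IsFlow W Φ) {r : ℝ} (h0 : 0 ≤ r) (h1 : r < 1)
    (h : ℝ) (p : E d × E d) : (BA (AH Φ h r) p).1 =
      (-h) • (Φ (r, p.2) + r • Gv W (1 - r ^ 2) (r • Φ (r, p.2))) := by
  ext i
  have e1 : (BA (AH Φ h r) p).1 i = dv bv (U0 d) (unc (AH Φ h r)) i p.2 := rfl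
  have e2 : dv bv (U0 d) (unc (AH Φ h r)) i p.2 =
      -h * dv bv (U0 d) (unc (slM r (JT Φ))) i p.2 := by
    unfold dv
    rw [Finset.mul_sum]
    refine Finset.sum_congr rfl fun c _ => ?_
    have : unc (AH Φ h r) (i, c) = fun y => -h * unc (slM r (JT Φ)) (i, c) y := rfl
    rw [this, pd_const_mul]
    ring
  rw [e1, e2, flow_nat hW hδ hΦ h0 h1]
  simp [Ur, gv]
  ring

theorem BA_snd (h r : ℝ) (p : E d × E d) : (BA (AH Φ h r) p).2 =
    h • vec fun c => ∑ i, JT Φ i c (r, p.2) * p.1 i := by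
  ext c
  have e1 : (BA (AH Φ h r) p).2 c = -∑ i, AH Φ h r i c p.2 * p.1 i := rfl
  rw [e1, PiLp.smul_apply, vec_apply, smul_eq_mul, Finset.mul_sum, ← Finset.sum_neg_distrib]
  refine Finset.sum_congr rfl fun i _ => ?_
  simp only [AH, slM, sl]
  ring

theorem xv_pair (B : E d × E d → E d × E d) {Ψ : E d → E d} (hΨ : Differentiable ℝ Ψ)
    (p : E d × E d) :
    XV B (fun p : E d × E d => (p.1, Ψ p.2)) p = ((B p).1, fderiv ℝ Ψ p.2 (B p).2) := by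
  have h1 : HasFDerivAt (fun p : E d × E d => (p.1, Ψ p.2))
      ((ContinuousLinearMap.fst ℝ (E d) (E d)).prod
        ((fderiv ℝ Ψ p.2).comp (ContinuousLinearMap.snd ℝ (E d) (E d)))) p :=
    hasFDerivAt_fst.prodMk ((hΨ p.2).hasFDerivAt.comp p hasFDerivAt_snd)
  unfold XV
  rw [h1.fderiv]
  rfl

theorem xv_P (hW : Pot δ W) (hδ : δ ≤ 1 / 4) (hΦ : IsFlow W Φ) {r : ℝ} (h0 : 0 ≤ r) (h1 : r < 1)
    (h : ℝ) (p : E d × E d) :
    XV (BA (AH Φ h r)) (fun p : E d × E d => (p.1, sl r Φ p.2)) p =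
      hmcF (Gv W) h r (p.1, sl r Φ p.2) := by
  have ha : |r| < 1 := by rwa [abs_of_nonneg h0]
  have hp : ((r, p.2) : ℝ × E d) ∈ OO d := ha
  rw [xv_pair _ ((flow_sl_smooth hΦ ha).differentiable (by simp)), BA_fst hW hδ hΦ h0 h1, BA_snd]
  refine Prod.ext rfl ?_
  ext a
  show fderiv ℝ (sl r Φ) p.2 _ a = (h • p.1) a
  rw [fderiv_flow_sl hΦ ha]
  simp only [PiLp.smul_apply, vec_apply, smul_eq_mul, Finset.mul_sum]
  rw [Finset.sum_comm]
  have : ∀ i, ∑ b, PP Φ a b (r, p.2) * (h * (JT Φ i b (r, p.2) * p.1 i)) =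
      kd a i * (h * p.1 i) := by
    intro i
    rw [← pp_jt hW hδ hΦ hp a i, Finset.sum_mul]
    exact Finset.sum_congr rfl fun b _ => by ring
  simp_rw [this]
  exact sum_kd_mul a fun i => h * p.1 i

theorem hmc_lip (hW : Pot δ W) (hδ : δ ≤ 1 / 4) {r : ℝ} (h0 : 0 ≤ r) (h1 : r < 1) {h : ℝ}
    (hh : 0 ≤ h) (x y : E d × E d) :
    ‖hmcF (Gv W) h r x - hmcF (Gv W) h r y‖ ≤ 2 * h * ‖x - y‖ := by
  have hs : 0 < 1 - r ^ 2 := by nlinarith
  have a1 : ‖x.1 - y.1‖ ≤ ‖x - y‖ := norm_fst_le (x - y)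
  have a2 : ‖x.2 - y.2‖ ≤ ‖x - y‖ := norm_snd_le (x - y)
  have a3 := G_lip hW hs (r • x.2) (r • y.2)
  rw [← smul_sub, norm_smul, Real.norm_of_nonneg h0] at a3
  have hn := norm_nonneg (x - y)
  have hn2 := norm_nonneg (x.2 - y.2)
  have hδ0 := hW.nn
  rw [Prod.norm_def]
  refine max_le ?_ ?_
  · have : (hmcF (Gv W) h r x - hmcF (Gv W) h r y).1 = (-h) • ((x.2 - y.2) +
        r • (Gv W (1 - r ^ 2) (r • x.2) - Gv W (1 - r ^ 2) (r • y.2))) := by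
      simp only [hmcF, Prod.fst_sub, smul_sub, smul_add]
      abel
    rw [this, norm_smul, norm_neg, Real.norm_of_nonneg hh]
    have b1 := norm_add_le (x.2 - y.2)
      (r • (Gv W (1 - r ^ 2) (r • x.2) - Gv W (1 - r ^ 2) (r • y.2)))
    rw [norm_smul, Real.norm_of_nonneg h0] at b1
    have b2 : r * ‖Gv W (1 - r ^ 2) (r • x.2) - Gv W (1 - r ^ 2) (r • y.2)‖ ≤ ‖x.2 - y.2‖ := by
      have c1 : r * (δ * (r * ‖x.2 - y.2‖)) = (r * r * δ) * ‖x.2 - y.2‖ := by ring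
      have c2 : r * r * δ ≤ 1 := by
        have : r * r ≤ 1 := by nlinarith
        nlinarith
      calc _ ≤ r * (δ * (r * ‖x.2 - y.2‖)) := mul_le_mul_of_nonneg_left a3 h0
        _ ≤ 1 * ‖x.2 - y.2‖ := by rw [c1]; exact mul_le_mul_of_nonneg_right c2 hn2
        _ = _ := one_mul _
    calc h * _ ≤ h * (2 * ‖x - y‖) := mul_le_mul_of_nonneg_left (by linarith) hh
      _ = _ := by ring
  · have : (hmcF (Gv W) h r x - hmcF (Gv W) h r y).2 = h • (x.1 - y.1) := by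
      simp only [hmcF, Prod.snd_sub, smul_sub]
    rw [this, norm_smul, Real.norm_of_nonneg hh]
    nlinarith

/-- the differentiation rule picks the first order term of the Lie series -/
theorem dq_lie {P Q : Type} [NormedAddCommGroup P] [NormedSpace ℝ P] [NormedAddCommGroup Q]
    [NormedSpace ℝ Q] {K : ℕ} (hK : 1 ≤ K) {C : ℝ} (q : DQ K C) (B : P → P) (M : P → Q) (p : P) :
    ∑ i, q.a i • lieS B K M (q.t i) p = XV B M p := by
  unfold lieS
  simp_rw [Finset.smul_sum, smul_smul]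
  rw [Finset.sum_comm]
  have : ∀ m ∈ Finset.range (K + 1),
      ∑ i, (q.a i * (q.t i ^ m / (m.factorial : ℝ))) • (XV B)^[m] M p =
        if m = 1 then (XV B)^[m] M p else 0 := by
    intro m hm
    rw [← Finset.sum_smul]
    simp_rw [← mul_div_assoc]
    rw [← Finset.sum_div, q.exact m (Nat.lt_succ_iff.1 (Finset.mem_range.1 hm))]
    split_ifs with h
    · subst h; simp
    · simp
  rw [Finset.sum_congr rfl this, Finset.sum_ite_eq' (Finset.range (K + 1)) 1,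
    if_pos (Finset.mem_range.2 (by omega))]
  rfl

theorem mo_id (n : ℕ) {b : ℝ} (hb : 1 ≤ b) :
    Mo bv n b (fun c i : Fin d => pd (bv c) (fun y : E d => y i)) := by
  have e : (fun c i : Fin d => pd (bv c) (fun y : E d => y i)) = fun c i _ => kd c i := by
    funext c i y
    have : (fun y : E d => y i) = (EuclideanSpace.proj i : E d →L[ℝ] ℝ) := rfl
    simp only [pd]
    rw [this, ContinuousLinearMap.fderiv]
    exact bv_apply c i
  rw [e]
  exact AA_mono (AA_const opLe_kd) zero_le_one hb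

/-- the estimate with abstract constants -/
theorem inner_core (hW : Pot δ W) (hδ : δ ≤ 1 / 4) (hΦ : IsFlow W Φ) {r : ℝ} (h0 : 0 ≤ r)
    (h1 : r < 1) {K N : ℕ} (hK : 1 ≤ K) (hN : 1 ≤ N) {Cq : ℝ} (hCq : 1 ≤ Cq) (k : Kit K Cq N)
    (hT : TG (sl r Φ)) (hJ : TGm (slM r (JT Φ))) {L e T : ℝ} (hL : 0 ≤ L) (hT0 : 0 ≤ T)
    (he : 0 ≤ e)
    (lk0 : ∀ x y, ‖kmS (Gv W) k 0 r x - kmS (Gv W) k 0 r y‖ ≤ L * ‖x - y‖)
    (lk : ∀ x y, ‖kmS (Gv W) k r 0 x - kmS (Gv W) k r 0 y‖ ≤ L * ‖x - y‖)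
    (lp : ∀ t ∈ Icc (0 : ℝ) 1, ∀ x y,
      ‖(pic k.q1.t k.q1.w (fun _ => hmcF (Gv W) (1 / (N : ℝ)) r) x K t).2 -
        (pic k.q1.t k.q1.w (fun _ => hmcF (Gv W) (1 / (N : ℝ)) r) y K t).2‖ ≤ L * ‖x - y‖)
    (e1 : L1le (gam d) (fun o => kmS (Gv W) k 0 r (Φ (0, o)) - Φ (r, o)) e)
    (e2 : L1le (gam d) (fun o => kmS (Gv W) k r 0 (Φ (r, o)) - Φ (0, o)) e)
    (b1 : ∀ m, 1 ≤ m → m ≤ K + 2 → L1le (gam2 d)
      ((XV (BA (AH Φ (1 / (N : ℝ)) r)))^[m] fun p : E d × E d => (p.1, sl r Φ p.2))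
      ((1 / (N : ℝ)) ^ m * T))
    (b2 : L1le (gam2 d) ((XV (BA (AH Φ (1 / (N : ℝ)) r)))^[K + 1] fun p : E d × E d => (p.1, p.2))
      ((1 / (N : ℝ)) ^ (K + 1) * T)) :
    L1le (gam2 d) (fun q => (Tm.bT k r).ev (Gv W) q -
        ((vec fun c => ∑ i, JT Φ i c (r, q.2) * q.1 i) - q.1))
      (Cq * N * ((L * L + 1) * e + (L * (K * (2 * Cq) ^ K * (7 * Cq ^ 2 + 1)) + (L + 1) * 2) *
        ((1 / (N : ℝ)) ^ K * T))) := by
  set h : ℝ := 1 / (N : ℝ) with hh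
  have hN1 : (1 : ℝ) ≤ N := by exact_mod_cast hN
  have hh0 : 0 ≤ h := by positivity
  have hh1 : h ≤ 1 := by rw [hh, div_le_one (by linarith)]; exact hN1
  have hNh : (N : ℝ) * h = 1 := by rw [hh]; field_simp
  set B := BA (AH Φ h r) with hB
  have hA : TGm (AH Φ h r) := fun i c =>
    (Function.HasTemperateGrowth.const (-h)).fun_mul (hJ i c)
  have hsf : SF (gam2 d) B := BA_sf hA
  set M : E d × E d → E d × E d := fun p => (p.1, sl r Φ p.2) with hM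
  set I : E d × E d → E d × E d := fun p => (p.1, p.2) with hI
  have tf : TG (fun p : E d × E d => p.1) := (ContinuousLinearMap.fst ℝ (E d) (E d)).hasTemperateGrowth
  have ts : TG (fun p : E d × E d => p.2) := (ContinuousLinearMap.snd ℝ (E d) (E d)).hasTemperateGrowth
  have tM : TG M := tg_prodMk tf (hT.comp ts)
  have tI : TG I := tg_prodMk tf ts
  set β := hmcF (Gv W) h r with hβ
  set km := kmS (Gv W) k r 0 with hkm
  set km0 := kmS (Gv W) k 0 r with hkm0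
  set pc : ℝ → E d × E d → E d := fun t x => (pic k.q1.t k.q1.w (fun _ => β) x K t).2 with hpc
  have ckm : Continuous km := cont_of_lip hL lk
  have ckm0 : Continuous km0 := cont_of_lip hL lk0
  have cpc : ∀ t ∈ Icc (0 : ℝ) 1, Continuous (pc t) := fun t ht => cont_of_lip hL (lp t ht)
  set ρ := h ^ K * T with hρ
  have hρ0 : 0 ≤ ρ := by positivity
  have hpow : ∀ j, h ^ (K + j) * T ≤ ρ := fun j =>
    mul_le_mul_of_nonneg_right (pow_le_pow_of_le_one hh0 hh1 (Nat.le_add_right K j)) hT0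
  have hr1 : ∫ p, ‖(XV B)^[K + 1] M p‖ ∂(gam2 d) ≤ ρ :=
    (b1 (K + 1) (by omega) (by omega)).2.trans (hpow 1)
  have hr2 : ∫ p, ‖(XV B)^[K + 2] M p‖ ∂(gam2 d) ≤ ρ :=
    (b1 (K + 2) (by omega) (by omega)).2.trans (hpow 2)
  have hr3 : ∫ p, ‖(XV B)^[K + 1] I p‖ ∂(gam2 d) ≤ ρ := b2.2.trans (hpow 1)
  have hS : ∀ m, 1 ≤ m → m ≤ K → ∫ p, ‖(XV B)^[m] M p‖ ∂(gam2 d) ≤ T := fun m m1 m2 =>
    (b1 m m1 (by omega)).2.trans (mul_le_of_le_one_left hT0 (pow_le_one₀ hh0 hh1))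
  have hη : ∫ p, ‖XV B M p - β (M p)‖ ∂(gam2 d) ≤ 0 := by
    have : ∀ p, XV B M p - β (M p) = 0 := fun p => sub_eq_zero.2 (xv_P hW hδ hΦ h0 h1 h p)
    simp [this]
  have key : ∀ t ∈ Icc (0 : ℝ) 1, L1le (gam2 d)
      (fun q => km (pc t (q.1, km0 q.2)) - (lieS B K I t q).2)
      ((L * L + 1) * e + (L * (K * (2 * Cq) ^ K * (7 * Cq ^ 2 + 1)) + (L + 1) * 2) * ρ) := by
    intro t ht
    have cM : Continuous M := tM.1.continuous
    have cY : Continuous (lieS B K M t) := (lieS_tg hsf.tg tM K t).1.continuous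
    have tZ : TG (lieS B K I t) := lieS_tg hsf.tg tI K t
    have s1 : L1le (gam2 d) (fun q => km (pc t (q.1, km0 q.2)) - km (pc t (M q))) (L * L * e) := by
      refine l1_of_le ?_ (l1_snd e1) (by positivity) fun q => ?_
      · exact ((ckm.comp ((cpc t ht).comp (continuous_fst.prodMk (ckm0.comp continuous_snd)))).sub
          (ckm.comp ((cpc t ht).comp cM))).aestronglyMeasurable
      · refine (lk _ _).trans ?_
        rw [mul_assoc]
        refine mul_le_mul_of_nonneg_left ((lp t ht _ _).trans (le_of_eq ?_)) hL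
        congr 1
        rw [hΦ.init]
        simp [hM, sl, Prod.norm_def]
    have s2 : L1le (gam2 d) (fun q => km (pc t (M q)) - km (lieS B K M t q).2)
        (L * (K * (2 * Cq) ^ K * (7 * Cq ^ 2 + 1) * ρ)) := by
      have c := coll hsf tM k.q1 (by positivity : 0 ≤ 2 * h) (hmc_lip hW hδ h0 h1 hh0) hη hr1 hr2
        hS K ht
      refine l1_of_le ?_ (l1_mono c ?_) hL fun q => ?_
      · exact ((ckm.comp ((cpc t ht).comp cM)).sub (ckm.comp cY.snd)).aestronglyMeasurable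
      · have h2C : (1 : ℝ) ≤ 2 * Cq := by linarith
        have a1 : ∑ i ∈ Finset.range K, (Cq * (2 * h)) ^ i ≤ K * (2 * Cq) ^ K := by
          have : ∀ i ∈ Finset.range K, (Cq * (2 * h)) ^ i ≤ (2 * Cq) ^ K := by
            intro i hi
            calc (Cq * (2 * h)) ^ i ≤ (2 * Cq) ^ i :=
                  pow_le_pow_left₀ (by positivity) (by nlinarith) i
              _ ≤ (2 * Cq) ^ K := pow_le_pow_right₀ h2C (Finset.mem_range.1 hi).le
          simpa using Finset.sum_le_card_nsmul _ _ _ this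
        have a2 : Cq ^ 2 * (0 + (3 + 2 * (2 * h)) * ρ) ≤ 7 * Cq ^ 2 * ρ := by
          have : (3 + 2 * (2 * h)) * ρ ≤ 7 * ρ := mul_le_mul_of_nonneg_right (by linarith) hρ0
          nlinarith [sq_nonneg Cq]
        have a3 : (Cq * (2 * h)) ^ K * (K * T) = K * (2 * Cq) ^ K * ρ := by
          rw [hρ, show Cq * (2 * h) = (2 * Cq) * h by ring, mul_pow]; ring
        rw [a3]
        calc _ ≤ K * (2 * Cq) ^ K * (7 * Cq ^ 2 * ρ) + K * (2 * Cq) ^ K * ρ := by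
              gcongr
          _ = _ := by ring
      · exact (lk _ _).trans (mul_le_mul_of_nonneg_left (norm_snd_le
          (pic k.q1.t k.q1.w (fun _ => β) (M q) K t - lieS B K M t q)) hL)
    have s3 : L1le (gam2 d) (fun q => km (lieS B K M t q).2 - (lieS B K I t q).2)
        (e + (L + 1) * 2 * ρ) := by
      have pk : PolyG km := polyG_of_lip lk
      have psnd : ∀ {F : E d × E d → E d × E d}, PolyG F → PolyG fun q => (F q).2 := fun hF =>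
        polyG_of_le hF fun q => norm_snd_le _
      refine ⟨polyG_integrable gam2_pm ((ckm.comp cY.snd).sub tZ.1.continuous.snd)
        (polyG_sub (polyG_comp pk (psnd (tg_polyG (lieS_tg hsf.tg tM K t))))
          (psnd (tg_polyG tZ))), ?_⟩
      have w := lie_weak2 hsf tM tI K (f := fun z => ‖km z.1.2 - z.2.2‖) (L := L + 1)
        (by positivity) (fun x y => ?_) ht
      · have w0 : ∫ p, ‖km (M p).2 - (I p).2‖ ∂(gam2 d) ≤ e := by
          have := (l1_snd e2).2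
          simp only [hΦ.init] at this
          exact this
        have w1 := (abs_le.1 w).2
        have w2 : (L + 1) * (∫ p, ‖(XV B)^[K + 1] M p‖ ∂(gam2 d) +
            ∫ p, ‖(XV B)^[K + 1] I p‖ ∂(gam2 d)) ≤ (L + 1) * (2 * ρ) :=
          mul_le_mul_of_nonneg_left (by linarith) (by positivity)
        simp only at w1
        linarith
      · have a1 : ‖x.1.2 - y.1.2‖ ≤ ‖x - y‖ :=
          (norm_snd_le (x.1 - y.1)).trans (norm_fst_le (x - y))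
        have a2 : ‖x.2.2 - y.2.2‖ ≤ ‖x - y‖ :=
          (norm_snd_le (x.2 - y.2)).trans (norm_snd_le (x - y))
        refine (abs_norm_sub_norm_le _ _).trans ?_
        have : km x.1.2 - x.2.2 - (km y.1.2 - y.2.2) =
            (km x.1.2 - km y.1.2) - (x.2.2 - y.2.2) := by abel
        rw [this]
        refine (norm_sub_le _ _).trans ?_
        have a3 := (lk x.1.2 y.1.2).trans (mul_le_mul_of_nonneg_left a1 hL)
        linarith
    have := l1_add (l1_add s1 s2) s3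
    simp only [sub_add_sub_cancel] at this
    refine l1_mono this (le_of_eq ?_)
    ring
  have fin := l1_sum Finset.univ (c := fun i => k.dq.a i * N)
    fun i _ => key (k.dq.t i) (k.dq.t_mem i)
  have e : (fun q : E d × E d => (Tm.bT k r).ev (Gv W) q -
      ((vec fun c => ∑ i, JT Φ i c (r, q.2) * q.1 i) - q.1)) = fun q =>
      ∑ i, (k.dq.a i * N) • (km (pc (k.dq.t i) (q.1, km0 q.2)) - (lieS B K I (k.dq.t i) q).2) := by
    funext q
    have a1 := congrArg Prod.snd (dq_lie hK k.dq B I q)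
    rw [hI, xv_pair B (Ψ := fun y => y) differentiable_id] at a1
    simp only [fderiv_fun_id, ContinuousLinearMap.id_apply, Prod.snd_sum, Prod.smul_snd] at a1
    rw [hB, BA_snd] at a1
    have a2 : ∑ i, (k.dq.a i * N) • (lieS B K I (k.dq.t i) q).2 =
        vec fun c => ∑ i, JT Φ i c (r, q.2) * q.1 i := by
      simp_rw [mul_comm (k.dq.a _), mul_smul]
      rw [← Finset.smul_sum, a1, smul_smul, hNh, one_smul]
    rw [Tm.ev_bT]
    simp_rw [smul_sub]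
    rw [Finset.sum_sub_distrib, a2]
    abel
  rw [e]
  refine l1_mono fin (mul_le_mul_of_nonneg_right ?_ (by positivity))
  simp_rw [abs_mul, Nat.abs_cast]
  rw [← Finset.sum_mul]
  exact mul_le_mul_of_nonneg_right k.dq.a_sum (by positivity)

end CoreAA

open CoreAA

theorem core_inner (K : ℕ) (hK : 1 ≤ K) (Cq : ℝ) (hCq : 1 ≤ Cq) : ∃ p : ℕ,
    ∀ (θ : Inst) (N : ℕ) (k : Kit K Cq N) (Φ : ℝ × E θ.d → E θ.d), 1 ≤ N → IsFlow θ.W Φ →
      θ.κ⁻¹ ^ p * N * θ.δ ≤ 1 → ∀ r ∈ Icc 0 (RR θ.κ),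
      L1le (gam2 θ.d) (fun q => (Tm.bT k r).ev (Gv θ.W) q -
        ((vec fun c => ∑ i, JT Φ i c (r, q.2) * q.1 i) - q.1))
        (θ.κ⁻¹ ^ p * N / (N : ℝ) ^ K * θ.sz) := by
  obtain ⟨C, hC, hb⟩ := build K hK Cq hCq
  obtain ⟨p1, hp1⟩ := km_err K hK Cq hCq
  obtain ⟨C2, hC2, hBA⟩ := BA_bound (K + 2)
  obtain ⟨p2, hp2⟩ := flow_mo (2 * (K + 2))
  set D : ℝ := 4 * C * (K * (2 * Cq) ^ K * (7 * Cq ^ 2 + 1)) + (4 * C + 1) * 2 with hD
  have hD0 : 0 ≤ D := by positivity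
  obtain ⟨m, hm⟩ := pow_ge (Cq * ((4 * C * (4 * C) + 1) + D * C2 ^ (K + 3)) + 2 * C + Cq)
  refine ⟨m + (p1 + p2 * (K + 3)), fun θ N k Φ hN hΦ hδ r hr => ?_⟩
  have hW := θ.pot
  have hκ0 := θ.κ_pos
  have hδ0 := hW.nn
  have hN1 : (1 : ℝ) ≤ N := by exact_mod_cast hN
  have h1 : r < 1 := hr.2.trans_lt (RR_lt_one θ.κ_pos θ.κ_le)
  have hz : (0 : ℝ) ∈ Icc 0 (RR θ.κ) := ⟨le_rfl, hr.1.trans hr.2⟩
  set u : ℝ := θ.κ⁻¹ with hu
  have hu1 : 1 ≤ u := by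
    rw [hu, le_inv_comm₀ one_pos hκ0]
    linarith [θ.κ_le]
  have hmu := hm θ.κ hκ0 θ.κ_le
  rw [← hu] at hmu
  have hE0 : 0 ≤ Cq * ((4 * C * (4 * C) + 1) + D * C2 ^ (K + 3)) := by positivity
  have hmp : u ^ m ≤ u ^ (m + (p1 + p2 * (K + 3))) := pow_le_pow_right₀ hu1 (Nat.le_add_right _ _)
  have hNδ : 0 ≤ N * θ.δ := by positivity
  have hCδ : C * θ.δ ≤ 1 / 2 := by
    have a1 : 2 * C * (N * θ.δ) ≤ u ^ (m + (p1 + p2 * (K + 3))) * (N * θ.δ) :=
      mul_le_mul_of_nonneg_right (by linarith) hNδ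
    have a2 : C * θ.δ * 1 ≤ C * θ.δ * N := mul_le_mul_of_nonneg_left hN1 (by positivity)
    nlinarith
  have hqδ : Cq * θ.δ * N ≤ 1 := by
    have a1 : Cq * (N * θ.δ) ≤ u ^ (m + (p1 + p2 * (K + 3))) * (N * θ.δ) :=
      mul_le_mul_of_nonneg_right (by linarith) hNδ
    nlinarith
  obtain ⟨bk, bh, -⟩ := hb N k θ.κ hN hκ0 θ.κ_le
  have hG : ∀ s, θ.κ ^ 2 ≤ s → s ≤ 1 → ∀ x y, ‖Gv θ.W s x - Gv θ.W s y‖ ≤ θ.δ * ‖x - y‖ :=
    fun s hs _ x y => G_lip hW (lt_of_lt_of_le (by positivity) hs) x y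
  have lkm : ∀ r0 ∈ Icc 0 (RR θ.κ), ∀ r1 ∈ Icc 0 (RR θ.κ), ∀ x y,
      ‖kmS (Gv θ.W) k r0 r1 x - kmS (Gv θ.W) k r0 r1 y‖ ≤ 4 * C * ‖x - y‖ := by
    intro r0 h0 r1 h1 x y
    have := Tm.ev_lip' hδ0 (by linarith) hCδ hG (bk r0 h0 r1 h1) (0, x) (0, y)
    rw [Tm.ev_kmT, Tm.ev_kmT] at this
    simpa [Prod.norm_def] using this
  obtain ⟨hT, hJ⟩ := flow_tg θ hΦ hr
  obtain ⟨m1, m2, m3, -⟩ := hp2 θ Φ hΦ r hr
  set h : ℝ := 1 / (N : ℝ) with hh
  have hh0 : 0 ≤ h := by positivity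
  have hA : TGm (AH Φ h r) := fun i c =>
    (Function.HasTemperateGrowth.const (-h)).fun_mul (hJ i c)
  have hup : 1 ≤ u ^ p2 := one_le_pow₀ hu1
  have mA : Mo bv (2 * (K + 2)) (h * u ^ p2) (AH Φ h r) := by
    have := AA_smul (-h) m2
    rwa [abs_neg, abs_of_nonneg hh0] at this
  have mA' : Mo bv (2 * (K + 2)) (h * u ^ p2) (mT (AH Φ h r)) := by
    have := AA_smul (-h) m3
    rwa [abs_neg, abs_of_nonneg hh0] at this
  set T : ℝ := (C2 * u ^ p2) ^ (K + 3) * θ.sz with hTd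
  have hsz : √(θ.d : ℝ) ≤ θ.sz := le_add_of_nonneg_right (norm_nonneg _)
  have hsz0 : 0 ≤ θ.sz := (Real.sqrt_nonneg _).trans hsz
  have hCu : 1 ≤ C2 * u ^ p2 := one_le_mul_of_one_le_of_one_le hC2 hup
  have hbd : ∀ j, j ≤ K + 2 →
      (C2 * (h * u ^ p2)) ^ j * (C2 * u ^ p2) * √(θ.d : ℝ) ≤ h ^ j * T := by
    intro j hj
    rw [show C2 * (h * u ^ p2) = h * (C2 * u ^ p2) by ring, mul_pow, mul_assoc, mul_assoc, hTd,
      ← mul_assoc ((C2 * u ^ p2) ^ j), ← pow_succ]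
    refine mul_le_mul_of_nonneg_left ?_ (by positivity)
    exact mul_le_mul (pow_le_pow_right₀ hCu (by omega)) hsz (Real.sqrt_nonneg _) (by positivity)
  have main := inner_core hW θ.δ_le hΦ hr.1 h1 hK hN hCq k hT hJ (L := 4 * C) (T := T)
    (e := u ^ p1 / (N : ℝ) ^ K * θ.sz) (by positivity) (by positivity) (by positivity)
    (lkm 0 hz r hr) (lkm r hr 0 hz)
    (fun t ht x y => by
      have := Tm.ev_lip' hδ0 (by linarith) hCδ hG (bh r hr t ht).2 x y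
      rwa [← Tm.ev_hmcT, ← Tm.ev_hmcT])
    (hp1 θ N k Φ hN hΦ hqδ 0 hz r hr) (hp1 θ N k Φ hN hΦ hqδ r hr 0 hz)
    (fun j j1 j2 => l1_mono
      (hBA θ.d _ _ (by positivity) hA mA mA' (sl r Φ) (u ^ p2) hup hT m1 j j1 j2) (hbd j j2))
    (l1_mono (hBA θ.d _ _ (by positivity) hA mA mA' (fun y => y) (u ^ p2) hup
      Function.HasTemperateGrowth.id' (mo_id _ hup) (K + 1) (by omega) (by omega))
      (hbd (K + 1) (by omega)))
  refine l1_mono main ?_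
  rw [← hD]
  have hX : 0 ≤ (N : ℝ) / (N : ℝ) ^ K * θ.sz := by positivity
  have a1 : u ^ p1 ≤ u ^ (p1 + p2 * (K + 3)) := pow_le_pow_right₀ hu1 (Nat.le_add_right _ _)
  have a2 : (u ^ p2) ^ (K + 3) ≤ u ^ (p1 + p2 * (K + 3)) := by
    rw [← pow_mul]
    exact pow_le_pow_right₀ hu1 (Nat.le_add_left _ _)
  calc Cq * N * ((4 * C * (4 * C) + 1) * (u ^ p1 / (N : ℝ) ^ K * θ.sz) +
        D * ((1 / (N : ℝ)) ^ K * T))
      = Cq * ((4 * C * (4 * C) + 1) * u ^ p1 + D * C2 ^ (K + 3) * (u ^ p2) ^ (K + 3)) *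
        ((N : ℝ) / (N : ℝ) ^ K * θ.sz) := by
        rw [hTd, mul_pow, one_div, inv_pow]; ring
    _ ≤ Cq * ((4 * C * (4 * C) + 1) * u ^ (p1 + p2 * (K + 3)) +
          D * C2 ^ (K + 3) * u ^ (p1 + p2 * (K + 3))) * ((N : ℝ) / (N : ℝ) ^ K * θ.sz) := by
        gcongr
    _ = Cq * ((4 * C * (4 * C) + 1) + D * C2 ^ (K + 3)) * u ^ (p1 + p2 * (K + 3)) *
          ((N : ℝ) / (N : ℝ) ^ K * θ.sz) := by ring
    _ ≤ u ^ m * u ^ (p1 + p2 * (K + 3)) * ((N : ℝ) / (N : ℝ) ^ K * θ.sz) := by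
        gcongr
        linarith
    _ = _ := by rw [pow_add u m]; ring

end Crest.Agent.R285
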