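import Crest.Agent.R285.Tame

/-!
# R285 DCalcA: the classes `BB k` (closed under `LL`).

Pointwise identities on `UU` (for `χ`, `ψ` smooth on `UU`; `pd_comm`, `hm_symm`, `ll_gc`):
* `LL (∂_a χ) = ∂_a (LL χ) - ∑_c H c a * ∂_c χ`,
* `LL (χ ψ) = LL χ * ψ + χ * LL ψ - ∑_c ∂_c χ ∂_c ψ`, `LL` is additive and local,
* `LL (H i a) = - ∑_c H c a * H i c`.
In matrix form: `LL (gradOut A) = gradOut (LL A) - mmul (extL J H) (gradOut A)`,
`LL (gradIn A) = gradIn (LL A) - mmul (gradIn A) (extL I H)`,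
`LL (mmul A B) = mmul (LL A) B + mmul A (LL B) - mmul (gradIn A) (gradOut B)`,
`LL (ext A X) = ext (LL A) X`, `LL (extL X A) = extL X (LL A)`, `LL H = - mmul H H`.
First prove the closure properties for `BB0` (`AA_mul`, ...; `2 ≤ κ⁻¹` absorbs constants), `BB_congr`,
`BB_succ`, `BB_add`, `BB_neg`, `BB_ext`, `BB_extL` by induction on `k`; then prove by one induction on `k`
the conjunction of: `H` in `BB k`, closure under `gradOut`, `gradIn`, `mmul` (quantified over all index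
families).
-/

set_option autoImplicit false

namespace Crest.Agent.R285

open MeasureTheory Set
open scoped ContDiff

variable {J I K : Inst → Type} [∀ θ, Fintype (J θ)] [∀ θ, Fintype (I θ)] [∀ θ, Fintype (K θ)]
  {k : ℕ}

namespace DCalcAA

section pointwise

variable {d : ℕ} {W : E d → ℝ} {δ : ℝ} {p : ℝ × E d} {χ ψ : ℝ × E d → ℝ}

theorem dU {χ : ℝ × E d → ℝ} (h : ContDiffOn ℝ ∞ χ (UU d)) (hp : p ∈ UU d) :
    DifferentiableAt ℝ χ p := MomBA.diffAt (isOpen_UU d) h hp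

theorem sU (h : ContDiffOn ℝ ∞ χ (UU d)) (v : ℝ × E d) : ContDiffOn ℝ ∞ (pd v χ) (UU d) :=
  pd_contDiffOn (isOpen_UU d) h v

theorem ll_eq (W : E d → ℝ) (χ : ℝ × E d → ℝ) : LL W χ = fun p => pd (1, 0) χ p +
    ∑ c, (Gc W c p * pd (xd c) χ p - 1 / 2 * pd (xd c) (pd (xd c) χ) p) := by
  funext p
  have : ((1, Gv W p.1 p.2) : ℝ × E d) = (1, 0) + ∑ c, Gc W c p • xd c := by
    ext1
    · simp [xd, Prod.fst_sum]
    · simp only [xd, Prod.snd_add, zero_add, Prod.snd_sum, Prod.smul_snd]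
      exact eq_sum_bv _
  rw [LL, this, map_add, map_sum, Finset.sum_sub_distrib, Finset.mul_sum, add_sub_assoc]
  simp only [map_smul, smul_eq_mul]
  rfl

theorem ll_congr (W : E d → ℝ) (h : EqOn χ ψ (UU d)) : EqOn (LL W χ) (LL W ψ) (UU d) := by
  intro q hq
  have hO := isOpen_UU d
  rw [ll_eq, ll_eq]
  simp only
  rw [pd_congr hO h _ hq]
  congr 1
  refine Finset.sum_congr rfl fun c _ => ?_
  rw [pd_congr hO h _ hq, pd_congr hO (pd_congr hO h _) _ hq]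

theorem ll_const_mul (W : E d → ℝ) (c : ℝ) (χ : ℝ × E d → ℝ) :
    LL W (fun y => c * χ y) = fun y => c * LL W χ y := by
  rw [ll_eq, ll_eq]
  funext y
  simp only [pd_const_mul, mul_add, Finset.mul_sum]
  congr 1
  exact Finset.sum_congr rfl fun a _ => by ring

theorem ll_sum {ι : Type} [Fintype ι] {χ : ι → ℝ × E d → ℝ}
    (h : ∀ i, ContDiffOn ℝ ∞ (χ i) (UU d)) (hp : p ∈ UU d) :
    LL W (fun y => ∑ i, χ i y) p = ∑ i, LL W (χ i) p := by
  have hO := isOpen_UU d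
  have e1 : ∀ v, EqOn (pd v fun y => ∑ i, χ i y) (fun y => ∑ i, pd v (χ i) y) (UU d) :=
    fun v q hq => pd_sum v fun i => dU (h i) hq
  simp only [ll_eq, Finset.sum_add_distrib]
  rw [e1 _ hp, Finset.sum_comm]
  congr 1
  refine Finset.sum_congr rfl fun c _ => ?_
  rw [pd_congr hO (e1 _) _ hp, e1 _ hp, pd_sum _ fun i => dU (sU (h i) _) hp]
  simp only [Finset.mul_sum, Finset.sum_sub_distrib]

theorem ll_add (h : ContDiffOn ℝ ∞ χ (UU d)) (h' : ContDiffOn ℝ ∞ ψ (UU d)) (hp : p ∈ UU d) :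
    LL W (fun y => χ y + ψ y) p = LL W χ p + LL W ψ p := by
  have := ll_sum (W := W) (χ := fun b : Bool => cond b χ ψ) (fun b => by cases b <;> assumption) hp
  simpa using this

theorem ll_mul (h : ContDiffOn ℝ ∞ χ (UU d)) (h' : ContDiffOn ℝ ∞ ψ (UU d)) (hp : p ∈ UU d) :
    LL W (fun y => χ y * ψ y) p =
      LL W χ p * ψ p + χ p * LL W ψ p - ∑ c, pd (xd c) χ p * pd (xd c) ψ p := by
  have hO := isOpen_UU d
  have e1 : ∀ v, EqOn (pd v fun y => χ y * ψ y) (fun y => pd v χ y * ψ y + χ y * pd v ψ y) (UU d) :=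
    fun v q hq => pd_mul v (dU h hq) (dU h' hq)
  simp only [ll_eq, add_mul, mul_add, Finset.sum_mul, Finset.mul_sum]
  rw [e1 _ hp, add_add_add_comm, add_sub_assoc, ← Finset.sum_add_distrib, ← Finset.sum_sub_distrib]
  congr 1
  refine Finset.sum_congr rfl fun c _ => ?_
  rw [pd_congr hO (e1 _) _ hp, e1 _ hp,
    pd_add _ (dU ((sU h _).mul h') hp) (dU (h.mul (sU h' _)) hp),
    pd_mul _ (dU (sU h _) hp) (dU h' hp), pd_mul _ (dU h hp) (dU (sU h' _) hp)]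
  ring

theorem ll_pd (hW : Pot δ W) (h : ContDiffOn ℝ ∞ χ (UU d)) (hp : p ∈ UU d) (a : Fin d) :
    LL W (pd (xd a) χ) p = pd (xd a) (LL W χ) p - ∑ c, Hm W c a p * pd (xd c) χ p := by
  have hO := isOpen_UU d
  have s1 : ∀ c, ContDiffOn ℝ ∞ (fun p => Gc W c p * pd (xd c) χ p) (UU d) := fun c =>
    (gc_smooth hW c).mul (sU h _)
  have s2 : ∀ c, ContDiffOn ℝ ∞ (fun p => 1 / 2 * pd (xd c) (pd (xd c) χ) p) (UU d) := fun c =>
    contDiffOn_const.mul (sU (sU h _) _)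
  rw [ll_eq, ll_eq, pd_add _ (dU (sU h _) hp) (dU (ContDiffOn.sum fun c _ => (s1 c).sub (s2 c)) hp),
    pd_sum _ fun c => dU ((s1 c).sub (s2 c)) hp]
  simp only
  rw [pd_comm hO h _ _ hp, add_sub_assoc, ← Finset.sum_sub_distrib]
  congr 1
  refine Finset.sum_congr rfl fun c _ => ?_
  rw [pd_sub _ (dU (s1 c) hp) (dU (s2 c) hp), pd_mul _ (dU (gc_smooth hW c) hp) (dU (sU h _) hp),
    pd_const_mul]
  simp only
  rw [pd_comm hO (sU h (xd c)) (xd a) (xd c) hp,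
    pd_congr hO (fun q hq => pd_comm hO h (xd c) (xd a) hq) (xd c) hp, pd_comm hO h (xd c) _ hp]
  simp only [Hm]
  ring

end pointwise

theorem two_le (θ : Inst) : 2 ≤ θ.κ⁻¹ := by
  rw [le_inv_comm₀ (by norm_num) θ.κ_pos]
  linarith [θ.κ_le]

theorem SK_sub (θ : Inst) : SK θ.d θ.κ ⊆ UU θ.d := fun _ hp =>
  lt_of_lt_of_le (pow_pos θ.κ_pos 2) hp.1

theorem nn (θ : Inst) (p : ℕ) : 0 ≤ θ.κ⁻¹ ^ p := pow_nonneg (by linarith [two_le θ]) p

variable {A B : ∀ θ : Inst, MF (ℝ × E θ.d) (J θ) (I θ)}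

theorem BB0_congr (h : ∀ θ j i, EqOn (A θ j i) (B θ j i) (UU θ.d)) (hA : BB0 A) : BB0 B :=
  ⟨fun θ j i => (hA.1 θ j i).congr (h θ j i).symm, fun n => (hA.2 n).imp fun _ hp θ =>
    AA_congr (isOpen_UU _) (SK_sub θ) (h θ) (hp θ)⟩

theorem BB0_add (hA : BB0 A) (hB : BB0 B) : BB0 fun θ j i y => A θ j i y + B θ j i y := by
  refine ⟨fun θ j i => (hA.1 θ j i).add (hB.1 θ j i), fun n => ?_⟩
  obtain ⟨p, hp⟩ := hA.2 n
  obtain ⟨q, hq⟩ := hB.2 n
  refine ⟨p + q + 1, fun θ => AA_mono (AA_add (isOpen_UU _) (SK_sub θ) (hA.1 θ) (hB.1 θ) (nn θ p)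
    (nn θ q) (hp θ) (hq θ)) (add_nonneg (nn θ p) (nn θ q)) ?_⟩
  have h2 := two_le θ
  have h3 : θ.κ⁻¹ ^ p ≤ θ.κ⁻¹ ^ (p + q) := pow_le_pow_right₀ (by linarith) (by omega)
  have h4 : θ.κ⁻¹ ^ q ≤ θ.κ⁻¹ ^ (p + q) := pow_le_pow_right₀ (by linarith) (by omega)
  rw [pow_succ]
  nlinarith [nn θ (p + q)]

theorem BB0_neg (hA : BB0 A) : BB0 fun θ j i y => -1 * A θ j i y :=
  ⟨fun θ j i => contDiffOn_const.mul (hA.1 θ j i), fun n => (hA.2 n).imp fun _ hp θ => by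
    simpa using AA_smul (-1) (hp θ)⟩

theorem BB0_mul {A : ∀ θ : Inst, MF (ℝ × E θ.d) (J θ) (K θ)}
    {B : ∀ θ : Inst, MF (ℝ × E θ.d) (K θ) (I θ)} (hA : BB0 A) (hB : BB0 B) :
    BB0 fun θ => mmul (A θ) (B θ) := by
  refine ⟨fun θ => smO_mmul (hA.1 θ) (hB.1 θ), fun n => ?_⟩
  obtain ⟨p, hp⟩ := hA.2 n
  obtain ⟨q, hq⟩ := hB.2 n
  refine ⟨n + p + q, fun θ => AA_mono (AA_mul (isOpen_UU _) (SK_sub θ) (hA.1 θ) (hB.1 θ) (nn θ p)
    (nn θ q) (hp θ) (hq θ)) (mul_nonneg (mul_nonneg (by positivity) (nn θ p)) (nn θ q)) ?_⟩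
  rw [pow_add, pow_add]
  have := nn θ p
  have := nn θ q
  gcongr
  exact two_le θ

theorem BB0_gradOut (hA : BB0 A) :
    BB0 (J := fun θ => J θ × Fin θ.d) fun θ => gradOut xd (A θ) :=
  ⟨fun θ => smO_gradOut (isOpen_UU _) (hA.1 θ) _, fun n => (hA.2 (n + 1)).imp fun _ hp θ =>
    (hp θ).2.1⟩

theorem BB0_gradIn (hA : BB0 A) :
    BB0 (I := fun θ => I θ × Fin θ.d) fun θ => gradIn xd (A θ) :=
  ⟨fun θ => smO_gradIn (isOpen_UU _) (hA.1 θ) _, fun n => (hA.2 (n + 1)).imp fun _ hp θ =>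
    (hp θ).2.2⟩

theorem BB0_H : BB0 (J := fun θ => Fin θ.d) (I := fun θ => Fin θ.d) fun θ => Hm θ.W :=
  ⟨fun θ => hm_smooth θ.pot, H_tame⟩

theorem BB_congr (h : ∀ θ j i, EqOn (A θ j i) (B θ j i) (UU θ.d)) (hA : BB k A) : BB k B := by
  induction k generalizing A B with
  | zero => exact BB0_congr h hA
  | succ k ih => exact ⟨BB0_congr h hA.1, ih (fun θ j i => ll_congr θ.W (h θ j i)) hA.2⟩

theorem BB_add (hA : BB k A) (hB : BB k B) : BB k fun θ j i y => A θ j i y + B θ j i y := by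
  induction k generalizing A B with
  | zero => exact BB0_add hA hB
  | succ k ih =>
    exact ⟨BB0_add hA.1 hB.1, BB_congr
      (fun θ j i q hq => (ll_add (hA.1.1 θ j i) (hB.1.1 θ j i) hq).symm) (ih hA.2 hB.2)⟩

theorem BB_neg (hA : BB k A) : BB k fun θ j i y => -1 * A θ j i y := by
  induction k generalizing A with
  | zero => exact BB0_neg hA
  | succ k ih =>
    exact ⟨BB0_neg hA.1, BB_congr
      (fun θ j i q _ => (congrFun (ll_const_mul θ.W (-1) (A θ j i)) q).symm) (ih hA.2)⟩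

end DCalcAA

open DCalcAA

theorem ll_smooth {d : ℕ} {W : E d → ℝ} {δ : ℝ} (hW : Pot δ W) {χ : ℝ × E d → ℝ}
    (h : ContDiffOn ℝ ∞ χ (UU d)) : ContDiffOn ℝ ∞ (LL W χ) (UU d) := by
  rw [ll_eq]
  exact (sU h _).add (ContDiffOn.sum fun c _ => ((gc_smooth hW c).mul (sU h _)).sub
    (contDiffOn_const.mul (sU (sU h _) _)))

theorem BB_zero {A : ∀ θ : Inst, MF (ℝ × E θ.d) (J θ) (I θ)} (h : BB k A) : BB0 A := by
  cases k with
  | zero => exact h
  | succ k => exact h.1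

theorem BB_succ {A : ∀ θ : Inst, MF (ℝ × E θ.d) (J θ) (I θ)} (h : BB (k + 1) A) : BB k A := by
  induction k generalizing A with
  | zero => exact h.1
  | succ k ih => exact ⟨h.1, ih h.2⟩

theorem BB_ext {A : ∀ θ : Inst, MF (ℝ × E θ.d) (J θ) (I θ)} (h : BB k A) :
    BB (J := fun θ => J θ × K θ) (I := fun θ => I θ × K θ) k (fun θ => ext (A θ) (K θ)) := by
  have h0 : ∀ {A : ∀ θ : Inst, MF (ℝ × E θ.d) (J θ) (I θ)}, BB0 A →
      BB0 (J := fun θ => J θ × K θ) (I := fun θ => I θ × K θ) (fun θ => ext (A θ) (K θ)) :=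
    fun hA => ⟨fun θ => smO_ext (hA.1 θ) _, fun n => (hA.2 n).imp fun _ hp θ => AA_ext (hp θ)⟩
  induction k generalizing A with
  | zero => exact h0 h
  | succ k ih =>
    exact ⟨h0 h.1, BB_congr (fun θ j i q _ =>
      (congrFun (ll_const_mul θ.W (kd j.2 i.2) (A θ j.1 i.1)) q).symm) (ih h.2)⟩

theorem BB_extL {A : ∀ θ : Inst, MF (ℝ × E θ.d) (J θ) (I θ)} (h : BB k A) :
    BB (J := fun θ => K θ × J θ) (I := fun θ => K θ × I θ) k (fun θ => extL (K θ) (A θ)) := by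
  have h0 : ∀ {A : ∀ θ : Inst, MF (ℝ × E θ.d) (J θ) (I θ)}, BB0 A →
      BB0 (J := fun θ => K θ × J θ) (I := fun θ => K θ × I θ) (fun θ => extL (K θ) (A θ)) :=
    fun hA => ⟨fun θ => smO_extL (hA.1 θ) _, fun n => (hA.2 n).imp fun _ hp θ => AA_extL (hp θ)⟩
  induction k generalizing A with
  | zero => exact h0 h
  | succ k ih =>
    exact ⟨h0 h.1, BB_congr (fun θ j i q _ =>
      (congrFun (ll_const_mul θ.W (kd j.1 i.1) (A θ j.2 i.2)) q).symm) (ih h.2)⟩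

theorem DCalcAA.main (k : ℕ) :
    BB (J := fun θ => Fin θ.d) (I := fun θ => Fin θ.d) k (fun θ => Hm θ.W) ∧
    (∀ {J I : Inst → Type} [∀ θ, Fintype (J θ)] [∀ θ, Fintype (I θ)]
      {A : ∀ θ : Inst, MF (ℝ × E θ.d) (J θ) (I θ)}, BB k A →
        BB (J := fun θ => J θ × Fin θ.d) k (fun θ => gradOut xd (A θ))) ∧
    (∀ {J I : Inst → Type} [∀ θ, Fintype (J θ)] [∀ θ, Fintype (I θ)]
      {A : ∀ θ : Inst, MF (ℝ × E θ.d) (J θ) (I θ)}, BB k A →
        BB (I := fun θ => I θ × Fin θ.d) k (fun θ => gradIn xd (A θ))) ∧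
    (∀ {J K I : Inst → Type} [∀ θ, Fintype (J θ)] [∀ θ, Fintype (K θ)] [∀ θ, Fintype (I θ)]
      {A : ∀ θ : Inst, MF (ℝ × E θ.d) (J θ) (K θ)} {B : ∀ θ : Inst, MF (ℝ × E θ.d) (K θ) (I θ)},
      BB k A → BB k B → BB k (fun θ => mmul (A θ) (B θ))) := by
  induction k with
  | zero => exact ⟨BB0_H, BB0_gradOut, BB0_gradIn, BB0_mul⟩
  | succ k ih =>
    obtain ⟨hH, hO, hI, hM⟩ := ih
    refine ⟨⟨BB0_H, BB_congr (fun θ i a q hq => ?_) (BB_neg (hM hH hH))⟩,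
      fun {J I _ _ A} h => ⟨BB0_gradOut h.1, BB_congr (fun θ ja i q hq => ?_)
        (BB_add (hO h.2) (BB_neg (hM (BB_extL hH) (hO (BB_succ h)))))⟩,
      fun {J I _ _ A} h => ⟨BB0_gradIn h.1, BB_congr (fun θ j ia q hq => ?_)
        (BB_add (hI h.2) (BB_neg (hM (hI (BB_succ h)) (BB_extL hH))))⟩,
      fun {J K I _ _ _ A B} hA hB => ⟨BB0_mul hA.1 hB.1, BB_congr (fun θ j i q hq => ?_)
        (BB_add (BB_add (hM hA.2 (BB_succ hB)) (hM (BB_succ hA) hB.2))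
          (BB_neg (hM (hI (BB_succ hA)) (hO (BB_succ hB)))))⟩⟩
    · have e1 := ll_pd θ.pot (gc_smooth θ.pot i) hq a
      rw [pd_congr (isOpen_UU _) (ψ := fun _ => 0) (fun q hq => ll_gc θ.pot hq i) _ hq,
        pd_const] at e1
      refine Eq.trans ?_ e1.symm
      simp only [mmul, Hm, neg_one_mul, zero_sub, neg_inj]
      exact Finset.sum_congr rfl fun c _ => mul_comm _ _
    · refine Eq.trans ?_ (ll_pd θ.pot (h.1.1 θ ja.1 i) hq ja.2).symm
      simp only [gradOut, mmul, extL, Fintype.sum_prod_type_right, neg_one_mul, mul_assoc,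
        ← sub_eq_add_neg, sub_right_inj]
      refine Finset.sum_congr rfl fun c _ => ?_
      rw [hm_symm θ.pot hq c]
      exact sum_kd_mul ja.1 fun j => Hm θ.W ja.2 c q * pd (xd c) (A θ j i) q
    · refine Eq.trans ?_ (ll_pd θ.pot (h.1.1 θ j ia.1) hq ia.2).symm
      simp only [gradIn, mmul, extL, Fintype.sum_prod_type_right, neg_one_mul,
        ← sub_eq_add_neg, sub_right_inj]
      refine Finset.sum_congr rfl fun c _ => ?_
      rw [← sum_mul_kd ia.1 fun i => Hm θ.W c ia.2 q * pd (xd c) (A θ j i) q]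
      exact Finset.sum_congr rfl fun i _ => by ring
    · refine Eq.trans ?_ (ll_sum (fun l => (hA.1.1 θ j l).mul (hB.1.1 θ l i)) hq).symm
      simp only [gradIn, gradOut, mmul, Fintype.sum_prod_type, neg_one_mul, ← sub_eq_add_neg,
        ← Finset.sum_add_distrib, ← Finset.sum_sub_distrib]
      exact Finset.sum_congr rfl fun l _ => (ll_mul (hA.1.1 θ j l) (hB.1.1 θ l i) hq).symm

theorem BB_H (k : ℕ) : BB (J := fun θ => Fin θ.d) (I := fun θ => Fin θ.d) k (fun θ => Hm θ.W) :=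
  (DCalcAA.main k).1

theorem BB_gradOut {A : ∀ θ : Inst, MF (ℝ × E θ.d) (J θ) (I θ)} (h : BB k A) :
    BB (J := fun θ => J θ × Fin θ.d) k (fun θ => gradOut xd (A θ)) := (DCalcAA.main k).2.1 h

theorem BB_gradIn {A : ∀ θ : Inst, MF (ℝ × E θ.d) (J θ) (I θ)} (h : BB k A) :
    BB (I := fun θ => I θ × Fin θ.d) k (fun θ => gradIn xd (A θ)) := (DCalcAA.main k).2.2.1 h

end Crest.Agent.R285
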