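import Crest.Agent.R285.MomB

/-!
# R285 DCalcB: pointwise commutation rules for `DD` on `OO`.

`DD W ψ p = pd (1,0) ψ p - ∑_c gv W p c * pd (xd c) ψ p` (`eq_sum_bv`); it is a derivation.
`pd (xd c) (gv · a) = r * lift (Hm a c)` (`pd_lift`).  `dd_lift`: chain rule,
`DD (lift χ) = lift (-2r ∂_s χ) + ∑ (y_c - r g_c) lift ∂_c χ`.  `dd_ur`: `DD (Ur c) = r * DD (lift (Gc c))`.
`dd_app` uses `dv (L) * u = dv (L * u) + ∑ L_c ∂_c u`.
-/

set_option autoImplicit false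

namespace Crest.Agent.R285

open MeasureTheory Set
open scoped ContDiff

variable {d : ℕ} {W : E d → ℝ} {δ : ℝ} {p : ℝ × E d} {J I : Type} [Fintype I]

namespace DCalcBA

theorem fd_split (χ : ℝ × E d → ℝ) (q : ℝ × E d) (s : ℝ) (w : E d) :
    fderiv ℝ χ q (s, w) = s * pd (1, 0) χ q + ∑ c, w c * pd (xd c) χ q := by
  have : ((s, w) : ℝ × E d) = s • (1, 0) + ∑ c, w c • xd c := by
    ext1
    · simp [xd, Prod.fst_sum]
    · simp only [xd, Prod.snd_add, Prod.snd_sum, Prod.smul_snd, smul_zero, zero_add]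
      exact eq_sum_bv _
  rw [this, map_add, map_sum]
  simp only [map_smul, smul_eq_mul]
  rfl

theorem dd_eq (W : E d → ℝ) (ψ : ℝ × E d → ℝ) :
    DD W ψ = fun p => pd (1, 0) ψ p - ∑ c, lift (Gc W c) p * pd (xd c) ψ p := by
  funext p
  rw [DD, fd_split, one_mul, sub_eq_add_neg, ← Finset.sum_neg_distrib]
  congr 1
  exact Finset.sum_congr rfl fun c _ => by rw [← gv_apply]; simp

theorem dd_pd (W : E d → ℝ) (ψ : ℝ × E d → ℝ) (p : ℝ × E d) :
    DD W ψ p = pd (1, -gv W p) ψ p := rfl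

theorem dO {F : Type} [NormedAddCommGroup F] [NormedSpace ℝ F] {χ : ℝ × E d → F}
    (h : ContDiffOn ℝ ∞ χ (OO d)) (hp : p ∈ OO d) : DifferentiableAt ℝ χ p :=
  MomBA.diffAt (isOpen_OO d) h hp

theorem lh_symm (hW : Pot δ W) (a c : Fin d) :
    EqOn (lift (Hm W a c)) (lift (Hm W c a)) (OO d) := fun _ hq =>
  hm_symm hW (MomBA.maps_OO hq) a c

theorem app_extL [Fintype J] (H : MF (ℝ × E d) (Fin d) (Fin d)) (u : J × Fin d → ℝ × E d → ℝ)
    (j : J) (a : Fin d) :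
    app (liftM (extL J H)) u (j, a) = fun y => ∑ c, lift (H a c) y * u (j, c) y := by
  funext y
  simp only [app, liftM, lift, extL, Fintype.sum_prod_type_right, mul_assoc]
  exact Finset.sum_congr rfl fun c _ =>
    sum_kd_mul j fun j' => H a c (1 - y.1 ^ 2, y.1 • y.2) * u (j', c) y

end DCalcBA

open DCalcBA

theorem dd_smooth {F : Type} [NormedAddCommGroup F] [NormedSpace ℝ F] (hW : Pot δ W)
    {ψ : ℝ × E d → F} (h : ContDiffOn ℝ ∞ ψ (OO d)) : ContDiffOn ℝ ∞ (DD W ψ) (OO d) := by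
  have h1 : ContDiffOn ℝ ∞ (fderiv ℝ ψ) (OO d) := h.fderiv_of_isOpen (isOpen_OO d) (by simp)
  exact h1.clm_apply (contDiffOn_const.prodMk (gv_smooth hW).neg)

theorem dd_congr {F : Type} [NormedAddCommGroup F] [NormedSpace ℝ F] (W : E d → ℝ)
    {ψ φ : ℝ × E d → F} (h : EqOn ψ φ (OO d)) : EqOn (DD W ψ) (DD W φ) (OO d) := by
  intro y hy
  unfold DD
  rw [Filter.EventuallyEq.fderiv_eq (h.eventuallyEq_of_mem ((isOpen_OO d).mem_nhds hy))]

theorem dd_add {ψ φ : ℝ × E d → ℝ} (h : ContDiffOn ℝ ∞ ψ (OO d)) (h' : ContDiffOn ℝ ∞ φ (OO d))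
    (hp : p ∈ OO d) : DD W (fun p => ψ p + φ p) p = DD W ψ p + DD W φ p := by
  exact pd_add _ (dO h hp) (dO h' hp)

theorem dd_const_mul (c : ℝ) (ψ : ℝ × E d → ℝ) (p : ℝ × E d) :
    DD W (fun p => c * ψ p) p = c * DD W ψ p := by
  exact congrFun (pd_const_mul (1, -gv W p) c ψ) p

theorem dd_rmul {ψ : ℝ × E d → ℝ} (h : ContDiffOn ℝ ∞ ψ (OO d)) (hp : p ∈ OO d) :
    DD W (fun p => p.1 * ψ p) p = ψ p + p.1 * DD W ψ p := by
  rw [dd_pd, pd_mul _ differentiableAt_fst (dO h hp), MomBA.pd_fst, one_mul]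
  rfl

theorem dd_const (c : ℝ) (p : ℝ × E d) : DD W (fun _ => c) p = 0 := by
  exact congrFun (pd_const (1, -gv W p) c) p

theorem dd_coord {ψ : ℝ × E d → E d} (h : ContDiffOn ℝ ∞ ψ (OO d)) (hp : p ∈ OO d) (i : Fin d) :
    DD W ψ p i = DD W (fun p => ψ p i) p := by
  have h1 := ((EuclideanSpace.proj i : E d →L[ℝ] ℝ).hasFDerivAt.comp p (dO h hp).hasFDerivAt).fderiv
  exact (congrArg (fun L : ℝ × E d →L[ℝ] ℝ => L (1, -gv W p)) h1).symm

theorem dd_lift (hW : Pot δ W) {χ : ℝ × E d → ℝ} (h : ContDiffOn ℝ ∞ χ (UU d)) (hp : p ∈ OO d) :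
    DD W (lift χ) p = dv xd (Ur W) (fun jc : Unit × Fin d => lift (pd (xd jc.2) χ)) () p -
      2 * p.1 * lift (LL W χ) p := by
  have h1 : HasFDerivAt (fun q : ℝ × E d => ((1 - q.1 ^ 2, q.1 • q.2) : ℝ × E d)) _ p :=
    (((hasFDerivAt_fst (𝕜 := ℝ) (p := p)).pow 2).const_sub 1).prodMk
      ((hasFDerivAt_fst (𝕜 := ℝ) (p := p)).smul (hasFDerivAt_snd (𝕜 := ℝ) (p := p)))
  have h2 := (MomBA.diffAt (isOpen_UU d) h (MomBA.maps_OO hp)).hasFDerivAt.comp p h1
  have h3 : HasFDerivAt (lift χ) _ p := h2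
  have h4 : DD W (lift χ) p =
      fderiv ℝ χ (1 - p.1 ^ 2, p.1 • p.2) (-(2 * p.1), p.1 • (-gv W p) + p.2) := by
    rw [DD, h3.fderiv]
    simp
  have h5 : ∀ c, pd (xd c) (lift (pd (xd c) χ)) p = p.1 * lift (pd (xd c) (pd (xd c) χ)) p :=
    fun c => pd_lift (pd_contDiffOn (isOpen_UU d) h _) hp c
  rw [h4, fd_split]
  simp only [dv, h5, lift, LL, Ur]
  rw [fd_split]
  simp only [mul_sub, mul_add, Finset.mul_sum, one_mul]
  rw [← sub_eq_zero]
  have : ∀ (a : ℝ) (b c e f : ℝ), b - c + e - f = 0 → -a + b - (c - (a + e - f)) = 0 := by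
    intro a b c e f h; linarith
  rw [neg_mul]
  refine this _ _ _ _ _ ?_
  rw [← Finset.sum_sub_distrib, ← Finset.sum_add_distrib, ← Finset.sum_sub_distrib]
  refine Finset.sum_eq_zero fun c _ => ?_
  simp only [gv, PiLp.add_apply, PiLp.smul_apply, PiLp.neg_apply, smul_eq_mul]
  ring

theorem dd_gc (hW : Pot δ W) (hp : p ∈ OO d) (i : Fin d) :
    DD W (lift (Gc W i)) p = dv xd (Ur W) (unc (liftM (Hm W))) i p := by
  rw [dd_lift hW (gc_smooth hW i) hp, lift, ll_gc hW (MomBA.maps_OO hp), mul_zero, sub_zero]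
  rfl

theorem dd_grad (hW : Pot δ W) {u : J → ℝ × E d → ℝ} [Fintype J]
    (h : ∀ j, ContDiffOn ℝ ∞ (u j) (OO d)) (hp : p ∈ OO d) (jc : J × Fin d) :
    DD W (grad xd u jc) p = grad xd (fun j => DD W (u j)) jc p +
      p.1 * app (liftM (extL J (Hm W))) (grad xd u) jc p := by
  obtain ⟨j, c⟩ := jc
  have hO := isOpen_OO d
  have hu : ∀ v, ContDiffOn ℝ ∞ (pd v (u j)) (OO d) := fun v => pd_contDiffOn hO (h j) v
  have hg : ∀ a, ContDiffOn ℝ ∞ (lift (Gc W a)) (OO d) := fun a => lift_smooth (gc_smooth hW a)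
  rw [app_extL]
  simp only [grad]
  rw [dd_eq W (u j), dd_eq, pd_sub _ (dO (hu _) hp)
    (dO (ContDiffOn.sum fun a _ => (hg a).mul (hu _)) hp),
    pd_sum _ fun a => dO ((hg a).mul (hu _)) hp]
  simp only
  rw [pd_comm hO (h j) _ _ hp, sub_add, Finset.mul_sum, ← Finset.sum_sub_distrib]
  congr 1
  refine Finset.sum_congr rfl fun a _ => ?_
  rw [pd_mul _ (dO (hg a) hp) (dO (hu _) hp), pd_lift (gc_smooth hW a) hp,
    pd_comm hO (h j) _ _ hp, lh_symm hW c a hp]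
  simp only [Hm]
  ring

theorem dd_dv (hW : Pot δ W) {u : J × Fin d → ℝ × E d → ℝ} [Fintype J]
    (h : ∀ j, ContDiffOn ℝ ∞ (u j) (OO d)) (hp : p ∈ OO d) (j : J) :
    DD W (dv xd (Ur W) u j) p = dv xd (Ur W) (fun jc => DD W (u jc)) j p +
      p.1 * dv xd (Ur W) (app (liftM (extL J (Hm W))) u) j p := by
  have hO := isOpen_OO d
  have hu : ∀ jc v, ContDiffOn ℝ ∞ (pd v (u jc)) (OO d) := fun jc v => pd_contDiffOn hO (h jc) v
  have hH : ∀ a c, ContDiffOn ℝ ∞ (lift (Hm W a c)) (OO d) := fun a c =>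
    lift_smooth (hm_smooth hW a c)
  have hUr : ∀ c, DD W (Ur W c) p =
      p.1 * ∑ a, (Ur W a p * lift (Hm W c a) p - pd (xd a) (lift (Hm W c a)) p) := fun c => by
    have e1 : DD W (Ur W c) p = DD W (fun q : ℝ × E d => q.2 c) p +
        DD W (fun q => q.1 * lift (Gc W c) q) p :=
      pd_add _ (MomBA.snd_coord_hasFDerivAt c p).differentiableAt
        (dO (contDiffOn_fst.mul (lift_smooth (gc_smooth hW c))) hp)
    rw [e1, dd_rmul (lift_smooth (gc_smooth hW c)) hp, dd_gc hW hp, dd_pd, MomBA.pd_snd_coord,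
      ← gv_apply]
    simp [dv, unc, liftM]
  have hG : ∀ c, DD W (pd (xd c) (u (j, c))) p = pd (xd c) (DD W (u (j, c))) p +
      p.1 * ∑ a, lift (Hm W c a) p * pd (xd a) (u (j, c)) p := fun c => by
    have := dd_grad hW (u := fun _ : Unit => u (j, c)) (fun _ => h _) hp ((), c)
    rwa [app_extL] at this
  have e1 : DD W (dv xd (Ur W) u j) p = ∑ c, (DD W (Ur W c) p * u (j, c) p +
      Ur W c p * DD W (u (j, c)) p - DD W (pd (xd c) (u (j, c))) p) := by
    refine (pd_sum (φ := fun c y => Ur W c y * u (j, c) y - pd (xd c) (u (j, c)) y) _ fun c =>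
      dO (((ur_smooth hW c).mul (h _)).sub (hu _ _)) hp).trans (Finset.sum_congr rfl fun c _ => ?_)
    rw [pd_sub _ (dO ((ur_smooth hW c).mul (h _)) hp) (dO (hu _ _) hp),
      pd_mul _ (dO (ur_smooth hW c) hp) (dO (h _) hp)]
    rfl
  have e2 : dv xd (Ur W) (app (liftM (extL J (Hm W))) u) j p =
      ∑ c, ∑ a, (Ur W a p * lift (Hm W c a) p * u (j, c) p -
        pd (xd a) (lift (Hm W c a)) p * u (j, c) p - lift (Hm W c a) p * pd (xd a) (u (j, c)) p) := by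
    rw [Finset.sum_comm, dv]
    refine Finset.sum_congr rfl fun a _ => ?_
    rw [app_extL, pd_sum _ fun c => dO ((hH a c).mul (h _)) hp, Finset.mul_sum,
      ← Finset.sum_sub_distrib]
    refine Finset.sum_congr rfl fun c _ => ?_
    rw [pd_mul _ (dO (hH a c) hp) (dO (h _) hp), pd_congr hO (lh_symm hW a c) _ hp,
      lh_symm hW a c hp]
    ring
  rw [e1, e2, dv, Finset.mul_sum, ← Finset.sum_add_distrib]
  refine Finset.sum_congr rfl fun c _ => ?_
  rw [hUr, hG]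
  simp only [Finset.sum_sub_distrib, ← Finset.sum_mul]
  ring

theorem dd_app (hW : Pot δ W) {A : MF (ℝ × E d) J I} (hA : SmO (UU d) A) {u : I → ℝ × E d → ℝ}
    (h : ∀ i, ContDiffOn ℝ ∞ (u i) (OO d)) (hp : p ∈ OO d) (j : J) :
    DD W (app (liftM A) u j) p =
      dv xd (Ur W) (app (liftM (gradOut xd A)) u) j p +
      app (liftM (gradIn xd A)) (grad xd u) j p +
      (-2) * (p.1 * app (liftM fun j i => LL W (A j i)) u j p) +
      app (liftM A) (fun i => DD W (u i)) j p := by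
  have hO := isOpen_OO d
  have hL : ∀ i c, ContDiffOn ℝ ∞ (lift (pd (xd c) (A j i))) (OO d) := fun i c =>
    lift_smooth (pd_contDiffOn (isOpen_UU d) (hA j i) _)
  have e1 : DD W (app (liftM A) u j) p =
      ∑ i, (DD W (lift (A j i)) p * u i p + lift (A j i) p * DD W (u i) p) := by
    refine (pd_sum (φ := fun i y => lift (A j i) y * u i y) _ fun i =>
      dO ((lift_smooth (hA j i)).mul (h _)) hp).trans (Finset.sum_congr rfl fun i _ => ?_)
    exact pd_mul _ (dO (lift_smooth (hA j i)) hp) (dO (h _) hp)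
  have e2 : dv xd (Ur W) (app (liftM (gradOut xd A)) u) j p =
      ∑ i, ∑ c, (Ur W c p * lift (pd (xd c) (A j i)) p * u i p -
        pd (xd c) (lift (pd (xd c) (A j i))) p * u i p -
        lift (pd (xd c) (A j i)) p * pd (xd c) (u i) p) := by
    rw [Finset.sum_comm, dv]
    refine Finset.sum_congr rfl fun c _ => ?_
    have : app (liftM (gradOut xd A)) u (j, c) = fun y => ∑ i, lift (pd (xd c) (A j i)) y * u i y :=
      rfl
    rw [this, pd_sum _ fun i => dO ((hL i c).mul (h _)) hp, Finset.mul_sum,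
      ← Finset.sum_sub_distrib]
    refine Finset.sum_congr rfl fun i _ => ?_
    rw [pd_mul _ (dO (hL i c) hp) (dO (h _) hp)]
    ring
  rw [e1, e2]
  simp only [app, liftM, gradIn, grad, Fintype.sum_prod_type, Finset.mul_sum,
    ← Finset.sum_add_distrib]
  refine Finset.sum_congr rfl fun i _ => ?_
  rw [dd_lift hW (hA j i) hp]
  simp only [dv, Finset.sum_add_distrib, Finset.sum_sub_distrib, ← Finset.sum_mul]
  ring

/-- chain rule along the flow -/
theorem dd_flow {F : Type} [NormedAddCommGroup F] [NormedSpace ℝ F] {Φ : ℝ × E d → E d}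
    (hΦ : IsFlow W Φ) {ψ : ℝ × E d → F} (h : ContDiffOn ℝ ∞ ψ (OO d)) {r : ℝ} (hr : |r| < 1)
    (o : E d) : HasDerivAt (fun r => ψ (r, Φ (r, o))) (DD W ψ (r, Φ (r, o))) r := by
  have h1 : HasDerivAt (fun r => ((r, Φ (r, o)) : ℝ × E d)) (1, -gv W (r, Φ (r, o))) r :=
    (hasDerivAt_id r).prodMk (hΦ.ode (r, o) hr)
  exact (dO (p := (r, Φ (r, o))) h hr).hasFDerivAt.comp_hasDerivAt r h1

end Crest.Agent.R285
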