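import Crest.Agent.R285.Appell

/-!
# R285 MuR: the measures `mu W r`.

`Ψ_r y = ‖y‖²/2 + Wt W (1 - r², r y)` is smooth with partial derivatives `Ur W c (r, y)` (`wt_pd`,
`pd_lift`, `pd_sl`).  The gradient of `y ↦ Wt W (1-r², r y)` is `r • Gv`, of norm `≤ C + δ ‖y‖` (`G_lip`),
so (mean value inequality on the segment) `Ψ_r y ≥ (1/2 - δ) ‖y‖² - C ‖y‖ - C`.
`gv_tg`: `tg_of_pd`, `tg_of_mo`, `Mo_sl_lift`, `H_mo`.  `dU = I + r² lift H`.
-/

set_option autoImplicit false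

namespace Crest.Agent.R285

open MeasureTheory Set
open scoped ContDiff

namespace MuRA

variable {d : ℕ} {W : E d → ℝ} {δ r : ℝ}

theorem sl_smooth {F : Type} [NormedAddCommGroup F] [NormedSpace ℝ F] {ψ : ℝ × E d → F}
    (h : ContDiffOn ℝ ∞ ψ (OO d)) (hr : |r| < 1) : ContDiff ℝ ∞ (sl r ψ) :=
  h.comp_contDiff (f := fun y : E d => ((r, y) : ℝ × E d)) (contDiff_const.prodMk contDiff_id)
    fun _ => hr

theorem pd_sl_lift {χ : ℝ × E d → ℝ} (h : ContDiffOn ℝ ∞ χ (UU d)) (hr : |r| < 1) (c : Fin d)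
    (y : E d) : pd (bv c) (sl r (lift χ)) y = r * lift (pd (xd c) χ) (r, y) := by
  have hp : ((r, y) : ℝ × E d) ∈ OO d := hr
  rw [pd_sl (MomBA.diffAt (isOpen_OO d) (lift_smooth h) hp), pd_lift h hp]

theorem pd_wt (hW : Pot δ W) (hr : |r| < 1) (c : Fin d) (y : E d) :
    pd (bv c) (sl r (lift (Wt W))) y = r * gv W (r, y) c := by
  rw [pd_sl_lift (wt_smooth hW) hr, lift, wt_pd hW (MomBA.maps_OO (q := (r, y)) hr)]
  rfl

theorem gv_lip' (hW : Pot δ W) (hr : |r| < 1) (y y' : E d) :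
    ‖gv W (r, y) - gv W (r, y')‖ ≤ δ * ‖y - y'‖ := by
  have h1 : 0 < 1 - r ^ 2 := MomBA.maps_OO (q := (r, y)) hr
  refine (G_lip hW h1 (r • y) (r • y')).trans (mul_le_mul_of_nonneg_left ?_ hW.nn)
  rw [← smul_sub, norm_smul, Real.norm_eq_abs]
  exact mul_le_of_le_one_left (norm_nonneg _) hr.le

theorem abs_lt (θ : Inst) {r : ℝ} (hr : r ∈ Icc 0 (RR θ.κ)) : |r| < 1 := by
  rw [abs_of_nonneg hr.1]
  exact hr.2.trans_lt (RR_lt_one θ.κ_pos θ.κ_le)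

theorem two_le (θ : Inst) : 2 ≤ θ.κ⁻¹ := by
  rw [le_inv_comm₀ (by norm_num) θ.κ_pos]
  have := θ.κ_le
  linarith

theorem norm_fderiv_eq (U : E d → ℝ) (y : E d) :
    ‖fderiv ℝ U y‖ = ‖vec fun c => pd (bv c) U y‖ := by
  have : (vec fun c => pd (bv c) U y) = gradient U y := by
    ext c; rw [vec_apply, pd_bv_eq_grad]
  rw [this, gradient, LinearIsometryEquiv.norm_map]

end MuRA

open MuRA

theorem mu_conf {d : ℕ} {W : E d → ℝ} {δ r : ℝ} (hW : Pot δ W) (hδ : δ ≤ 1 / 4) (hr : |r| < 1) :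
    Conf (fun y => ‖y‖ ^ 2 / 2 + Wt W (1 - r ^ 2, r • y)) := by
  have hs : ContDiff ℝ ∞ (sl r (lift (Wt W))) := sl_smooth (lift_smooth (wt_smooth hW)) hr
  have hsc : Continuous fun y : E d => Wt W (1 - r ^ 2, r • y) := hs.continuous
  set C := ‖gv W (r, 0)‖ with hC
  have hC0 : 0 ≤ C := norm_nonneg _
  have hδ0 := hW.nn
  have hb : ∀ z, ‖fderiv ℝ (sl r (lift (Wt W))) z‖ ≤ C + δ * ‖z‖ := fun z => by
    rw [norm_fderiv_eq]
    have e : (vec fun c => pd (bv c) (sl r (lift (Wt W))) z) = r • gv W (r, z) := by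
      ext c; rw [vec_apply, pd_wt hW hr]; rfl
    rw [e, norm_smul, Real.norm_eq_abs]
    have h1 := gv_lip' hW hr z 0
    rw [sub_zero] at h1
    have h2 : ‖gv W (r, z)‖ ≤ ‖gv W (r, z) - gv W (r, 0)‖ + C := norm_le_norm_sub_add _ _
    have h3 := mul_le_of_le_one_left (norm_nonneg (gv W (r, z))) hr.le
    linarith
  refine ⟨by fun_prop, 1 / 8, 2 * C ^ 2 - sl r (lift (Wt W)) 0, by norm_num, fun y => ?_⟩
  have h1 := (convex_closedBall (0 : E d) ‖y‖).norm_image_sub_le_of_norm_fderiv_le (𝕜 := ℝ)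
    (f := sl r (lift (Wt W))) (C := C + δ * ‖y‖) (x := 0) (y := y)
    (fun z _ => hs.differentiable (by simp) z)
    (fun z hz => (hb z).trans (by
      have : ‖z‖ ≤ ‖y‖ := by simpa using hz
      gcongr))
    (by simp) (by simp)
  rw [sub_zero, Real.norm_eq_abs] at h1
  have h2 := (abs_le.1 h1).1
  change 1 / 8 * ‖y‖ ^ 2 - _ ≤ ‖y‖ ^ 2 / 2 + sl r (lift (Wt W)) y
  have h3 : δ * ‖y‖ ^ 2 ≤ 1 / 4 * ‖y‖ ^ 2 := mul_le_mul_of_nonneg_right hδ (sq_nonneg _)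
  nlinarith [sq_nonneg (‖y‖ - 4 * C)]

theorem mu_pot_smooth {d : ℕ} {W : E d → ℝ} {δ r : ℝ} (hW : Pot δ W) (hr : |r| < 1) :
    ContDiff ℝ ∞ (fun y : E d => ‖y‖ ^ 2 / 2 + Wt W (1 - r ^ 2, r • y)) :=
  ((contDiff_norm_sq ℝ).div_const 2).add (sl_smooth (lift_smooth (wt_smooth hW)) hr)

theorem mu_pot_pd {d : ℕ} {W : E d → ℝ} {δ r : ℝ} (hW : Pot δ W) (hr : |r| < 1) (c : Fin d)
    (y : E d) :
    pd (bv c) (fun y : E d => ‖y‖ ^ 2 / 2 + Wt W (1 - r ^ 2, r • y)) y = Ur W c (r, y) := by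
  have hs : ContDiff ℝ ∞ (sl r (lift (Wt W))) := sl_smooth (lift_smooth (wt_smooth hW)) hr
  have h1 := pd_add (bv c) (TiltA.hasFDerivAt_half_sq y).differentiableAt
    (hs.differentiable (by simp) y)
  refine h1.trans ?_
  rw [pd_wt hW hr]
  unfold Ur
  congr 1
  unfold pd
  rw [(TiltA.hasFDerivAt_half_sq y).fderiv]
  simp [bv, EuclideanSpace.inner_single_right]

theorem liftH_tg (θ : Inst) {r : ℝ} (hr : r ∈ Icc 0 (RR θ.κ)) : TGm (slM r (liftM (Hm θ.W))) := by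
  refine tg_of_mo (fun j i =>
    (sl_smooth (lift_smooth (hm_smooth θ.pot j i)) (abs_lt θ hr)).contDiffOn) fun n => ?_
  obtain ⟨p, hp⟩ := H_mo n
  exact ⟨_, Mo_sl_lift θ.κ_pos θ.κ_le hr (hm_smooth θ.pot) (hp θ)⟩

theorem gv_tg (θ : Inst) {r : ℝ} (hr : r ∈ Icc 0 (RR θ.κ)) : TG (sl r (gv θ.W)) := by
  have h1 := abs_lt θ hr
  have key : ∀ i, TG (sl r (lift (Gc θ.W i))) := fun i => by
    refine tg_of_pd ((sl_smooth (lift_smooth (gc_smooth θ.pot i)) h1).differentiable (by simp))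
      ?_ fun c => ?_
    · exact polyG_comp (f := fun y : E θ.d => y i) (g := fun y => gv θ.W (r, y)) (polyG_coord i)
        (polyG_of_lip (gv_lip' θ.pot h1))
    · rw [funext (pd_sl_lift (gc_smooth θ.pot i) h1 c)]
      exact (Function.HasTemperateGrowth.const r).mul (liftH_tg θ hr i c)
  exact tg_vec key

theorem MuRA.ur_tg (θ : Inst) {r : ℝ} (hr : r ∈ Icc 0 (RR θ.κ)) : TGv (slv r (Ur θ.W)) :=
  fun c => (EuclideanSpace.proj c : E θ.d →L[ℝ] ℝ).hasTemperateGrowth.add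
    ((Function.HasTemperateGrowth.const r).mul (tg_coord (gv_tg θ hr) c))

theorem ibp_mu (θ : Inst) {r : ℝ} (hr : r ∈ Icc 0 (RR θ.κ)) :
    IBP (mu θ.W r) bv (slv r (Ur θ.W)) := by
  have h1 := abs_lt θ hr
  have hc := mu_conf θ.pot θ.δ_le h1
  refine ⟨gib_pm hc, ur_tg θ hr, fun c φ hφ p0 p1 => ?_⟩
  have hp : PolyG (fderiv ℝ fun y : E θ.d => ‖y‖ ^ 2 / 2 + Wt θ.W (1 - r ^ 2, r • y)) := by
    refine polyG_of_le (tg_polyG (tg_vec (ur_tg θ hr))) fun y => le_of_eq ?_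
    rw [norm_fderiv_eq]
    simp only [mu_pot_pd θ.pot h1]
    rfl
  have := gib_ibp hc ((mu_pot_smooth θ.pot h1).of_le (by simp)) hp hφ p0 p1 (bv c)
  simp only [mu_pot_pd θ.pot h1] at this
  exact this

theorem dU_mo (n : ℕ) : ∃ p : ℕ, ∀ θ : Inst, ∀ r ∈ Icc 0 (RR θ.κ),
    Mo bv n (θ.κ⁻¹ ^ p) (dU bv (slv r (Ur θ.W))) := by
  obtain ⟨p, hp⟩ := H_mo n
  refine ⟨p + 1, fun θ r hr => ?_⟩
  have h1 := abs_lt θ hr
  have h2 := two_le θ
  have hδ := θ.pot.nn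
  have hH := Mo_sl_lift θ.κ_pos θ.κ_le hr (hm_smooth θ.pot) (hp θ)
  have sH : SmO univ (slM r (liftM (Hm θ.W))) := fun j i =>
    (sl_smooth (lift_smooth (hm_smooth θ.pot j i)) h1).contDiffOn
  have hA := AA_add isOpen_univ subset_rfl (fun _ _ => contDiffOn_const)
    (fun j i => contDiffOn_const.mul (sH j i)) zero_le_one (by positivity)
    (AA_const (opLe_kd (I := Fin θ.d))) (AA_smul (r ^ 2) hH)
  have e : dU bv (slv r (Ur θ.W)) =
      fun j i y => kd j i + r ^ 2 * slM r (liftM (Hm θ.W)) j i y := by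
    funext c c' y
    have d1 : DifferentiableAt ℝ (fun y : E θ.d => y c') y :=
      (TiltA.coord_contDiff c').differentiable (by simp) y
    have d2 : DifferentiableAt ℝ (fun y => r * sl r (lift (Gc θ.W c')) y) y :=
      ((sl_smooth (lift_smooth (gc_smooth θ.pot c')) h1).differentiable (by simp) y).const_mul r
    have e1 := pd_add (bv c) d1 d2
    rw [TiltA.pd_coord, pd_const_mul] at e1
    simp only at e1
    rw [pd_sl_lift (gc_smooth θ.pot c') h1] at e1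
    refine Eq.trans e1 ?_
    have e2 : lift (pd (xd c) (Gc θ.W c')) (r, y) = slM r (liftM (Hm θ.W)) c c' y :=
      hm_symm θ.pot (MomBA.maps_OO (q := (r, y)) h1) c' c
    rw [e2]
    ring
  rw [e]
  refine AA_mono hA (by positivity) ?_
  have a1 : 1 ≤ θ.κ⁻¹ ^ p := one_le_pow₀ (by linarith)
  have a2 : |r ^ 2| ≤ 1 := by rw [abs_pow]; exact pow_le_one₀ (abs_nonneg _) h1.le
  have a3 : |r ^ 2| * (θ.δ * θ.κ⁻¹ ^ p) ≤ 1 * (1 * θ.κ⁻¹ ^ p) := by
    have := θ.δ_le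
    gcongr
    linarith
  rw [pow_succ θ.κ⁻¹]
  nlinarith

end Crest.Agent.R285
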