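import Crest.Agent.R285.TG

/-!
# R285 Sob: Sobolev bounds.

All `Hs` lemmas by induction on `n` generalizing the index type.  Integrability from
`tg_integrable`.  `n2_add`: Minkowski (`∫ ∑ (f+g)² ≤ (M₁+M₂)²`, use
`2 f g ≤ t f² + g²/t` or Cauchy-Schwarz).
* `hs_app`: `grad (app A g) = app (gradOut A) g + app (ext A D) (grad g)`.
* `n2_dv`: for each `j`, with `φ = dv u j`: `∫ φ² = ∑_c ∫ u_c ∂_c φ` (IBP with `u_c φ`),
  `∂_c φ = ∑_{c'} (∂_c U_{c'}) u_{c'} + dv (∂_c u)` (`pd_comm`), IBP again: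
  `∫ φ² = ∫ ∑ (∂_c U_{c'}) u_c u_{c'} + ∫ ∑ ∂_c u_{c'} ∂_{c'} u_c ≤ b ‖u‖² + ‖∇u‖²` (`opLe_bilin`).
* `hs_dv`: `grad (dv u) (j,a) = dv (reindexed grad u) (j,a) + app (extL J (dU e U)) u (j,a)`;
  constants `C 0 = 2`, `C (n+1) = C n + 2^n`.
-/

set_option autoImplicit false

namespace Crest.Agent.R285

open MeasureTheory Set
open scoped ContDiff

variable {P : Type} [NormedAddCommGroup P] [NormedSpace ℝ P] [MeasurableSpace P] [BorelSpace P]
  [SecondCountableTopology P] {D J I : Type} [Fintype D] [Fintype J] [Fintype I]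
  {μ : Measure P} {e : D → P} {U : D → P → ℝ} {n : ℕ} {M M' a b : ℝ}

namespace SobA

theorem tg_sq {g : J → P → ℝ} (hg : TGv g) : TG (fun y => ∑ j, g j y ^ 2) := by
  simp only [sq]
  exact Function.HasTemperateGrowth.sum fun j _ => (hg j).fun_mul (hg j)

theorem diff {f : P → ℝ} (hf : TG f) (y : P) : DifferentiableAt ℝ f y :=
  (hf.1.differentiable (by simp)) y

theorem n2_nonneg (g : J → P → ℝ) : 0 ≤ N2 μ g :=
  integral_nonneg fun y => by positivity

theorem n2_add (hμ : PM μ) {g g' : J → P → ℝ} (hg : TGv g) (hg' : TGv g') (hM : 0 ≤ M)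
    (hM' : 0 ≤ M') (h : N2 μ g ≤ M ^ 2) (h' : N2 μ g' ≤ M' ^ 2) :
    N2 μ (fun j y => g j y + g' j y) ≤ (M + M') ^ 2 := by
  have i1 := tg_integrable hμ (tg_sq hg)
  have i2 := tg_integrable hμ (tg_sq hg')
  have i3 : Integrable (fun y => ∑ j, g j y * g' j y) μ :=
    tg_integrable hμ (Function.HasTemperateGrowth.sum fun j _ => (hg j).fun_mul (hg' j))
  set X := ∫ y, ∑ j, g j y * g' j y ∂μ with hX
  have key : ∀ t : ℝ, N2 μ (fun j y => t * g j y + g' j y) =
      N2 μ g * (t * t) + (2 * X) * t + N2 μ g' := by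
    intro t
    have : (fun y => ∑ j, (t * g j y + g' j y) ^ 2) = fun y =>
        (∑ j, g j y ^ 2) * (t * t) + (∑ j, g j y * g' j y) * (2 * t) + ∑ j, g' j y ^ 2 := by
      funext y
      simp only [Finset.sum_mul, ← Finset.sum_add_distrib]
      exact Finset.sum_congr rfl fun j _ => by ring
    unfold N2
    have i4 : Integrable (fun y =>
        (∑ j, g j y ^ 2) * (t * t) + (∑ j, g j y * g' j y) * (2 * t)) μ :=
      (i1.mul_const _).add (i3.mul_const _)
    rw [this, integral_add i4 i2,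
      integral_add (i1.mul_const _) (i3.mul_const _), integral_mul_const, integral_mul_const]
    ring
  have hd := discrim_le_zero (fun t => (key t) ▸ n2_nonneg (μ := μ) (fun j y => t * g j y + g' j y))
  rw [discrim] at hd
  have h1 := key 1
  simp only [one_mul, mul_one] at h1
  rw [h1]
  have h2 : X ≤ M * M' := by
    apply le_of_sq_le_sq_of_nonneg_aux (by positivity)
    have := mul_le_mul h h' (n2_nonneg _) (by positivity)
    nlinarith
  nlinarith

theorem n2_app (hμ : PM μ) {A : MF P J I} {g : I → P → ℝ} (hg : TGv g)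
    (h1 : ∀ y, OpLe (fun j i => A j i y) a) (h : N2 μ g ≤ M ^ 2) :
    N2 μ (app A g) ≤ (a * M) ^ 2 := by
  have i1 := tg_integrable hμ (tg_sq hg)
  calc N2 μ (app A g) ≤ ∫ y, a ^ 2 * ∑ i, g i y ^ 2 ∂μ :=
        integral_mono_of_nonneg (Filter.Eventually.of_forall fun y => by positivity)
          (i1.const_mul _) (Filter.Eventually.of_forall fun y => h1 y (fun i => g i y))
    _ = a ^ 2 * N2 μ g := integral_const_mul _ _
    _ ≤ _ := by rw [mul_pow]; gcongr

theorem grad_app {A : MF P J I} {g : I → P → ℝ} (hA : TGm A) (hg : TGv g) :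
    grad e (app A g) = fun jc y => app (gradOut e A) g jc y + app (ext A D) (grad e g) jc y := by
  funext jc y
  show pd (e jc.2) (fun y => ∑ k, A jc.1 k y * g k y) y =
    ∑ k, pd (e jc.2) (A jc.1 k) y * g k y +
      ∑ kc : I × D, kd jc.2 kc.2 * A jc.1 kc.1 y * pd (e kc.2) (g kc.1) y
  rw [pd_sum _ fun k => (diff (hA _ _) y).fun_mul (diff (hg _) y), Fintype.sum_prod_type,
    ← Finset.sum_add_distrib]
  refine Finset.sum_congr rfl fun k _ => ?_
  rw [pd_mul _ (diff (hA _ _) y) (diff (hg _) y)]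
  simp only [mul_assoc]
  rw [sum_kd_mul jc.2 (fun c => A jc.1 k y * pd (e c) (g k) y)]

theorem adj (h : IBP μ e U) {f g : P → ℝ} (hf : TG f) (hg : TG g) (c : D) :
    ∫ y, (U c y * f y - pd (e c) f y) * g y ∂μ = ∫ y, f y * pd (e c) g y ∂μ := by
  have hfg : TG (fun y => f y * g y) := hf.fun_mul hg
  have h1 := h.ibp c _ (hfg.1.of_le (by exact_mod_cast le_top)) (tg_polyG hfg)
    (tg_polyG (tg_fderiv hfg))
  have e1 : (fun y => pd (e c) (fun y => f y * g y) y) =
      fun y => pd (e c) f y * g y + f y * pd (e c) g y :=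
    funext fun y => pd_mul _ (diff hf y) (diff hg y)
  have i1 := tg_integrable h.pm ((tg_pd hf (e c)).fun_mul hg)
  have i2 := tg_integrable h.pm (hf.fun_mul (tg_pd hg (e c)))
  have i3 := tg_integrable h.pm ((h.tg c).fun_mul hfg)
  rw [e1, integral_add i1 i2] at h1
  have e2 : (fun y => (U c y * f y - pd (e c) f y) * g y) =
      fun y => U c y * (f y * g y) - pd (e c) f y * g y := funext fun y => by ring
  rw [e2, integral_sub i3 i1]
  linarith

theorem pd_dv (hU : TGv U) {u : J × D → P → ℝ} (hu : TGv u) (j : J) (c : D) (y : P) :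
    pd (e c) (dv e U u j) y = ∑ c', (U c' y * pd (e c) (u (j, c')) y -
      pd (e c') (pd (e c) (u (j, c'))) y) + ∑ c', pd (e c) (U c') y * u (j, c') y := by
  show pd (e c) (fun y => ∑ c', (U c' y * u (j, c') y - pd (e c') (u (j, c')) y)) y = _
  rw [pd_sum _ fun c' => ((diff (hU _) y).fun_mul (diff (hu _) y)).fun_sub
    (diff (tg_pd (hu _) _) y), ← Finset.sum_add_distrib]
  refine Finset.sum_congr rfl fun c' _ => ?_
  rw [pd_sub _ ((diff (hU _) y).fun_mul (diff (hu _) y)) (diff (tg_pd (hu _) _) y),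
    pd_mul _ (diff (hU _) y) (diff (hu _) y),
    pd_comm isOpen_univ (hu (j, c')).1.contDiffOn (e c) (e c') (mem_univ y)]
  ring

end SobA

open SobA

theorem hs_n2 {g : J → P → ℝ} (h : Hs μ e n M g) : N2 μ g ≤ M ^ 2 := by
  cases n with
  | zero => exact h
  | succ n => exact h.1

theorem hs_mono {g : J → P → ℝ} (h : Hs μ e n M g) (hM : 0 ≤ M) (hMM : M ≤ M') :
    Hs μ e n M' g := by
  have h2 : M ^ 2 ≤ M' ^ 2 := pow_le_pow_left₀ hM hMM 2
  induction n generalizing J with
  | zero => exact le_trans h h2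
  | succ n ih => exact ⟨h.1.trans h2, ih h.2⟩

theorem hs_mono_n {g : J → P → ℝ} {m : ℕ} (h : Hs μ e n M g) (hm : m ≤ n) : Hs μ e m M g := by
  induction m generalizing n J with
  | zero => exact hs_n2 h
  | succ m ih =>
    obtain ⟨n, rfl⟩ : ∃ k, n = k + 1 := ⟨n - 1, by omega⟩
    exact ⟨h.1, ih h.2 (by omega)⟩

theorem hs_reindex {J' : Type} [Fintype J'] {g : J → P → ℝ} (σ : J' ≃ J) (h : Hs μ e n M g) :
    Hs μ e n M (fun j => g (σ j)) := by
  have hop : ∀ {J J' : Type} [Fintype J] [Fintype J'] {g : J → P → ℝ} (σ : J' ≃ J),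
      N2 μ (fun j => g (σ j)) = N2 μ g := by
    intro J J' _ _ g σ
    unfold N2
    congr 1
    funext y
    exact σ.sum_comp (fun j => g j y ^ 2)
  induction n generalizing J J' with
  | zero => exact (hop σ).trans_le h
  | succ n ih => exact ⟨(hop σ).trans_le h.1, ih (σ.prodCongr (Equiv.refl D)) h.2⟩

theorem hs_smul {g : J → P → ℝ} (c : ℝ) (h : Hs μ e n M g) :
    Hs μ e n (|c| * M) (fun j y => c * g j y) := by
  have hop : ∀ {J : Type} [Fintype J] {g : J → P → ℝ}, N2 μ g ≤ M ^ 2 →
      N2 μ (fun j y => c * g j y) ≤ (|c| * M) ^ 2 := by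
    intro J _ g h
    have : N2 μ (fun j y => c * g j y) = c ^ 2 * N2 μ g := by
      unfold N2
      rw [← integral_const_mul]
      simp only [mul_pow, Finset.mul_sum]
    rw [this, mul_pow, sq_abs]
    gcongr
  induction n generalizing J with
  | zero => exact hop h
  | succ n ih =>
    refine ⟨hop h.1, ?_⟩
    have : grad e (fun j y => c * g j y) = fun j y => c * grad e g j y := by
      funext jc; exact pd_const_mul _ _ _
    rw [this]; exact ih h.2

theorem hs_add (hμ : PM μ) {g g' : J → P → ℝ} (hg : TGv g) (hg' : TGv g') (hM : 0 ≤ M)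
    (hM' : 0 ≤ M') (h : Hs μ e n M g) (h' : Hs μ e n M' g') :
    Hs μ e n (M + M') (fun j y => g j y + g' j y) := by
  induction n generalizing J with
  | zero => exact n2_add hμ hg hg' hM hM' h h'
  | succ n ih =>
    refine ⟨n2_add hμ hg hg' hM hM' h.1 h'.1, ?_⟩
    have : grad e (fun j y => g j y + g' j y) = fun j y => grad e g j y + grad e g' j y := by
      funext jc y; exact pd_add _ (diff (hg _) y) (diff (hg' _) y)
    rw [this]; exact ih (tgv_grad hg) (tgv_grad hg') h.2 h'.2

theorem hs_app (hμ : PM μ) {A : MF P J I} {g : I → P → ℝ} (hA : TGm A) (hg : TGv g) (ha : 0 ≤ a)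
    (hM : 0 ≤ M) (h1 : Mo e n a A) (h : Hs μ e n M g) :
    Hs μ e n (2 ^ n * a * M) (app A g) := by
  induction n generalizing J I with
  | zero =>
    rw [pow_zero, one_mul]
    exact n2_app hμ hg (fun y => h1 y (mem_univ y)) h
  | succ n ih =>
    refine ⟨(n2_app hμ hg (fun y => h1.1 y (mem_univ y)) h.1).trans ?_, ?_⟩
    · have : (1 : ℝ) ≤ 2 ^ (n + 1) := one_le_pow₀ (by norm_num)
      have h3 : 0 ≤ a * M := by positivity
      apply pow_le_pow_left₀ h3
      nlinarith
    · have hA1 : TGm (gradOut e A) := fun jc i => tg_pd (hA _ _) _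
      have hA2 : TGm (ext A D) := fun jc ic =>
        (Function.HasTemperateGrowth.const _).fun_mul (hA _ _)
      have e2 : (2 : ℝ) ^ (n + 1) * a * M = 2 ^ n * a * M + 2 ^ n * a * M := by ring
      rw [grad_app hA hg, e2]
      exact hs_add hμ (tgv_app hA1 hg) (tgv_app hA2 (tgv_grad hg)) (by positivity) (by positivity)
        (ih hA1 hg h1.2.1 (hs_mono_n h (Nat.le_succ n)))
        (ih hA2 (tgv_grad hg) (AA_ext (AA_mono_n h1 (Nat.le_succ n))) h.2)

theorem hs_unc (hμ : PM μ) {A : MF P J I} (hA : TGm A) (h1 : Mo e n a A) :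
    Hs μ e n (a * √(Fintype.card I : ℝ)) (unc A) := by
  have hop : ∀ {J : Type} [Fintype J] {A : MF P J I}, (∀ y ∈ univ, OpLe (fun j i => A j i y) a) →
      N2 μ (unc A) ≤ (a * √(Fintype.card I : ℝ)) ^ 2 := by
    intro J _ A h
    have := hμ.prob
    rw [mul_pow, Real.sq_sqrt (Nat.cast_nonneg _)]
    calc N2 μ (unc A) ≤ ∫ _y, a ^ 2 * (Fintype.card I : ℝ) ∂μ :=
          integral_mono_of_nonneg (Filter.Eventually.of_forall fun y => by positivity)
            (integrable_const _) (Filter.Eventually.of_forall fun y => by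
              have := opLe_hs (h y (mem_univ y))
              simpa only [unc, Fintype.sum_prod_type] using this)
      _ = _ := by simp
  induction n generalizing J with
  | zero => exact hop h1
  | succ n ih =>
    refine ⟨hop h1.1, ?_⟩
    exact hs_reindex (swap23 J I D) (ih (A := gradOut e A) (fun jc i => tg_pd (hA _ _) _) h1.2.1)

theorem n2_dv (h : IBP μ e U) (hb : 1 ≤ b) (hU : Mo e 0 b (dU e U)) {u : J × D → P → ℝ}
    (hu : TGv u) (h1 : Hs μ e 1 M u) : N2 μ (dv e U u) ≤ (2 * b * M) ^ 2 := by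
  have hφ := tgv_dv (e := e) h.tg hu
  have hg : TGv (grad e u) := tgv_grad hu
  have t1 : ∀ j c, TG (fun y => u (j, c) y * ∑ c', pd (e c) (U c') y * u (j, c') y) := fun j c =>
    (hu _).fun_mul (Function.HasTemperateGrowth.sum fun c' _ => (tg_pd (h.tg _) _).fun_mul (hu _))
  have t2 : ∀ j c c', TG (fun y => pd (e c) (u (j, c')) y * pd (e c') (u (j, c)) y) :=
    fun j c c' => (tg_pd (hu _) _).fun_mul (tg_pd (hu _) _)
  have t3 : ∀ j c, TG (fun y => (∑ c', pd (e c) (u (j, c')) y * pd (e c') (u (j, c)) y) +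
      u (j, c) y * ∑ c', pd (e c) (U c') y * u (j, c') y) := fun j c =>
    (Function.HasTemperateGrowth.sum fun c' _ => t2 j c c').fun_add (t1 j c)
  have key : ∀ j, ∫ y, dv e U u j y ^ 2 ∂μ = ∫ y, ∑ c,
      ((∑ c', pd (e c) (u (j, c')) y * pd (e c') (u (j, c)) y) +
        u (j, c) y * ∑ c', pd (e c) (U c') y * u (j, c') y) ∂μ := by
    intro j
    have e1 : (fun y => dv e U u j y ^ 2) = fun y =>
        ∑ c, (U c y * u (j, c) y - pd (e c) (u (j, c)) y) * dv e U u j y := by
      funext y; rw [← Finset.sum_mul, sq]; rfl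
    rw [e1, integral_finsetSum _ fun c _ => tg_integrable h.pm
      ((((h.tg c).fun_mul (hu _)).fun_sub (tg_pd (hu _) _)).fun_mul (hφ j)),
      integral_finsetSum _ fun c _ => tg_integrable h.pm (t3 j c)]
    refine Finset.sum_congr rfl fun c _ => ?_
    rw [adj h (hu _) (hφ j) c]
    have t4 : ∀ c', TG (fun y => (U c' y * pd (e c) (u (j, c')) y -
        pd (e c') (pd (e c) (u (j, c'))) y) * u (j, c) y) := fun c' =>
      (((h.tg _).fun_mul (tg_pd (hu _) _)).fun_sub (tg_pd (tg_pd (hu _) _) _)).fun_mul (hu _)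
    have e2 : (fun y => u (j, c) y * pd (e c) (dv e U u j) y) = fun y =>
        (∑ c', (U c' y * pd (e c) (u (j, c')) y - pd (e c') (pd (e c) (u (j, c'))) y) * u (j, c) y)
          + u (j, c) y * ∑ c', pd (e c) (U c') y * u (j, c') y := by
      funext y; rw [pd_dv h.tg hu, ← Finset.sum_mul]; ring
    rw [e2, integral_add (integrable_finsetSum _ fun c' _ => tg_integrable h.pm (t4 c'))
      (tg_integrable h.pm (t1 j c)),
      integral_add (integrable_finsetSum _ fun c' _ => tg_integrable h.pm (t2 j c c'))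
      (tg_integrable h.pm (t1 j c)), integral_finsetSum _ fun c' _ => tg_integrable h.pm (t4 c'),
      integral_finsetSum _ fun c' _ => tg_integrable h.pm (t2 j c c')]
    congr 1
    exact Finset.sum_congr rfl fun c' _ => adj h (tg_pd (hu _) _) (hu _) c'
  have i1 := tg_integrable h.pm (tg_sq hu)
  have i2 := tg_integrable h.pm (tg_sq hg)
  have i3 : ∀ j, Integrable (fun y => ∑ c,
      ((∑ c', pd (e c) (u (j, c')) y * pd (e c') (u (j, c)) y) +
        u (j, c) y * ∑ c', pd (e c) (U c') y * u (j, c') y)) μ := fun j =>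
    integrable_finsetSum _ fun c _ => tg_integrable h.pm (t3 j c)
  have e3 : N2 μ (dv e U u) ≤ N2 μ (grad e u) + b * N2 μ u := by
    unfold N2
    rw [integral_finsetSum _ fun j _ => tg_integrable h.pm (by
      simp only [sq]; exact (hφ j).fun_mul (hφ j))]
    simp only [key]
    rw [← integral_finsetSum _ fun j _ => i3 j, ← integral_const_mul,
      ← integral_add i2 (i1.const_mul _)]
    refine integral_mono (integrable_finsetSum _ fun j _ => i3 j) (i2.add (i1.const_mul _))
      fun y => ?_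
    simp only [Fintype.sum_prod_type, Finset.mul_sum (a := b), ← Finset.sum_add_distrib]
    refine Finset.sum_le_sum fun j _ => ?_
    rw [Finset.sum_add_distrib, Finset.sum_add_distrib]
    refine add_le_add ?_ ?_
    · have e4 : ∑ c, ∑ c', pd (e c) (u (j, c')) y * pd (e c') (u (j, c)) y ≤
          ∑ c, ∑ c', (pd (e c) (u (j, c')) y ^ 2 + pd (e c') (u (j, c)) y ^ 2) / 2 :=
        Finset.sum_le_sum fun c _ => Finset.sum_le_sum fun c' _ => by
          nlinarith [sq_nonneg (pd (e c) (u (j, c')) y - pd (e c') (u (j, c)) y)]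
      refine e4.trans (le_of_eq ?_)
      simp only [add_div, Finset.sum_add_distrib]
      rw [Finset.sum_comm, ← Finset.sum_add_distrib]
      refine Finset.sum_congr rfl fun c _ => ?_
      rw [← Finset.sum_add_distrib]
      exact Finset.sum_congr rfl fun c' _ => by simp only [grad]; ring
    · have e5 := opLe_bilin (hU y (mem_univ y)) (fun c => u (j, c) y) (fun c => u (j, c) y)
      rw [← Finset.mul_sum]
      apply le_of_sq_le_sq_of_nonneg_aux (by positivity)
      refine le_trans e5 (le_of_eq ?_)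
      ring
  have h2 : N2 μ u ≤ M ^ 2 := h1.1
  have h3 : N2 μ (grad e u) ≤ M ^ 2 := h1.2
  have h4 : b * N2 μ u ≤ b * M ^ 2 := by gcongr
  have h5 : 1 + b ≤ 4 * b ^ 2 := by nlinarith
  have h6 := mul_le_mul_of_nonneg_right h5 (sq_nonneg M)
  nlinarith

theorem hs_dv (h : IBP μ e U) (hb : 1 ≤ b) (hU : Mo e n b (dU e U)) {u : J × D → P → ℝ}
    (hu : TGv u) (hM : 0 ≤ M) (h1 : Hs μ e (n + 1) M u) :
    Hs μ e n (2 ^ (n + 1) * b * M) (dv e U u) := by
  have hb0 : 0 ≤ b := by linarith
  induction n generalizing J with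
  | zero =>
    rw [zero_add, pow_one]
    exact n2_dv h hb hU hu h1
  | succ n ih =>
    refine ⟨(n2_dv h hb (AA_mono_n hU (Nat.zero_le _)) hu (hs_mono_n h1 (by omega))).trans ?_, ?_⟩
    · apply pow_le_pow_left₀ (by positivity)
      have : (2 : ℝ) ≤ 2 ^ (n + 1 + 1) := le_self_pow₀ (by norm_num) (by omega)
      gcongr
    · have hu' : TGv (fun jc => grad e u (swap23 J D D jc)) := fun jc => tgv_grad hu _
      have hA : TGm (extL J (dU e U)) := fun jc ic =>
        (Function.HasTemperateGrowth.const _).fun_mul (tg_pd (h.tg _) _)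
      have e1 : grad e (dv e U u) = fun jc y => dv e U (fun jc => grad e u (swap23 J D D jc)) jc y +
          app (extL J (dU e U)) u jc y := by
        funext jc y
        refine (pd_dv h.tg hu jc.1 jc.2 y).trans ?_
        congr 1
        show _ = ∑ ic : J × D, kd jc.1 ic.1 * pd (e jc.2) (U ic.2) y * u ic y
        rw [Fintype.sum_prod_type, Finset.sum_comm]
        refine Finset.sum_congr rfl fun c _ => ?_
        simp only [mul_assoc]
        rw [sum_kd_mul jc.1 (fun j => pd (e jc.2) (U c) y * u (j, c) y)]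
      rw [e1]
      refine hs_mono (hs_add h.pm (tgv_dv h.tg hu') (tgv_app hA hu) (by positivity) (by positivity)
        (ih (AA_mono_n hU (Nat.le_succ n)) hu' (hs_reindex _ h1.2))
        (hs_app h.pm hA hu hb0 hM (AA_extL (AA_mono_n hU (Nat.le_succ n)))
          (hs_mono_n h1 (by omega)))) (by positivity) ?_
      have : 0 ≤ 2 ^ n * b * M := by positivity
      rw [pow_succ, pow_succ, pow_succ]
      nlinarith

/-- from `L²` bounds on coordinates to an `L¹` bound -/
theorem l1_of_n2 (hμ : PM μ) {Q : Type} [NormedAddCommGroup Q] [NormedSpace ℝ Q] {F : P → Q}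
    (hF : TG F) {g : J → P → ℝ} (hg : TGv g) (hle : ∀ y, ‖F y‖ ^ 2 ≤ ∑ j, g j y ^ 2)
    (hM : 0 ≤ M) (h : N2 μ g ≤ M ^ 2) : L1le μ F M := by
  have := hμ.prob
  have i1 := tg_integrable hμ hF
  have i2 := tg_integrable hμ (tg_sq hg)
  refine ⟨i1, le_of_forall_pos_le_add fun ε hε => ?_⟩
  have ht : 0 < M + ε := by linarith
  calc ∫ y, ‖F y‖ ∂μ ≤ ∫ y, ((∑ j, g j y ^ 2) / (2 * (M + ε)) + (M + ε) / 2) ∂μ := by
        refine integral_mono i1.norm ((i2.div_const _).add (integrable_const _)) fun y => ?_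
        have h1 := hle y
        show ‖F y‖ ≤ (∑ j, g j y ^ 2) / (2 * (M + ε)) + (M + ε) / 2
        rw [div_add_div _ _ (by positivity) (by norm_num), le_div_iff₀ (by positivity)]
        nlinarith [sq_nonneg (‖F y‖ - (M + ε))]
    _ = N2 μ g / (2 * (M + ε)) + (M + ε) / 2 := by
        rw [integral_add (i2.div_const _) (integrable_const _), integral_div]
        simp [N2]
    _ ≤ M + ε := by
        rw [div_add_div _ _ (by positivity) (by norm_num), div_le_iff₀ (by positivity)]
        nlinarith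

end Crest.Agent.R285
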