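import Crest.Agent.R285.DCalcA
import Crest.Agent.R285.DCalcB
import Crest.Agent.R285.MuR
import Crest.Agent.R285.Sob

/-!
# R285 DCalcC: `L²(μ_r)` bounds for `DD^k g`.

Closure of `SS0` (slices commute with `grad`, `dv`, `app` by `pd_sl` and smoothness on `OO`):
congruence on `OO`, sums, constant multiples, multiplication by `p.1`, `grad xd`,
`dv xd (Ur W)` (`hs_dv`, `ibp_mu`, `dU_mo`), `app (liftM A)` for `BB0 A` (`hs_app`, `AA_toMo`,
`Mo_sl_lift`, `tg_of_mo`), the constant tensors `fun (a, c) _ => kd a c` (`hs_unc` of `idM`) and `0`.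
Constants are absorbed with `2 ≤ κ⁻¹`.  Then the same closure properties for `SS k` by induction on `k`
(one simultaneous induction, quantified over all index families, for `grad`, `dv`, `app (liftM A)`
with `BB k A`), using `dd_grad`, `dd_dv`, `dd_app`, `BB_*`.  Finally
`DD (lift (Gc i)) = dv (unc (liftM H)) i` (`dd_gc`) and
`unc (liftM H) = app (liftM (ext H (Fin d))) (fun ac _ => kd ac.1 ac.2)`; `dd_coord`, `l1_of_n2`.
-/

set_option autoImplicit false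

namespace Crest.Agent.R285

open MeasureTheory Set
open scoped ContDiff

namespace DCalcCA

open MuRA

variable {J I : Inst → Type} [∀ θ, Fintype (J θ)] [∀ θ, Fintype (I θ)]

theorem one_le (θ : Inst) : 1 ≤ θ.κ⁻¹ := by linarith [two_le θ]

theorem two_pow_le (θ : Inst) (m : ℕ) : (2 : ℝ) ^ m ≤ θ.κ⁻¹ ^ m :=
  pow_le_pow_left₀ zero_le_two (two_le θ) m

theorem cpos (θ : Inst) (p : ℕ) : 0 ≤ θ.κ⁻¹ ^ p * √(θ.d : ℝ) := by
  have := one_le θ
  positivity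

theorem ss0_congr {u v : ∀ θ : Inst, J θ → ℝ × E θ.d → ℝ}
    (h : ∀ θ j, EqOn (v θ j) (u θ j) (OO θ.d)) (hu : SS0 u) : SS0 v := by
  have e : ∀ θ : Inst, ∀ r ∈ Icc 0 (RR θ.κ), slv r (v θ) = slv r (u θ) := fun θ r hr =>
    funext fun j => funext fun y => h θ j (show ((r, y) : ℝ × E θ.d) ∈ OO θ.d from abs_lt θ hr)
  refine ⟨fun θ j => (hu.1 θ j).congr (h θ j), fun θ r hr => ?_, fun n => ?_⟩
  · rw [e θ r hr]; exact hu.2.1 θ r hr
  · obtain ⟨p, hp⟩ := hu.2.2 n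
    exact ⟨p, fun θ r hr => by rw [e θ r hr]; exact hp θ r hr⟩

theorem ss0_add {u v : ∀ θ : Inst, J θ → ℝ × E θ.d → ℝ} (hu : SS0 u) (hv : SS0 v) :
    SS0 (fun θ j p => u θ j p + v θ j p) := by
  refine ⟨fun θ j => (hu.1 θ j).add (hv.1 θ j),
    fun θ r hr j => (hu.2.1 θ r hr j).add (hv.2.1 θ r hr j), fun n => ?_⟩
  obtain ⟨p, hp⟩ := hu.2.2 n
  obtain ⟨q, hq⟩ := hv.2.2 n
  refine ⟨p + q + 1, fun θ r hr => ?_⟩
  have h := hs_add (ibp_mu θ hr).pm (hu.2.1 θ r hr) (hv.2.1 θ r hr) (cpos θ p) (cpos θ q)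
    (hp θ r hr) (hq θ r hr)
  refine hs_mono h (add_nonneg (cpos θ p) (cpos θ q)) ?_
  rw [← add_mul]
  refine mul_le_mul_of_nonneg_right ?_ (Real.sqrt_nonneg _)
  have a1 : θ.κ⁻¹ ^ p ≤ θ.κ⁻¹ ^ (p + q) := pow_le_pow_right₀ (one_le θ) (by omega)
  have a2 : θ.κ⁻¹ ^ q ≤ θ.κ⁻¹ ^ (p + q) := pow_le_pow_right₀ (one_le θ) (by omega)
  have a3 : 0 ≤ θ.κ⁻¹ ^ (p + q) := pow_nonneg (by linarith [one_le θ]) _
  rw [pow_succ]
  nlinarith [two_le θ]

theorem ss0_smul {u : ∀ θ : Inst, J θ → ℝ × E θ.d → ℝ} (c : ℝ) (hu : SS0 u) :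
    SS0 (fun θ j p => c * u θ j p) := by
  refine ⟨fun θ j => contDiffOn_const.mul (hu.1 θ j),
    fun θ r hr j => (Function.HasTemperateGrowth.const c).mul (hu.2.1 θ r hr j), fun n => ?_⟩
  obtain ⟨p, hp⟩ := hu.2.2 n
  obtain ⟨m, hm⟩ := pow_unbounded_of_one_lt |c| (show (1 : ℝ) < 2 by norm_num)
  refine ⟨m + p, fun θ r hr => ?_⟩
  refine hs_mono (hs_smul c (hp θ r hr)) (mul_nonneg (abs_nonneg _) (cpos θ p)) ?_
  rw [pow_add, mul_assoc]
  exact mul_le_mul_of_nonneg_right (hm.le.trans (two_pow_le θ m)) (cpos θ p)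

theorem ss0_rmul {u : ∀ θ : Inst, J θ → ℝ × E θ.d → ℝ} (hu : SS0 u) :
    SS0 (fun θ j p => p.1 * u θ j p) := by
  refine ⟨fun θ j => contDiffOn_fst.mul (hu.1 θ j),
    fun θ r hr j => (Function.HasTemperateGrowth.const r).mul (hu.2.1 θ r hr j), fun n => ?_⟩
  obtain ⟨p, hp⟩ := hu.2.2 n
  refine ⟨p, fun θ r hr => ?_⟩
  exact hs_mono (hs_smul r (hp θ r hr)) (mul_nonneg (abs_nonneg _) (cpos θ p))
    (mul_le_of_le_one_left (cpos θ p) (abs_lt θ hr).le)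

theorem ss0_grad {u : ∀ θ : Inst, J θ → ℝ × E θ.d → ℝ} (hu : SS0 u) :
    SS0 (J := fun θ => J θ × Fin θ.d) (fun θ => grad xd (u θ)) := by
  have e : ∀ θ : Inst, ∀ r ∈ Icc 0 (RR θ.κ), slv r (grad xd (u θ)) = grad bv (slv r (u θ)) :=
    fun θ r hr => funext fun jc => funext fun y =>
      (pd_sl (MomBA.diffAt (isOpen_OO _) (hu.1 θ jc.1)
        (show ((r, y) : ℝ × E θ.d) ∈ OO θ.d from abs_lt θ hr)) jc.2).symm
  refine ⟨fun θ jc => pd_contDiffOn (isOpen_OO _) (hu.1 θ jc.1) _, fun θ r hr => ?_, fun n => ?_⟩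
  · rw [e θ r hr]; exact tgv_grad (hu.2.1 θ r hr)
  · obtain ⟨p, hp⟩ := hu.2.2 (n + 1)
    exact ⟨p, fun θ r hr => by rw [e θ r hr]; exact (hp θ r hr).2⟩

theorem ss0_dv {u : ∀ θ : Inst, J θ × Fin θ.d → ℝ × E θ.d → ℝ}
    (hu : SS0 (J := fun θ => J θ × Fin θ.d) u) : SS0 (fun θ => dv xd (Ur θ.W) (u θ)) := by
  have e : ∀ θ : Inst, ∀ r ∈ Icc 0 (RR θ.κ),
      slv r (dv xd (Ur θ.W) (u θ)) = dv bv (slv r (Ur θ.W)) (slv r (u θ)) :=
    fun θ r hr => funext fun j => funext fun y => by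
      simp only [slv, sl, dv]
      refine Finset.sum_congr rfl fun c _ => ?_
      rw [← pd_sl (MomBA.diffAt (isOpen_OO _) (hu.1 θ (j, c))
        (show ((r, y) : ℝ × E θ.d) ∈ OO θ.d from abs_lt θ hr)) c]
  refine ⟨fun θ j => ContDiffOn.sum fun c _ => ((ur_smooth θ.pot c).mul (hu.1 θ (j, c))).sub
    (pd_contDiffOn (isOpen_OO _) (hu.1 θ (j, c)) _), fun θ r hr => ?_, fun n => ?_⟩
  · rw [e θ r hr]; exact tgv_dv (ibp_mu θ hr).tg (hu.2.1 θ r hr)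
  · obtain ⟨p, hp⟩ := hu.2.2 (n + 1)
    obtain ⟨q, hq⟩ := dU_mo n
    refine ⟨n + 1 + q + p, fun θ r hr => ?_⟩
    rw [e θ r hr]
    have h1 := one_le θ
    refine hs_mono (hs_dv (ibp_mu θ hr) (one_le_pow₀ h1) (hq θ r hr) (hu.2.1 θ r hr)
      (cpos θ p) (hp θ r hr)) (mul_nonneg (by positivity) (cpos θ p)) ?_
    rw [pow_add θ.κ⁻¹, pow_add θ.κ⁻¹, mul_assoc _ (θ.κ⁻¹ ^ p)]
    exact mul_le_mul_of_nonneg_right
      (mul_le_mul_of_nonneg_right (two_pow_le θ _) (by positivity)) (cpos θ p)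

theorem ss0_app {A : ∀ θ : Inst, MF (ℝ × E θ.d) (J θ) (I θ)} (hA : BB0 A)
    {u : ∀ θ : Inst, I θ → ℝ × E θ.d → ℝ} (hu : SS0 u) :
    SS0 (fun θ => app (liftM (A θ)) (u θ)) := by
  have tA : ∀ θ : Inst, ∀ r ∈ Icc 0 (RR θ.κ), TGm (slM r (liftM (A θ))) := fun θ r hr => by
    refine tg_of_mo (fun j i =>
      (sl_smooth (lift_smooth (hA.1 θ j i)) (abs_lt θ hr)).contDiffOn) fun n => ?_
    obtain ⟨p, hp⟩ := hA.2 n
    exact ⟨_, Mo_sl_lift θ.κ_pos θ.κ_le hr (hA.1 θ) (AA_toMo (hp θ))⟩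
  refine ⟨fun θ j => ContDiffOn.sum fun i _ => (lift_smooth (hA.1 θ j i)).mul (hu.1 θ i),
    fun θ r hr => tgv_app (tA θ r hr) (hu.2.1 θ r hr), fun n => ?_⟩
  obtain ⟨p, hp⟩ := hu.2.2 n
  obtain ⟨q, hq⟩ := hA.2 n
  refine ⟨n + q + p, fun θ r hr => ?_⟩
  have h1 := one_le θ
  refine hs_mono (hs_app (ibp_mu θ hr).pm (tA θ r hr) (hu.2.1 θ r hr) (by positivity) (cpos θ p)
    (Mo_sl_lift θ.κ_pos θ.κ_le hr (hA.1 θ) (AA_toMo (hq θ))) (hp θ r hr))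
    (mul_nonneg (by positivity) (cpos θ p)) ?_
  rw [pow_add, pow_add θ.κ⁻¹, mul_assoc _ (θ.κ⁻¹ ^ p)]
  exact mul_le_mul_of_nonneg_right
    (mul_le_mul_of_nonneg_right (two_pow_le θ _) (by positivity)) (cpos θ p)

theorem ss0_kd : SS0 (J := fun θ => Fin θ.d × Fin θ.d) (fun _ ac _ => kd ac.1 ac.2) := by
  refine ⟨fun θ j => contDiffOn_const, fun θ r hr j => Function.HasTemperateGrowth.const _,
    fun n => ⟨0, fun θ r hr => ?_⟩⟩
  have h := hs_unc (e := bv) (n := n) (A := idM (E θ.d) (Fin θ.d)) (ibp_mu θ hr).pm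
    (fun _ _ => Function.HasTemperateGrowth.const _) (AA_const (opLe_kd (I := Fin θ.d)))
  rw [Fintype.card_fin] at h
  rw [pow_zero]
  exact h

theorem ss_zero {k : ℕ} {u : ∀ θ : Inst, J θ → ℝ × E θ.d → ℝ} (h : SS k u) : SS0 u := by
  cases k with
  | zero => exact h
  | succ k => exact h.1

theorem ss_succ {k : ℕ} {u : ∀ θ : Inst, J θ → ℝ × E θ.d → ℝ} (h : SS (k + 1) u) : SS k u := by
  induction k generalizing u with
  | zero => exact h.1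
  | succ k ih => exact ⟨h.1, ih h.2⟩

theorem ss_congr {k : ℕ} {u v : ∀ θ : Inst, J θ → ℝ × E θ.d → ℝ}
    (h : ∀ θ j, EqOn (v θ j) (u θ j) (OO θ.d)) (hu : SS k u) : SS k v := by
  induction k generalizing u v with
  | zero => exact ss0_congr h hu
  | succ k ih => exact ⟨ss0_congr h hu.1, ih (fun θ j => dd_congr θ.W (h θ j)) hu.2⟩

theorem ss_add {k : ℕ} {u v : ∀ θ : Inst, J θ → ℝ × E θ.d → ℝ} (hu : SS k u) (hv : SS k v) :
    SS k (fun θ j p => u θ j p + v θ j p) := by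
  induction k generalizing u v with
  | zero => exact ss0_add hu hv
  | succ k ih =>
    exact ⟨ss0_add hu.1 hv.1,
      ss_congr (fun θ j p hp => dd_add (hu.1.1 θ j) (hv.1.1 θ j) hp) (ih hu.2 hv.2)⟩

theorem ss_smul {k : ℕ} {u : ∀ θ : Inst, J θ → ℝ × E θ.d → ℝ} (c : ℝ) (hu : SS k u) :
    SS k (fun θ j p => c * u θ j p) := by
  induction k generalizing u with
  | zero => exact ss0_smul c hu
  | succ k ih =>
    exact ⟨ss0_smul c hu.1, ss_congr (fun θ j p _ => dd_const_mul c (u θ j) p) (ih hu.2)⟩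

theorem ss_rmul {k : ℕ} {u : ∀ θ : Inst, J θ → ℝ × E θ.d → ℝ} (hu : SS k u) :
    SS k (fun θ j p => p.1 * u θ j p) := by
  induction k generalizing u with
  | zero => exact ss0_rmul hu
  | succ k ih =>
    exact ⟨ss0_rmul hu.1,
      ss_congr (fun θ j p hp => dd_rmul (hu.1.1 θ j) hp) (ss_add (ss_succ hu) (ih hu.2))⟩

theorem ss_kd (k : ℕ) : SS (J := fun θ => Fin θ.d × Fin θ.d) k (fun _ ac _ => kd ac.1 ac.2) := by
  induction k with
  | zero => exact ss0_kd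
  | succ k ih =>
    refine ⟨ss0_kd, ss_congr (fun θ j p _ => ?_) (ss_smul 0 ih)⟩
    rw [dd_const]
    simp

theorem ss_main (k : ℕ) :
    (∀ (J : Inst → Type) [∀ θ, Fintype (J θ)] (u : ∀ θ : Inst, J θ → ℝ × E θ.d → ℝ), SS k u →
      SS (J := fun θ => J θ × Fin θ.d) k (fun θ => grad xd (u θ))) ∧
    (∀ (J : Inst → Type) [∀ θ, Fintype (J θ)] (u : ∀ θ : Inst, J θ × Fin θ.d → ℝ × E θ.d → ℝ),
      SS (J := fun θ => J θ × Fin θ.d) k u → SS k (fun θ => dv xd (Ur θ.W) (u θ))) ∧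
    (∀ (J I : Inst → Type) [∀ θ, Fintype (J θ)] [∀ θ, Fintype (I θ)]
      (A : ∀ θ : Inst, MF (ℝ × E θ.d) (J θ) (I θ)) (u : ∀ θ : Inst, I θ → ℝ × E θ.d → ℝ),
      BB k A → SS k u → SS k (fun θ => app (liftM (A θ)) (u θ))) := by
  induction k with
  | zero => exact ⟨fun _ _ _ h => ss0_grad h, fun _ _ _ h => ss0_dv h,
      fun _ _ _ _ _ _ hA h => ss0_app hA h⟩
  | succ k ih =>
    obtain ⟨ig, id, ia⟩ := ih
    refine ⟨fun J _ u h => ⟨ss0_grad h.1, ?_⟩, fun J _ u h => ⟨ss0_dv h.1, ?_⟩,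
      fun J I _ _ A u hA h => ⟨ss0_app hA.1 h.1, ?_⟩⟩
    · exact ss_congr (fun θ jc p hp => dd_grad θ.pot (h.1.1 θ) hp jc)
        (ss_add (ig _ _ h.2) (ss_rmul (ia _ _ _ _ (BB_extL (K := J) (BB_H k))
          (ig _ _ (ss_succ h)))))
    · exact ss_congr (fun θ j p hp => dd_dv θ.pot (h.1.1 θ) hp j)
        (ss_add (id _ _ h.2) (ss_rmul (id _ _ (ia _ _ _ _ (BB_extL (K := J) (BB_H k))
          (ss_succ h)))))
    · exact ss_congr (fun θ j p hp => dd_app θ.pot (hA.1.1 θ) (h.1.1 θ) hp j)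
        (ss_add (ss_add (ss_add
          (id _ _ (ia _ _ _ _ (BB_gradOut (BB_succ hA)) (ss_succ h)))
          (ia _ _ _ _ (BB_gradIn (BB_succ hA)) (ig _ _ (ss_succ h))))
          (ss_smul (-2) (ss_rmul (ia _ _ _ _ hA.2 (ss_succ h)))))
          (ia _ _ _ _ (BB_succ hA) h.2))

theorem ss_ddg (k : ℕ) :
    SS (J := fun θ => Fin θ.d) k (fun θ i => DD θ.W (lift (Gc θ.W i))) := by
  obtain ⟨-, id, ia⟩ := ss_main k
  have h1 := ia _ _ _ _ (BB_ext (K := fun θ => Fin θ.d) (BB_H k)) (ss_kd k)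
  have h2 : SS (J := fun θ => Fin θ.d × Fin θ.d) k (fun θ => unc (liftM (Hm θ.W))) := by
    refine ss_congr (fun θ jc p _ => ?_) h1
    simp only [app, liftM, lift, ext, unc, Fintype.sum_prod_type, mul_assoc]
    symm
    calc ∑ a, ∑ c, kd jc.2 c * (Hm θ.W jc.1 a (1 - p.1 ^ 2, p.1 • p.2) * kd a c)
        = ∑ a, Hm θ.W jc.1 a (1 - p.1 ^ 2, p.1 • p.2) * kd a jc.2 :=
          Finset.sum_congr rfl fun a _ =>
            sum_kd_mul jc.2 fun c => Hm θ.W jc.1 a (1 - p.1 ^ 2, p.1 • p.2) * kd a c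
      _ = _ := sum_mul_kd jc.2 fun a => Hm θ.W jc.1 a (1 - p.1 ^ 2, p.1 • p.2)
  exact ss_congr (fun θ i p hp => dd_gc θ.pot hp i) (id _ _ h2)

theorem ss_iter (k : ℕ) {u : ∀ θ : Inst, J θ → ℝ × E θ.d → ℝ} (h : SS k u) :
    SS0 (fun θ j => (DD θ.W)^[k] (u θ j)) := by
  induction k generalizing u with
  | zero => exact h
  | succ k ih => exact ih h.2

end DCalcCA

open DCalcCA

theorem dk_smooth {d : ℕ} {W : E d → ℝ} {δ : ℝ} (hW : Pot δ W) (k : ℕ) :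
    ContDiffOn ℝ ∞ ((DD W)^[k] (gv W)) (OO d) := by
  induction k with
  | zero => exact gv_smooth hW
  | succ k ih =>
    rw [Function.iterate_succ_apply']
    exact dd_smooth hW ih

theorem DCalcCA.dk_coord {d : ℕ} {W : E d → ℝ} {δ : ℝ} (hW : Pot δ W) (k : ℕ) (i : Fin d) :
    EqOn (fun p => (DD W)^[k] (gv W) p i) ((DD W)^[k] (lift (Gc W i))) (OO d) := by
  induction k with
  | zero => exact fun p _ => rfl
  | succ k ih =>
    intro p hp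
    simp only [Function.iterate_succ_apply']
    rw [dd_coord (dk_smooth hW k) hp]
    exact dd_congr W ih hp

theorem dk_bound (k : ℕ) : ∃ p : ℕ, ∀ θ : Inst, ∀ r ∈ Icc 0 (RR θ.κ),
    L1le (mu θ.W r) (sl r ((DD θ.W)^[k + 1] (gv θ.W))) (θ.κ⁻¹ ^ p * √(θ.d : ℝ)) := by
  have h := ss_iter k (ss_ddg k)
  obtain ⟨p, hp⟩ := h.2.2 0
  refine ⟨p, fun θ r hr => ?_⟩
  have e : sl r ((DD θ.W)^[k + 1] (gv θ.W)) = fun y => vec fun i =>
      slv r (fun i => (DD θ.W)^[k] (DD θ.W (lift (Gc θ.W i)))) i y := by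
    funext y
    ext i
    exact dk_coord θ.pot (k + 1) i
      (show ((r, y) : ℝ × E θ.d) ∈ OO θ.d from MuRA.abs_lt θ hr)
  rw [e]
  exact l1_of_n2 (ibp_mu θ hr).pm (tg_vec (h.2.1 θ r hr)) (h.2.1 θ r hr)
    (fun y => (norm_sq_eq_sum _).le) (cpos θ p) (hs_n2 (hp θ r hr))

end Crest.Agent.R285
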