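import Mathlib
import Crest.Prelude.Def_OracleSampling

/-!
# Row 285 (S0430): definitions.  No proofs here; see `R285/Plan.lean` for the overall proof.
-/

set_option autoImplicit false

namespace Crest.Agent.R285

open MeasureTheory Set
open scoped ContDiff

noncomputable section

abbrev E (d : ℕ) := EuclideanSpace ℝ (Fin d)

/-- standard basis vector -/
def bv {d : ℕ} (c : Fin d) : E d := EuclideanSpace.single c (1 : ℝ)

/-- vector with given coordinates -/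
def vec {d : ℕ} (f : Fin d → ℝ) : E d := WithLp.toLp 2 f

/-- Kronecker delta (no decidability instance needed) -/
def kd {α : Type} (a b : α) : ℝ := by classical exact if a = b then 1 else 0

/-- empty family of directions -/
def noE {P : Type} : Empty → P := fun x => x.elim

/-! ## Matrix valued functions and their derivative classes -/

section Calc

variable {P : Type} [NormedAddCommGroup P] [NormedSpace ℝ P]

/-- directional derivative -/
def pd (v : P) (φ : P → ℝ) : P → ℝ := fun y => fderiv ℝ φ y v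

/-- polynomial growth -/
def PolyG {F : Type} [NormedAddCommGroup F] (φ : P → F) : Prop :=
  ∃ (k : ℕ) (C : ℝ), ∀ y, ‖φ y‖ ≤ C * (1 + ‖y‖) ^ k

/-- the matrix `A` (output index `J`, input index `I`) has Euclidean operator norm `≤ |a|` -/
def OpLe {J I : Type} [Fintype J] [Fintype I] (A : J → I → ℝ) (a : ℝ) : Prop :=
  ∀ v : I → ℝ, ∑ j, (∑ i, A j i * v i) ^ 2 ≤ a ^ 2 * ∑ i, v i ^ 2

/-- matrix valued functions on `P` -/
abbrev MF (P J I : Type) := J → I → P → ℝ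

/-- derivative, the direction index added to the output index -/
def gradOut {D J I : Type} (e : D → P) (A : MF P J I) : MF P (J × D) I :=
  fun jc i => pd (e jc.2) (A jc.1 i)

/-- derivative, the direction index added to the (contracted) input index -/
def gradIn {D J I : Type} (e : D → P) (A : MF P J I) : MF P J (I × D) :=
  fun j ic => pd (e ic.2) (A j ic.1)

def mmul {P J K I : Type} [Fintype K] (A : MF P J K) (B : MF P K I) : MF P J I :=
  fun j i y => ∑ k, A j k y * B k i y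

def mT {P J I : Type} (A : MF P J I) : MF P I J := fun i j => A j i

def idM (P I : Type) : MF P I I := fun i i' _ => kd i i'

/-- `A ⊗ I_D` -/
def ext {P J I : Type} (A : MF P J I) (D : Type) : MF P (J × D) (I × D) :=
  fun jc ic y => kd jc.2 ic.2 * A jc.1 ic.1 y

/-- `I_J ⊗ h` -/
def extL {P D D' : Type} (J : Type) (h : MF P D D') : MF P (J × D) (J × D') :=
  fun jc ic y => kd jc.1 ic.1 * h jc.2 ic.2 y

def SmO {J I : Type} (O : Set P) (A : MF P J I) : Prop := ∀ j i, ContDiffOn ℝ ∞ (A j i) O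

/-- All iterated derivatives of `A` of order `≤ n` (each derivative index put either on the
output side, directions `eo`, or on the input side, directions `ei`) have operator norm `≤ a`
on `S`. -/
def AA {D D' : Type} [Fintype D] [Fintype D'] (eo : D → P) (ei : D' → P) (S : Set P) :
    ℕ → ℝ → ∀ {J I : Type} [Fintype J] [Fintype I], MF P J I → Prop
  | 0, a, _, _, _, _, A => ∀ y ∈ S, OpLe (fun j i => A j i y) a
  | n + 1, a, _, _, _, _, A => (∀ y ∈ S, OpLe (fun j i => A j i y) a) ∧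
      AA eo ei S n a (gradOut eo A) ∧ AA eo ei S n a (gradIn ei A)

/-- only output derivatives, on `S` -/
abbrev MoS {D : Type} [Fintype D] (e : D → P) (S : Set P) (n : ℕ) (a : ℝ) {J I : Type}
    [Fintype J] [Fintype I] (A : MF P J I) : Prop := AA e (noE : Empty → P) S n a A

/-- only output derivatives, everywhere -/
abbrev Mo {D : Type} [Fintype D] (e : D → P) (n : ℕ) (a : ℝ) {J I : Type}
    [Fintype J] [Fintype I] (A : MF P J I) : Prop := AA e (noE : Empty → P) univ n a A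

/-- temperate growth -/
abbrev TG {F : Type} [NormedAddCommGroup F] [NormedSpace ℝ F] (f : P → F) : Prop :=
  Function.HasTemperateGrowth f

def TGv {J : Type} (g : J → P → ℝ) : Prop := ∀ j, TG (g j)

def TGm {J I : Type} (A : MF P J I) : Prop := ∀ j i, TG (A j i)

def grad {D J : Type} (e : D → P) (g : J → P → ℝ) : J × D → P → ℝ :=
  fun jc => pd (e jc.2) (g jc.1)

/-- divergence operator `δ u = ∑ c, U c * u c - ∂_c u c` (adjoint of the gradient) -/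
def dv {D J : Type} [Fintype D] (e : D → P) (U : D → P → ℝ) (u : J × D → P → ℝ) : J → P → ℝ :=
  fun j y => ∑ c, (U c y * u (j, c) y - pd (e c) (u (j, c)) y)

def app {P J I : Type} [Fintype I] (A : MF P J I) (g : I → P → ℝ) : J → P → ℝ :=
  fun j y => ∑ i, A j i y * g i y

/-- a matrix viewed as a tensor -/
def unc {P J I : Type} (A : MF P J I) : J × I → P → ℝ := fun ji => A ji.1 ji.2

/-- the matrix `∂_c U_{c'}` (output `c`, input `c'`) -/
def dU {D : Type} (e : D → P) (U : D → P → ℝ) : MF P D D := fun c c' => pd (e c) (U c')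

/-- the derivation given by the vector field `B` -/
def XV {Q : Type} [NormedAddCommGroup Q] [NormedSpace ℝ Q] (B : P → P) (M : P → Q) : P → Q :=
  fun p => fderiv ℝ M p (B p)

/-- truncated Lie series -/
def lieS {Q : Type} [NormedAddCommGroup Q] [NormedSpace ℝ Q] (B : P → P) (K : ℕ) (M : P → Q)
    (t : ℝ) (p : P) : Q :=
  ∑ k ∈ Finset.range (K + 1), (t ^ k / (k.factorial : ℝ)) • (XV B)^[k] M p

variable [MeasurableSpace P]

def N2 {J : Type} [Fintype J] (μ : Measure P) (g : J → P → ℝ) : ℝ := ∫ y, ∑ j, g j y ^ 2 ∂μ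

/-- Sobolev bound: all derivatives of order `≤ n` have Hilbert-Schmidt `L²` norm `≤ M` -/
def Hs {D : Type} [Fintype D] (μ : Measure P) (e : D → P) :
    ℕ → ℝ → ∀ {J : Type} [Fintype J], (J → P → ℝ) → Prop
  | 0, M, _, _, g => N2 μ g ≤ M ^ 2
  | n + 1, M, _, _, g => N2 μ g ≤ M ^ 2 ∧ Hs μ e n M (grad e g)

/-- probability measure with all moments -/
structure PM (μ : Measure P) : Prop where
  prob : IsProbabilityMeasure μ
  mom : ∀ k : ℕ, Integrable (fun y => ‖y‖ ^ k) μ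

/-- integration by parts with score `U` -/
structure IBP {D : Type} (μ : Measure P) (e : D → P) (U : D → P → ℝ) : Prop where
  pm : PM μ
  tg : TGv U
  ibp : ∀ c (φ : P → ℝ), ContDiff ℝ 1 φ → PolyG φ → PolyG (fderiv ℝ φ) →
    ∫ y, pd (e c) φ y ∂μ = ∫ y, U c y * φ y ∂μ

/-- `B` is a tempered, `μ`-divergence free vector field -/
structure SF (μ : Measure P) (B : P → P) : Prop where
  pm : PM μ
  tg : TG B
  free : ∀ φ : P → ℝ, ContDiff ℝ 1 φ → PolyG φ → PolyG (fderiv ℝ φ) →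
    ∫ p, fderiv ℝ φ p (B p) ∂μ = 0

end Calc

/-- `L¹` bound -/
def L1le {α Q : Type} [MeasurableSpace α] [NormedAddCommGroup Q] (μ : Measure α) (F : α → Q)
    (e : ℝ) : Prop := Integrable F μ ∧ ∫ p, ‖F p‖ ∂μ ≤ e

/-! ## Potentials, Gaussian smoothing -/

section Pot

variable {d : ℕ}

/-- confining potential -/
def Conf (U : E d → ℝ) : Prop := Continuous U ∧ ∃ c C : ℝ, 0 < c ∧ ∀ y, c * ‖y‖ ^ 2 - C ≤ U y

/-- `l`-strongly convex -/
def SC (l : ℝ) (U : E d → ℝ) : Prop := ConvexOn ℝ univ (fun y => U y - l / 2 * ‖y‖ ^ 2)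

/-- Gibbs measure -/
def gib (U : E d → ℝ) : Measure (E d) := (volume : Measure (E d)).tilted (fun y => -U y)

/-- standard Gaussian -/
def gam (d : ℕ) : Measure (E d) := gib (fun y => ‖y‖ ^ 2 / 2)

def gam2 (d : ℕ) : Measure (E d × E d) := (gam d).prod (gam d)

/-- `N(m, σ² I)` -/
def gT (m : E d) (σ : ℝ) : Measure (E d) := (gam d).map (fun ξ => m + σ • ξ)

/-- `μ * N(0, σ² I)` -/
def noisy (μ : Measure (E d)) (σ : ℝ) : Measure (E d) :=
  (μ.prod (gam d)).map (fun p => p.1 + σ • p.2)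

/-- convex `C²` potential with `δ`-Lipschitz gradient -/
structure Pot (δ : ℝ) (W : E d → ℝ) : Prop where
  nn : 0 ≤ δ
  c2 : ContDiff ℝ 2 W
  cvx : ConvexOn ℝ univ W
  lip : ∀ x y, ‖gradient W x - gradient W y‖ ≤ δ * ‖x - y‖

def ker (W : E d → ℝ) (p : ℝ × E d) (z : E d) : ℝ :=
  Real.exp (-(W z + ‖z - p.2‖ ^ 2 / (2 * p.1)))

def Mom (W : E d → ℝ) (φ : E d → ℝ) (p : ℝ × E d) : ℝ := ∫ z, φ z * ker W p z

/-- the restricted Gaussian oracle law -/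
def nu (W : E d → ℝ) (s : ℝ) (x : E d) : Measure (E d) :=
  gib (fun z => W z + ‖z - x‖ ^ 2 / (2 * s))

/-- mean of `nu` -/
def zb (W : E d → ℝ) (s : ℝ) (x : E d) : E d := ∫ z, z ∂(nu W s x)

/-- smoothed gradient -/
def Gv (W : E d → ℝ) (s : ℝ) (x : E d) : E d := ∫ z, gradient W z ∂(nu W s x)

def Gc (W : E d → ℝ) (i : Fin d) : ℝ × E d → ℝ := fun p => Gv W p.1 p.2 i

/-- smoothed potential (up to an additive constant) -/
def Wt (W : E d → ℝ) (p : ℝ × E d) : ℝ :=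
  -Real.log (Mom W (fun _ => 1) p) + (d : ℝ) / 2 * Real.log p.1

/-- space directions in `ℝ × E d` -/
def xd (c : Fin d) : ℝ × E d := (0, bv c)

/-- Hessian of the smoothed potential -/
def Hm (W : E d → ℝ) : MF (ℝ × E d) (Fin d) (Fin d) := fun i a => pd (xd a) (Gc W i)

def UU (d : ℕ) : Set (ℝ × E d) := {p | 0 < p.1}

def SK (d : ℕ) (κ : ℝ) : Set (ℝ × E d) := {p | κ ^ 2 ≤ p.1 ∧ p.1 ≤ 1}

def OO (d : ℕ) : Set (ℝ × E d) := {p | |p.1| < 1}

def RR (κ : ℝ) : ℝ := √(1 - κ ^ 2)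

/-- `∂_s + G·∇ - Δ/2` -/
def LL (W : E d → ℝ) (χ : ℝ × E d → ℝ) : ℝ × E d → ℝ :=
  fun p => fderiv ℝ χ p (1, Gv W p.1 p.2) - 1 / 2 * ∑ c, pd (xd c) (pd (xd c) χ) p

/-- `(r, y) ↦ χ (1 - r², r y)` -/
def lift {F : Type} (χ : ℝ × E d → F) : ℝ × E d → F := fun p => χ (1 - p.1 ^ 2, p.1 • p.2)

def liftM {J I : Type} (A : MF (ℝ × E d) J I) : MF (ℝ × E d) J I := fun j i => lift (A j i)

/-- Kim-Milman velocity (with a minus sign) -/
def gv (W : E d → ℝ) (p : ℝ × E d) : E d := Gv W (1 - p.1 ^ 2) (p.1 • p.2)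

/-- derivative along the Kim-Milman flow -/
def DD {F : Type} [NormedAddCommGroup F] [NormedSpace ℝ F] (W : E d → ℝ) (ψ : ℝ × E d → F) :
    ℝ × E d → F := fun p => fderiv ℝ ψ p (1, -gv W p)

def mu (W : E d → ℝ) (r : ℝ) : Measure (E d) :=
  gib (fun y => ‖y‖ ^ 2 / 2 + Wt W (1 - r ^ 2, r • y))

/-- score of `mu W r` -/
def Ur (W : E d → ℝ) (c : Fin d) : ℝ × E d → ℝ := fun p => p.2 c + p.1 * gv W p c

/-- slice at fixed first coordinate -/
def sl {F : Type} (r : ℝ) (ψ : ℝ × E d → F) : E d → F := fun y => ψ (r, y)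

def slv {J : Type} (r : ℝ) (u : J → ℝ × E d → ℝ) : J → E d → ℝ := fun j => sl r (u j)

def slM {J I : Type} (r : ℝ) (A : MF (ℝ × E d) J I) : MF (E d) J I := fun j i => sl r (A j i)

/-- the Kim-Milman flow -/
structure IsFlow (W : E d → ℝ) (Φ : ℝ × E d → E d) : Prop where
  smooth : ContDiffOn ℝ ∞ Φ (OO d)
  init : ∀ o, Φ (0, o) = o
  ode : ∀ p ∈ OO d, HasDerivAt (fun r => Φ (r, p.2)) (-gv W (p.1, Φ p)) p.1

/-- Jacobian `∂_b Φ_a` -/
def PP (Φ : ℝ × E d → E d) : MF (ℝ × E d) (Fin d) (Fin d) :=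
  fun a b => pd (xd b) (fun p => Φ p a)

/-- transpose of the inverse Jacobian: `JT i c = (DΦ⁻¹) c i` -/
def JT (Φ : ℝ × E d → E d) : MF (ℝ × E d) (Fin d) (Fin d) :=
  fun i c p => (Matrix.of fun a b => PP Φ a b p)⁻¹ c i

/-- `H` along the flow -/
def hF (W : E d → ℝ) (Φ : ℝ × E d → E d) : MF (ℝ × E d) (Fin d) (Fin d) :=
  fun i a p => lift (Hm W i a) (p.1, Φ p)

/-- scores of the standard Gaussian -/
def U0 (d : ℕ) : Fin d → E d → ℝ := fun c y => y c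

/-- coordinate directions of `E d × E d` -/
def e2 : Fin d ⊕ Fin d → E d × E d := Sum.elim (fun i => (bv i, 0)) (fun c => (0, bv c))

/-- coordinates of `E d × E d` (also the score of `gam2`) -/
def co2 : Fin d ⊕ Fin d → E d × E d → ℝ := Sum.elim (fun i p => p.1 i) (fun c p => p.2 c)

/-- the `γ × γ` preserving vector field `(δ A, - Aᵀ ζ)` -/
def BA (A : MF (E d) (Fin d) (Fin d)) (p : E d × E d) : E d × E d :=
  (vec fun i => dv bv (U0 d) (unc A) i p.2, vec fun c => -∑ i, A i c p.2 * p.1 i)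

end Pot

/-- an instance of the local problem -/
structure Inst where
  d : ℕ
  W : E d → ℝ
  δ : ℝ
  κ : ℝ
  pot : Pot δ W
  δ_le : δ ≤ 1 / 4
  κ_pos : 0 < κ
  κ_le : κ ≤ 1 / 2

/-- `m = G(1,0)`, the mean of the gradient -/
def Inst.m (θ : Inst) : E θ.d := Gv θ.W 1 0

/-- the size `√d + ‖m‖` -/
def Inst.sz (θ : Inst) : ℝ := √(θ.d : ℝ) + ‖θ.m‖

/-! ## Families over all instances -/

section Fam

variable {J I : Inst → Type} [∀ θ, Fintype (J θ)] [∀ θ, Fintype (I θ)]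

def BB0 (A : ∀ θ : Inst, MF (ℝ × E θ.d) (J θ) (I θ)) : Prop :=
  (∀ θ, SmO (UU θ.d) (A θ)) ∧
    ∀ n : ℕ, ∃ p : ℕ, ∀ θ : Inst, AA xd xd (SK θ.d θ.κ) n (θ.κ⁻¹ ^ p) (A θ)

def BB : ℕ → (∀ θ : Inst, MF (ℝ × E θ.d) (J θ) (I θ)) → Prop
  | 0, A => BB0 A
  | k + 1, A => BB0 A ∧ BB k (fun θ j i => LL θ.W (A θ j i))

def SS0 (u : ∀ θ : Inst, J θ → ℝ × E θ.d → ℝ) : Prop :=
  (∀ θ j, ContDiffOn ℝ ∞ (u θ j) (OO θ.d)) ∧
    (∀ θ, ∀ r ∈ Icc 0 (RR θ.κ), TGv (slv r (u θ))) ∧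
    ∀ n : ℕ, ∃ p : ℕ, ∀ θ : Inst, ∀ r ∈ Icc 0 (RR θ.κ),
      Hs (mu θ.W r) bv n (θ.κ⁻¹ ^ p * √(θ.d : ℝ)) (slv r (u θ))

def SS : ℕ → (∀ θ : Inst, J θ → ℝ × E θ.d → ℝ) → Prop
  | 0, u => SS0 u
  | k + 1, u => SS0 u ∧ SS k (fun θ j => DD θ.W (u θ j))

end Fam

/-! ## Appell polynomials -/

/-- functions `B y z` polynomial in `z` with coefficients smooth in `y` -/
inductive PZ {P : Type} [NormedAddCommGroup P] [NormedSpace ℝ P] {d : ℕ} :
    (P → E d → ℝ) → Prop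
  | coef (c : P → ℝ) (hc : ContDiff ℝ ∞ c) : PZ (fun y _ => c y)
  | mulz (B : P → E d → ℝ) (b : Fin d) (h : PZ B) : PZ (fun y z => B y z * z b)
  | add (B B' : P → E d → ℝ) (h : PZ B) (h' : PZ B') : PZ (fun y z => B y z + B' y z)

def IZ {P : Type} {d : ℕ} (W : E d → ℝ) (s : ℝ) (l : P → E d) (φ : E d → ℝ) (B : P → E d → ℝ)
    (y : P) : ℝ := ∫ z, B y z * φ z * ker W (s, l y) z

/-- words of length `k` -/
def Wd (d : ℕ) : ℕ → Type
  | 0 => Unit
  | k + 1 => Wd d k × Fin d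

instance Wd.fintype (d : ℕ) : ∀ k, Fintype (Wd d k)
  | 0 => inferInstanceAs (Fintype Unit)
  | k + 1 => @instFintypeProd _ _ (Wd.fintype d k) inferInstance

/-- `B_w(x, z) = ∂_x^w (density of nu W s x at z) / density` -/
def Bw {d : ℕ} (W : E d → ℝ) (s : ℝ) : ∀ k, Wd d k → E d → E d → ℝ
  | 0, _ => fun _ _ => 1
  | k + 1, wb => fun x z => pd (bv wb.2) (fun x => Bw W s k wb.1 x z) x +
      Bw W s k wb.1 x z * ((z wb.2 - zb W s x wb.2) / s)

/-! ## Quadrature and Picard iteration -/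

structure Quad (K : ℕ) (C : ℝ) (N : ℕ) where
  n : ℕ
  t : Fin n → ℝ
  w : ℝ → Fin n → ℝ
  n_le : (n : ℝ) ≤ C * N
  t_mem : ∀ i, t i ∈ Icc (0 : ℝ) 1
  w_sum : ∀ τ ∈ Icc (0 : ℝ) 1, ∑ i, |w τ i| ≤ C
  exact : ∀ τ ∈ Icc (0 : ℝ) 1, ∀ m < K, ∑ i, w τ i * t i ^ m = τ ^ (m + 1) / ((m : ℝ) + 1)
  err : ∀ {d : ℕ} (g : ℕ → ℝ → E d),
    (∀ k ≤ K, ∀ x ∈ Icc (0 : ℝ) 1, HasDerivWithinAt (g k) (g (k + 1) x) (Icc 0 1) x) →
    ContinuousOn (g (K + 1)) (Icc 0 1) → ∀ τ ∈ Icc (0 : ℝ) 1,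
    ‖g 0 τ - g 0 0 - ∑ i, w τ i • g 1 (t i)‖ ≤ C / (N : ℝ) ^ K * ∫ x in (0 : ℝ)..1, ‖g (K + 1) x‖

structure DQ (K : ℕ) (C : ℝ) where
  n : ℕ
  t : Fin n → ℝ
  a : Fin n → ℝ
  n_le : (n : ℝ) ≤ C
  t_mem : ∀ i, t i ∈ Icc (0 : ℝ) 1
  a_sum : ∑ i, |a i| ≤ C
  exact : ∀ m ≤ K, ∑ i, a i * t i ^ m = if m = 1 then 1 else 0

structure Quad2 (K : ℕ) (C : ℝ) (N : ℕ) where
  n : ℕ
  t : Fin n → ℝ
  v : Fin n → ℝ
  n_le : (n : ℝ) ≤ C * N
  t_mem : ∀ i, t i ∈ Icc (0 : ℝ) 1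
  v_sum : ∑ i, |v i| ≤ C * (N : ℝ) ^ 2
  err : ∀ {d : ℕ} (g : ℕ → ℝ → E d),
    (∀ k ≤ K + 1, ∀ x ∈ Icc (0 : ℝ) 1, HasDerivWithinAt (g k) (g (k + 1) x) (Icc 0 1) x) →
    ContinuousOn (g (K + 2)) (Icc 0 1) →
    ‖g 1 1 - g 1 0 - ∑ i, v i • (t i • g 1 (t i) - (g 0 (t i) - g 0 0))‖ ≤
      C * N / (N : ℝ) ^ K * ∫ x in (0 : ℝ)..1, ‖g (K + 2) x‖

structure Kit (K : ℕ) (C : ℝ) (N : ℕ) where
  q1 : Quad K C 1
  qN : Quad K C N
  dq : DQ K C
  q2 : Quad2 K C N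

/-- Picard iteration with quadrature -/
def pic {Q : Type} [AddCommGroup Q] [Module ℝ Q] {n : ℕ} (t : Fin n → ℝ) (w : ℝ → Fin n → ℝ)
    (β : ℝ → Q → Q) (p0 : Q) : ℕ → ℝ → Q
  | 0, _ => p0
  | k + 1, τ => p0 + ∑ i, w τ i • β (t i) (pic t w β p0 k (t i))

/-! ## Terms -/

/-- normal forms `b1 • ζ + b2 • ω + ∑ a • G s x` -/
inductive Tm : Type
  | lin (b1 b2 : ℝ) : Tm
  | plus (a s : ℝ) (x rest : Tm) : Tm

namespace Tm

def ev {M : Type} [AddCommGroup M] [Module ℝ M] (G : ℝ → M → M) (p : M × M) : Tm → M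
  | lin b1 b2 => b1 • p.1 + b2 • p.2
  | plus a s x r => a • G s (ev G p x) + ev G p r

def b1 : Tm → ℝ
  | lin b _ => b
  | plus _ _ _ r => b1 r

def b2 : Tm → ℝ
  | lin _ b => b
  | plus _ _ _ r => b2 r

def b3 : Tm → ℝ
  | lin _ _ => 0
  | plus a _ _ r => a + b3 r

def cnt : Tm → ℕ
  | lin _ _ => 0
  | plus _ _ _ r => cnt r + 1

def wt : Tm → ℝ
  | lin _ _ => 0
  | plus a _ _ r => |a| + wt r

def addLin (c1 c2 : ℝ) : Tm → Tm
  | lin b1 b2 => lin (c1 + b1) (c2 + b2)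
  | plus a s x r => plus a s x (addLin c1 c2 r)

def add : Tm → Tm → Tm
  | lin b1 b2, u => addLin b1 b2 u
  | plus a s x r, u => plus a s x (add r u)

def smul0 (c : ℝ) : Tm → Tm
  | lin b1 b2 => lin (c * b1) (c * b2)
  | plus a s x r => plus (c * a) s x (smul0 c r)

/-- scalar multiple; multiplication by `0` erases the term -/
def smul (c : ℝ) (t : Tm) : Tm := if c = 0 then lin 0 0 else smul0 c t

/-- substitute `A` for `ζ` and `B` for `ω` -/
def sub (A B : Tm) : Tm → Tm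
  | lin b1 b2 => add (smul b1 A) (smul b2 B)
  | plus a s x r => plus a s (sub A B x) (sub A B r)

def zz : Tm := lin 1 0
def ww : Tm := lin 0 1
def zero : Tm := lin 0 0
def Gt (s : ℝ) (x : Tm) : Tm := plus 1 s x zero

def sum {n : ℕ} (f : Fin n → Tm) : Tm := (List.ofFn f).foldr add zero

/-- bounds on the top level of a term -/
structure Top (B Γ Λ : ℝ) (t : Tm) : Prop where
  h1 : |t.b1| ≤ B
  h2 : |t.b2| ≤ B
  h3 : |t.b3| ≤ B
  hc : (t.cnt : ℝ) ≤ Γ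
  hw : t.wt ≤ Λ

/-- all nested evaluation points satisfy the bounds -/
def Good (lo B Γ Λ : ℝ) : Tm → Prop
  | lin _ _ => True
  | plus _ s x r => lo ≤ s ∧ s ≤ 1 ∧ Top B Γ Λ x ∧ Good lo B Γ Λ x ∧ Good lo B Γ Λ r

def Nice (lo B Γ Λ : ℝ) (t : Tm) : Prop := Top B Γ Λ t ∧ Good lo B Γ Λ t

def picT {n : ℕ} (t : Fin n → ℝ) (w : ℝ → Fin n → ℝ) (β : ℝ → Tm × Tm) : ℕ → ℝ → Tm × Tm
  | 0, _ => (zz, ww)
  | k + 1, τ =>
    (add zz (sum fun i => smul (w τ i)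
        (sub (picT t w β k (t i)).1 (picT t w β k (t i)).2 (β (t i)).1)),
      add ww (sum fun i => smul (w τ i)
        (sub (picT t w β k (t i)).1 (picT t w β k (t i)).2 (β (t i)).2)))

def kmβ (r0 r1 : ℝ) (t : ℝ) : Tm × Tm :=
  (zero, smul (-(r1 - r0)) (Gt (1 - (r0 + t * (r1 - r0)) ^ 2) (smul (r0 + t * (r1 - r0)) ww)))

def hmcβ (h r : ℝ) : Tm × Tm :=
  (smul (-h) (add ww (smul r (Gt (1 - r ^ 2) (smul r ww)))), smul h zz)

variable {K : ℕ} {C : ℝ} {N : ℕ}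

/-- approximate Kim-Milman flow from `r0` to `r1` (a term in `ω`) -/
def kmT (k : Kit K C N) (r0 r1 : ℝ) : Tm := (picT k.qN.t k.qN.w (kmβ r0 r1) K 1).2

/-- approximate Hamiltonian flow for `mu W r` during time `t / N` -/
def hmcT (k : Kit K C N) (r t : ℝ) : Tm × Tm :=
  picT k.q1.t k.q1.w (fun _ => hmcβ (1 / (N : ℝ)) r) K t

/-- approximation of `(J_r - I) ζ` -/
def bT (k : Kit K C N) (r : ℝ) : Tm :=
  add (sum fun i => smul (k.dq.a i * N)
      (sub zz (sub zz (kmT k 0 r) (hmcT k r (k.dq.t i)).2) (kmT k r 0)))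
    (smul (-1) zz)

/-- the outer vector field -/
def outβ (k : Kit K C N) (κ c : ℝ) : Tm × Tm :=
  (smul c (add (Gt (κ ^ 2) (smul (RR κ) (kmT k 0 (RR κ)))) (smul (-1) (Gt 1 zero))),
    sum fun j => smul (-(c * (k.q2.v j / RR κ))) (bT k (RR κ * k.q2.t j)))

def outT (k : Kit K C N) (κ c : ℝ) (m : ℕ) (t : ℝ) : Tm × Tm :=
  picT k.q1.t k.q1.w (fun _ => outβ k κ c) m t

/-- the final evaluation points -/
def xl (k : Kit K C N) (κ c : ℝ) (l : Fin k.q1.n) : Tm :=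
  smul (RR κ) (sub (outT k κ c K (k.q1.t l)).1 (outT k κ c K (k.q1.t l)).2 (kmT k 0 (RR κ)))

end Tm

/-- semantic Kim-Milman Picard iteration -/
def kmS {M : Type} [AddCommGroup M] [Module ℝ M] (G : ℝ → M → M) {K : ℕ} {C : ℝ} {N : ℕ}
    (k : Kit K C N) (r0 r1 : ℝ) (y : M) : M :=
  pic k.qN.t k.qN.w (fun t y => (-(r1 - r0)) • G (1 - (r0 + t * (r1 - r0)) ^ 2)
    ((r0 + t * (r1 - r0)) • y)) y K 1

/-- Hamiltonian vector field -/
def hmcF {M : Type} [AddCommGroup M] [Module ℝ M] (G : ℝ → M → M) (h r : ℝ) (p : M × M) :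
    M × M := ((-h) • (p.2 + r • G (1 - r ^ 2) (r • p.2)), h • p.1)

/-! ## Query computations -/

section Prog

variable {d : ℕ}

/-- `F V s` is computed from `s` with at most `n` gradient queries -/
inductive Cmp (d : ℕ) (α : Type) [MeasurableSpace α] :
    (S : Type) → MeasurableSpace S → ℕ → ((E d → ℝ) → S → α) → Prop
  | pure (S : Type) (mS : MeasurableSpace S) (n : ℕ) (φ : S → α) (hφ : Measurable φ) :
      Cmp d α S mS n (fun _ s => φ s)
  | query (S : Type) (mS : MeasurableSpace S) (n : ℕ) (x : S → E d) (hx : Measurable x)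
      (F : (E d → ℝ) → S × E d → α) (h : Cmp d α (S × E d) inferInstance n F) :
      Cmp d α S mS (n + 1) (fun V s => F V (s, gradient V (x s)))

/-- probability measure with a first moment -/
def P1 {α : Type} [MeasurableSpace α] [NormedAddCommGroup α] (μ : Measure α) : Prop :=
  IsProbabilityMeasure μ ∧ Integrable (fun x => ‖x‖) μ

/-- dual Wasserstein bound -/
def W1le {α : Type} [MeasurableSpace α] [NormedAddCommGroup α] (μ ν : Measure α) (e : ℝ) : Prop :=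
  ∀ f : α → ℝ, LipschitzWith 1 f → |∫ x, f x ∂μ - ∫ x, f x ∂ν| ≤ e

/-- a randomized procedure with at most `q` queries whose output law, on `Env`, is within `err`
of `T` -/
def Sim {S α : Type} [MeasurableSpace S] [MeasurableSpace α] [NormedAddCommGroup α]
    (Env : (E d → ℝ) → S → Prop) (q : ℝ) (T : (E d → ℝ) → S → Measure α)
    (err : (E d → ℝ) → S → ℝ) : Prop :=
  ∃ (Ω : Type) (_ : MeasurableSpace Ω) (μ : Measure Ω) (_ : IsProbabilityMeasure μ) (n : ℕ)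
    (F : (E d → ℝ) → S × Ω → α), (n : ℝ) ≤ q ∧ Cmp d α (S × Ω) inferInstance n F ∧
    ∀ V s, Env V s → P1 (μ.map fun o => F V (s, o)) ∧ P1 (T V s) ∧
      W1le (μ.map fun o => F V (s, o)) (T V s) (err V s)

/-- sampling `N(x, σ² I)` -/
def Samp {S : Type} [MeasurableSpace S] (Env : (E d → ℝ) → S → Prop) (q : ℝ)
    (x : (E d → ℝ) → S → E d) (σ : ℝ) (err : (E d → ℝ) → S → ℝ) : Prop :=
  Sim Env q (fun V s => gT (x V s) σ) err

end Prog

/-- The interface between the analysis and the oracle recursion. -/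
def CoreSpec (K : ℕ) (Cf : ℝ) (p : ℕ) : Prop :=
  ∀ (κ : ℝ) (N : ℕ) (c : ℝ), 0 < κ → κ ≤ 1 / 2 → 1 ≤ N →
    ∃ (n : ℕ) (w : Fin n → ℝ) (x : Fin n → Tm) (xs : Tm),
      (n : ℝ) ≤ Cf ∧ ∑ l, |w l| ≤ Cf ∧
      (∀ l, (x l).Nice (κ ^ 2) (κ⁻¹ ^ p) (κ⁻¹ ^ p * (N : ℝ) ^ 2)
          (κ⁻¹ ^ p * (N : ℝ) ^ 3 * (1 + |c|)) ∧ (x l).b2 = RR κ) ∧
      xs.Nice (κ ^ 2) (κ⁻¹ ^ p) (κ⁻¹ ^ p * (N : ℝ) ^ 2) (κ⁻¹ ^ p * (N : ℝ) ^ 3 * (1 + |c|)) ∧
      ∀ θ : Inst, θ.κ = κ → κ⁻¹ ^ p * (N : ℝ) ^ 4 * (1 + |c|) * θ.δ ≤ 1 →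
        W1le ((gam2 θ.d).map fun q =>
            q.1 + c • ∑ l, w l • Gv θ.W (κ ^ 2) ((x l).ev (Gv θ.W) q))
          (gT (c • θ.m) 1) (κ⁻¹ ^ p * (N : ℝ) ^ 3 * (1 + |c|) / (N : ℝ) ^ K * θ.sz) ∧
        W1le ((gam2 θ.d).map fun q => xs.ev (Gv θ.W) q) (noisy (nu θ.W 1 0) (κ / RR κ))
          (κ⁻¹ ^ p * (N : ℝ) ^ 3 * (1 + |c|) / (N : ℝ) ^ K * θ.sz)

end

end Crest.Agent.R285
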