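import Crest.Agent.R285.Nemy
import Crest.Agent.R285.GBound

/-!
# R285 Flow: existence and smoothness of the Kim-Milman flow (Robbin's argument).

Let `K = Icc (0:ℝ) 1`, `I : C(K,E) →L C(K,E)` the primitive (`‖I‖ ≤ 1`; use `IccExtend`/`projIcc`).  For
`|r| < 1`, `o : E` the map `γ ↦ const o + I (t ↦ -r • gv W (r t, γ t))` is a contraction (`G_lip`:
`y ↦ gv W (ρ, y)` is `δ`-Lipschitz for `|ρ| < 1`); let `y r o` be its fixed point and
`Φ (r, o) = y r o 1`.  Smoothness: apply `ContDiffAt.implicitFunction`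
(`Mathlib/Analysis/Calculus/ImplicitContDiff.lean`: `contDiffAt_implicitFunction`,
`eventually_apply_implicitFunction`) to `F ((r, o), γ) = γ - const o - I (N (r, γ))`, smooth by `nemy`
composed with the continuous linear map `(r, γ) ↦ (t ↦ (r, r t, γ t))`; its partial derivative in `γ`
is `1 - T` with `‖T‖ ≤ δ < 1` (`norm_fderiv_le_of_lipschitz`-type bound, `NormedRing.inverse_one_sub` /
`Units.oneSub`); by uniqueness of the fixed point the implicit function is `y` near the point.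
ODE: by uniqueness `y (r τ) o t = y r o (τ t)`, so `Φ (ρ, o) = o - ∫₀^ρ gv W (u, Φ (u, o)) du` for
`|ρ| < 1`; fundamental theorem of calculus.
-/

set_option autoImplicit false

namespace Crest.Agent.R285

open MeasureTheory Set
open scoped ContDiff

theorem gv_lip {d : ℕ} {W : E d → ℝ} {δ r : ℝ} (hW : Pot δ W) (hr : |r| < 1) (y y' : E d) :
    ‖gv W (r, y) - gv W (r, y')‖ ≤ δ * ‖y - y'‖ := by
  have h1 : 0 < 1 - r ^ 2 := by
    have := abs_nonneg r
    rw [← sq_abs]; nlinarith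
  refine (G_lip hW h1 (r • y) (r • y')).trans (mul_le_mul_of_nonneg_left ?_ hW.nn)
  rw [← smul_sub, norm_smul, Real.norm_eq_abs]
  exact mul_le_of_le_one_left (norm_nonneg _) hr.le

namespace FlowAux

open Topology

abbrev KK : Type := Icc (0 : ℝ) 1

variable {V : Type} [NormedAddCommGroup V] [NormedSpace ℝ V] [CompleteSpace V]

/-- extension to the real line -/
noncomputable def ex (γ : C(KK, V)) (u : ℝ) : V := γ (projIcc 0 1 zero_le_one u)

omit [NormedSpace ℝ V] [CompleteSpace V] in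
theorem ex_cont (γ : C(KK, V)) : Continuous (ex γ) := γ.continuous.comp continuous_projIcc

omit [NormedSpace ℝ V] [CompleteSpace V] in
theorem ex_of_mem (γ : C(KK, V)) {u : ℝ} (hu : u ∈ Icc (0 : ℝ) 1) : ex γ u = γ ⟨u, hu⟩ := by
  rw [ex, projIcc_of_mem]

/-- primitive -/
noncomputable def prim (V : Type) [NormedAddCommGroup V] [NormedSpace ℝ V] :
    C(KK, V) →L[ℝ] C(KK, V) :=
  LinearMap.mkContinuous
    { toFun := fun γ => ⟨fun t => ∫ u in (0 : ℝ)..t, ex γ u,
        (intervalIntegral.continuous_primitive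
          (fun a b => (ex_cont γ).intervalIntegrable a b) 0).comp continuous_subtype_val⟩
      map_add' := fun γ η => by
        ext t
        exact intervalIntegral.integral_add ((ex_cont γ).intervalIntegrable _ _)
          ((ex_cont η).intervalIntegrable _ _)
      map_smul' := fun c γ => by
        ext t
        exact intervalIntegral.integral_smul c (ex γ) } 1
    (fun γ => by
      rw [one_mul]
      refine (ContinuousMap.norm_le _ (norm_nonneg γ)).2 fun t => ?_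
      have h1 := intervalIntegral.norm_integral_le_of_norm_le_const (a := 0) (b := t) (f := ex γ)
        (C := ‖γ‖) fun u _ => γ.norm_coe_le_norm _
      refine h1.trans (mul_le_of_le_one_right (norm_nonneg _) ?_)
      rw [sub_zero, abs_of_nonneg t.2.1]
      exact t.2.2)

omit [CompleteSpace V] in
theorem prim_apply (γ : C(KK, V)) (t : KK) : prim V γ t = ∫ u in (0 : ℝ)..t, ex γ u := rfl

omit [CompleteSpace V] in
theorem prim_norm (γ : C(KK, V)) : ‖prim V γ‖ ≤ ‖γ‖ := by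
  have h : ‖prim V‖ ≤ 1 := LinearMap.mkContinuous_norm_le _ zero_le_one _
  exact ((prim V).le_opNorm γ).trans (mul_le_of_le_one_left (norm_nonneg _) h)

/-- `(r, γ) ↦ (t ↦ (r t, γ t))` -/
noncomputable def lam (r : ℝ) (γ : C(KK, V)) : C(KK, ℝ × V) :=
  r • (⟨fun t => ((t : ℝ), (0 : V)), by fun_prop⟩ : C(KK, ℝ × V)) +
    (ContinuousLinearMap.inr ℝ ℝ V).compLeftContinuous ℝ KK γ

omit [CompleteSpace V] in
theorem lam_apply (r : ℝ) (γ : C(KK, V)) (t : KK) : lam r γ t = (r * t, γ t) := by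
  simp [lam]

omit [CompleteSpace V] in
theorem lam_smooth : ContDiff ℝ ∞ (fun q : (ℝ × V) × C(KK, V) => lam q.1.1 q.2) := by
  unfold lam
  exact (contDiff_fst.fst.smul contDiff_const).add
    (((ContinuousLinearMap.inr ℝ ℝ V).compLeftContinuous ℝ KK).contDiff.comp contDiff_snd)

/-- the strip -/
def St (V : Type) : Set (ℝ × V) := {p | |p.1| < 1}

omit [NormedSpace ℝ V] [CompleteSpace V] in
theorem isOpen_St : IsOpen (St V) := isOpen_lt continuous_fst.abs continuous_const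

theorem mul_lt {r : ℝ} (hr : |r| < 1) {t : ℝ} (ht : t ∈ Icc (0 : ℝ) 1) : |r * t| < 1 := by
  rw [abs_mul, abs_of_nonneg ht.1]
  exact (mul_le_of_le_one_right (abs_nonneg r) ht.2).trans_lt hr

omit [CompleteSpace V] in
theorem lam_mem {r : ℝ} (hr : |r| < 1) (γ : C(KK, V)) (t : KK) : lam r γ t ∈ St V := by
  rw [lam_apply]; exact mul_lt hr t.2

/-- the Picard operator -/
noncomputable def TT (g : ℝ × V → V) (p : ℝ × V) (γ : C(KK, V)) : C(KK, V) :=
  ContinuousLinearMap.const ℝ KK p.2 -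
    p.1 • prim V (ContinuousMap.mkD (fun t => g (lam p.1 γ t)) 0)

variable {g : ℝ × V → V} {δ : ℝ}

omit [CompleteSpace V] in
theorem TT_apply (hg : ContinuousOn g (St V)) {p : ℝ × V} (hp : p ∈ St V) (γ : C(KK, V)) (t : KK) :
    TT g p γ t = p.2 - p.1 • ∫ u in (0 : ℝ)..t, g (p.1 * u, ex γ u) := by
  show p.2 - p.1 • prim V _ t = _
  rw [prim_apply]
  congr 2
  refine intervalIntegral.integral_congr fun u hu => ?_
  rw [uIcc_of_le t.2.1] at hu
  have hu' : u ∈ Icc (0 : ℝ) 1 := ⟨hu.1, hu.2.trans t.2.2⟩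
  show ex _ u = g (p.1 * u, ex γ u)
  rw [ex_of_mem _ hu', ex_of_mem _ hu', nemy_apply hg (lam_mem hp γ), lam_apply]

omit [CompleteSpace V] in
theorem TT_lip (hg : ContinuousOn g (St V)) (hδ : 0 ≤ δ)
    (hl : ∀ r, |r| < 1 → ∀ y y', ‖g (r, y) - g (r, y')‖ ≤ δ * ‖y - y'‖) {p : ℝ × V} (hp : p ∈ St V)
    (γ η : C(KK, V)) : ‖TT g p γ - TT g p η‖ ≤ δ * ‖γ - η‖ := by
  have h1 : TT g p γ - TT g p η = (-p.1) • prim V (ContinuousMap.mkD (fun t => g (lam p.1 γ t)) 0 -
      ContinuousMap.mkD (fun t => g (lam p.1 η t)) 0) := by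
    simp only [TT, map_sub, neg_smul, smul_sub]
    abel
  rw [h1, norm_smul, norm_neg, Real.norm_eq_abs]
  refine (mul_le_of_le_one_left (norm_nonneg _) (le_of_lt hp)).trans ((prim_norm _).trans ?_)
  refine (ContinuousMap.norm_le _ (by positivity)).2 fun t => ?_
  rw [ContinuousMap.sub_apply, nemy_apply hg (lam_mem hp γ), nemy_apply hg (lam_mem hp η),
    lam_apply, lam_apply]
  exact (hl _ (mul_lt hp t.2) _ _).trans
    (mul_le_mul_of_nonneg_left ((γ - η).norm_coe_le_norm t) hδ)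

omit [CompleteSpace V] in
theorem TT_smooth (hg : ContDiffOn ℝ ∞ g (St V)) {q : (ℝ × V) × C(KK, V)} (hq : q.1 ∈ St V) :
    ContDiffAt ℝ ∞ (fun q : (ℝ × V) × C(KK, V) => TT g q.1 q.2) q := by
  unfold TT
  refine ((ContinuousLinearMap.const ℝ KK).contDiff.comp contDiff_fst.snd).contDiffAt.sub
    (contDiff_fst.fst.contDiffAt.smul ((prim V).contDiff.contDiffAt.comp q ?_))
  have h1 := (nemy (K := KK) isOpen_St hg).contDiffAt
    ((nemy_open isOpen_St).mem_nhds (lam_mem hq q.2))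
  exact h1.comp q lam_smooth.contDiffAt

omit [CompleteSpace V] in
theorem TT_unique (hg : ContinuousOn g (St V)) (hδ : 0 ≤ δ) (hδ1 : δ < 1)
    (hl : ∀ r, |r| < 1 → ∀ y y', ‖g (r, y) - g (r, y')‖ ≤ δ * ‖y - y'‖) {p : ℝ × V} (hp : p ∈ St V)
    {γ η : C(KK, V)} (h1 : TT g p γ = γ) (h2 : TT g p η = η) : γ = η := by
  have h := TT_lip hg hδ hl hp γ η
  rw [h1, h2] at h
  have h0 := norm_nonneg (γ - η)
  have : ‖γ - η‖ = 0 := by nlinarith
  exact sub_eq_zero.1 (norm_eq_zero.1 this)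

theorem TT_exists (hg : ContinuousOn g (St V)) (hδ : 0 ≤ δ) (hδ1 : δ < 1)
    (hl : ∀ r, |r| < 1 → ∀ y y', ‖g (r, y) - g (r, y')‖ ≤ δ * ‖y - y'‖) {p : ℝ × V}
    (hp : p ∈ St V) : ∃ γ, TT g p γ = γ := by
  have hc : ContractingWith ⟨δ, hδ⟩ (TT g p) :=
    ⟨by exact_mod_cast hδ1, LipschitzWith.of_dist_le_mul fun γ η => by
      rw [dist_eq_norm, dist_eq_norm]; exact TT_lip hg hδ hl hp γ η⟩
  exact ⟨_, hc.fixedPoint_isFixedPt⟩

theorem fix_smooth (hg : ContDiffOn ℝ ∞ g (St V)) (hδ : 0 ≤ δ) (hδ1 : δ < 1)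
    (hl : ∀ r, |r| < 1 → ∀ y y', ‖g (r, y) - g (r, y')‖ ≤ δ * ‖y - y'‖)
    {y : ℝ × V → C(KK, V)} (hy : ∀ p ∈ St V, TT g p (y p) = y p) {p : ℝ × V} (hp : p ∈ St V) :
    ContDiffAt ℝ ∞ y p := by
  set F : (ℝ × V) × C(KK, V) → C(KK, V) := fun q => q.2 - TT g q.1 q.2 with hF
  have hT := TT_smooth hg (q := (p, y p)) hp
  have cdf : ContDiffAt ℝ ∞ F (p, y p) := contDiffAt_snd.sub hT
  have hn : (∞ : WithTop ℕ∞) ≠ 0 := by simp
  have hin : HasFDerivAt (fun γ : C(KK, V) => ((p, γ) : (ℝ × V) × C(KK, V)))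
      (ContinuousLinearMap.inr ℝ (ℝ × V) C(KK, V)) (y p) := hasFDerivAt_prodMk_right p (y p)
  have hT1 : DifferentiableAt ℝ (TT g p) (y p) :=
    ((hT.differentiableAt hn).hasFDerivAt.comp (y p) hin).differentiableAt
  have hnorm : ‖fderiv ℝ (TT g p) (y p)‖ < 1 :=
    (norm_fderiv_le_of_lip' ℝ hδ
      (Filter.Eventually.of_forall fun γ => TT_lip hg.continuousOn hδ hl hp γ (y p))).trans_lt hδ1
  have heq : fderiv ℝ F (p, y p) ∘L ContinuousLinearMap.inr ℝ (ℝ × V) C(KK, V) =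
      1 - fderiv ℝ (TT g p) (y p) := by
    have h1 := (cdf.differentiableAt hn).hasFDerivAt.comp (y p) hin
    have h2 := (hasFDerivAt_id (y p)).sub hT1.hasFDerivAt
    exact h1.unique h2
  have hinv : (fderiv ℝ F (p, y p) ∘L ContinuousLinearMap.inr ℝ (ℝ × V) C(KK, V)).IsInvertible := by
    rw [heq]
    refine ⟨ContinuousLinearEquiv.unitsEquiv ℝ _
      (Units.oneSub (R := C(KK, V) →L[ℝ] C(KK, V)) (fderiv ℝ (TT g p) (y p)) hnorm), ?_⟩
    ext1 γ
    rfl
  refine (cdf.contDiffAt_implicitFunction hn hinv).congr_of_eventuallyEq ?_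
  filter_upwards [cdf.eventually_apply_implicitFunction hn hinv, isOpen_St.mem_nhds hp] with x hx hx'
  refine TT_unique hg.continuousOn hδ hδ1 hl hx' (hy x hx') ?_
  simp only [hF, hy p hp, sub_self] at hx
  exact (sub_eq_zero.1 hx).symm

omit [CompleteSpace V] in
theorem fix_scale (hg : ContinuousOn g (St V)) {r : ℝ} (hr : |r| < 1) (o : V) {γ : C(KK, V)}
    (hγ : TT g (r, o) γ = γ) (τ : KK) :
    ∃ η : C(KK, V), TT g (r * τ, o) η = η ∧ η 1 = γ τ := by
  have hm : ∀ t : KK, (τ : ℝ) * t ∈ Icc (0 : ℝ) 1 := fun t =>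
    ⟨mul_nonneg τ.2.1 t.2.1, mul_le_one₀ τ.2.2 t.2.1 t.2.2⟩
  let η : C(KK, V) := ⟨fun t => ex γ (τ * t), (ex_cont γ).comp (by fun_prop)⟩
  refine ⟨η, ?_, ?_⟩
  · ext t
    rw [TT_apply hg (p := (r * τ, o)) (mul_lt hr τ.2)]
    show _ = ex γ (τ * t)
    rw [ex_of_mem γ (hm t)]
    conv_rhs => rw [← hγ, TT_apply hg (p := (r, o)) hr]
    have h1 := intervalIntegral.smul_integral_comp_mul_left (a := 0) (b := t)
      (fun u => g (r * u, ex γ u)) (τ : ℝ)
    rw [mul_zero] at h1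
    show o - (r * τ) • _ = o - r • ∫ u in (0 : ℝ)..(τ * t), g (r * u, ex γ u)
    rw [← h1, smul_smul]
    congr 2
    refine intervalIntegral.integral_congr fun u hu => ?_
    rw [uIcc_of_le t.2.1] at hu
    have hu' : u ∈ Icc (0 : ℝ) 1 := ⟨hu.1, hu.2.trans t.2.2⟩
    show g (r * τ * u, ex η u) = g (r * (τ * u), ex γ (τ * u))
    rw [ex_of_mem η hu', mul_assoc]
    rfl
  · show ex γ (τ * (1 : ℝ)) = _
    rw [mul_one, ex_of_mem γ τ.2]

theorem exists_flow_abs (hg : ContDiffOn ℝ ∞ g (St V)) (hδ : 0 ≤ δ) (hδ1 : δ < 1)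
    (hl : ∀ r, |r| < 1 → ∀ y y', ‖g (r, y) - g (r, y')‖ ≤ δ * ‖y - y'‖) :
    ∃ Φ : ℝ × V → V, ContDiffOn ℝ ∞ Φ (St V) ∧ (∀ o, Φ (0, o) = o) ∧
      ∀ p ∈ St V, HasDerivAt (fun r => Φ (r, p.2)) (-g (p.1, Φ p)) p.1 := by
  have hex : ∀ p : ℝ × V, ∃ γ : C(KK, V), p ∈ St V → TT g p γ = γ := fun p => by
    by_cases hp : p ∈ St V
    · obtain ⟨γ, h⟩ := TT_exists hg.continuousOn hδ hδ1 hl hp
      exact ⟨γ, fun _ => h⟩
    · exact ⟨0, fun h => absurd h hp⟩
  choose y hy using hex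
  have hc := hg.continuousOn
  have hsm : ContDiffOn ℝ ∞ (fun p => y p 1) (St V) := fun p hp =>
    ((ContinuousMap.evalCLM ℝ (M := V) (1 : KK)).contDiff.contDiffAt.comp p
      (fix_smooth hg hδ hδ1 hl hy hp)).contDiffWithinAt
  have hint : ∀ o : V, ∀ r : ℝ, |r| < 1 →
      y (r, o) 1 = o - ∫ s in (0 : ℝ)..r, g (s, y (s, o) 1) := by
    intro o r hr
    conv_lhs => rw [← hy (r, o) hr, TT_apply hc (p := (r, o)) hr]
    have h1 := intervalIntegral.smul_integral_comp_mul_left (a := 0) (b := 1)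
      (fun s => g (s, y (s, o) 1)) r
    rw [mul_zero, mul_one] at h1
    rw [← h1]
    show o - r • ∫ u in (0 : ℝ)..1, g (r * u, ex (y (r, o)) u) = _
    congr 2
    refine intervalIntegral.integral_congr fun u hu => ?_
    rw [uIcc_of_le zero_le_one] at hu
    obtain ⟨η, h2, h3⟩ := fix_scale hc hr o (hy (r, o) hr) ⟨u, hu⟩
    have h4 : (r * u, o) ∈ St V := mul_lt hr hu
    have h5 := TT_unique hc hδ hδ1 hl h4 h2 (hy _ h4)
    show g (r * u, ex (y (r, o)) u) = g (r * u, y (r * u, o) 1)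
    rw [ex_of_mem _ hu, ← h3, h5]
  refine ⟨fun p => y p 1, hsm, fun o => ?_, fun p hp => ?_⟩
  · show y (0, o) 1 = o
    rw [hint o 0 (by simp)]; simp
  · obtain ⟨r, o⟩ := p
    have hI : IsOpen {s : ℝ | |s| < 1} := isOpen_lt continuous_abs continuous_const
    have hcont : ContinuousOn (fun s : ℝ => g (s, y (s, o) 1)) {s : ℝ | |s| < 1} := by
      refine hc.comp (continuousOn_id.prodMk ?_) fun s hs => hs
      exact hsm.continuousOn.comp (continuousOn_id.prodMk continuousOn_const) fun s hs => hs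
    have hr : |r| < 1 := hp
    have hsub : uIcc 0 r ⊆ {s : ℝ | |s| < 1} := fun s hs => by
      have h1 := abs_sub_left_of_mem_uIcc hs
      simp only [sub_zero] at h1
      exact h1.trans_lt hr
    have h1 := intervalIntegral.integral_hasDerivAt_right
      ((hcont.mono hsub).intervalIntegrable (μ := volume))
      (hcont.stronglyMeasurableAtFilter hI r hr) (hcont.continuousAt (hI.mem_nhds hr))
    refine (h1.const_sub o).congr_of_eventuallyEq ?_
    filter_upwards [hI.mem_nhds hr] with s hs using hint o s hs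

end FlowAux

theorem exists_flow {d : ℕ} {W : E d → ℝ} {δ : ℝ} (hW : Pot δ W) (hδ : δ ≤ 1 / 4) :
    ∃ Φ, IsFlow W Φ := by
  obtain ⟨Φ, h1, h2, h3⟩ := FlowAux.exists_flow_abs (g := gv W) (gv_smooth hW) hW.nn
    (by linarith) fun r hr y y' => gv_lip hW hr y y'
  exact ⟨Φ, h1, h2, h3⟩

end Crest.Agent.R285
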