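import Crest.Agent.R285.Flow
import Crest.Agent.R285.CalcB

/-!
# R285 FlowB: basic properties of the flow and of its Jacobian.

* `flow_lip`: `u ρ = Φ (ρ,o) - Φ (ρ,o')` has `‖u'‖ ≤ δ ‖u‖`; take the maximum of `‖u‖` on the segment
  `[0, r]` (either sign) and the mean value inequality.  Same for `flow_size` with `G_size`.
* `pp_det`: `‖fderiv (sl r Φ) o - id‖ ≤ 2δ ≤ 1/2`, so the Jacobian matrix is injective
  (`Matrix.exists_mulVec_eq_zero_iff`).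
* `pp_ode`: `pd (1,0) (Φ · a) = - gv W (p.1, Φ p) a` on `OO`, `pd_comm`, chain rule, `pd_lift`.
* `jt_ode`: differentiate `PP * J = 1`.
-/

set_option autoImplicit false

namespace Crest.Agent.R285

open MeasureTheory Set
open scoped ContDiff

variable {d : ℕ} {W : E d → ℝ} {δ : ℝ} {Φ : ℝ × E d → E d} {p : ℝ × E d}

namespace FlowBA

theorem gron {F : Type} [NormedAddCommGroup F] [NormedSpace ℝ F] {u u' : ℝ → F} {b A δ : ℝ}
    (hb : |b| ≤ 1) (hA : 0 ≤ A) (hδ0 : 0 ≤ δ) (hδ : δ ≤ 1 / 4)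
    (hd : ∀ ρ ∈ uIcc 0 b, HasDerivAt u (u' ρ) ρ)
    (hle : ∀ ρ ∈ uIcc 0 b, ‖u' ρ‖ ≤ A + δ * ‖u ρ‖) {ρ ρ' : ℝ} (hρ : ρ ∈ uIcc 0 b)
    (hρ' : ρ' ∈ uIcc 0 b) : ‖u ρ - u ρ'‖ ≤ A + δ * (4 / 3 * (‖u 0‖ + A)) := by
  have hc : ContinuousOn (fun ρ => ‖u ρ‖) (uIcc 0 b) :=
    fun ρ hρ => (hd ρ hρ).continuousAt.continuousWithinAt.norm
  obtain ⟨t, ht, hmax⟩ := isCompact_uIcc.exists_isMaxOn ⟨0, left_mem_uIcc⟩ hc
  have key : ∀ x ∈ uIcc 0 b, ∀ y ∈ uIcc 0 b, ‖u x - u y‖ ≤ A + δ * ‖u t‖ := by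
    intro x hx y hy
    have h1 := (convex_uIcc (0 : ℝ) b).norm_image_sub_le_of_norm_hasDerivWithin_le
      (C := A + δ * ‖u t‖) (fun z hz => (hd z hz).hasDerivWithinAt)
      (fun z hz => (hle z hz).trans (by
        have : ‖u z‖ ≤ ‖u t‖ := hmax hz
        gcongr)) hy hx
    have h2 : ‖x - y‖ ≤ 1 := by
      have := abs_sub_le_of_uIcc_subset_uIcc (uIcc_subset_uIcc hy hx)
      rw [sub_zero] at this
      exact this.trans hb
    exact h1.trans (mul_le_of_le_one_right (by positivity) h2)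
  have h1 := key t ht 0 left_mem_uIcc
  have h2 : ‖u t‖ ≤ ‖u t - u 0‖ + ‖u 0‖ := norm_le_norm_sub_add _ _
  have h3 : δ * ‖u t‖ ≤ 1 / 4 * ‖u t‖ := mul_le_mul_of_nonneg_right hδ (norm_nonneg _)
  have h4 : ‖u t‖ ≤ 4 / 3 * (‖u 0‖ + A) := by linarith
  exact (key ρ hρ ρ' hρ').trans (by gcongr)

theorem mem_OO {b ρ : ℝ} (hb : |b| < 1) (hρ : ρ ∈ uIcc 0 b) (o : E d) :
    ((ρ, o) : ℝ × E d) ∈ OO d := by
  have := abs_sub_left_of_mem_uIcc hρ
  simp only [sub_zero] at this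
  exact this.trans_lt hb

theorem coord_smooth (hΦ : IsFlow W Φ) (a : Fin d) : ContDiffOn ℝ ∞ (fun p => Φ p a) (OO d) :=
  (EuclideanSpace.proj a : E d →L[ℝ] ℝ).contDiff.comp_contDiffOn hΦ.smooth

theorem fderiv_coord {P : Type} [NormedAddCommGroup P] [NormedSpace ℝ P] {f : P → E d} {y : P}
    (hf : DifferentiableAt ℝ f y) (v : P) (a : Fin d) :
    fderiv ℝ f y v a = pd v (fun y => f y a) y := by
  have h : HasFDerivAt (fun y => f y a) _ y :=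
    (EuclideanSpace.proj a : E d →L[ℝ] ℝ).hasFDerivAt.comp y hf.hasFDerivAt
  unfold pd
  rw [h.fderiv]
  rfl

theorem one_apply_kd (a i : Fin d) : (1 : Matrix (Fin d) (Fin d) ℝ) a i = kd a i := by
  by_cases h : a = i
  · subst h; rw [Matrix.one_apply_eq, kd_self]
  · rw [Matrix.one_apply_ne h, kd_ne h]

end FlowBA

open FlowBA

theorem flow_lip (hW : Pot δ W) (hδ : δ ≤ 1 / 4) (hΦ : IsFlow W Φ) {r : ℝ} (hr : |r| < 1)
    (o o' : E d) : ‖Φ (r, o) - Φ (r, o') - (o - o')‖ ≤ 2 * δ * ‖o - o'‖ := by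
  have h := gron (u := fun ρ => Φ (ρ, o) - Φ (ρ, o'))
    (u' := fun ρ => -gv W (ρ, Φ (ρ, o)) - -gv W (ρ, Φ (ρ, o'))) (A := 0) hr.le le_rfl hW.nn hδ
    (fun ρ hρ => (hΦ.ode (ρ, o) (mem_OO hr hρ o)).sub (hΦ.ode (ρ, o') (mem_OO hr hρ o')))
    (fun ρ hρ => by
      rw [zero_add, neg_sub_neg, norm_sub_rev]
      exact gv_lip hW (mem_OO hr hρ o) _ _) right_mem_uIcc left_mem_uIcc
  simp only [hΦ.init, zero_add, add_zero] at h
  have := mul_nonneg hW.nn (norm_nonneg (o - o'))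
  linarith

theorem flow_size (θ : Inst) {Φ : ℝ × E θ.d → E θ.d} (hΦ : IsFlow θ.W Φ) {r r' : ℝ}
    (hr : r ∈ Icc 0 (RR θ.κ)) (hr' : r' ∈ Icc 0 (RR θ.κ)) (o : E θ.d) :
    ‖Φ (r, o) - Φ (r', o)‖ ≤ 4 * (θ.sz + ‖o‖) := by
  have hR : 0 ≤ RR θ.κ := Real.sqrt_nonneg _
  have hb : |RR θ.κ| < 1 := by rw [abs_of_nonneg hR]; exact RR_lt_one θ.κ_pos θ.κ_le
  have hδ0 := θ.pot.nn
  have hδ := θ.δ_le
  have hD : 0 ≤ √(θ.d : ℝ) := Real.sqrt_nonneg _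
  have hsz : 0 ≤ θ.sz := by unfold Inst.sz; positivity
  have h := gron (u := fun ρ => Φ (ρ, o)) (u' := fun ρ => -gv θ.W (ρ, Φ (ρ, o)))
    (A := 2 * θ.sz) hb.le (by positivity) hδ0 hδ
    (fun ρ hρ => hΦ.ode (ρ, o) (mem_OO hb hρ o))
    (fun ρ hρ => by
      have h1 : |ρ| < 1 := mem_OO hb hρ o
      have h2 : 0 < 1 - ρ ^ 2 := MomBA.maps_OO (mem_OO hb hρ o)
      have h3 := G_size θ.pot (by linarith) h2 (by nlinarith [sq_nonneg ρ]) (ρ • Φ (ρ, o))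
      have h4 : ‖ρ • Φ (ρ, o)‖ ≤ ‖Φ (ρ, o)‖ := by
        rw [norm_smul, Real.norm_eq_abs]; exact mul_le_of_le_one_left (norm_nonneg _) h1.le
      have h5 : ‖gv θ.W (ρ, Φ (ρ, o))‖ ≤
          ‖Gv θ.W (1 - ρ ^ 2) (ρ • Φ (ρ, o)) - Gv θ.W 1 0‖ + ‖Gv θ.W 1 0‖ :=
        norm_le_norm_sub_add _ _
      have h6 : θ.sz = √(θ.d : ℝ) + ‖Gv θ.W 1 0‖ := rfl
      have h7 := mul_le_mul_of_nonneg_left h4 hδ0
      have h8 := mul_le_mul_of_nonneg_right hδ hsz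
      rw [norm_neg]
      rw [← h6] at h3
      nlinarith)
    (by rw [uIcc_of_le hR]; exact hr) (by rw [uIcc_of_le hR]; exact hr')
  simp only [hΦ.init] at h
  have h9 := mul_le_mul_of_nonneg_right hδ
    (show 0 ≤ 4 / 3 * (‖o‖ + 2 * θ.sz) by positivity)
  have := norm_nonneg o
  linarith

theorem flow_sl_smooth (hΦ : IsFlow W Φ) {r : ℝ} (hr : |r| < 1) : ContDiff ℝ ∞ (sl r Φ) :=
  hΦ.smooth.comp_contDiff (f := fun y : E d => ((r, y) : ℝ × E d))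
    (contDiff_const.prodMk contDiff_id) fun _ => hr

theorem pp_smooth (hΦ : IsFlow W Φ) : SmO (OO d) (PP Φ) :=
  fun a b => pd_contDiffOn (isOpen_OO d) (coord_smooth hΦ a) (xd b)

theorem pp_sl (hΦ : IsFlow W Φ) {r : ℝ} (hr : |r| < 1) (a b : Fin d) (o : E d) :
    pd (bv b) (fun y => Φ (r, y) a) o = PP Φ a b (r, o) :=
  pd_sl (ψ := fun p => Φ p a)
    (MomBA.diffAt (isOpen_OO d) (coord_smooth hΦ a) (show ((r, o) : ℝ × E d) ∈ OO d from hr)) b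

theorem fderiv_flow_sl (hΦ : IsFlow W Φ) {r : ℝ} (hr : |r| < 1) (o v : E d) (a : Fin d) :
    fderiv ℝ (sl r Φ) o v a = ∑ b, PP Φ a b (r, o) * v b := by
  rw [fderiv_coord ((flow_sl_smooth hΦ hr).differentiable (by simp) o)]
  unfold pd
  conv_lhs => rw [eq_sum_bv v]
  rw [map_sum]
  refine Finset.sum_congr rfl fun b _ => ?_
  rw [map_smul, smul_eq_mul, mul_comm, ← pp_sl hΦ hr]
  rfl

theorem hF_smooth (hW : Pot δ W) (hΦ : IsFlow W Φ) : SmO (OO d) (hF W Φ) :=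
  fun i a => (lift_smooth (hm_smooth hW i a)).comp (f := fun p : ℝ × E d => ((p.1, Φ p) : ℝ × E d))
    (contDiffOn_fst.prodMk hΦ.smooth) fun _ hq => hq

theorem pp_det (hW : Pot δ W) (hδ : δ ≤ 1 / 4) (hΦ : IsFlow W Φ) (hp : p ∈ OO d) :
    (Matrix.of fun a b => PP Φ a b p).det ≠ 0 := by
  intro h0
  obtain ⟨v, hv, hM⟩ := Matrix.exists_mulVec_eq_zero_iff.2 h0
  have hr : |p.1| < 1 := hp
  have hD := ((flow_sl_smooth hΦ hr).differentiable (by simp) p.2).hasFDerivAt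
  have h1 := (hD.sub (hasFDerivAt_id p.2)).le_of_lip' (C := 2 * δ)
    (mul_nonneg zero_le_two hW.nn) (Filter.Eventually.of_forall fun y => by
      have := flow_lip hW hδ hΦ hr y p.2
      refine le_trans (le_of_eq ?_) this
      congr 1
      simp only [Pi.sub_apply, sl, id]
      abel)
  have h2 : fderiv ℝ (sl p.1 Φ) p.2 (vec v) = 0 := by
    ext a
    rw [fderiv_flow_sl hΦ hr]
    exact congrFun hM a
  have h3 := ContinuousLinearMap.le_of_opNorm_le _ h1 (vec v)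
  rw [sub_apply, h2, zero_sub, norm_neg, ContinuousLinearMap.id_apply] at h3
  have h4 : 2 * δ * ‖vec v‖ ≤ 1 / 2 * ‖vec v‖ :=
    mul_le_mul_of_nonneg_right (by linarith) (norm_nonneg _)
  have h5 : ‖vec v‖ = 0 := le_antisymm (by linarith) (norm_nonneg _)
  apply hv
  funext a
  have := congrArg (fun x : E d => x a) (norm_eq_zero.1 h5)
  exact this

theorem jt_smooth (hW : Pot δ W) (hδ : δ ≤ 1 / 4) (hΦ : IsFlow W Φ) : SmO (OO d) (JT Φ) :=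
  fun i c => smO_inv (pp_smooth hΦ) (fun _ hq => pp_det hW hδ hΦ hq) c i

theorem pp_jt (hW : Pot δ W) (hδ : δ ≤ 1 / 4) (hΦ : IsFlow W Φ) (hp : p ∈ OO d) (a i : Fin d) :
    ∑ c, PP Φ a c p * JT Φ i c p = kd a i := by
  have h := Matrix.mul_nonsing_inv _ (isUnit_iff_ne_zero.2 (pp_det hW hδ hΦ hp))
  rw [← one_apply_kd, ← h, Matrix.mul_apply]
  rfl

theorem FlowBA.jt_pp (hW : Pot δ W) (hδ : δ ≤ 1 / 4) (hΦ : IsFlow W Φ) (hp : p ∈ OO d)
    (c c' : Fin d) : ∑ a, JT Φ a c p * PP Φ a c' p = kd c c' := by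
  have h := Matrix.nonsing_inv_mul _ (isUnit_iff_ne_zero.2 (pp_det hW hδ hΦ hp))
  rw [← one_apply_kd, ← h, Matrix.mul_apply]
  rfl

theorem pp_init (hΦ : IsFlow W Φ) (o : E d) (a b : Fin d) : PP Φ a b (0, o) = kd a b := by
  rw [← pp_sl hΦ (by simp)]
  simp only [hΦ.init]
  rw [TiltA.pd_coord, kd_comm]

theorem jt_init (hΦ : IsFlow W Φ) (o : E d) (i c : Fin d) : JT Φ i c (0, o) = kd i c := by
  have : (Matrix.of fun a b => PP Φ a b (0, o)) = 1 := by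
    ext a b
    rw [Matrix.of_apply, pp_init hΦ, one_apply_kd]
  unfold JT
  rw [this, inv_one, one_apply_kd, kd_comm]

theorem pp_ode (hW : Pot δ W) (hΦ : IsFlow W Φ) (hp : p ∈ OO d) (a b : Fin d) :
    pd (1, 0) (PP Φ a b) p = -p.1 * ∑ c, hF W Φ a c p * PP Φ c b p := by
  have hO := isOpen_OO d
  have e1 : EqOn (pd ((1, 0) : ℝ × E d) (fun p => Φ p a))
      (fun p => (-1) * lift (Gc W a) (p.1, Φ p)) (OO d) := fun q hq => by
    have h1 := (MomBA.diffAt hO hΦ.smooth hq)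
    have h2 : HasDerivAt (fun r : ℝ => ((r, q.2) : ℝ × E d)) (1, 0) q.1 :=
      (hasDerivAt_id q.1).prodMk (hasDerivAt_const q.1 q.2)
    have h3 := (show HasFDerivAt Φ (fderiv ℝ Φ q) (q.1, q.2) from h1.hasFDerivAt).comp_hasDerivAt
      q.1 h2
    have h4 := h3.unique (hΦ.ode q hq)
    rw [← fderiv_coord h1, h4]
    simp [gv_apply]
  unfold PP
  rw [pd_comm hO (coord_smooth hΦ a) _ _ hp, pd_congr hO e1 _ hp, pd_const_mul]
  have hq : ((p.1, Φ p) : ℝ × E d) ∈ OO d := hp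
  have d1 := MomBA.diffAt hO hΦ.smooth hp
  have d2 := MomBA.diffAt hO (lift_smooth (gc_smooth hW a)) hq
  have d3' := HasFDerivAt.comp (f := fun p : ℝ × E d => ((p.1, Φ p) : ℝ × E d)) p d2.hasFDerivAt
    ((hasFDerivAt_fst (𝕜 := ℝ) (p := p)).prodMk d1.hasFDerivAt)
  have d3 : HasFDerivAt (fun p : ℝ × E d => lift (Gc W a) (p.1, Φ p))
      ((fderiv ℝ (lift (Gc W a)) (p.1, Φ p)).comp
        ((ContinuousLinearMap.fst ℝ ℝ (E d)).prod (fderiv ℝ Φ p))) p := d3'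
  have e2 : pd (xd b) (fun p : ℝ × E d => lift (Gc W a) (p.1, Φ p)) p =
      fderiv ℝ (lift (Gc W a)) (p.1, Φ p) (0, fderiv ℝ Φ p (xd b)) := by
    unfold pd
    rw [d3.fderiv]
    simp [xd]
  have e3 : ((0, fderiv ℝ Φ p (xd b)) : ℝ × E d) = ∑ c, fderiv ℝ Φ p (xd b) c • xd c := by
    ext1
    · simp [xd, Prod.fst_sum]
    · simp only [xd, Prod.snd_sum, Prod.smul_snd]
      exact eq_sum_bv _
  simp only
  rw [e2, e3, map_sum, Finset.mul_sum, Finset.mul_sum]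
  refine Finset.sum_congr rfl fun c _ => ?_
  have e4 : fderiv ℝ (lift (Gc W a)) (p.1, Φ p) (xd c) = p.1 * hF W Φ a c p :=
    pd_lift (gc_smooth hW a) hq c
  rw [map_smul, smul_eq_mul, e4, fderiv_coord d1]
  ring

theorem jt_ode (hW : Pot δ W) (hδ : δ ≤ 1 / 4) (hΦ : IsFlow W Φ) (hp : p ∈ OO d) (i c : Fin d) :
    pd (1, 0) (JT Φ i c) p = p.1 * ∑ a, hF W Φ i a p * JT Φ a c p := by
  have hO := isOpen_OO d
  have dP : ∀ a b, DifferentiableAt ℝ (PP Φ a b) p := fun a b =>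
    MomBA.diffAt hO (pp_smooth hΦ a b) hp
  have dJ : ∀ a b, DifferentiableAt ℝ (JT Φ a b) p := fun a b =>
    MomBA.diffAt hO (jt_smooth hW hδ hΦ a b) hp
  have e1 : ∀ a, ∑ c', PP Φ a c' p * pd (1, 0) (JT Φ i c') p = p.1 * hF W Φ a i p := by
    intro a
    have h1 := pd_congr hO (fun q hq => pp_jt hW hδ hΦ hq a i) ((1, 0) : ℝ × E d) hp
    rw [pd_const, pd_sum (φ := fun c' q => PP Φ a c' q * JT Φ i c' q) _
      fun c' => (dP a c').mul (dJ i c')] at h1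
    simp only [pd_mul _ (dP a _) (dJ i _), pp_ode hW hΦ hp, Finset.sum_add_distrib] at h1
    have h2 : ∑ c', (-p.1 * ∑ e, hF W Φ a e p * PP Φ e c' p) * JT Φ i c' p =
        -p.1 * hF W Φ a i p := by
      rw [← sum_mul_kd i fun e => hF W Φ a e p]
      simp only [← pp_jt hW hδ hΦ hp, Finset.mul_sum, Finset.sum_mul]
      rw [Finset.sum_comm]
      exact Finset.sum_congr rfl fun e _ => Finset.sum_congr rfl fun c' _ => by ring
    linarith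
  rw [← sum_kd_mul c fun c' => pd (1, 0) (JT Φ i c') p]
  simp only [← jt_pp hW hδ hΦ hp, Finset.sum_mul]
  rw [Finset.sum_comm, Finset.mul_sum]
  refine Finset.sum_congr rfl fun a _ => ?_
  have e2 : hF W Φ i a p = hF W Φ a i p :=
    hm_symm hW (MomBA.maps_OO (q := (p.1, Φ p)) hp) i a
  rw [e2, ← mul_assoc, ← e1 a, Finset.sum_mul]
  exact Finset.sum_congr rfl fun c' _ => by ring

end Crest.Agent.R285
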