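import Crest.Agent.R285.FlowB
import Crest.Agent.R285.Appell

/-!
# R285 FlowM: tame bounds for the Jacobian of the flow and its inverse.

`lin_ode_mo`: induction on `n` generalizing `J X F C₁ C₂`.  Order `0`: for fixed `o`, Gronwall
(`norm_le_gronwallBound_of_norm_deriv_right_le`) for `r ↦ X (r, o)` viewed in
`EuclideanSpace ℝ I →L[ℝ] EuclideanSpace ℝ J`, or: `s = sup_r ‖X‖ < ∞` (compactness) and
`s ≤ a₀ + s/2 + f`.  Step: `Y = gradOut xd X` satisfies (`pd_comm`)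
`∂_r Y = ext C₁ · Y + Y · C₂ + (gradOut C₁ · X + ext X · gradOut C₂ + gradOut F)`, and `X` is
`MoS n` by the induction hypothesis.
`flow_mo`: by induction on `n`, `mT (PP Φ)` is `MoS n` on `S = Icc 0 R ×ˢ univ`: `Mo_comp` with
`Ψ p = (1 - p.1², p.1 • Φ p)`, `T c' c p = p.1 * PP Φ c c' p` and `H_mo` bound `hF` at order `n + 1`
(order `0`: `H_op`), then `lin_ode_mo` with `C₂ = - r hF` (use `hm_symm`).  For `JT`: `C₁ = r hF`, for
`mT JT`: `C₂ = r hF`; for `JT - I`: `a₀ = 0`, `F = r hF`.  Multiplication by `p.1` is harmless for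
`MoS xd` (`pd (xd c) (p.1 * ψ) = p.1 * pd (xd c) ψ`, `|p.1| ≤ 1`).  Slices: `Mo_sl`, `AA_subset`, `pp_sl`.
`flow_tg`: `tg_of_mo`, `tg_of_pd`, `tg_vec`, `flow_lip`, `polyG_of_lip`.
-/

set_option autoImplicit false

namespace Crest.Agent.R285

open MeasureTheory Set
open scoped ContDiff

namespace FlowMA

section Op
variable {J I : Type} [Fintype J] [Fintype I]

open Classical in
/-- the operator given by a matrix -/
noncomputable def tc (A : J → I → ℝ) : EuclideanSpace ℝ I →L[ℝ] EuclideanSpace ℝ J :=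
  ∑ j, ∑ i, A j i • (EuclideanSpace.proj i : EuclideanSpace ℝ I →L[ℝ] ℝ).smulRight
    (EuclideanSpace.single j (1 : ℝ))

theorem tc_apply (A : J → I → ℝ) (v : EuclideanSpace ℝ I) (j : J) :
    tc A v j = ∑ i, A j i * v i := by
  classical
  unfold tc
  simp only [sum_apply, smul_apply,
    ContinuousLinearMap.smulRight_apply, WithLp.ofLp_sum, WithLp.ofLp_smul, Finset.sum_apply,
    Pi.smul_apply, smul_eq_mul]
  rw [Finset.sum_eq_single j]
  · simp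
  · intro b _ hb
    simp [Ne.symm hb]
  · simp

theorem nsq (v : EuclideanSpace ℝ I) : ‖v‖ ^ 2 = ∑ i, v i ^ 2 := by
  rw [EuclideanSpace.norm_sq_eq]
  simp

theorem opLe_iff {A : J → I → ℝ} {a : ℝ} (ha : 0 ≤ a) : OpLe A a ↔ ‖tc A‖ ≤ a := by
  constructor
  · intro h
    refine ContinuousLinearMap.opNorm_le_bound _ ha fun v => ?_
    refine le_of_sq_le_sq_of_nonneg_aux (by positivity) ?_
    rw [mul_pow, nsq, nsq]
    simp only [tc_apply]
    exact h _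
  · intro h v
    have h1 := ((tc A).le_opNorm (WithLp.toLp 2 v)).trans
      (mul_le_mul_of_nonneg_right h (norm_nonneg _))
    have h2 := pow_le_pow_left₀ (norm_nonneg _) h1 2
    rw [mul_pow, nsq, nsq] at h2
    simpa only [tc_apply] using h2

theorem sum_deriv {V : Type} [NormedAddCommGroup V] [NormedSpace ℝ V] (B : J → I → V)
    {A : ℝ → J → I → ℝ} {A' : J → I → ℝ} {r : ℝ}
    (h : ∀ j i, HasDerivAt (fun r => A r j i) (A' j i) r) :
    HasDerivAt (fun r => ∑ j, ∑ i, A r j i • B j i) (∑ j, ∑ i, A' j i • B j i) r :=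
  HasDerivAt.fun_sum fun j _ => HasDerivAt.fun_sum fun i _ => (h j i).smul_const _

theorem tc_deriv {A : ℝ → J → I → ℝ} {A' : J → I → ℝ} {r : ℝ}
    (h : ∀ j i, HasDerivAt (fun r => A r j i) (A' j i) r) :
    HasDerivAt (fun r => tc (A r)) (tc A') r := by
  unfold tc
  exact sum_deriv (V := EuclideanSpace ℝ I →L[ℝ] EuclideanSpace ℝ J) _ h

end Op

theorem hasDeriv_fst {d : ℕ} {ψ : ℝ × E d → ℝ} {r : ℝ} {o : E d}
    (h : DifferentiableAt ℝ ψ (r, o)) : HasDerivAt (fun r => ψ (r, o)) (pd (1, 0) ψ (r, o)) r := by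
  have a1 : HasDerivAt (fun r : ℝ => (r, o)) ((1 : ℝ), (0 : E d)) r :=
    (hasDerivAt_id r).prodMk (hasDerivAt_const r o)
  exact h.hasFDerivAt.comp_hasDerivAt r a1

theorem strip_sub {d : ℕ} {R : ℝ} (hR : R < 1) : {p : ℝ × E d | p.1 ∈ Icc 0 R} ⊆ OO d := by
  intro p hp
  show |p.1| < 1
  rw [abs_of_nonneg hp.1]
  exact hp.2.trans_lt hR

theorem lin0 {d : ℕ} {J I : Type} [Fintype J] [Fintype I] {R a0 f : ℝ}
    {X F : MF (ℝ × E d) J I} {C1 : MF (ℝ × E d) J J} {C2 : MF (ℝ × E d) I I} (hR : R < 1)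
    (ha : 0 ≤ a0) (hf : 0 ≤ f) (hX : SmO (OO d) X)
    (ode : ∀ p ∈ OO d, ∀ j i, pd (1, 0) (X j i) p = mmul C1 X j i p + mmul X C2 j i p + F j i p)
    (h0 : MoS xd {p | p.1 = 0} 0 a0 X) (hF : MoS xd {p | p.1 ∈ Icc 0 R} 0 f F)
    (h1 : MoS xd {p | p.1 ∈ Icc 0 R} 0 (1 / 4) C1) (h2 : MoS xd {p | p.1 ∈ Icc 0 R} 0 (1 / 4) C2) :
    MoS xd {p | p.1 ∈ Icc 0 R} 0 (4 * (a0 + f)) X := by
  rintro ⟨r, o⟩ hp
  have hp' : r ∈ Icc 0 R := hp
  have hd : ∀ ρ ∈ Icc 0 R, HasDerivAt (fun ρ => tc fun j i => X j i (ρ, o))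
      (tc fun j i => mmul C1 X j i (ρ, o) + mmul X C2 j i (ρ, o) + F j i (ρ, o)) ρ := by
    intro ρ hρ
    have hq : ((ρ, o) : ℝ × E d) ∈ OO d := strip_sub hR hρ
    refine tc_deriv fun j i => ?_
    rw [← ode _ hq]
    exact hasDeriv_fst (hX.diffAt (isOpen_OO d) hq j i)
  have key := norm_le_gronwallBound_of_norm_deriv_right_le (a := 0) (b := R) (δ := a0)
    (K := 1 / 2) (ε := f) (fun ρ hρ => (hd ρ hρ).continuousAt.continuousWithinAt)
    (fun ρ hρ => (hd ρ (Ico_subset_Icc_self hρ)).hasDerivWithinAt)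
    ((opLe_iff ha).1 (h0 (0, o) rfl)) (fun ρ hρ => ?_) r hp'
  · refine (opLe_iff (by positivity)).2 (key.trans ?_)
    rw [gronwallBound_of_K_ne_0 (by norm_num)]
    have e1 : Real.exp (1 / 2 * (r - 0)) ≤ 3 := by
      refine (Real.exp_le_exp.2 (?_ : 1 / 2 * (r - 0) ≤ 1)).trans ?_
      · linarith [hp'.2]
      · linarith [Real.exp_one_lt_d9]
    have e2 : a0 * Real.exp (1 / 2 * (r - 0)) ≤ a0 * 3 := mul_le_mul_of_nonneg_left e1 ha
    have e3 : f / (1 / 2) * (Real.exp (1 / 2 * (r - 0)) - 1) ≤ f / (1 / 2) * 2 :=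
      mul_le_mul_of_nonneg_left (by linarith) (by positivity)
    simp only
    linarith
  · have hρ' : ((ρ, o) : ℝ × E d) ∈ {p : ℝ × E d | p.1 ∈ Icc 0 R} := Ico_subset_Icc_self hρ
    set x := ‖tc fun j i => X j i (ρ, o)‖ with hx
    have hx0 : 0 ≤ x := norm_nonneg _
    have bX : OpLe (fun j i => X j i (ρ, o)) x := (opLe_iff hx0).2 le_rfl
    have b := opLe_add (opLe_add (opLe_mul (h1 _ hρ') bX) (opLe_mul bX (h2 _ hρ'))
      (by positivity) (by positivity)) (hF _ hρ') (by positivity) hf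
    refine ((opLe_iff (by positivity)).1 b).trans (le_of_eq ?_)
    ring

end FlowMA

open FlowMA

theorem lin_ode_mo (n : ℕ) : ∃ C : ℝ, 1 ≤ C ∧ ∀ (d : ℕ) (J I : Type) [Fintype J] [Fintype I]
    (R a0 f c : ℝ) (X F : MF (ℝ × E d) J I) (C1 : MF (ℝ × E d) J J) (C2 : MF (ℝ × E d) I I),
    0 ≤ R → R < 1 → 0 ≤ a0 → 0 ≤ f → 0 ≤ c →
    SmO (OO d) X → SmO (OO d) F → SmO (OO d) C1 → SmO (OO d) C2 →
    (∀ p ∈ OO d, ∀ j i, pd (1, 0) (X j i) p = mmul C1 X j i p + mmul X C2 j i p + F j i p) →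
    MoS xd {p | p.1 = 0} n a0 X → MoS xd {p | p.1 ∈ Icc 0 R} n f F →
    MoS xd {p | p.1 ∈ Icc 0 R} n c C1 → MoS xd {p | p.1 ∈ Icc 0 R} n c C2 →
    MoS xd {p | p.1 ∈ Icc 0 R} 0 (1 / 4) C1 → MoS xd {p | p.1 ∈ Icc 0 R} 0 (1 / 4) C2 →
    MoS xd {p | p.1 ∈ Icc 0 R} n (C * (a0 + f) * (1 + c) ^ (3 ^ n)) X := by
  induction n with
  | zero =>
    refine ⟨4, by norm_num, ?_⟩
    intro d J I _ _ R a0 f c X F C1 C2 _ hR ha hf hc hX _ _ _ ode h0 hF _ _ h1 h2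
    refine AA_mono (lin0 hR ha hf hX ode h0 hF h1 h2) (by positivity) ?_
    rw [pow_zero, pow_one]
    exact le_mul_of_one_le_right (by positivity) (by linarith)
  | succ n ih =>
    obtain ⟨C, hC, ih⟩ := ih
    have hC' : (1 : ℝ) ≤ 1 + 2 ^ (n + 1) * C := le_add_of_nonneg_right (by positivity)
    refine ⟨C * (1 + 2 ^ (n + 1) * C), one_le_mul_of_one_le_of_one_le hC hC', ?_⟩
    intro d J I _ _ R a0 f c X F C1 C2 hR0 hR ha hf hc hX hFs hC1 hC2 ode h0 hF m1 m2 h1 h2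
    have hO := isOpen_OO d
    have hS := strip_sub (d := d) hR
    have bX := ih d J I R a0 f c X F C1 C2 hR0 hR ha hf hc hX hFs hC1 hC2 ode
      (AA_mono_n h0 n.le_succ) (AA_mono_n hF n.le_succ) (AA_mono_n m1 n.le_succ)
      (AA_mono_n m2 n.le_succ) h1 h2
    set x := C * (a0 + f) * (1 + c) ^ (3 ^ n) with hx
    have hx0 : 0 ≤ x := by positivity
    have s1 : SmO (OO d) (mmul (gradOut xd C1) X) := smO_mmul (smO_gradOut hO hC1 xd) hX
    have s2 : SmO (OO d) (mmul (ext X (Fin d)) (gradOut xd C2)) :=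
      smO_mmul (smO_ext hX _) (smO_gradOut hO hC2 xd)
    have s3 : SmO (OO d) (gradOut xd F) := smO_gradOut hO hFs xd
    have s12 : SmO (OO d) fun j i y =>
        mmul (gradOut xd C1) X j i y + mmul (ext X (Fin d)) (gradOut xd C2) j i y :=
      fun j i => (s1 j i).add (s2 j i)
    have bF := AA_add hO hS s12 s3 (by positivity) hf
      (AA_add hO hS s1 s2 (by positivity) (by positivity)
        (AA_mul hO hS (smO_gradOut hO hC1 xd) hX hc hx0 (MoS_succ.1 m1).2 bX)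
        (AA_mul hO hS (smO_ext hX _) (smO_gradOut hO hC2 xd) hx0 hc (AA_ext bX) (MoS_succ.1 m2).2))
      (MoS_succ.1 hF).2
    have bY := ih d (J × Fin d) I R a0 _ c (gradOut xd X) _ (ext C1 (Fin d)) C2 hR0 hR ha
      (by positivity) hc (smO_gradOut hO hX xd) (fun j i => (s12 j i).add (s3 j i))
      (smO_ext hC1 _) hC2 (fun p hp jc i => ?_) (MoS_succ.1 h0).2 bF
      (AA_ext (AA_mono_n m1 n.le_succ)) (AA_mono_n m2 n.le_succ) (AA_ext h1) h2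
    · have hc1 : (1 : ℝ) ≤ 1 + c := by linarith
      have hp1 : (1 : ℝ) ≤ (1 + c) ^ (3 ^ n) := one_le_pow₀ hc1
      have hpw : (1 + c) ^ (3 ^ n) * (1 + c) * (1 + c) ^ (3 ^ n) ≤ (1 + c) ^ (3 ^ (n + 1)) := by
        rw [← pow_succ, ← pow_add]
        refine pow_le_pow_right₀ hc1 ?_
        have : 1 ≤ 3 ^ n := Nat.one_le_pow _ _ (by norm_num)
        rw [pow_succ]
        omega
      have hpw' : (1 + c) ^ (3 ^ n) ≤ (1 + c) ^ (3 ^ (n + 1)) :=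
        pow_le_pow_right₀ hc1 (Nat.pow_le_pow_right (by norm_num) n.le_succ)
      refine MoS_succ.2 ⟨fun y hy => opLe_mono (AA_op bX y hy) hx0 ?_,
        AA_mono bY (by positivity) ?_⟩
      · rw [hx]
        gcongr
        exact le_mul_of_one_le_right (by linarith) hC'
      · have e1 : a0 + (2 ^ n * c * x + 2 ^ n * x * c + f) ≤
            (1 + 2 ^ (n + 1) * C) * (a0 + f) * ((1 + c) ^ (3 ^ n) * (1 + c)) := by
          have t1 : a0 + f ≤ (a0 + f) * ((1 + c) ^ (3 ^ n) * (1 + c)) :=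
            le_mul_of_one_le_right (by positivity) (one_le_mul_of_one_le_of_one_le hp1 hc1)
          have t2 : 2 ^ (n + 1) * C * (a0 + f) * ((1 + c) ^ (3 ^ n) * c) ≤
              2 ^ (n + 1) * C * (a0 + f) * ((1 + c) ^ (3 ^ n) * (1 + c)) := by
            gcongr
            linarith
          have t3 : 2 ^ n * c * x + 2 ^ n * x * c =
              2 ^ (n + 1) * C * (a0 + f) * ((1 + c) ^ (3 ^ n) * c) := by
            rw [hx]; ring
          rw [t3]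
          linarith
        calc C * (a0 + (2 ^ n * c * x + 2 ^ n * x * c + f)) * (1 + c) ^ (3 ^ n)
            ≤ C * ((1 + 2 ^ (n + 1) * C) * (a0 + f) * ((1 + c) ^ (3 ^ n) * (1 + c))) *
              (1 + c) ^ (3 ^ n) := by gcongr
          _ = C * (1 + 2 ^ (n + 1) * C) * (a0 + f) *
              ((1 + c) ^ (3 ^ n) * (1 + c) * (1 + c) ^ (3 ^ n)) := by ring
          _ ≤ _ := by gcongr
    · have hE : EqOn (pd (1, 0) (X jc.1 i))
          (fun p => mmul C1 X jc.1 i p + mmul X C2 jc.1 i p + F jc.1 i p) (OO d) :=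
        fun q hq => ode q hq jc.1 i
      have d1 := (smO_mmul hC1 hX).diffAt hO hp jc.1 i
      have d2 := (smO_mmul hX hC2).diffAt hO hp jc.1 i
      have e1 := gradOut_mmul hO hC1 hX xd hp jc i
      have e2 := gradOut_mmul hO hX hC2 xd hp jc i
      show pd (1, 0) (pd (xd jc.2) (X jc.1 i)) p = _
      rw [pd_comm hO (hX jc.1 i) _ _ hp, pd_congr hO hE _ hp,
        pd_add _ (d1.fun_add d2) (hFs.diffAt hO hp jc.1 i), pd_add _ d1 d2]
      simp only [gradOut] at e1 e2 ⊢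
      rw [e1, e2]
      ring

namespace FlowMA

theorem pow_ge (x : ℝ) : ∃ m : ℕ, ∀ u : ℝ, 2 ≤ u → x ≤ u ^ m := by
  obtain ⟨m, hm⟩ := pow_unbounded_of_one_lt x (by norm_num : (1 : ℝ) < 2)
  exact ⟨m, fun u hu => hm.le.trans (pow_le_pow_left₀ (by norm_num) hu m)⟩

theorem two_le (θ : Inst) : 2 ≤ θ.κ⁻¹ := by
  rw [le_inv_comm₀ (by norm_num) θ.κ_pos]
  linarith [θ.κ_le]

theorem pd_xd_fst {d : ℕ} (c : Fin d) (p : ℝ × E d) : pd (xd c) (fun p : ℝ × E d => p.1) p = 0 := by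
  simp only [pd]
  rw [fderiv_fst]
  rfl

/-- multiplication by the first coordinate -/
theorem mo_rmul {d : ℕ} {S : Set (ℝ × E d)} (hS : S ⊆ OO d) {a : ℝ} (ha : 0 ≤ a) (n : ℕ) :
    ∀ {J I : Type} [Fintype J] [Fintype I] {A : MF (ℝ × E d) J I}, SmO (OO d) A →
      MoS xd S n a A → MoS xd S n a (fun j i p => p.1 * A j i p) := by
  have hop : ∀ {J I : Type} [Fintype J] [Fintype I] {A : MF (ℝ × E d) J I},
      (∀ y ∈ S, OpLe (fun j i => A j i y) a) →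
        ∀ y ∈ S, OpLe (fun j i => y.1 * A j i y) a := by
    intro J I _ _ A h y hy
    refine opLe_mono (opLe_smul y.1 (h y hy)) (by positivity) ?_
    exact mul_le_of_le_one_left ha (le_of_lt (hS hy))
  induction n with
  | zero => intro J I _ _ A _ h; exact hop h
  | succ n ih =>
    intro J I _ _ A hA h
    have hO := isOpen_OO d
    refine MoS_succ.2 ⟨hop (MoS_succ.1 h).1,
      AA_congr hO hS (fun jc i p hp => ?_) (ih (smO_gradOut hO hA xd) (MoS_succ.1 h).2)⟩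
    simp only [gradOut]
    rw [pd_mul _ differentiableAt_fst (hA.diffAt hO hp jc.1 i), pd_xd_fst]
    ring

variable {d : ℕ} {W : E d → ℝ} {δ : ℝ} {Φ : ℝ × E d → E d}

/-- `r · hF` -/
noncomputable def rH (W : E d → ℝ) (Φ : ℝ × E d → E d) : MF (ℝ × E d) (Fin d) (Fin d) :=
  fun j i p => p.1 * hF W Φ j i p

theorem mem_UU {p : ℝ × E d} (hp : p ∈ OO d) (y : E d) :
    ((1 - p.1 ^ 2, y) : ℝ × E d) ∈ UU d := by
  have h : |p.1| < 1 := hp
  have : p.1 ^ 2 < 1 := by rw [← sq_abs]; nlinarith [abs_nonneg p.1]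
  show 0 < 1 - p.1 ^ 2
  linarith

theorem hF_symm (hW : Pot δ W) {p : ℝ × E d} (hp : p ∈ OO d) (i a : Fin d) :
    hF W Φ i a p = hF W Φ a i p := hm_symm hW (mem_UU hp _) i a

theorem hF_zero (hW : Pot δ W) {S : Set (ℝ × E d)} (hS : S ⊆ OO d) :
    MoS xd S 0 δ (hF W Φ) := fun _ hp => H_op hW (mem_UU (hS hp) _)

theorem rH_smooth (hW : Pot δ W) (hΦ : IsFlow W Φ) : SmO (OO d) (rH W Φ) :=
  fun j i => contDiffOn_fst.mul (hF_smooth hW hΦ j i)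

theorem rH_zero (hW : Pot δ W) (hδ : δ ≤ 1 / 4) (hΦ : IsFlow W Φ) {S : Set (ℝ × E d)}
    (hS : S ⊆ OO d) : MoS xd S 0 (1 / 4) (rH W Φ) :=
  AA_mono (mo_rmul hS hW.nn 0 (hF_smooth hW hΦ) (hF_zero hW hS)) hW.nn hδ

theorem smO_const {J I : Type} (T : J → I → ℝ) :
    SmO (OO d) (fun j i (_ : ℝ × E d) => T j i) := fun _ _ => contDiffOn_const

theorem mo_zero {J I : Type} [Fintype J] [Fintype I] {S : Set (ℝ × E d)} (n : ℕ) (a : ℝ) :
    MoS xd S n a (fun (_ : J) (_ : I) (_ : ℝ × E d) => (0 : ℝ)) := AA_const (opLe_zero a)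

theorem mo_init {J I : Type} [Fintype J] [Fintype I] {X : MF (ℝ × E d) J I} (hX : SmO (OO d) X)
    {T : J → I → ℝ} {a : ℝ} (hT : OpLe T a) (h : ∀ j i o, X j i (0, o) = T j i) (n : ℕ) :
    MoS xd {p | p.1 = 0} n a X := by
  refine (Mo_sl (isOpen_OO d) (fun y => by simp [OO]) hX).1 ?_
  have : slM 0 X = fun j i _ => T j i := by
    funext j i o
    exact h j i o
  rw [this]
  exact AA_const hT

theorem pp_eq (hΦ : IsFlow W Φ) {p : ℝ × E d} (hp : p ∈ OO d) (b c : Fin d) :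
    PP Φ b c p = fderiv ℝ Φ p (xd c) b := by
  have h := ((hΦ.smooth.contDiffAt ((isOpen_OO d).mem_nhds hp)).differentiableAt
    (by simp)).hasFDerivAt
  have h2 := (EuclideanSpace.proj b : E d →L[ℝ] ℝ).hasFDerivAt.comp p h
  have h3 : fderiv ℝ (fun p => Φ p b) p = _ := h2.fderiv
  simp only [PP, pd]
  rw [h3]
  rfl

theorem psi_fderiv (hΦ : IsFlow W Φ) {p : ℝ × E d} (hp : p ∈ OO d) (c' : Fin d) :
    fderiv ℝ (fun p : ℝ × E d => ((1 - p.1 ^ 2, p.1 • Φ p) : ℝ × E d)) p (xd c') =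
      ∑ c, (p.1 * mT (PP Φ) c' c p) • xd c := by
  have h := ((hΦ.smooth.contDiffAt ((isOpen_OO d).mem_nhds hp)).differentiableAt
    (by simp)).hasFDerivAt
  have h1 : HasFDerivAt (fun p : ℝ × E d => p.1) (ContinuousLinearMap.fst ℝ ℝ (E d)) p :=
    hasFDerivAt_fst
  have h2 := ((h1.pow 2).const_sub 1).prodMk (h1.fun_smul h)
  rw [h2.fderiv]
  refine Prod.ext ?_ ?_
  · simp [xd, Prod.fst_sum]
  · have e := eq_sum_bv (fderiv ℝ Φ p (xd c'))
    simp only [mT, pp_eq hΦ hp, Prod.snd_sum, Prod.smul_snd, mul_smul]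
    rw [← Finset.smul_sum]
    simp only [xd] at e ⊢
    rw [← e]
    simp

/-- constants -/
theorem cst (n p : ℕ) (C : ℝ) : ∃ q : ℕ, ∀ u δ a : ℝ, 2 ≤ u → 0 ≤ δ → δ ≤ 1 / 4 → 0 ≤ a →
    C * a * (1 + δ * u ^ p) ^ (3 ^ n) ≤ a * u ^ q := by
  obtain ⟨m, hm⟩ := pow_ge C
  refine ⟨m + (p + 1) * 3 ^ n, fun u δ a hu h0 h1 ha => ?_⟩
  have hu1 : 1 ≤ u ^ p := one_le_pow₀ (by linarith)
  have e1 : 1 + δ * u ^ p ≤ u ^ (p + 1) := by
    rw [pow_succ]
    nlinarith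
  calc C * a * (1 + δ * u ^ p) ^ (3 ^ n) ≤ u ^ m * a * (u ^ (p + 1)) ^ (3 ^ n) := by
        gcongr
        exact hm u hu
    _ = a * u ^ (m + (p + 1) * 3 ^ n) := by rw [pow_add u m, pow_mul]; ring

/-- the strip -/
abbrev St (θ : Inst) : Set (ℝ × E θ.d) := {p | p.1 ∈ Icc 0 (RR θ.κ)}

theorem St_sub (θ : Inst) : St θ ⊆ OO θ.d := strip_sub (RR_lt_one θ.κ_pos θ.κ_le)

theorem RR_nn (θ : Inst) : 0 ≤ RR θ.κ := Real.sqrt_nonneg _

def PH (n : ℕ) : Prop := ∃ p : ℕ, ∀ (θ : Inst) (Φ : ℝ × E θ.d → E θ.d), IsFlow θ.W Φ →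
  MoS xd (St θ) n (θ.δ * θ.κ⁻¹ ^ p) (hF θ.W Φ)

theorem pp_of_PH {n : ℕ} (h : PH n) : ∃ p : ℕ, ∀ (θ : Inst) (Φ : ℝ × E θ.d → E θ.d),
    IsFlow θ.W Φ → MoS xd (St θ) n (θ.κ⁻¹ ^ p) (mT (PP Φ)) := by
  obtain ⟨p, hp⟩ := h
  obtain ⟨C, hC1, hC⟩ := lin_ode_mo n
  obtain ⟨q, hq⟩ := cst n p C
  refine ⟨q, fun θ Φ hΦ => ?_⟩
  have hW := θ.pot
  have hδ := hW.nn
  have hu := two_le θ
  have hc : 0 ≤ θ.δ * θ.κ⁻¹ ^ p := by positivity
  have sX : SmO (OO θ.d) (mT (PP Φ)) := fun c a => pp_smooth hΦ a c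
  have b1 := AA_smul (-1) (mo_rmul (St_sub θ) hc n (hF_smooth hW hΦ) (hp θ Φ hΦ))
  have b0 := AA_smul (-1) (rH_zero hW θ.δ_le hΦ (St_sub θ))
  rw [abs_neg, abs_one, one_mul] at b1 b0
  have := hC θ.d _ _ (RR θ.κ) 1 0 _ (mT (PP Φ)) (fun _ _ _ => 0) (fun _ _ _ => 0)
    (fun j i y => -1 * rH θ.W Φ j i y) (RR_nn θ) (RR_lt_one θ.κ_pos θ.κ_le) zero_le_one le_rfl hc
    sX (smO_const _) (smO_const _) (fun j i => contDiffOn_const.mul (rH_smooth hW hΦ j i))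
    (fun y hy b a => ?_)
    (mo_init sX opLe_kd (fun j i o => (pp_init hΦ o i j).trans (kd_comm _ _)) n)
    (mo_zero n _) (mo_zero n _) b1 (mo_zero 0 _) b0
  · refine AA_mono this (by positivity) ?_
    simpa using hq _ _ 1 hu hδ θ.δ_le zero_le_one
  · show pd (1, 0) (PP Φ a b) y = _
    rw [pp_ode hW hΦ hy]
    simp only [mmul, mT, rH, zero_mul, Finset.sum_const_zero, zero_add, add_zero, Finset.mul_sum]
    refine Finset.sum_congr rfl fun c _ => ?_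
    rw [hF_symm hW hy a c]
    ring

theorem PH_all (n : ℕ) : PH n := by
  induction n with
  | zero =>
    refine ⟨0, fun θ Φ _ => ?_⟩
    rw [pow_zero, mul_one]
    exact hF_zero θ.pot (St_sub θ)
  | succ n ih =>
    obtain ⟨p, hp⟩ := pp_of_PH ih
    obtain ⟨q, hq⟩ := H_mo (n + 1)
    refine ⟨(n + p) * (n + 1) + q, fun θ Φ hΦ => ?_⟩
    have hW := θ.pot
    have hδ := hW.nn
    have hu := two_le θ
    have hκ := θ.κ_pos
    have hb : 1 ≤ θ.κ⁻¹ ^ p := one_le_pow₀ (by linarith)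
    have sX : SmO (OO θ.d) (mT (PP Φ)) := fun c a => pp_smooth hΦ a c
    have hSK : SK θ.d θ.κ ⊆ UU θ.d := fun y hy => lt_of_lt_of_le (by positivity) hy.1
    have := Mo_comp (A := Hm θ.W) (eo := xd) (e' := xd) (S := SK θ.d θ.κ) (S' := St θ)
      (Ψ := fun p : ℝ × E θ.d => ((1 - p.1 ^ 2, p.1 • Φ p) : ℝ × E θ.d))
      (T := fun c' c p => p.1 * mT (PP Φ) c' c p) (isOpen_UU θ.d) (isOpen_OO θ.d) hSK (St_sub θ)
      ((contDiffOn_const.sub (contDiffOn_fst.pow 2)).prodMk (contDiffOn_fst.smul hΦ.smooth))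
      (fun y hy => mem_UU hy _) (fun y hy => ?_) (hm_smooth hW)
      (fun j i => contDiffOn_fst.mul (sX j i)) (fun y hy c' => psi_fderiv hΦ hy c')
      (by positivity) hb (mo_rmul (St_sub θ) (by positivity) n sX (hp θ Φ hΦ)) (hq θ)
    · refine AA_mono this (by positivity) ?_
      calc (2 ^ n * θ.κ⁻¹ ^ p) ^ (n + 1) * (θ.δ * θ.κ⁻¹ ^ q)
          ≤ (θ.κ⁻¹ ^ n * θ.κ⁻¹ ^ p) ^ (n + 1) * (θ.δ * θ.κ⁻¹ ^ q) := by gcongr
        _ = _ := by rw [← pow_add, ← pow_mul, pow_add]; ring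
    · have h1 := RR_sq θ.κ_pos θ.κ_le
      have h2 : y.1 ^ 2 ≤ RR θ.κ ^ 2 := pow_le_pow_left₀ hy.1 hy.2 2
      refine ⟨?_, ?_⟩
      · show θ.κ ^ 2 ≤ 1 - y.1 ^ 2
        linarith
      · show 1 - y.1 ^ 2 ≤ 1
        linarith [sq_nonneg y.1]

theorem jt_mo (n : ℕ) : ∃ p : ℕ, ∀ (θ : Inst) (Φ : ℝ × E θ.d → E θ.d), IsFlow θ.W Φ →
    MoS xd (St θ) n (θ.δ * θ.κ⁻¹ ^ p) (fun i c y => JT Φ i c y - kd i c) ∧
    MoS xd (St θ) n (θ.δ * θ.κ⁻¹ ^ p) (fun c i y => JT Φ i c y - kd i c) := by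
  obtain ⟨p, hp⟩ := PH_all n
  obtain ⟨C, hC1, hC⟩ := lin_ode_mo n
  obtain ⟨q, hq⟩ := cst n p C
  refine ⟨p + q, fun θ Φ hΦ => ?_⟩
  have hW := θ.pot
  have hδ := hW.nn
  have hu := two_le θ
  have hO := isOpen_OO θ.d
  have hc : 0 ≤ θ.δ * θ.κ⁻¹ ^ p := by positivity
  have hJ := jt_smooth hW θ.δ_le hΦ
  have sX : SmO (OO θ.d) (fun i c y => JT Φ i c y - kd i c) :=
    fun i c => (hJ i c).sub contDiffOn_const
  have sX' : SmO (OO θ.d) (fun c i y => JT Φ i c y - kd i c) := fun c i => sX i c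
  have b1 : MoS xd (St θ) n (θ.δ * θ.κ⁻¹ ^ p) (rH θ.W Φ) :=
    mo_rmul (St_sub θ) hc n (hF_smooth hW hΦ) (hp θ Φ hΦ)
  have b0 := rH_zero hW θ.δ_le hΦ (St_sub θ)
  have sH := rH_smooth hW hΦ
  have ode : ∀ y ∈ OO θ.d, ∀ i c, pd (1, 0) (fun y => JT Φ i c y - kd i c) y =
      ∑ a, rH θ.W Φ i a y * (JT Φ a c y - kd a c) + rH θ.W Φ i c y := by
    intro y hy i c
    rw [pd_sub _ (hJ.diffAt hO hy i c) (differentiableAt_const _), pd_const,
      jt_ode hW θ.δ_le hΦ hy]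
    simp only [mul_sub, Finset.sum_sub_distrib, sum_mul_kd c fun a => rH θ.W Φ i a y]
    simp only [rH, Finset.mul_sum, mul_assoc]
    ring
  have fin : C * (0 + θ.δ * θ.κ⁻¹ ^ p) * (1 + θ.δ * θ.κ⁻¹ ^ p) ^ (3 ^ n) ≤
      θ.δ * θ.κ⁻¹ ^ (p + q) := by
    rw [zero_add, pow_add, ← mul_assoc θ.δ]
    exact hq _ _ _ hu hδ θ.δ_le hc
  constructor
  · refine AA_mono (hC θ.d _ _ (RR θ.κ) 0 _ _ _ (rH θ.W Φ) (rH θ.W Φ) (fun _ _ _ => 0)
      (RR_nn θ) (RR_lt_one θ.κ_pos θ.κ_le) le_rfl hc hc sX sH sH (smO_const _)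
      (fun y hy i c => ?_)
      (mo_init sX (opLe_zero 0) (fun j i o => by rw [jt_init hΦ, sub_self]) n)
      b1 b1 (mo_zero n _) b0 (mo_zero 0 _)) (by positivity) fin
    rw [ode y hy]
    simp [mmul]
  · refine AA_mono (hC θ.d _ _ (RR θ.κ) 0 _ _ _ (rH θ.W Φ) (fun _ _ _ => 0) (rH θ.W Φ)
      (RR_nn θ) (RR_lt_one θ.κ_pos θ.κ_le) le_rfl hc hc sX' sH (smO_const _) sH
      (fun y hy c i => ?_)
      (mo_init sX' (opLe_zero 0) (fun j i o => by rw [jt_init hΦ, sub_self]) n)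
      b1 (mo_zero n _) b1 (mo_zero 0 _) b0) (by positivity) fin
    rw [ode y hy]
    simp only [mmul, rH, zero_mul, Finset.sum_const_zero, zero_add, hF_symm hW hy i]
    congr 1
    exact Finset.sum_congr rfl fun a _ => by ring

theorem sl_smooth {J I : Type} {A : MF (ℝ × E d) J I} (hA : SmO (OO d) A) {r : ℝ}
    (hr : |r| < 1) : SmO univ (slM r A) := fun j i =>
  (hA j i).comp (contDiffOn_const.prodMk contDiffOn_id) fun _ _ => hr

end FlowMA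

theorem flow_mo (n : ℕ) : ∃ p : ℕ, ∀ (θ : Inst) (Φ : ℝ × E θ.d → E θ.d), IsFlow θ.W Φ →
    ∀ r ∈ Icc 0 (RR θ.κ),
      Mo bv n (θ.κ⁻¹ ^ p) (fun c i => pd (bv c) (fun y => Φ (r, y) i)) ∧
      Mo bv n (θ.κ⁻¹ ^ p) (slM r (JT Φ)) ∧ Mo bv n (θ.κ⁻¹ ^ p) (mT (slM r (JT Φ))) ∧
      Mo bv n (θ.δ * θ.κ⁻¹ ^ p) (fun i c y => JT Φ i c (r, y) - kd i c) ∧
      Mo bv n (θ.δ * θ.κ⁻¹ ^ p) (fun c i y => JT Φ i c (r, y) - kd i c) := by
  obtain ⟨p, hp⟩ := pp_of_PH (PH_all n)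
  obtain ⟨q, hq⟩ := jt_mo n
  refine ⟨p + q + 1, fun θ Φ hΦ r hr => ?_⟩
  have hW := θ.pot
  have hδ := hW.nn
  have hδ' := θ.δ_le
  have hu := two_le θ
  have hu1 : 1 ≤ θ.κ⁻¹ := by linarith
  have hO := isOpen_OO θ.d
  have ha : |r| < 1 := St_sub θ (a := (r, 0)) hr
  have hsub : {y : ℝ × E θ.d | y.1 = r} ⊆ St θ := fun y hy => by
    show y.1 ∈ Icc 0 (RR θ.κ)
    rw [show y.1 = r from hy]
    exact hr
  have hJ := jt_smooth hW θ.δ_le hΦ
  have sX : SmO (OO θ.d) (fun i c y => JT Φ i c y - kd i c) :=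
    fun i c => (hJ i c).sub contDiffOn_const
  have sX' : SmO (OO θ.d) (fun c i y => JT Φ i c y - kd i c) := fun c i => sX i c
  have sP : SmO (OO θ.d) (mT (PP Φ)) := fun c a => pp_smooth hΦ a c
  have m1 := (Mo_sl hO (fun _ => ha) sP).2 (AA_subset (hp θ Φ hΦ) hsub)
  have m4 := (Mo_sl hO (fun _ => ha) sX).2 (AA_subset (hq θ Φ hΦ).1 hsub)
  have m5 := (Mo_sl hO (fun _ => ha) sX').2 (AA_subset (hq θ Φ hΦ).2 hsub)
  have l1 : θ.κ⁻¹ ^ p ≤ θ.κ⁻¹ ^ (p + q + 1) := pow_le_pow_right₀ hu1 (by omega)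
  have l2 : θ.δ * θ.κ⁻¹ ^ q ≤ θ.δ * θ.κ⁻¹ ^ (p + q + 1) :=
    mul_le_mul_of_nonneg_left (pow_le_pow_right₀ hu1 (by omega)) hδ
  have l3 : θ.δ * θ.κ⁻¹ ^ q + 1 ≤ θ.κ⁻¹ ^ (p + q + 1) := by
    have a1 : θ.κ⁻¹ ^ q ≤ θ.κ⁻¹ ^ (p + q) := pow_le_pow_right₀ hu1 (by omega)
    have a2 : 1 ≤ θ.κ⁻¹ ^ q := one_le_pow₀ hu1
    rw [pow_succ]
    nlinarith
  have c0 : 0 ≤ θ.δ * θ.κ⁻¹ ^ q := by positivity
  refine ⟨?_, ?_, ?_, AA_mono m4 c0 l2, AA_mono m5 c0 l2⟩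
  · have : (fun c i => pd (bv c) (fun y => Φ (r, y) i)) = slM r (mT (PP Φ)) := by
      funext c i o
      exact pp_sl hΦ ha i c o
    rw [this]
    exact AA_mono m1 (by positivity) l1
  · have := AA_add isOpen_univ (subset_refl _) (sl_smooth sX ha)
      (B := fun i c _ => kd i c) (fun _ _ => contDiffOn_const) c0 zero_le_one m4 (AA_const opLe_kd)
    refine AA_mono (AA_congr isOpen_univ (subset_refl _) (fun i c y _ => ?_) this)
      (by positivity) l3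
    simp [slM, sl]
  · have := AA_add isOpen_univ (subset_refl _) (sl_smooth sX' ha)
      (B := fun c i _ => kd c i) (fun _ _ => contDiffOn_const) c0 zero_le_one m5 (AA_const opLe_kd)
    refine AA_mono (AA_congr isOpen_univ (subset_refl _) (fun c i y _ => ?_) this)
      (by positivity) l3
    simp [slM, sl, mT, kd_comm c i]

theorem flow_tg (θ : Inst) {Φ : ℝ × E θ.d → E θ.d} (hΦ : IsFlow θ.W Φ) {r : ℝ}
    (hr : r ∈ Icc 0 (RR θ.κ)) : TG (sl r Φ) ∧ TGm (slM r (JT Φ)) := by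
  have hW := θ.pot
  have ha : |r| < 1 := St_sub θ (a := (r, 0)) hr
  refine ⟨?_, tg_of_mo (sl_smooth (jt_smooth hW θ.δ_le hΦ) ha) fun n => ?_⟩
  · have hs := flow_sl_smooth hΦ ha
    have hc : ∀ i, ContDiff ℝ ∞ (fun y => Φ (r, y) i) := fun i =>
      (EuclideanSpace.proj i : E θ.d →L[ℝ] ℝ).contDiff.comp hs
    have hP : TGm (fun c i => pd (bv c) (fun y => Φ (r, y) i)) := by
      refine tg_of_mo (fun c i => pd_contDiffOn isOpen_univ (hc i).contDiffOn _) fun n => ?_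
      obtain ⟨p, hp⟩ := flow_mo n
      exact ⟨_, (hp θ Φ hΦ r hr).1⟩
    have hg : PolyG (sl r Φ) := by
      refine polyG_of_lip (L := 2 * θ.δ + 1) fun x y => ?_
      have h1 := flow_lip hW θ.δ_le hΦ ha x y
      have h2 := norm_add_le (Φ (r, x) - Φ (r, y) - (x - y)) (x - y)
      rw [sub_add_cancel] at h2
      simp only [sl]
      linarith
    exact tg_vec (f := fun i y => Φ (r, y) i) fun i =>
      tg_of_pd ((hc i).differentiable (by simp)) (polyG_comp (polyG_coord i) hg) fun c => hP c i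
  · obtain ⟨p, hp⟩ := flow_mo n
    exact ⟨_, (hp θ Φ hΦ r hr).2.1⟩

end Crest.Agent.R285
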