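import Crest.Agent.R285.Tilt

/-!
# R285 Gauss: Gaussian convolution identities, total variation shifts.

* `gam_eq`: `gam d = stdGaussian (E d)` (compare characteristic functions:
  `ProbabilityTheory.charFun_stdGaussian`, `GaussianFourier.integral_cexp_neg_mul_sq_norm_add`,
  `Measure.ext_of_charFun`); `gam_comb` again by characteristic functions.
* `tv_shift`: `∫ f (x + v) e^{-U x} dx = ∫ f x e^{-U (x - v)} dx` and
  `|e^{-U (x - v)} - e^{-U x}| ≤ ∫₀¹ ‖∇U (x - t v)‖ ‖v‖ e^{-U (x - t v)} dt`; Tonelli and translation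
  invariance.
-/

set_option autoImplicit false

namespace Crest.Agent.R285

open MeasureTheory Set
open scoped ContDiff

variable {d : ℕ}

namespace GaussA

theorem charFun_gam (t : E d) : charFun (gam d) t = Complex.exp (-(‖t‖ : ℂ) ^ 2 / 2) := by
  have hb : 0 < ((1 / 2 : ℂ)).re := by norm_num
  have h1 := GaussianFourier.integral_cexp_neg_mul_sq_norm_add (V := E d) hb Complex.I t
  have h2 := GaussianFourier.integral_cexp_neg_mul_sq_norm (V := E d) hb
  have h3 : ((∫ y : E d, Real.exp (-(‖y‖ ^ 2 / 2)) : ℝ) : ℂ) =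
      ∫ v : E d, Complex.exp (-(1 / 2 : ℂ) * (‖v‖ : ℂ) ^ 2) := by
    rw [← integral_complex_ofReal]
    congr 1
    funext y
    push_cast
    congr 1
    ring
  have hZ : ((∫ y : E d, Real.exp (-(‖y‖ ^ 2 / 2)) : ℝ) : ℂ) ≠ 0 := by
    exact_mod_cast (conf_Z_pos (gam_conf (d := d))).ne'
  have h4 : ∫ y : E d, Real.exp (-(‖y‖ ^ 2 / 2)) • Complex.exp ((inner ℝ y t : ℝ) * Complex.I) =
      ∫ v : E d, Complex.exp (-(1 / 2 : ℂ) * (‖v‖ : ℂ) ^ 2 + Complex.I * (inner ℝ t v : ℝ)) := by
    congr 1
    funext y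
    rw [Complex.real_smul, Complex.exp_add, real_inner_comm]
    push_cast
    congr 2 <;> ring
  rw [charFun_apply, gam, integral_gib, h4, h1, ← h2, ← h3, Complex.real_smul,
    Complex.ofReal_inv, ← mul_assoc, inv_mul_cancel₀ hZ, one_mul, Complex.I_sq]
  congr 1
  ring

theorem charFun_add_prod {α β : Type} [MeasurableSpace α] [MeasurableSpace β] (μ : Measure α)
    (ν : Measure β) [SFinite μ] [SFinite ν] {f : α → E d} {g : β → E d} (hf : Measurable f)
    (hg : Measurable g) (t : E d) :
    charFun ((μ.prod ν).map fun p => f p.1 + g p.2) t =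
      charFun (μ.map f) t * charFun (ν.map g) t := by
  simp only [charFun_apply]
  rw [integral_map (by fun_prop) (by fun_prop), integral_map hf.aemeasurable (by fun_prop),
    integral_map hg.aemeasurable (by fun_prop), ← integral_prod_mul]
  congr 1
  funext p
  rw [inner_add_left, ← Complex.exp_add]
  push_cast
  congr 1
  ring

theorem charFun_gam_smul (σ : ℝ) (t : E d) :
    charFun ((gam d).map fun ξ => σ • ξ) t =
      Complex.exp (-((σ : ℂ) ^ 2 * (‖t‖ : ℂ) ^ 2) / 2) := by
  rw [charFun_map_smul, charFun_gam, norm_smul, Real.norm_eq_abs]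
  congr 2
  have : ((|σ| * ‖t‖ : ℝ) : ℂ) ^ 2 = ((σ ^ 2 * ‖t‖ ^ 2 : ℝ) : ℂ) := by
    rw [← Complex.ofReal_pow, mul_pow, sq_abs]
  rw [this]
  push_cast
  ring

theorem gT_eq (m : E d) (σ : ℝ) :
    gT m σ = ((gam d).map fun ξ => σ • ξ).map fun y => m + y := by
  rw [Measure.map_map (by fun_prop) (by fun_prop)]
  rfl

theorem charFun_gT (m : E d) (σ : ℝ) (t : E d) :
    charFun (gT m σ) t = Complex.exp (-((σ : ℂ) ^ 2 * (‖t‖ : ℂ) ^ 2) / 2) *
      Complex.exp ((inner ℝ m t : ℝ) * Complex.I) := by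
  rw [gT_eq, charFun_map_const_add, charFun_gam_smul]

theorem charFun_noisy (μ : Measure (E d)) [SFinite μ] (σ : ℝ) (t : E d) :
    charFun (noisy μ σ) t = charFun μ t * Complex.exp (-((σ : ℂ) ^ 2 * (‖t‖ : ℂ) ^ 2) / 2) := by
  have := charFun_add_prod μ (gam d) (f := fun x => x) (g := fun ξ => σ • ξ) (by fun_prop)
    (by fun_prop) t
  rw [charFun_gam_smul, Measure.map_id'] at this
  exact this

theorem sqrt_sq_cast (a b : ℝ) :
    ((√(a ^ 2 + b ^ 2) : ℝ) : ℂ) ^ 2 = (a : ℂ) ^ 2 + (b : ℂ) ^ 2 := by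
  rw [← Complex.ofReal_pow, Real.sq_sqrt (by positivity)]
  push_cast
  ring

instance gT_prob (m : E d) (σ : ℝ) : IsProbabilityMeasure (gT m σ) :=
  Measure.isProbabilityMeasure_map (by fun_prop)

instance noisy_prob (μ : Measure (E d)) [IsProbabilityMeasure μ] (σ : ℝ) :
    IsProbabilityMeasure (noisy μ σ) :=
  Measure.isProbabilityMeasure_map (by fun_prop)

theorem charFun_affine (μ : Measure (E d)) (k : E d) (c : ℝ) (t : E d) :
    charFun (μ.map fun y => k + c • y) t =
      charFun μ (c • t) * Complex.exp ((inner ℝ k t : ℝ) * Complex.I) := by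
  have : (μ.map fun y => k + c • y) = (μ.map fun y => c • y).map fun y => k + y := by
    rw [Measure.map_map (by fun_prop) (by fun_prop)]
    rfl
  rw [this, charFun_map_const_add, charFun_map_smul]

theorem norm_smul_sq_cast (c : ℝ) (t : E d) :
    ((‖c • t‖ : ℝ) : ℂ) ^ 2 = (c : ℂ) ^ 2 * (‖t‖ : ℂ) ^ 2 := by
  rw [← Complex.ofReal_pow, norm_smul, Real.norm_eq_abs, mul_pow, sq_abs]
  push_cast
  ring

theorem gam_int_norm : Integrable (fun ξ : E d => ‖ξ‖) (gam d) := by
  simpa using (gam_pm (d := d)).mom 1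

theorem real_eq_integral {α : Type} [MeasurableSpace α] (μ : Measure α) {B : Set α}
    (hB : MeasurableSet B) : μ.real B = ∫ x, B.indicator (fun _ => (1 : ℝ)) x ∂μ := by
  rw [integral_indicator hB]; simp

theorem ind_integrable {α β : Type} [MeasurableSpace α] [MeasurableSpace β] (μ : Measure α)
    [IsFiniteMeasure μ] {B : Set β} (hB : MeasurableSet B) {f : α → β} (hf : Measurable f) :
    Integrable (fun x => B.indicator (fun _ => (1 : ℝ)) (f x)) μ := by
  refine (integrable_const (1 : ℝ)).mono'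
    ((measurable_const.indicator hB).comp hf).aestronglyMeasurable (ae_of_all _ fun x => ?_)
  by_cases h : f x ∈ B <;> simp [h]

theorem map_real {α β : Type} [MeasurableSpace α] [MeasurableSpace β] (μ : Measure α)
    {B : Set β} (hB : MeasurableSet B) {f : α → β} (hf : Measurable f) :
    (μ.map f).real B = ∫ x, B.indicator (fun _ => (1 : ℝ)) (f x) ∂μ := by
  rw [real_eq_integral _ hB,
    integral_map hf.aemeasurable (measurable_const.indicator hB).aestronglyMeasurable]

theorem preimage_real {α β : Type} [MeasurableSpace α] [MeasurableSpace β] (μ : Measure α)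
    {B : Set β} (hB : MeasurableSet B) {f : α → β} (hf : Measurable f) :
    μ.real {x | f x ∈ B} = ∫ x, B.indicator (fun _ => (1 : ℝ)) (f x) ∂μ := by
  rw [← map_real μ hB hf, Measure.real, Measure.real, Measure.map_apply hf hB]
  rfl

end GaussA

open GaussA

theorem gam_eq : gam d = ProbabilityTheory.stdGaussian (E d) := by
  apply Measure.ext_of_charFun
  funext t
  rw [charFun_gam, ProbabilityTheory.charFun_stdGaussian]

theorem gam_comb (a b : ℝ) :
    (gam2 d).map (fun p => a • p.1 + b • p.2) = (gam d).map (fun ξ => √(a ^ 2 + b ^ 2) • ξ) := by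
  apply Measure.ext_of_charFun
  funext t
  unfold gam2
  rw [charFun_add_prod (gam d) (gam d) (f := fun ξ => a • ξ) (g := fun ξ => b • ξ) (by fun_prop)
    (by fun_prop), charFun_gam_smul, charFun_gam_smul, charFun_gam_smul, sqrt_sq_cast,
    ← Complex.exp_add]
  congr 1
  ring

theorem p1_of_pm {P : Type} [NormedAddCommGroup P] [MeasurableSpace P] {μ : Measure P}
    (h : PM μ) : P1 μ := ⟨h.prob, by simpa using h.mom 1⟩

theorem gT_p1 (m : E d) (σ : ℝ) : P1 (gT m σ) := by
  refine ⟨inferInstance, ?_⟩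
  unfold gT
  rw [integrable_map_measure (by fun_prop) (by fun_prop)]
  refine ((integrable_const ‖m‖).add (gam_int_norm.const_mul |σ|)).mono' (by fun_prop)
    (ae_of_all _ fun ξ => ?_)
  simp only [Function.comp, norm_norm, Pi.add_apply]
  refine (norm_add_le _ _).trans ?_
  rw [norm_smul, Real.norm_eq_abs]

theorem noisy_p1 {μ : Measure (E d)} (h : P1 μ) (σ : ℝ) : P1 (noisy μ σ) := by
  have := h.1
  refine ⟨inferInstance, ?_⟩
  unfold noisy
  rw [integrable_map_measure (by fun_prop) (by fun_prop)]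
  have h1 : Integrable (fun p : E d × E d => ‖p.1‖) (μ.prod (gam d)) := h.2.comp_fst _
  have h2 : Integrable (fun p : E d × E d => ‖p.2‖) (μ.prod (gam d)) := gam_int_norm.comp_snd _
  refine (h1.add (h2.const_mul |σ|)).mono' (by fun_prop) (ae_of_all _ fun ξ => ?_)
  simp only [Function.comp, norm_norm, Pi.add_apply]
  refine (norm_add_le _ _).trans ?_
  rw [norm_smul, Real.norm_eq_abs]

theorem lip_integrable {α : Type} [MeasurableSpace α] [NormedAddCommGroup α] [BorelSpace α]
    [SecondCountableTopology α] {μ : Measure α} (h : P1 μ) {f : α → ℝ} {L : NNReal}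
    (hf : LipschitzWith L f) : Integrable f μ := by
  have := h.1
  refine ((integrable_const ‖f 0‖).add (h.2.const_mul (L : ℝ))).mono'
    hf.continuous.aestronglyMeasurable (ae_of_all _ fun x => ?_)
  have h1 := hf.dist_le_mul x 0
  rw [dist_eq_norm, dist_zero_right] at h1
  have h2 : ‖f x‖ ≤ ‖f 0‖ + ‖f x - f 0‖ := norm_le_insert' _ _
  simp only [Pi.add_apply]
  linarith

theorem integral_gT {f : E d → ℝ} (hf : Continuous f) (m : E d) (σ : ℝ) :
    ∫ y, f y ∂(gT m σ) = ∫ ξ, f (m + σ • ξ) ∂(gam d) := by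
  unfold gT
  rw [integral_map (by fun_prop) hf.aestronglyMeasurable]

theorem integral_noisy {μ : Measure (E d)} (h : P1 μ) {f : E d → ℝ} {L : NNReal}
    (hf : LipschitzWith L f) (σ : ℝ) :
    ∫ y, f y ∂(noisy μ σ) = ∫ x, ∫ y, f y ∂(gT x σ) ∂μ := by
  have := h.1
  have hi := lip_integrable (noisy_p1 h σ) hf
  unfold noisy at hi ⊢
  rw [integrable_map_measure hf.continuous.aestronglyMeasurable (by fun_prop)] at hi
  rw [integral_map (by fun_prop) hf.continuous.aestronglyMeasurable]
  simp only [integral_gT hf.continuous]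
  exact integral_prod _ hi

theorem gT_lip {f : E d → ℝ} {L : NNReal} (hf : LipschitzWith L f) (σ : ℝ) :
    LipschitzWith L (fun x => ∫ y, f y ∂(gT x σ)) := by
  have hi : ∀ x : E d, Integrable (fun ξ => f (x + σ • ξ)) (gam d) := fun x => by
    have := lip_integrable (gT_p1 x σ) hf
    unfold gT at this
    rwa [integrable_map_measure hf.continuous.aestronglyMeasurable (by fun_prop)] at this
  refine LipschitzWith.of_dist_le_mul fun x y => ?_
  simp only [integral_gT hf.continuous]
  rw [dist_eq_norm, ← integral_sub (hi x) (hi y)]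
  refine (norm_integral_le_of_norm_le_const (C := L * dist x y)
    (ae_of_all _ fun ξ => ?_)).trans (by simp)
  have := hf.dist_le_mul (x + σ • ξ) (y + σ • ξ)
  rwa [dist_add_right, dist_eq_norm] at this

theorem gT_zero (m : E d) : gT m 0 = Measure.dirac m := by
  unfold gT
  simp [Measure.map_const]

theorem gT_affine (m k : E d) (σ c : ℝ) (hσ : 0 ≤ σ) :
    (gT m σ).map (fun y => c • y + k) = gT (c • m + k) (|c| * σ) := by
  have _ := hσ
  apply Measure.ext_of_charFun
  funext t
  have e : (fun y : E d => c • y + k) = fun y => k + c • y := funext fun y => add_comm _ _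
  have ha : ((|c| * σ : ℝ) : ℂ) ^ 2 = (c : ℂ) ^ 2 * (σ : ℂ) ^ 2 := by
    rw [← Complex.ofReal_pow, mul_pow, sq_abs]; push_cast; ring
  rw [e, charFun_affine, charFun_gT, charFun_gT, norm_smul_sq_cast, ha, inner_add_left,
    real_inner_smul_left, real_inner_smul_right]
  simp only [← Complex.exp_add]
  congr 1
  push_cast
  ring

theorem gT_add (x y : E d) (a b : ℝ) :
    ((gT x a).prod (gT y b)).map (fun p => p.1 + p.2) = gT (x + y) √(a ^ 2 + b ^ 2) := by
  apply Measure.ext_of_charFun
  funext t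
  have := charFun_add_prod (gT x a) (gT y b) (f := fun x => x) (g := fun x => x) (by fun_prop)
    (by fun_prop) t
  rw [Measure.map_id', Measure.map_id'] at this
  rw [this, charFun_gT, charFun_gT, charFun_gT, sqrt_sq_cast, inner_add_left]
  simp only [← Complex.exp_add]
  congr 1
  push_cast
  ring

theorem gT_shift (x y : E d) (σ : ℝ) : W1le (gT x σ) (gT y σ) ‖x - y‖ := by
  intro f hf
  have := (gT_lip hf σ).dist_le_mul x y
  rw [dist_eq_norm, dist_eq_norm, Real.norm_eq_abs] at this
  simpa using this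

theorem noisy_gT (x : E d) (a b : ℝ) : noisy (gT x a) b = gT x √(a ^ 2 + b ^ 2) := by
  apply Measure.ext_of_charFun
  funext t
  rw [charFun_noisy, charFun_gT, charFun_gT, sqrt_sq_cast]
  simp only [← Complex.exp_add]
  congr 1
  ring

theorem noisy_noisy {μ : Measure (E d)} [IsProbabilityMeasure μ] (a b : ℝ) :
    noisy (noisy μ a) b = noisy μ √(a ^ 2 + b ^ 2) := by
  apply Measure.ext_of_charFun
  funext t
  rw [charFun_noisy, charFun_noisy, charFun_noisy, sqrt_sq_cast, mul_assoc, ← Complex.exp_add]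
  congr 2
  ring

theorem noisy_affine {μ : Measure (E d)} [IsProbabilityMeasure μ] (k : E d) (σ c : ℝ)
    (hc : 0 ≤ c) :
    (noisy μ σ).map (fun y => k + c • y) = noisy (μ.map fun y => k + c • y) (c * σ) := by
  have _ := hc
  have : IsProbabilityMeasure (μ.map fun y => k + c • y) :=
    Measure.isProbabilityMeasure_map (by fun_prop)
  apply Measure.ext_of_charFun
  funext t
  rw [charFun_affine, charFun_noisy, charFun_noisy, charFun_affine, norm_smul_sq_cast]
  rw [mul_right_comm]
  congr 2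
  push_cast
  ring

theorem noisy_norm {μ : Measure (E d)} (h : P1 μ) (σ : ℝ) :
    ∫ y, ‖y‖ ∂(noisy μ σ) ≤ ∫ y, ‖y‖ ∂μ + |σ| * √(d : ℝ) := by
  have := h.1
  have h1 : Integrable (fun p : E d × E d => ‖p.1‖) (μ.prod (gam d)) := h.2.comp_fst _
  have h2 : Integrable (fun p : E d × E d => ‖p.2‖) (μ.prod (gam d)) := gam_int_norm.comp_snd _
  unfold noisy
  rw [integral_map (by fun_prop) (by fun_prop)]
  calc ∫ p, ‖p.1 + σ • p.2‖ ∂(μ.prod (gam d))
      ≤ ∫ p, (‖p.1‖ + |σ| * ‖p.2‖) ∂(μ.prod (gam d)) := by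
        refine integral_mono_of_nonneg (ae_of_all _ fun p => norm_nonneg _)
          (h1.add (h2.const_mul _)) (ae_of_all _ fun p => ?_)
        refine (norm_add_le _ _).trans ?_
        rw [norm_smul, Real.norm_eq_abs]
    _ = ∫ y, ‖y‖ ∂μ + |σ| * ∫ y, ‖y‖ ∂(gam d) := by
        rw [integral_add h1 (h2.const_mul _), integral_const_mul,
          integral_fun_fst (fun y : E d => ‖y‖), integral_fun_snd (fun y : E d => ‖y‖)]
        simp
    _ ≤ _ := by
        have := gam_norm (d := d)
        gcongr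

theorem tv_shift {U : E d → ℝ} (hU : Conf U) (h1 : ContDiff ℝ 1 U) (hp : PolyG (fderiv ℝ U))
    {B : Set (E d)} (hB : MeasurableSet B) (v : E d) :
    |(gib U).real {x | x + v ∈ B} - (gib U).real B| ≤ ‖v‖ * ∫ y, ‖fderiv ℝ U y‖ ∂(gib U) := by
  have hZ := conf_Z_pos hU
  have hUc : Continuous U := hU.1
  have hDc : Continuous (fderiv ℝ U) := h1.continuous_fderiv (by norm_num)
  set ρ : E d → ℝ := fun y => Real.exp (-U y) with hρ
  set g : E d → ℝ := fun y => Real.exp (-U y) • ‖fderiv ℝ U y‖ with hg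
  have hρi : Integrable ρ := conf_integrable_exp hU
  have hgi : Integrable g := conf_integrable hU hDc.norm.aestronglyMeasurable (polyG_norm hp)
  have hgc : Continuous g := by simp only [hg]; fun_prop
  have hg0 : ∀ y, 0 ≤ g y := fun y => by simp only [hg, smul_eq_mul]; positivity
  set χ : E d → ℝ := B.indicator (fun _ => (1 : ℝ)) with hχ
  have hχm : Measurable χ := measurable_const.indicator hB
  have hχ1 : ∀ x, |χ x| ≤ 1 := fun x => by by_cases h : x ∈ B <;> simp [hχ, h]
  -- pointwise bound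
  have pt : ∀ x, |ρ (x - v) - ρ x| ≤ ∫ t in Ioc (0 : ℝ) 1, ‖v‖ * g (x - t • v) := by
    intro x
    have hd : ∀ t : ℝ, HasDerivAt (fun t : ℝ => ρ (x - t • v))
        (Real.exp (-U (x - t • v)) * (fderiv ℝ U (x - t • v) v)) t := fun t => by
      have a1 : HasDerivAt (fun t : ℝ => x - t • v) (-v) t := by
        simpa using ((hasDerivAt_id t).smul_const v).const_sub x
      have a2 := ((h1.differentiable (by norm_num) (x - t • v)).hasFDerivAt.comp_hasDerivAt t
        a1).neg.exp
      simpa using a2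
    have hc : Continuous fun t : ℝ =>
        Real.exp (-U (x - t • v)) * (fderiv ℝ U (x - t • v) v) := by fun_prop
    have ftc := intervalIntegral.integral_eq_sub_of_hasDerivAt (a := 0) (b := 1)
      (fun t _ => hd t) (hc.intervalIntegrable _ _)
    simp only [one_smul, zero_smul, sub_zero] at ftc
    rw [← ftc, ← intervalIntegral.integral_of_le zero_le_one, ← Real.norm_eq_abs]
    refine intervalIntegral.norm_integral_le_of_norm_le zero_le_one
      (ae_of_all _ fun t _ => ?_) (Continuous.intervalIntegrable (by fun_prop) _ _)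
    rw [norm_mul, Real.norm_of_nonneg (Real.exp_pos _).le]
    have := (fderiv ℝ U (x - t • v)).le_opNorm v
    simp only [hg, smul_eq_mul]
    nlinarith [Real.exp_pos (-U (x - t • v))]
  have hprod : Integrable (Function.uncurry fun (x : E d) (t : ℝ) => ‖v‖ * g (x - t • v))
      ((volume : Measure (E d)).prod (volume.restrict (Ioc (0 : ℝ) 1))) := by
    rw [integrable_prod_iff' (Continuous.aestronglyMeasurable (by
      unfold Function.uncurry; fun_prop))]
    refine ⟨ae_of_all _ fun t => ?_, ?_⟩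
    · exact (hgi.comp_sub_right (t • v)).const_mul _
    · have : (fun t : ℝ => ∫ x : E d,
          ‖Function.uncurry (fun (x : E d) (t : ℝ) => ‖v‖ * g (x - t • v)) (x, t)‖) =
          fun _ => ∫ x : E d, ‖‖v‖ * g x‖ := by
        funext t
        exact integral_sub_right_eq_self (fun x => ‖‖v‖ * g x‖) (t • v)
      rw [this]
      exact integrable_const _
  have tot : ∫ x, |ρ (x - v) - ρ x| ≤ ‖v‖ * ∫ x, g x := by
    calc ∫ x, |ρ (x - v) - ρ x| ≤ ∫ x, ∫ t in Ioc (0 : ℝ) 1, ‖v‖ * g (x - t • v) :=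
          integral_mono_of_nonneg (ae_of_all _ fun x => abs_nonneg _)
            hprod.integral_prod_left (ae_of_all _ pt)
      _ = ∫ t in Ioc (0 : ℝ) 1, ∫ x, ‖v‖ * g (x - t • v) := integral_integral_swap hprod
      _ = ∫ t in Ioc (0 : ℝ) 1, ∫ x, ‖v‖ * g x := by
          congr 1
          funext t
          exact integral_sub_right_eq_self (fun x => ‖v‖ * g x) (t • v)
      _ = ‖v‖ * ∫ x, g x := by
          rw [integral_const_mul]; simp
  have bdd : ∀ {f : E d → ℝ}, Integrable f → Integrable (fun x => f x • χ x) := fun hf => by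
    refine hf.norm.mono' (hf.aestronglyMeasurable.smul hχm.aestronglyMeasurable)
      (ae_of_all _ fun x => ?_)
    rw [norm_smul]
    exact mul_le_of_le_one_right (norm_nonneg _) (hχ1 x)
  have e1 : (gib U).real {x | x + v ∈ B} = (∫ y, ρ y)⁻¹ * ∫ x, ρ (x - v) • χ x := by
    rw [preimage_real (gib U) hB (f := fun x => x + v) (by fun_prop), integral_gib, smul_eq_mul]
    congr 1
    rw [← integral_add_right_eq_self (fun x => ρ (x - v) • χ x) v]
    simp [hρ, hχ]
  have e2 : (gib U).real B = (∫ y, ρ y)⁻¹ * ∫ x, ρ x • χ x := by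
    rw [real_eq_integral _ hB, integral_gib, smul_eq_mul]
  rw [e1, e2, integral_gib, ← mul_sub, ← integral_sub (bdd (hρi.comp_sub_right v)) (bdd hρi),
    abs_mul, abs_of_pos (inv_pos.2 hZ), smul_eq_mul, mul_left_comm]
  refine mul_le_mul_of_nonneg_left (le_trans ?_ tot) (inv_pos.2 hZ).le
  rw [← Real.norm_eq_abs]
  refine norm_integral_le_of_norm_le ((hρi.comp_sub_right v).sub hρi).abs
    (ae_of_all _ fun x => ?_)
  rw [← sub_smul, norm_smul]
  exact mul_le_of_le_one_right (norm_nonneg _) (hχ1 x)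

/-- smoothing an indicator by Gaussian noise gives a Lipschitz function -/
theorem gT_real_lip {B : Set (E d)} (hB : MeasurableSet B) {σ : ℝ} (hσ : 0 < σ) (x y : E d) :
    |(gT x σ).real B - (gT y σ).real B| ≤ √(d : ℝ) / σ * ‖x - y‖ := by
  have hf : fderiv ℝ (fun y : E d => ‖y‖ ^ 2 / 2) = fun y => innerSL ℝ y :=
    funext fun y => (TiltA.hasFDerivAt_half_sq y).fderiv
  have hc : ContDiff ℝ 1 (fun y : E d => ‖y‖ ^ 2 / 2) := (contDiff_norm_sq ℝ).div_const 2
  have hp : PolyG (fderiv ℝ (fun y : E d => ‖y‖ ^ 2 / 2)) := by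
    rw [hf]
    exact polyG_of_le polyG_id fun y => (innerSL_apply_norm ℝ y).le
  have hB' : MeasurableSet {ξ : E d | y + σ • ξ ∈ B} :=
    (show Measurable fun ξ : E d => y + σ • ξ by fun_prop) hB
  have key := tv_shift gam_conf hc hp hB' (σ⁻¹ • (x - y))
  have e1 : (gT x σ).real B =
      (gam d).real {ξ | ξ + σ⁻¹ • (x - y) ∈ {ξ : E d | y + σ • ξ ∈ B}} := by
    unfold gT
    rw [Measure.real, Measure.real, Measure.map_apply (by fun_prop) hB]
    congr 2
    ext ξ
    simp only [mem_preimage, mem_ofPred_eq, smul_add, smul_smul, mul_inv_cancel₀ hσ.ne', one_smul]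
    rw [show y + (σ • ξ + (x - y)) = x + σ • ξ by abel]
  have e2 : (gT y σ).real B = (gam d).real {ξ : E d | y + σ • ξ ∈ B} := by
    unfold gT
    rw [Measure.real, Measure.real, Measure.map_apply (by fun_prop) hB]
    rfl
  rw [e1, e2]
  refine le_trans key ?_
  simp only [hf, innerSL_apply_norm]
  have hn : ∫ y : E d, ‖y‖ ∂(gib fun y : E d => ‖y‖ ^ 2 / 2) ≤ √(d : ℝ) := gam_norm
  rw [norm_smul, Real.norm_of_nonneg (inv_pos.2 hσ).le]
  calc σ⁻¹ * ‖x - y‖ * ∫ y : E d, ‖y‖ ∂(gib fun y : E d => ‖y‖ ^ 2 / 2)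
      ≤ σ⁻¹ * ‖x - y‖ * √(d : ℝ) := by gcongr
    _ = _ := by ring

theorem noisy_real {μ : Measure (E d)} [IsProbabilityMeasure μ] {B : Set (E d)}
    (hB : MeasurableSet B) (σ : ℝ) : (noisy μ σ).real B = ∫ x, (gT x σ).real B ∂μ := by
  have hm : Measurable fun p : E d × E d => p.1 + σ • p.2 := by fun_prop
  unfold noisy gT
  rw [map_real _ hB hm, integral_prod _ (ind_integrable _ hB hm)]
  congr 1
  funext x
  rw [map_real _ hB (by fun_prop)]

/-- adding a small Gaussian noise changes the Gibbs measure little in total variation -/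
theorem noisy_tv {V : E d → ℝ} (h : Pot 2 V) (hs : SC 1 V) (h0 : gradient V 0 = 0)
    {B : Set (E d)} (hB : MeasurableSet B) (σ : ℝ) :
    |(noisy (gib V) σ).real B - (gib V).real B| ≤ 2 * |σ| * d := by
  have hconf : Conf V := sc_conf one_pos h.c2.continuous hs
  have hpm := gib_pm hconf
  have := hpm.prob
  have hV1 : ContDiff ℝ 1 V := h.c2.of_le (by norm_num)
  have hm : Measurable fun p : E d × E d => p.1 + σ • p.2 := by fun_prop
  have hi := ind_integrable ((gib V).prod (gam d)) hB hm
  have e1 : (noisy (gib V) σ).real B = ∫ ξ, (gib V).real {x | x + σ • ξ ∈ B} ∂(gam d) := by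
    unfold noisy
    rw [map_real _ hB hm, integral_prod_symm _ hi]
    congr 1
    funext ξ
    rw [preimage_real (gib V) hB (f := fun x => x + σ • ξ) (by fun_prop)]
  have hi2 : Integrable (fun ξ => (gib V).real {x | x + σ • ξ ∈ B}) (gam d) := by
    refine hi.integral_prod_right.congr (ae_of_all _ fun ξ => ?_)
    exact (preimage_real (gib V) hB (f := fun x => x + σ • ξ) (by fun_prop)).symm
  have hD : ∫ y, ‖fderiv ℝ V y‖ ∂(gib V) ≤ 2 * √(d : ℝ) := by
    calc ∫ y, ‖fderiv ℝ V y‖ ∂(gib V) ≤ ∫ y, 2 * ‖y‖ ∂(gib V) := by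
          refine integral_mono_of_nonneg (ae_of_all _ fun y => norm_nonneg _)
            ((p1_of_pm hpm).2.const_mul 2) (ae_of_all _ fun y => ?_)
          have := h.lip y 0
          rw [h0, sub_zero, sub_zero] at this
          unfold gradient at this
          rwa [LinearIsometryEquiv.norm_map] at this
      _ ≤ _ := by
          rw [integral_const_mul]
          have := pi_norm h hs h0
          linarith
  have e2 : (noisy (gib V) σ).real B - (gib V).real B =
      ∫ ξ, ((gib V).real {x | x + σ • ξ ∈ B} - (gib V).real B) ∂(gam d) := by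
    rw [integral_sub hi2 (integrable_const _), e1]; simp
  rw [e2, ← Real.norm_eq_abs]
  have hsq : √(d : ℝ) * √(d : ℝ) = d := Real.mul_self_sqrt (Nat.cast_nonneg _)
  calc ‖∫ ξ, ((gib V).real {x | x + σ • ξ ∈ B} - (gib V).real B) ∂(gam d)‖
      ≤ ∫ ξ, (|σ| * (2 * √(d : ℝ))) * ‖ξ‖ ∂(gam d) := by
        refine norm_integral_le_of_norm_le (gam_int_norm.const_mul _) (ae_of_all _ fun ξ => ?_)
        refine (tv_shift hconf hV1 (pot_fderiv_polyG h) hB (σ • ξ)).trans ?_
        rw [norm_smul, Real.norm_eq_abs]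
        calc |σ| * ‖ξ‖ * ∫ y, ‖fderiv ℝ V y‖ ∂(gib V) ≤ |σ| * ‖ξ‖ * (2 * √(d : ℝ)) := by gcongr
          _ = _ := by ring
    _ ≤ (|σ| * (2 * √(d : ℝ))) * √(d : ℝ) := by
        rw [integral_const_mul]
        have := gam_norm (d := d)
        gcongr
    _ = 2 * |σ| * d := by rw [mul_assoc, mul_assoc, hsq]; ring

end Crest.Agent.R285
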