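import Crest.Agent.R285.FlowM
import Crest.Agent.R285.DCalcB
import Crest.Agent.R285.MuR

/-!
# R285 Transport: the flow pushes `gam` to `mu W r`.

* `flow_nat`: for fixed `o` let `e_i ρ = dv (JT ρ) i o - Ur W i (ρ, Φ (ρ, o))`.  Then `e 0 = 0` and
  `e_i' = ρ ∑_a hF i a e_a`: use `jt_ode`, `pd_comm` for the first term, with
  `∑_c JT a c ∂_c (hF i a) = (∂_{y_a} lift (H i a)) (ρ, Φ)` (chain rule and `pp_jt`); `dd_flow`, `dd_gc` for
  the second one (`DD (Ur i) = ρ DD (lift (Gc i))`).  Uniqueness for linear ODE (Gronwall,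
  `norm_le_gronwallBound_of_norm_deriv_right_le` with bounded continuous coefficients).
* `score_unique`: `ρ' = ρ.withDensity (exp ∘ U)` is locally finite and `∫ ∂_c ψ dρ' = 0` for `ψ ∈ C¹_c`,
  so `v ↦ ∫ ψ (y + v) dρ'` is constant; convolving a continuous compactly supported function with a
  bump shows `ρ'` is translation invariant, hence a multiple of `volume`
  (`Measure.isAddLeftInvariant_eq_smul`, or directly).
* `flow_map`: `∫ ∂_i φ (Φ o) dγ = ∑_c ∫ ∂_c (φ ∘ Φ) JT i c dγ = ∫ φ (Φ o) dv (JT) i dγ` (`ibp_gam`,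
  `flow_tg`, `pp_jt`), `flow_nat`, `score_unique`, `mu_conf`, `mu_pot_pd`.
-/

set_option autoImplicit false

namespace Crest.Agent.R285

open MeasureTheory Set
open scoped ContDiff

namespace TransportA

/-- two locally finite measures with the same integrals against test functions agree -/
theorem ext_smooth {d : ℕ} {μ ν : Measure (E d)} [IsLocallyFiniteMeasure μ]
    [IsLocallyFiniteMeasure ν]
    (h : ∀ g : E d → ℝ, ContDiff ℝ ∞ g → HasCompactSupport g → ∫ x, g x ∂μ = ∫ x, g x ∂ν) :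
    μ = ν := by
  have hμ : μ ≪ μ + ν := Measure.absolutelyContinuous_of_le (Measure.le_add_right le_rfl)
  have hν : ν ≪ μ + ν := Measure.absolutelyContinuous_of_le (Measure.le_add_left le_rfl)
  have li : ∀ (τ : Measure (E d)) [IsLocallyFiniteMeasure τ],
      LocallyIntegrable (fun x => (τ.rnDeriv (μ + ν) x).toReal) (μ + ν) := by
    intro τ _
    rw [locallyIntegrable_iff]
    intro K hK
    exact Measure.integrableOn_toReal_rnDeriv hK.measure_lt_top.ne
  have hae := ae_eq_of_integral_contDiff_smul_eq (li μ) (li ν) (fun g hg hc => by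
    have e1 := integral_toReal_rnDeriv_mul hμ (f := g)
    have e2 := integral_toReal_rnDeriv_mul hν (f := g)
    simp only [smul_eq_mul]
    simp_rw [mul_comm (g _)]
    rw [e1, e2, h g hg hc])
  have hae' : μ.rnDeriv (μ + ν) =ᵐ[μ + ν] ν.rnDeriv (μ + ν) := by
    filter_upwards [hae, Measure.rnDeriv_lt_top μ (μ + ν), Measure.rnDeriv_lt_top ν (μ + ν)]
      with x hx h1 h2
    exact (ENNReal.toReal_eq_toReal_iff' h1.ne h2.ne).1 hx
  calc μ = (μ + ν).withDensity (μ.rnDeriv (μ + ν)) := (Measure.withDensity_rnDeriv_eq _ _ hμ).symm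
    _ = (μ + ν).withDensity (ν.rnDeriv (μ + ν)) := withDensity_congr_ae hae'
    _ = ν := Measure.withDensity_rnDeriv_eq _ _ hν

theorem fderiv_sum_bv {d : ℕ} {F : Type} [NormedAddCommGroup F] [NormedSpace ℝ F]
    (L : E d →L[ℝ] F) (v : E d) : L v = ∑ c, v c • L (bv c) := by
  conv_lhs => rw [eq_sum_bv v]
  simp

/-- translation invariance of the integrals of test functions -/
theorem shift_inv {d : ℕ} {μ : Measure (E d)} [IsLocallyFiniteMeasure μ]
    (h : ∀ (c : Fin d) (φ : E d → ℝ), ContDiff ℝ 1 φ → HasCompactSupport φ →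
      ∫ y, pd (bv c) φ y ∂μ = 0)
    {ψ : E d → ℝ} (h1 : ContDiff ℝ 1 ψ) (hc : HasCompactSupport ψ) (v : E d) :
    ∫ y, ψ (v + y) ∂μ = ∫ y, ψ y ∂μ := by
  have hfc : Continuous (fderiv ℝ ψ) := h1.continuous_fderiv one_ne_zero
  have hfs : HasCompactSupport (fderiv ℝ ψ) := hc.fderiv ℝ
  obtain ⟨M, hM⟩ := hfc.bounded_above_of_compact_support hfs
  obtain ⟨R, hR⟩ := hfs.isCompact.isBounded.subset_closedBall 0
  have hM0 : 0 ≤ M := (norm_nonneg _).trans (hM 0)
  -- shifted functions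
  have sh1 : ∀ w : E d, ContDiff ℝ 1 (fun y => ψ (w + y)) := fun w =>
    h1.comp (contDiff_const.add contDiff_id)
  have shc : ∀ w : E d, HasCompactSupport (fun y => ψ (w + y)) := fun w =>
    hc.comp_homeomorph (Homeomorph.addLeft w)
  have shf : ∀ w y : E d, fderiv ℝ (fun y => ψ (w + y)) y = fderiv ℝ ψ (w + y) := fun w y =>
    fderiv_comp_add_left w
  have hz : ∀ w : E d, ∫ y, fderiv ℝ ψ (w + y) v ∂μ = 0 := by
    intro w
    have e : (fun y => fderiv ℝ ψ (w + y) v) =
        fun y => ∑ c, v c * pd (bv c) (fun y => ψ (w + y)) y := by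
      funext y
      rw [fderiv_sum_bv]
      simp only [pd, shf, smul_eq_mul]
    rw [e, integral_finsetSum]
    · refine Finset.sum_eq_zero fun c _ => ?_
      rw [integral_const_mul, h c _ (sh1 w) (shc w), mul_zero]
    · intro c _
      refine Integrable.const_mul ?_ _
      refine Continuous.integrable_of_hasCompactSupport ?_ ?_
      · exact ((sh1 w).continuous_fderiv one_ne_zero).clm_apply continuous_const
      · exact (shc w).fderiv_apply ℝ _
  have hd : ∀ t : ℝ, HasDerivAt (fun t : ℝ => ∫ y, ψ (t • v + y) ∂μ) 0 t := by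
    intro t0
    have key := hasDerivAt_integral_of_dominated_loc_of_deriv_le (μ := μ) (x₀ := t0)
      (F := fun t y => ψ (t • v + y)) (F' := fun t y => fderiv ℝ ψ (t • v + y) v)
      (s := Metric.ball t0 1)
      (bound := (Metric.closedBall (0 : E d) (R + (|t0| + 1) * ‖v‖)).indicator fun _ => M * ‖v‖)
      (Metric.ball_mem_nhds t0 one_pos)
      (Filter.Eventually.of_forall fun t => (sh1 _).continuous.aestronglyMeasurable)
      ((sh1 _).continuous.integrable_of_hasCompactSupport (shc _))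
      (((hfc.comp (continuous_const.add continuous_id)).clm_apply
        continuous_const).aestronglyMeasurable)
      (Filter.Eventually.of_forall fun y t ht => ?_)
      ((integrable_indicator_iff measurableSet_closedBall).2
        (integrableOn_const (isCompact_closedBall _ _).measure_lt_top.ne))
      (Filter.Eventually.of_forall fun y t _ => ?_)
    · have := key.2
      rwa [hz] at this
    · by_cases hy : y ∈ Metric.closedBall (0 : E d) (R + (|t0| + 1) * ‖v‖)
      · rw [indicator_of_mem hy]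
        exact ((fderiv ℝ ψ _).le_opNorm v).trans
          (mul_le_mul_of_nonneg_right (hM _) (norm_nonneg v))
      · rw [indicator_of_notMem hy]
        have hn : t • v + y ∉ tsupport (fderiv ℝ ψ) := by
          intro hm
          apply hy
          have h2 := hR hm
          rw [mem_closedBall_zero_iff] at h2 ⊢
          have h3 : |t| ≤ |t0| + 1 := by
            have := mem_ball_iff_norm.1 ht
            rw [Real.norm_eq_abs] at this
            have h4 := abs_sub_abs_le_abs_sub t t0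
            linarith
          have h5 : ‖t • v‖ ≤ (|t0| + 1) * ‖v‖ := by
            rw [norm_smul, Real.norm_eq_abs]
            exact mul_le_mul_of_nonneg_right h3 (norm_nonneg v)
          have h6 : ‖y‖ ≤ ‖t • v + y‖ + ‖t • v‖ := by
            simpa using norm_sub_le (t • v + y) (t • v)
          linarith
        rw [image_eq_zero_of_notMem_tsupport hn]
        simp
    · have a1 : HasDerivAt (fun t : ℝ => t • v + y) v t := by
        simpa using ((hasDerivAt_id t).smul_const v).add_const y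
      exact ((h1.differentiable one_ne_zero) _).hasFDerivAt.comp_hasDerivAt t a1
  have := is_const_of_deriv_eq_zero (fun t => (hd t).differentiableAt) (fun t => (hd t).deriv) 1 0
  simpa using this

theorem dAt {d : ℕ} {F : Type} [NormedAddCommGroup F] [NormedSpace ℝ F] {ψ : ℝ × E d → F}
    (h : ContDiffOn ℝ ∞ ψ (OO d)) {p : ℝ × E d} (hp : p ∈ OO d) : DifferentiableAt ℝ ψ p :=
  (h.contDiffAt ((isOpen_OO d).mem_nhds hp)).differentiableAt (by simp)

theorem hasDeriv_fst {d : ℕ} {ψ : ℝ × E d → ℝ} {r : ℝ} {o : E d}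
    (h : DifferentiableAt ℝ ψ (r, o)) : HasDerivAt (fun r => ψ (r, o)) (pd (1, 0) ψ (r, o)) r := by
  have a1 : HasDerivAt (fun r : ℝ => (r, o)) ((1 : ℝ), (0 : E d)) r :=
    (hasDerivAt_id r).prodMk (hasDerivAt_const r o)
  exact h.hasFDerivAt.comp_hasDerivAt r a1

theorem fderiv_xd {d : ℕ} (L : ℝ × E d →L[ℝ] ℝ) (w : E d) : L (0, w) = ∑ b, w b * L (xd b) := by
  have := fderiv_sum_bv (L.comp (ContinuousLinearMap.inr ℝ ℝ (E d))) w
  simpa [xd] using this

theorem coord_smooth {d : ℕ} (c : Fin d) : ContDiff ℝ ∞ fun p : ℝ × E d => p.2 c :=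
  (EuclideanSpace.proj c : E d →L[ℝ] ℝ).contDiff.comp contDiff_snd

theorem fderiv_coord2 {d : ℕ} (c : Fin d) (p v : ℝ × E d) :
    fderiv ℝ (fun p : ℝ × E d => p.2 c) p v = v.2 c := by
  have : (fun p : ℝ × E d => p.2 c) =
      ((EuclideanSpace.proj c : E d →L[ℝ] ℝ).comp (ContinuousLinearMap.snd ℝ ℝ (E d))) := rfl
  rw [this, ContinuousLinearMap.fderiv]
  rfl

theorem pd_xd_fst {d : ℕ} (c : Fin d) (p : ℝ × E d) : pd (xd c) (fun p : ℝ × E d => p.1) p = 0 := by
  simp only [pd]
  rw [fderiv_fst]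
  rfl

variable {d : ℕ} {W : E d → ℝ} {δ : ℝ} {Φ : ℝ × E d → E d}

theorem pp_eq (hΦ : IsFlow W Φ) {p : ℝ × E d} (hp : p ∈ OO d) (b c : Fin d) :
    PP Φ b c p = fderiv ℝ Φ p (xd c) b := by
  have h := (dAt hΦ.smooth hp).hasFDerivAt
  have h2 := (EuclideanSpace.proj b : E d →L[ℝ] ℝ).hasFDerivAt.comp p h
  have h3 : fderiv ℝ (fun p => Φ p b) p = _ := h2.fderiv
  simp only [PP, pd]
  rw [h3]
  rfl

/-- chain rule for `χ (p.1, Φ p)` in the space directions -/
theorem pd_along (hΦ : IsFlow W Φ) {χ : ℝ × E d → ℝ} (hχ : ContDiffOn ℝ ∞ χ (OO d))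
    {p : ℝ × E d} (hp : p ∈ OO d) (c : Fin d) :
    pd (xd c) (fun p => χ (p.1, Φ p)) p = ∑ b, PP Φ b c p * pd (xd b) χ (p.1, Φ p) := by
  have h := (dAt hΦ.smooth hp).hasFDerivAt
  have hq : ((p.1, Φ p) : ℝ × E d) ∈ OO d := hp
  have h1 : HasFDerivAt (fun p : ℝ × E d => (p.1, Φ p))
      ((ContinuousLinearMap.fst ℝ ℝ (E d)).prod (fderiv ℝ Φ p)) p := hasFDerivAt_fst.prodMk h
  have h2 := (dAt hχ hq).hasFDerivAt.comp p h1
  have h3 : fderiv ℝ (fun p => χ (p.1, Φ p)) p = _ := h2.fderiv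
  simp only [pd]
  rw [h3]
  simp only [ContinuousLinearMap.comp_apply, ContinuousLinearMap.prod_apply]
  have : (ContinuousLinearMap.fst ℝ ℝ (E d)) (xd c) = 0 := rfl
  rw [this, fderiv_xd]
  exact Finset.sum_congr rfl fun b _ => by rw [pp_eq hΦ hp]

/-- the divergence of the inverse Jacobian, as a function of `(r, o)` -/
noncomputable def AJ (Φ : ℝ × E d → E d) (i : Fin d) : ℝ × E d → ℝ :=
  fun p => ∑ c, (p.2 c * JT Φ i c p - pd (xd c) (JT Φ i c) p)

theorem AJ_sl (hW : Pot δ W) (hδ : δ ≤ 1 / 4) (hΦ : IsFlow W Φ) {r : ℝ} (hr : |r| < 1) (i : Fin d)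
    (o : E d) : dv bv (U0 d) (unc (slM r (JT Φ))) i o = AJ Φ i (r, o) := by
  unfold dv AJ
  refine Finset.sum_congr rfl fun c _ => ?_
  have hp : ((r, o) : ℝ × E d) ∈ OO d := hr
  rw [← pd_sl (dAt (jt_smooth hW hδ hΦ i c) hp) c]
  rfl

theorem AJ_smooth (hW : Pot δ W) (hδ : δ ≤ 1 / 4) (hΦ : IsFlow W Φ) (i : Fin d) :
    ContDiffOn ℝ ∞ (AJ Φ i) (OO d) :=
  ContDiffOn.sum fun c _ => ((coord_smooth c).contDiffOn.mul (jt_smooth hW hδ hΦ i c)).sub
    (pd_contDiffOn (isOpen_OO d) (jt_smooth hW hδ hΦ i c) _)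

theorem AJ_ode (hW : Pot δ W) (hδ : δ ≤ 1 / 4) (hΦ : IsFlow W Φ) (i : Fin d) {p : ℝ × E d}
    (hp : p ∈ OO d) : pd (1, 0) (AJ Φ i) p =
      p.1 * ∑ a, (hF W Φ i a p * AJ Φ a p - pd (xd a) (lift (Hm W i a)) (p.1, Φ p)) := by
  have hJ := jt_smooth hW hδ hΦ
  have hH := hF_smooth hW hΦ
  have hO := isOpen_OO d
  have hL : ∀ a, ContDiffOn ℝ ∞ (lift (Hm W i a)) (OO d) := fun a => lift_smooth (hm_smooth hW i a)
  have e1 : pd (1, 0) (AJ Φ i) p =
      ∑ c, (p.2 c * pd (1, 0) (JT Φ i c) p - pd (xd c) (pd (1, 0) (JT Φ i c)) p) := by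
    unfold AJ
    rw [pd_sum]
    · refine Finset.sum_congr rfl fun c _ => ?_
      rw [pd_sub _ (dAt ((coord_smooth c).contDiffOn.mul (hJ i c)) hp)
        (dAt (pd_contDiffOn hO (hJ i c) _) hp),
        pd_mul _ (dAt (coord_smooth c).contDiffOn hp) (dAt (hJ i c) hp), pd_comm hO (hJ i c) _ _ hp]
      have : pd (1, 0) (fun p : ℝ × E d => p.2 c) p = 0 := by
        simp only [pd]
        rw [fderiv_coord2]
        rfl
      rw [this]
      ring
    · intro c
      exact dAt (((coord_smooth c).contDiffOn.mul (hJ i c)).sub (pd_contDiffOn hO (hJ i c) _)) hp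
  have e2 : ∀ c, pd (xd c) (pd (1, 0) (JT Φ i c)) p = p.1 * ∑ a,
      (pd (xd c) (hF W Φ i a) p * JT Φ a c p + hF W Φ i a p * pd (xd c) (JT Φ a c) p) := by
    intro c
    have hE : EqOn (pd (1, 0) (JT Φ i c))
        (fun p => p.1 * ∑ a, hF W Φ i a p * JT Φ a c p) (OO d) :=
      fun q hq => jt_ode hW hδ hΦ hq i c
    rw [pd_congr hO hE _ hp, pd_mul _ differentiableAt_fst
      (dAt (ContDiffOn.sum fun a _ => (hH i a).mul (hJ a c)) hp), pd_xd_fst,
      pd_sum _ fun a => dAt ((hH i a).mul (hJ a c)) hp]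
    rw [zero_mul, zero_add]
    congr 1
    exact Finset.sum_congr rfl fun a _ => pd_mul _ (dAt (hH i a) hp) (dAt (hJ a c) hp)
  have e3 : ∀ a, ∑ c, pd (xd c) (hF W Φ i a) p * JT Φ a c p =
      pd (xd a) (lift (Hm W i a)) (p.1, Φ p) := by
    intro a
    have : ∀ c, pd (xd c) (hF W Φ i a) p =
        ∑ b, PP Φ b c p * pd (xd b) (lift (Hm W i a)) (p.1, Φ p) := fun c =>
      pd_along hΦ (hL a) hp c
    simp_rw [this, Finset.sum_mul]
    rw [Finset.sum_comm]
    have h2 : ∀ b, ∑ c, PP Φ b c p * pd (xd b) (lift (Hm W i a)) (p.1, Φ p) * JT Φ a c p =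
        pd (xd b) (lift (Hm W i a)) (p.1, Φ p) * kd b a := by
      intro b
      rw [← pp_jt hW hδ hΦ hp b a, Finset.mul_sum]
      exact Finset.sum_congr rfl fun c _ => by ring
    simp_rw [h2]
    exact sum_mul_kd a fun b => pd (xd b) (lift (Hm W i a)) (p.1, Φ p)
  rw [e1]
  simp_rw [e2, jt_ode hW hδ hΦ hp, ← e3]
  unfold AJ
  simp only [Finset.mul_sum, ← Finset.sum_sub_distrib]
  rw [Finset.sum_comm]
  exact Finset.sum_congr rfl fun a _ => Finset.sum_congr rfl fun c _ => by ring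

theorem dd_ur (hW : Pot δ W) (i : Fin d) {p : ℝ × E d} (hp : p ∈ OO d) :
    DD W (Ur W i) p =
      p.1 * ∑ a, (lift (Hm W i a) p * Ur W a p - pd (xd a) (lift (Hm W i a)) p) := by
  have hG : ContDiffOn ℝ ∞ (lift (Gc W i)) (OO d) := lift_smooth (gc_smooth hW i)
  have e0 : Ur W i = fun p => p.2 i + p.1 * lift (Gc W i) p := rfl
  have e1 : DD W (fun p : ℝ × E d => p.2 i) p = -lift (Gc W i) p := by
    simp only [DD]
    rw [fderiv_coord2]
    rfl
  rw [e0, dd_add (coord_smooth i).contDiffOn (contDiffOn_fst.mul hG) hp, dd_rmul hG hp, e1,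
    dd_gc hW hp]
  unfold dv
  rw [neg_add_cancel_left]
  congr 1
  refine Finset.sum_congr rfl fun a _ => ?_
  rw [mul_comm]
  rfl

end TransportA

open TransportA

theorem flow_nat {d : ℕ} {W : E d → ℝ} {δ : ℝ} {Φ : ℝ × E d → E d} (hW : Pot δ W)
    (hδ : δ ≤ 1 / 4) (hΦ : IsFlow W Φ) {r : ℝ} (h0 : 0 ≤ r) (h1 : r < 1) (i : Fin d) (o : E d) :
    dv bv (U0 d) (unc (slM r (JT Φ))) i o = Ur W i (r, Φ (r, o)) := by
  have habs : ∀ ρ ∈ Icc 0 r, |ρ| < 1 := fun ρ hρ => by
    rw [abs_of_nonneg hρ.1]; exact hρ.2.trans_lt h1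
  set e : ℝ → Fin d → ℝ := fun ρ i => AJ Φ i (ρ, o) - Ur W i (ρ, Φ (ρ, o)) with he
  set e' : ℝ → Fin d → ℝ := fun ρ i => ρ * ∑ a, hF W Φ i a (ρ, o) * e ρ a with he'
  have hd : ∀ ρ, |ρ| < 1 → HasDerivAt e (e' ρ) ρ := by
    intro ρ hρ
    have hp : ((ρ, o) : ℝ × E d) ∈ OO d := hρ
    have hq : ((ρ, Φ (ρ, o)) : ℝ × E d) ∈ OO d := hρ
    rw [hasDerivAt_pi]
    intro i
    have a1 := hasDeriv_fst (dAt (AJ_smooth hW hδ hΦ i) hp)
    have a2 := dd_flow hΦ (ur_smooth hW i) hρ o
    rw [AJ_ode hW hδ hΦ i hp] at a1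
    rw [dd_ur hW i hq] at a2
    refine (a1.fun_sub a2).congr_deriv ?_
    simp only [he, he', hF]
    rw [← mul_sub, ← Finset.sum_sub_distrib]
    congr 1
    exact Finset.sum_congr rfl fun a _ => by ring
  have hz : e 0 = 0 := by
    funext i
    have hp : (((0 : ℝ), o) : ℝ × E d) ∈ OO d := by simp [OO]
    have a1 : ∀ c, pd (xd c) (JT Φ i c) (0, o) = 0 := by
      intro c
      rw [← pd_sl (dAt (jt_smooth hW hδ hΦ i c) hp) c]
      have : sl 0 (JT Φ i c) = fun _ => kd i c := funext fun y => jt_init hΦ y i c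
      rw [this, pd_const]
    simp only [he, AJ, Ur, a1, jt_init hΦ, hΦ.init, sub_zero, zero_mul, add_zero, Pi.zero_apply]
    simp_rw [mul_comm (o _)]
    rw [sum_kd_mul i fun c => o c, sub_self]
  have key := eq_zero_of_abs_deriv_le_mul_abs_self_of_eq_zero_right (f := e) (f' := e') (a := 0)
    (b := r) (K := d * |δ|)
    (fun ρ hρ => (hd ρ (habs ρ hρ)).continuousAt.continuousWithinAt)
    (fun ρ hρ => (hd ρ (habs ρ (Ico_subset_Icc_self hρ))).hasDerivWithinAt) hz
    (fun ρ hρ => ?_) r ⟨h0, le_rfl⟩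
  · rw [AJ_sl hW hδ hΦ (habs r ⟨h0, le_rfl⟩)]
    exact sub_eq_zero.1 (congrFun key i)
  · have hρ1 := habs ρ (Ico_subset_Icc_self hρ)
    refine (pi_norm_le_iff_of_nonneg (by positivity)).2 fun i => ?_
    have hU : ((1 - ρ ^ 2, ρ • Φ (ρ, o)) : ℝ × E d) ∈ UU d := by
      have : ρ ^ 2 < 1 := by rw [← sq_abs]; nlinarith [abs_nonneg ρ]
      show 0 < 1 - ρ ^ 2
      linarith
    have hb : ∀ a, |hF W Φ i a (ρ, o) * e ρ a| ≤ |δ| * ‖e ρ‖ := by
      intro a
      rw [abs_mul]
      exact mul_le_mul (opLe_entry (H_op hW hU) i a) (norm_le_pi_norm (e ρ) a) (abs_nonneg _)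
        (abs_nonneg _)
    have hs : |∑ a, hF W Φ i a (ρ, o) * e ρ a| ≤ d * |δ| * ‖e ρ‖ := by
      refine (Finset.abs_sum_le_sum_abs _ _).trans ((Finset.sum_le_sum fun a _ => hb a).trans ?_)
      simp [mul_assoc]
    simp only [he', Real.norm_eq_abs, abs_mul]
    calc |ρ| * |∑ a, hF W Φ i a (ρ, o) * e ρ a| ≤ 1 * (d * |δ| * ‖e ρ‖) :=
          mul_le_mul hρ1.le hs (abs_nonneg _) zero_le_one
      _ = _ := one_mul _

theorem score_unique {d : ℕ} {U : E d → ℝ} (hU : Conf U) (h1 : ContDiff ℝ 1 U)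
    {ρ : Measure (E d)} [IsProbabilityMeasure ρ]
    (h : ∀ (c : Fin d) (φ : E d → ℝ), ContDiff ℝ 1 φ → HasCompactSupport φ →
      ∫ y, pd (bv c) φ y ∂ρ = ∫ y, pd (bv c) U y * φ y ∂ρ) : ρ = gib U := by
  have hec : Continuous fun y => Real.exp (U y) := Real.continuous_exp.comp hU.1
  have hem : Measurable fun y => ENNReal.ofReal (Real.exp (U y)) :=
    ENNReal.measurable_ofReal.comp hec.measurable
  set ρ' : Measure (E d) := ρ.withDensity fun y => ENNReal.ofReal (Real.exp (U y)) with hρ'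
  have : IsLocallyFiniteMeasure ρ' := IsLocallyFiniteMeasure.withDensity_ofReal hec
  have hint : ∀ g : E d → ℝ, ∫ y, g y ∂ρ' = ∫ y, Real.exp (U y) * g y ∂ρ := by
    intro g
    rw [hρ', integral_withDensity_eq_integral_toReal_smul hem
      (Filter.Eventually.of_forall fun _ => ENNReal.ofReal_lt_top)]
    simp [ENNReal.toReal_ofReal (Real.exp_pos _).le]
  have hz : ∀ (c : Fin d) (φ : E d → ℝ), ContDiff ℝ 1 φ → HasCompactSupport φ →
      ∫ y, pd (bv c) φ y ∂ρ' = 0 := by
    intro c φ hφ hc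
    have he1 : ContDiff ℝ 1 fun y => Real.exp (U y) := h1.exp
    have key := h c (fun y => Real.exp (U y) * φ y) (he1.mul hφ) hc.mul_left
    have hpd : ∀ y, pd (bv c) (fun y => Real.exp (U y) * φ y) y =
        pd (bv c) U y * (Real.exp (U y) * φ y) + Real.exp (U y) * pd (bv c) φ y := by
      intro y
      rw [pd_mul _ (he1.differentiable one_ne_zero y) (hφ.differentiable one_ne_zero y)]
      have : pd (bv c) (fun y => Real.exp (U y)) y = Real.exp (U y) * pd (bv c) U y := by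
        simp only [pd]
        rw [fderiv_exp (h1.differentiable one_ne_zero y)]
        simp
      rw [this]
      ring
    have c1 : Continuous (pd (bv c) U) :=
      (h1.continuous_fderiv one_ne_zero).clm_apply continuous_const
    have c2 : Continuous (pd (bv c) φ) :=
      (hφ.continuous_fderiv one_ne_zero).clm_apply continuous_const
    have s2 : HasCompactSupport (pd (bv c) φ) := hc.fderiv_apply ℝ _
    simp_rw [hpd] at key
    rw [integral_add] at key
    · rw [hint]
      linarith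
    · exact (c1.mul (hec.mul hφ.continuous)).integrable_of_hasCompactSupport hc.mul_left.mul_left
    · exact (hec.mul c2).integrable_of_hasCompactSupport s2.mul_left
  have : ρ'.IsAddLeftInvariant := by
    refine ⟨fun v => ?_⟩
    have : IsLocallyFiniteMeasure (ρ'.map fun y => v + y) := by
      have : IsFiniteMeasureOnCompacts (ρ'.map fun y => v + y) :=
        Measure.IsFiniteMeasureOnCompacts.map ρ' (Homeomorph.addLeft v)
      infer_instance
    refine ext_smooth fun g hg hc => ?_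
    rw [integral_map (by fun_prop) hg.continuous.aestronglyMeasurable]
    exact shift_inv hz (hg.of_le (by exact_mod_cast le_top)) hc v
  obtain ⟨c, hc⟩ : ∃ c : NNReal, ρ' = c • (volume : Measure (E d)) :=
    ⟨_, Measure.isAddLeftInvariant_eq_smul ρ' volume⟩
  have hinv : ∀ y, (ENNReal.ofReal (Real.exp (U y)))⁻¹ = ENNReal.ofReal (Real.exp (-U y)) := by
    intro y
    rw [Real.exp_neg, ENNReal.ofReal_inv_of_pos (Real.exp_pos _)]
  have hρ : ρ = (c : ENNReal) • (volume : Measure (E d)).withDensity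
      fun y => ENNReal.ofReal (Real.exp (-U y)) := by
    have := withDensity_inv_same (μ := ρ) hem
      (Filter.Eventually.of_forall fun y => (ENNReal.ofReal_pos.2 (Real.exp_pos _)).ne')
      (Filter.Eventually.of_forall fun y => ENNReal.ofReal_ne_top)
    rw [← hρ', hc] at this
    simp_rw [hinv] at this
    rw [← this, ← withDensity_smul_measure]
    rfl
  have hZ := conf_Z_pos hU
  set Z := ∫ y, Real.exp (-U y) with hZdef
  have hnm : Measurable fun y => ENNReal.ofReal (Real.exp (-U y)) :=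
    ENNReal.measurable_ofReal.comp (Real.continuous_exp.comp hU.1.neg).measurable
  have hg : gib U = ENNReal.ofReal Z⁻¹ • (volume : Measure (E d)).withDensity
      fun y => ENNReal.ofReal (Real.exp (-U y)) := by
    rw [← withDensity_smul _ hnm]
    unfold gib Measure.tilted
    congr 1
    funext y
    simp only [Pi.smul_apply, smul_eq_mul]
    rw [← ENNReal.ofReal_mul (inv_nonneg.2 hZ.le), div_eq_inv_mul]
  have := (gib_pm hU).prob
  set m := (volume : Measure (E d)).withDensity fun y => ENNReal.ofReal (Real.exp (-U y))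
  have e1 : (c : ENNReal) * m univ = 1 := by
    have := measure_univ (μ := ρ)
    rwa [hρ, Measure.smul_apply, smul_eq_mul] at this
  have e2 : ENNReal.ofReal Z⁻¹ * m univ = 1 := by
    have := measure_univ (μ := gib U)
    rwa [hg, Measure.smul_apply, smul_eq_mul] at this
  have e3 : (c : ENNReal) = ENNReal.ofReal Z⁻¹ := by
    rw [ENNReal.eq_inv_of_mul_eq_one_left e1, ENNReal.eq_inv_of_mul_eq_one_left e2]
  rw [hρ, hg, e3]

theorem flow_map (θ : Inst) {Φ : ℝ × E θ.d → E θ.d} (hΦ : IsFlow θ.W Φ) {r : ℝ}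
    (hr : r ∈ Icc 0 (RR θ.κ)) : (gam θ.d).map (sl r Φ) = mu θ.W r := by
  have hW := θ.pot
  have hδ := θ.δ_le
  have h1 : r < 1 := hr.2.trans_lt (RR_lt_one θ.κ_pos θ.κ_le)
  have ha : |r| < 1 := by rw [abs_of_nonneg hr.1]; exact h1
  obtain ⟨hT, hJ⟩ := flow_tg θ hΦ hr
  have hc : Continuous (sl r Φ) := hT.1.continuous
  have hS1 : ContDiff ℝ 1 (sl r Φ) := hT.1.of_le (by exact_mod_cast le_top)
  have : IsProbabilityMeasure ((gam θ.d).map (sl r Φ)) :=
    Measure.isProbabilityMeasure_map hc.measurable.aemeasurable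
  have hU1 : ContDiff ℝ 1 (fun y : E θ.d => ‖y‖ ^ 2 / 2 + Wt θ.W (1 - r ^ 2, r • y)) :=
    (mu_pot_smooth hW ha).of_le (by exact_mod_cast le_top)
  refine score_unique (mu_conf hW hδ ha) hU1 fun i φ hφ hs => ?_
  have cpd : ∀ {f : E θ.d → ℝ}, ContDiff ℝ 1 f → ∀ v, Continuous (pd v f) := fun hf v =>
    (hf.continuous_fderiv one_ne_zero).clm_apply continuous_const
  rw [integral_map hc.measurable.aemeasurable (cpd hφ _).aestronglyMeasurable,
    integral_map hc.measurable.aemeasurable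
      ((cpd hU1 _).fun_mul hφ.continuous).aestronglyMeasurable]
  set g : E θ.d → ℝ := fun o => φ (sl r Φ o) with hg
  set J : Fin θ.d → E θ.d → ℝ := fun c => slM r (JT Φ) i c with hJd
  have g1 : ContDiff ℝ 1 g := hφ.comp hS1
  have J1 : ∀ c, ContDiff ℝ 1 (J c) := fun c => (hJ i c).1.of_le (by exact_mod_cast le_top)
  have gd : ∀ o, fderiv ℝ g o = (fderiv ℝ φ (sl r Φ o)).comp (fderiv ℝ (sl r Φ) o) := fun o =>
    fderiv_comp o (hφ.differentiable one_ne_zero _) (hS1.differentiable one_ne_zero _)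
  obtain ⟨M0, hM0⟩ := hφ.continuous.bounded_above_of_compact_support hs
  obtain ⟨M1, hM1⟩ := (hφ.continuous_fderiv one_ne_zero).bounded_above_of_compact_support
    (hs.fderiv ℝ)
  have gp : PolyG g := ⟨0, M0, fun y => by simpa using hM0 _⟩
  have gp1 : PolyG (fderiv ℝ g) := by
    have : PolyG (fun o => M1 * ‖fderiv ℝ (sl r Φ) o‖) :=
      polyG_mul (polyG_const _) (polyG_norm (tg_polyG (tg_fderiv hT)))
    refine polyG_of_le this fun o => ?_
    rw [gd]
    refine (ContinuousLinearMap.opNorm_comp_le _ _).trans (le_trans ?_ (le_abs_self _))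
    exact mul_le_mul_of_nonneg_right (hM1 _) (norm_nonneg _)
  have ppd : ∀ {f : E θ.d → ℝ}, PolyG (fderiv ℝ f) → ∀ v, PolyG (pd v f) := by
    intro f hf v
    have : PolyG (fun o => ‖fderiv ℝ f o‖ * ‖v‖) := polyG_mul (polyG_norm hf) (polyG_const _)
    exact polyG_of_le this fun o => ((fderiv ℝ f o).le_opNorm v).trans (le_abs_self _)
  have Jp : ∀ c, PolyG (J c) := fun c => tg_polyG (hJ i c)
  have Jp1 : ∀ c, PolyG (fderiv ℝ (J c)) := fun c => tg_polyG (tg_fderiv (hJ i c))
  have hibp : ∀ c, ∫ o, pd (bv c) g o * J c o ∂(gam θ.d) =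
      ∫ o, g o * (o c * J c o - pd (bv c) (J c) o) ∂(gam θ.d) := by
    intro c
    have k := ibp_gam.ibp c (fun o => g o * J c o) (g1.mul (J1 c)) (polyG_mul gp (Jp c)) (by
      have : fderiv ℝ (fun o => g o * J c o) =
          fun o => g o • fderiv ℝ (J c) o + J c o • fderiv ℝ g o := by
        funext o
        exact fderiv_fun_mul (g1.differentiable one_ne_zero o)
          ((J1 c).differentiable one_ne_zero o)
      rw [this]
      exact polyG_add (polyG_smul gp (Jp1 c)) (polyG_smul (Jp c) gp1))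
    have hpd : ∀ o, pd (bv c) (fun o => g o * J c o) o =
        pd (bv c) g o * J c o + g o * pd (bv c) (J c) o := fun o =>
      pd_mul _ (g1.differentiable one_ne_zero o) ((J1 c).differentiable one_ne_zero o)
    have i1 : Integrable (fun o => pd (bv c) g o * J c o) (gam θ.d) :=
      polyG_integrable gam_pm ((cpd g1 _).mul (J1 c).continuous) (polyG_mul (ppd gp1 _) (Jp c))
    have i2 : Integrable (fun o => g o * pd (bv c) (J c) o) (gam θ.d) :=
      polyG_integrable gam_pm (g1.continuous.mul (cpd (J1 c) _)) (polyG_mul gp (ppd (Jp1 c) _))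
    have i3 : Integrable (fun o => U0 θ.d c o * (g o * J c o)) (gam θ.d) :=
      polyG_integrable gam_pm ((ibp_gam.tg c).1.continuous.mul (g1.continuous.mul (J1 c).continuous))
        (polyG_mul (polyG_coord c) (polyG_mul gp (Jp c)))
    simp_rw [hpd] at k
    rw [integral_add i1 i2] at k
    have : (fun o : E θ.d => g o * (o c * J c o - pd (bv c) (J c) o)) =
        fun o => U0 θ.d c o * (g o * J c o) - g o * pd (bv c) (J c) o := by
      funext o
      simp only [U0]
      ring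
    rw [this, integral_sub i3 i2]
    linarith
  have L : ∀ o, pd (bv i) φ (sl r Φ o) = ∑ c, pd (bv c) g o * J c o := by
    intro o
    have hp : ((r, o) : ℝ × E θ.d) ∈ OO θ.d := ha
    have a1 : ∀ c, pd (bv c) g o = ∑ a, PP Φ a c (r, o) * pd (bv a) φ (sl r Φ o) := by
      intro c
      simp only [pd]
      rw [gd, ContinuousLinearMap.comp_apply, fderiv_sum_bv]
      refine Finset.sum_congr rfl fun a _ => ?_
      rw [fderiv_flow_sl hΦ ha, smul_eq_mul]
      congr 1
      simp_rw [bv_apply, kd_comm c]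
      exact sum_mul_kd c fun b => PP Φ a b (r, o)
    simp_rw [a1, Finset.sum_mul]
    rw [Finset.sum_comm]
    have a2 : ∀ a, ∑ c, PP Φ a c (r, o) * pd (bv a) φ (sl r Φ o) * J c o =
        pd (bv a) φ (sl r Φ o) * kd a i := by
      intro a
      rw [← pp_jt hW hδ hΦ hp a i, Finset.mul_sum]
      exact Finset.sum_congr rfl fun c _ => by simp only [hJd, slM, sl]; ring
    simp_rw [a2]
    exact (sum_mul_kd i fun a => pd (bv a) φ (sl r Φ o)).symm
  have Rr : ∀ o, pd (bv i) (fun y : E θ.d => ‖y‖ ^ 2 / 2 + Wt θ.W (1 - r ^ 2, r • y)) (sl r Φ o) *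
      φ (sl r Φ o) = ∑ c, g o * (o c * J c o - pd (bv c) (J c) o) := by
    intro o
    rw [mu_pot_pd hW ha, ← Finset.mul_sum, mul_comm]
    congr 1
    exact (flow_nat hW hδ hΦ hr.1 h1 i o).symm
  simp_rw [L, Rr]
  rw [integral_finsetSum, integral_finsetSum]
  · exact Finset.sum_congr rfl fun c _ => hibp c
  · intro c _
    exact polyG_integrable gam_pm (g1.continuous.mul
      (((ibp_gam.tg c).1.continuous.mul (J1 c).continuous).sub (cpd (J1 c) _)))
      (polyG_mul gp (polyG_sub (polyG_mul (polyG_coord c) (Jp c)) (ppd (Jp1 c) _)))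
  · intro c _
    exact polyG_integrable gam_pm ((cpd g1 _).mul (J1 c).continuous) (polyG_mul (ppd gp1 _) (Jp c))

end Crest.Agent.R285
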