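import Crest.Agent.R285.DCalcC
import Crest.Agent.R285.Transport
import Crest.Agent.R285.Quad
import Crest.Agent.R285.Gauss

/-!
# R285 KMerr: errors of the quadrature rules along the Kim-Milman flow.

For fixed `o`, with `ρ t = r0 + t (r1 - r0)`, the chain `g 0 t = Φ (ρ t, o)`,
`g (k+1) t = -(r1 - r0)^(k+1) • (DD W)^[k] (gv W) (ρ t, Φ (ρ t, o))` (`IsFlow.ode`, `dd_flow`, `dk_smooth`).
`Quad.err` gives the residual `ϱ o = Cq/N^K ∫₀¹ ‖g (K+1) t‖ dt` of `pic_err` (`l = δ`: `gv_lip`;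
`S = 4 (sz + ‖o‖)`: `flow_size`; `Cq δ ≤ 1/N`).  `path_l1`: Tonelli (joint continuity), `flow_map`,
`dk_bound`.  Measurability of `kmS`: it is continuous (induction on the Picard iteration, `G_lip`).
`q2_err`: chain `g 0 t = -(RR κ)⁻¹ • Φ (R t, o)`, `g (k+1) t = R^k • (DD W)^[k] (gv W) (R t, Φ (R t, o))`,
`Quad2.err`; `gv W (0, Φ (0, o)) = Gv W 1 0`.  Constants: `C ≤ 2^C ≤ κ⁻¹^C`.
-/

set_option autoImplicit false

namespace Crest.Agent.R285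

open MeasureTheory Set
open scoped ContDiff

namespace KMerrA

theorem tonelli {d : ℕ} {F : ℝ × E d → ℝ} (hF : Continuous F) (h0 : ∀ p, 0 ≤ F p) {B : ℝ}
    (h : ∀ t, L1le (gam d) (fun o => F (t, o)) B) :
    L1le (gam d) (fun o => ∫ t in (0 : ℝ)..1, F (t, o)) B := by
  have hB : ∀ t, ‖∫ o, ‖F (t, o)‖ ∂(gam d)‖ ≤ B := fun t => by
    rw [Real.norm_eq_abs, abs_of_nonneg (integral_nonneg fun o => norm_nonneg _)]
    exact (h t).2
  have hi : Integrable F ((volume.restrict (Ioc (0 : ℝ) 1)).prod (gam d)) := by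
    rw [integrable_prod_iff hF.aestronglyMeasurable]
    refine ⟨ae_of_all _ fun t => (h t).1, ?_⟩
    refine (integrable_const B).mono' ?_ (ae_of_all _ hB)
    exact hF.norm.aestronglyMeasurable.integral_prod_right'
  simp only [intervalIntegral.integral_of_le zero_le_one]
  refine ⟨hi.integral_prod_right, ?_⟩
  have e : ∀ o, ‖∫ t in Ioc (0 : ℝ) 1, F (t, o)‖ = ∫ t in Ioc (0 : ℝ) 1, F (t, o) := fun o => by
    rw [Real.norm_eq_abs, abs_of_nonneg (integral_nonneg fun t => h0 _)]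
  simp only [e]
  rw [← integral_integral_swap (f := fun t o => F (t, o)) hi]
  have : ‖∫ t in Ioc (0 : ℝ) 1, ∫ o, F (t, o) ∂(gam d)‖ ≤ B * (volume.restrict (Ioc (0 : ℝ) 1)).real univ :=
    norm_integral_le_of_norm_le_const (ae_of_all _ fun t =>
      (norm_integral_le_integral_norm _).trans (h t).2)
  simp only [Measure.real, Measure.restrict_apply MeasurableSet.univ, univ_inter, Real.volume_Ioc,
    sub_zero, ENNReal.ofReal_one, ENNReal.toReal_one, mul_one] at this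
  exact (le_abs_self _).trans this

theorem mem_path {R r0 r1 t : ℝ} (h0 : r0 ∈ Icc 0 R) (h1 : r1 ∈ Icc 0 R) (ht : t ∈ Icc (0 : ℝ) 1) :
    r0 + t * (r1 - r0) ∈ Icc 0 R := by
  constructor <;> nlinarith [h0.1, h0.2, h1.1, h1.2, ht.1, ht.2]

theorem abs_lt (θ : Inst) {r : ℝ} (hr : r ∈ Icc 0 (RR θ.κ)) : |r| < 1 := by
  rw [abs_of_nonneg hr.1]; exact hr.2.trans_lt (RR_lt_one θ.κ_pos θ.κ_le)

theorem exists_pow (A : ℝ) : ∃ q : ℕ, ∀ κ : ℝ, 0 < κ → κ ≤ 1 / 2 → A ≤ κ⁻¹ ^ q := by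
  obtain ⟨q, hq⟩ := pow_unbounded_of_one_lt A (one_lt_two (α := ℝ))
  refine ⟨q, fun κ h0 h1 => hq.le.trans (pow_le_pow_left₀ (by norm_num) ?_ q)⟩
  rw [le_inv_comm₀ (by norm_num) h0]
  linarith

theorem one_le_pow' (θ : Inst) (p : ℕ) : 1 ≤ θ.κ⁻¹ ^ p := by
  refine one_le_pow₀ ?_
  rw [one_le_inv₀ θ.κ_pos]
  linarith [θ.κ_le]

theorem pic_cont {Q : Type} [NormedAddCommGroup Q] [NormedSpace ℝ Q] {n : ℕ} (t : Fin n → ℝ)
    (w : ℝ → Fin n → ℝ) {β : ℝ → Q → Q} (hβ : ∀ i, Continuous (β (t i))) (k : ℕ) (τ : ℝ) :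
    Continuous (fun p0 => pic t w β p0 k τ) := by
  induction k generalizing τ with
  | zero => exact continuous_id
  | succ k ih =>
    simp only [pic]
    exact continuous_id.add (continuous_finsetSum _ fun i _ =>
      ((hβ i).comp (ih (t i))).const_smul _)

theorem path_deriv (a b t : ℝ) : HasDerivAt (fun t : ℝ => a + t * b) b t := by
  simpa using ((hasDerivAt_id t).mul_const b).const_add a

theorem chain0 {d : ℕ} {W : E d → ℝ} {Φ : ℝ × E d → E d} (hΦ : IsFlow W Φ) {a b t : ℝ}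
    (h : |a + t * b| < 1) (o : E d) :
    HasDerivAt (fun t => Φ (a + t * b, o)) (-b • gv W (a + t * b, Φ (a + t * b, o))) t := by
  have := (hΦ.ode (a + t * b, o) h).scomp t (path_deriv a b t)
  simpa [Function.comp_def] using this

theorem chainS {d : ℕ} {W : E d → ℝ} {δ : ℝ} (hW : Pot δ W) {Φ : ℝ × E d → E d} (hΦ : IsFlow W Φ)
    {a b t : ℝ} (h : |a + t * b| < 1) (o : E d) (k : ℕ) :
    HasDerivAt (fun t => (DD W)^[k] (gv W) (a + t * b, Φ (a + t * b, o)))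
      (b • (DD W)^[k + 1] (gv W) (a + t * b, Φ (a + t * b, o))) t := by
  have := (dd_flow hΦ (dk_smooth hW k) h o).scomp t (path_deriv a b t)
  rw [Function.iterate_succ_apply']
  exact this

/-- the chain `c • Φ`, `- c b^(k+1) • D^k gv` -/
noncomputable def ch {d : ℕ} (W : E d → ℝ) (Φ : ℝ × E d → E d) (a b c : ℝ) (o : E d) :
    ℕ → ℝ → E d
  | 0, t => c • Φ (a + t * b, o)
  | k + 1, t => (-(c * b ^ (k + 1))) • (DD W)^[k] (gv W) (a + t * b, Φ (a + t * b, o))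

theorem ch_deriv {d : ℕ} {W : E d → ℝ} {δ : ℝ} (hW : Pot δ W) {Φ : ℝ × E d → E d}
    (hΦ : IsFlow W Φ) {a b t : ℝ} (c : ℝ) (h : |a + t * b| < 1) (o : E d) (k : ℕ) :
    HasDerivAt (ch W Φ a b c o k) (ch W Φ a b c o (k + 1) t) t := by
  cases k with
  | zero =>
    refine ((chain0 hΦ h o).const_smul c).congr_deriv ?_
    simp [ch, smul_smul]
  | succ k =>
    refine ((chainS hW hΦ h o k).const_smul (-(c * b ^ (k + 1)))).congr_deriv ?_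
    simp only [ch, smul_smul]
    congr 1
    ring

theorem ch_int (θ : Inst) (Φ : ℝ × E θ.d → E θ.d) (r0 r1 : ℝ) {c : ℝ} (o : E θ.d) (k : ℕ)
    (hc : |c * (r1 - r0) ^ (k + 1)| ≤ 1) :
    ∫ t in (0 : ℝ)..1, ‖ch θ.W Φ r0 (r1 - r0) c o (k + 1) t‖ ≤ ∫ t in (0 : ℝ)..1,
      ‖(DD θ.W)^[k] (gv θ.W) (r0 + t * (r1 - r0), Φ (r0 + t * (r1 - r0), o))‖ := by
  simp only [ch, norm_smul, Real.norm_eq_abs, abs_neg]
  rw [intervalIntegral.integral_const_mul]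
  exact mul_le_of_le_one_left (intervalIntegral.integral_nonneg zero_le_one fun t _ =>
    norm_nonneg _) hc

theorem gv_sl_cont (θ : Inst) {r : ℝ} (hr : |r| < 1) : Continuous fun y => gv θ.W (r, y) := by
  have : LipschitzWith ⟨θ.δ, θ.pot.nn⟩ (fun y => gv θ.W (r, y)) :=
    LipschitzWith.of_dist_le_mul fun x y => by
      rw [dist_eq_norm, dist_eq_norm]; exact gv_lip θ.pot hr x y
  exact this.continuous

theorem gin {d : ℕ} : Integrable (fun ξ : E d => ‖ξ‖) (gam d) := by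
  simpa using (gam_pm (d := d)).mom 1

theorem sqrt_le_sz (θ : Inst) : √(θ.d : ℝ) ≤ θ.sz := le_add_of_nonneg_right (norm_nonneg _)

end KMerrA

open KMerrA

theorem path_l1 (k : ℕ) : ∃ p : ℕ, ∀ (θ : Inst) (Φ : ℝ × E θ.d → E θ.d), IsFlow θ.W Φ →
    ∀ r0 ∈ Icc 0 (RR θ.κ), ∀ r1 ∈ Icc 0 (RR θ.κ),
      L1le (gam θ.d) (fun o => ∫ t in (0 : ℝ)..1,
        ‖(DD θ.W)^[k + 1] (gv θ.W) (r0 + t * (r1 - r0), Φ (r0 + t * (r1 - r0), o))‖)
        (θ.κ⁻¹ ^ p * √(θ.d : ℝ)) := by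
  obtain ⟨p, hp⟩ := dk_bound k
  refine ⟨p, fun θ Φ hΦ r0 h0 r1 h1 => ?_⟩
  let ρ : ℝ → ℝ := fun t => r0 + max 0 (min 1 t) * (r1 - r0)
  have hρ : ∀ t, ρ t ∈ Icc 0 (RR θ.κ) := fun t =>
    mem_path h0 h1 ⟨le_max_left _ _, max_le zero_le_one (min_le_left _ _)⟩
  have hρc : Continuous ρ := by fun_prop
  have hc1 : Continuous fun q : ℝ × E θ.d => Φ (ρ q.1, q.2) :=
    hΦ.smooth.continuousOn.comp_continuous (by fun_prop) fun q => abs_lt θ (hρ q.1)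
  have hc2 : Continuous fun q : ℝ × E θ.d =>
      (DD θ.W)^[k + 1] (gv θ.W) (ρ q.1, Φ (ρ q.1, q.2)) :=
    (dk_smooth θ.pot (k + 1)).continuousOn.comp_continuous
      ((hρc.comp continuous_fst).prodMk hc1) fun q => abs_lt θ (hρ q.1)
  have key := tonelli (B := θ.κ⁻¹ ^ p * √(θ.d : ℝ)) hc2.norm (fun _ => norm_nonneg _) (fun t => by
    have h := hp θ (ρ t) (hρ t)
    have hs : Continuous (sl (ρ t) Φ) := (flow_sl_smooth hΦ (abs_lt θ (hρ t))).continuous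
    have hψ : Continuous (sl (ρ t) ((DD θ.W)^[k + 1] (gv θ.W))) :=
      (dk_smooth θ.pot (k + 1)).continuousOn.comp_continuous (by fun_prop)
        fun q => abs_lt θ (hρ t)
    rw [← flow_map θ hΦ (hρ t)] at h
    obtain ⟨a1, a2⟩ := h
    rw [integrable_map_measure hψ.aestronglyMeasurable hs.aemeasurable] at a1
    rw [integral_map hs.aemeasurable hψ.norm.aestronglyMeasurable] at a2
    refine ⟨a1.norm, ?_⟩
    simp only [norm_norm]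
    exact a2)
  have e : (fun o => ∫ t in (0 : ℝ)..1,
        ‖(DD θ.W)^[k + 1] (gv θ.W) (r0 + t * (r1 - r0), Φ (r0 + t * (r1 - r0), o))‖) =
      fun o => ∫ t in (0 : ℝ)..1, ‖(DD θ.W)^[k + 1] (gv θ.W) (ρ t, Φ (ρ t, o))‖ := by
    funext o
    refine intervalIntegral.integral_congr fun t ht => ?_
    rw [uIcc_of_le zero_le_one] at ht
    simp only [ρ, min_eq_right ht.2, max_eq_right ht.1]
  rw [e]
  exact key

theorem km_err (K : ℕ) (hK : 1 ≤ K) (Cq : ℝ) (hCq : 1 ≤ Cq) : ∃ p : ℕ,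
    ∀ (θ : Inst) (N : ℕ) (k : Kit K Cq N) (Φ : ℝ × E θ.d → E θ.d), 1 ≤ N → IsFlow θ.W Φ →
      Cq * θ.δ * N ≤ 1 → ∀ r0 ∈ Icc 0 (RR θ.κ), ∀ r1 ∈ Icc 0 (RR θ.κ),
      L1le (gam θ.d) (fun o => kmS (Gv θ.W) k r0 r1 (Φ (r0, o)) - Φ (r1, o))
        (θ.κ⁻¹ ^ p / (N : ℝ) ^ K * θ.sz) := by
  obtain ⟨K', rfl⟩ : ∃ K', K = K' + 1 := ⟨K - 1, by omega⟩
  obtain ⟨p, hp⟩ := path_l1 K'
  obtain ⟨q, hq⟩ := exists_pow ((K' + 1 : ℕ) * Cq + 8)
  refine ⟨q + p, fun θ N k Φ hN hΦ hδ r0 h0 r1 h1 => ?_⟩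
  obtain ⟨hJi, hJ⟩ := hp θ Φ hΦ r0 h0 r1 h1
  set J : E θ.d → ℝ := fun o => ∫ t in (0 : ℝ)..1,
    ‖(DD θ.W)^[K' + 1] (gv θ.W) (r0 + t * (r1 - r0), Φ (r0 + t * (r1 - r0), o))‖ with hJdef
  have hJ0 : ∀ o, 0 ≤ J o := fun o =>
    intervalIntegral.integral_nonneg zero_le_one fun t _ => norm_nonneg _
  have hN1 : (1 : ℝ) ≤ N := by exact_mod_cast hN
  have hR := RR_lt_one θ.κ_pos θ.κ_le
  have hb : |r1 - r0| ≤ 1 := by
    rw [abs_le]; constructor <;> linarith [h0.1, h0.2, h1.1, h1.2]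
  have hδ0 := θ.pot.nn
  have hCδ0 : 0 ≤ Cq * θ.δ := by positivity
  have hCδ : Cq * θ.δ ≤ 1 / N := by rw [le_div_iff₀ (by linarith)]; exact hδ
  have hCδ1 : Cq * θ.δ ≤ 1 := hCδ.trans (by rw [div_le_one (by linarith)]; exact hN1)
  have hsz : 0 ≤ θ.sz := (Real.sqrt_nonneg _).trans (sqrt_le_sz θ)
  have hβ : ∀ i x y, ‖(-(r1 - r0)) • gv θ.W (r0 + k.qN.t i * (r1 - r0), x) -
      (-(r1 - r0)) • gv θ.W (r0 + k.qN.t i * (r1 - r0), y)‖ ≤ θ.δ * ‖x - y‖ := by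
    intro i x y
    rw [← smul_sub, norm_smul, Real.norm_eq_abs, abs_neg]
    exact (mul_le_of_le_one_left (norm_nonneg _) hb).trans
      (gv_lip θ.pot (abs_lt θ (mem_path h0 h1 (k.qN.t_mem i))) x y)
  have hpt : ∀ o, ‖kmS (Gv θ.W) k r0 r1 (Φ (r0, o)) - Φ (r1, o)‖ ≤
      ((K' + 1 : ℕ) * Cq / (N : ℝ) ^ (K' + 1)) * J o +
        (4 / (N : ℝ) ^ (K' + 1)) * (θ.sz + ‖o‖) := by
    intro o
    have h := pic_err (y := fun t => Φ (r0 + t * (r1 - r0), o))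
      (β := fun t y => (-(r1 - r0)) • gv θ.W (r0 + t * (r1 - r0), y))
      (ϱ := Cq / (N : ℝ) ^ (K' + 1) * J o) (S := 4 * (θ.sz + ‖o‖))
      k.qN.t_mem k.qN.w_sum hδ0 hβ (fun τ hτ => ?_)
      (fun τ hτ => flow_size θ hΦ (mem_path h0 h1 hτ) (mem_path h0 h1 ⟨le_rfl, zero_le_one⟩) o)
      (K' + 1) (τ := 1) ⟨zero_le_one, le_rfl⟩
    · simp only [zero_mul, add_zero, one_mul, add_sub_cancel] at h
      refine le_trans h (add_le_add ?_ ?_)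
      · have : ∑ i ∈ Finset.range (K' + 1), (Cq * θ.δ) ^ i ≤ (K' + 1 : ℕ) := by
          refine (Finset.sum_le_sum fun i _ => pow_le_one₀ hCδ0 hCδ1).trans ?_
          simp
        have h2 := mul_le_mul_of_nonneg_right this
          (show 0 ≤ Cq / (N : ℝ) ^ (K' + 1) * J o by have := hJ0 o; positivity)
        refine h2.trans (le_of_eq (by ring))
      · have : (Cq * θ.δ) ^ (K' + 1) ≤ (1 / N) ^ (K' + 1) := pow_le_pow_left₀ hCδ0 hCδ _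
        have h2 := mul_le_mul_of_nonneg_right this (show 0 ≤ 4 * (θ.sz + ‖o‖) by positivity)
        refine h2.trans (le_of_eq ?_)
        rw [one_div, inv_pow]; ring
    · have h := k.qN.err (ch θ.W Φ r0 (r1 - r0) 1 o)
        (fun j _ x hx => (ch_deriv θ.pot hΦ 1 (abs_lt θ (mem_path h0 h1 hx)) o j).hasDerivWithinAt)
        (fun x hx => (ch_deriv θ.pot hΦ 1 (abs_lt θ (mem_path h0 h1 hx)) o
          _).continuousAt.continuousWithinAt) τ hτ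
      have h2 := ch_int θ Φ r0 r1 (c := 1) o (K' + 1) (by
        rw [one_mul, abs_pow]; exact pow_le_one₀ (abs_nonneg _) hb)
      refine le_trans (le_of_eq ?_) (h.trans (mul_le_mul_of_nonneg_left h2 (by positivity)))
      simp [ch]
  have hbi : Integrable (fun o => ((K' + 1 : ℕ) * Cq / (N : ℝ) ^ (K' + 1)) * J o +
      (4 / (N : ℝ) ^ (K' + 1)) * (θ.sz + ‖o‖)) (gam θ.d) :=
    (hJi.const_mul _).add (((integrable_const _).add gin).const_mul _)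
  have hcont : Continuous fun o => kmS (Gv θ.W) k r0 r1 (Φ (r0, o)) - Φ (r1, o) := by
    refine Continuous.sub ?_ (flow_sl_smooth hΦ (abs_lt θ h1)).continuous
    refine (pic_cont k.qN.t k.qN.w
      (β := fun t y => (-(r1 - r0)) • gv θ.W (r0 + t * (r1 - r0), y)) (fun i => ?_) (K' + 1) 1).comp
      (flow_sl_smooth hΦ (abs_lt θ h0)).continuous
    exact (gv_sl_cont θ (abs_lt θ (mem_path h0 h1 (k.qN.t_mem i)))).const_smul (-(r1 - r0))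
  have hint := hbi.mono' hcont.aestronglyMeasurable (ae_of_all _ hpt)
  refine ⟨hint, (integral_mono hint.norm hbi hpt).trans ?_⟩
  have hsi : Integrable (fun o : E θ.d => θ.sz + ‖o‖) (gam θ.d) := (integrable_const _).add gin
  rw [integral_add (hJi.const_mul _) (hsi.const_mul _),
    integral_const_mul _ J, integral_const_mul _ (fun o : E θ.d => θ.sz + ‖o‖),
    integral_add (integrable_const _) gin]
  have e1 : ∫ o, J o ∂(gam θ.d) ≤ θ.κ⁻¹ ^ p * θ.sz := by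
    refine le_trans (le_of_eq ?_) (hJ.trans (mul_le_mul_of_nonneg_left (sqrt_le_sz θ)
      (zero_le_one.trans (one_le_pow' θ p))))
    refine integral_congr_ae (ae_of_all _ fun o => ?_)
    simp only [Real.norm_eq_abs, abs_of_nonneg (hJ0 o)]
  have e2 : ∫ _ : E θ.d, θ.sz ∂(gam θ.d) + ∫ o, ‖o‖ ∂(gam θ.d) ≤ 2 * (θ.κ⁻¹ ^ p * θ.sz) := by
    have := gam_norm.trans (sqrt_le_sz θ)
    have h2 : θ.sz ≤ θ.κ⁻¹ ^ p * θ.sz := le_mul_of_one_le_left hsz (one_le_pow' θ p)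
    simp only [integral_const, probReal_univ, smul_eq_mul, one_mul]
    linarith
  have e3 := hq θ.κ θ.κ_pos θ.κ_le
  have hP : 0 ≤ θ.κ⁻¹ ^ p * θ.sz := mul_nonneg (zero_le_one.trans (one_le_pow' θ p)) hsz
  calc _ ≤ ((K' + 1 : ℕ) * Cq / (N : ℝ) ^ (K' + 1)) * (θ.κ⁻¹ ^ p * θ.sz) +
        (4 / (N : ℝ) ^ (K' + 1)) * (2 * (θ.κ⁻¹ ^ p * θ.sz)) :=
        add_le_add (mul_le_mul_of_nonneg_left e1 (by positivity))
          (mul_le_mul_of_nonneg_left e2 (by positivity))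
    _ = ((K' + 1 : ℕ) * Cq + 8) * (θ.κ⁻¹ ^ p * θ.sz / (N : ℝ) ^ (K' + 1)) := by ring
    _ ≤ θ.κ⁻¹ ^ q * (θ.κ⁻¹ ^ p * θ.sz / (N : ℝ) ^ (K' + 1)) :=
        mul_le_mul_of_nonneg_right e3 (by positivity)
    _ = _ := by rw [pow_add]; ring

theorem q2_err (K : ℕ) (Cq : ℝ) (hCq : 1 ≤ Cq) : ∃ p : ℕ,
    ∀ (θ : Inst) (N : ℕ) (k : Kit K Cq N) (Φ : ℝ × E θ.d → E θ.d), 1 ≤ N → IsFlow θ.W Φ →
      L1le (gam θ.d) (fun o => gv θ.W (RR θ.κ, Φ (RR θ.κ, o)) - θ.m -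
        ∑ j, (k.q2.v j / RR θ.κ) • (Φ (RR θ.κ * k.q2.t j, o) +
          (RR θ.κ * k.q2.t j) • gv θ.W (RR θ.κ * k.q2.t j, Φ (RR θ.κ * k.q2.t j, o)) - o))
        (θ.κ⁻¹ ^ p * N / (N : ℝ) ^ K * θ.sz) := by
  obtain ⟨p, hp⟩ := path_l1 K
  obtain ⟨q, hq⟩ := exists_pow Cq
  refine ⟨q + p, fun θ N k Φ hN hΦ => ?_⟩
  have hR := RR_lt_one θ.κ_pos θ.κ_le
  have hR2 := half_le_RR θ.κ_pos θ.κ_le
  have hR0 : RR θ.κ ≠ 0 := by linarith
  have h0 : (0 : ℝ) ∈ Icc 0 (RR θ.κ) := ⟨le_rfl, by linarith⟩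
  have h1 : RR θ.κ ∈ Icc 0 (RR θ.κ) := ⟨by linarith, le_rfl⟩
  obtain ⟨hJi, hJ⟩ := hp θ Φ hΦ 0 h0 _ h1
  set J : E θ.d → ℝ := fun o => ∫ t in (0 : ℝ)..1,
    ‖(DD θ.W)^[K + 1] (gv θ.W) (0 + t * (RR θ.κ - 0), Φ (0 + t * (RR θ.κ - 0), o))‖ with hJdef
  have hJ0 : ∀ o, 0 ≤ J o := fun o =>
    intervalIntegral.integral_nonneg zero_le_one fun t _ => norm_nonneg _
  have hsz : 0 ≤ θ.sz := (Real.sqrt_nonneg _).trans (sqrt_le_sz θ)
  have hRt : ∀ j, RR θ.κ * k.q2.t j ∈ Icc 0 (RR θ.κ) := fun j =>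
    ⟨mul_nonneg (by linarith) (k.q2.t_mem j).1,
      mul_le_of_le_one_right (by linarith) (k.q2.t_mem j).2⟩
  have hpt : ∀ o, ‖gv θ.W (RR θ.κ, Φ (RR θ.κ, o)) - θ.m -
        ∑ j, (k.q2.v j / RR θ.κ) • (Φ (RR θ.κ * k.q2.t j, o) +
          (RR θ.κ * k.q2.t j) • gv θ.W (RR θ.κ * k.q2.t j, Φ (RR θ.κ * k.q2.t j, o)) - o)‖ ≤
      Cq * N / (N : ℝ) ^ K * J o := by
    intro o
    have h := k.q2.err (ch θ.W Φ 0 (RR θ.κ - 0) (-(RR θ.κ)⁻¹) o)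
      (fun j _ x hx => (ch_deriv θ.pot hΦ _ (abs_lt θ (mem_path h0 h1 hx)) o j).hasDerivWithinAt)
      (fun x hx => (ch_deriv θ.pot hΦ _ (abs_lt θ (mem_path h0 h1 hx)) o
        _).continuousAt.continuousWithinAt)
    have h2 := ch_int θ Φ 0 (RR θ.κ) (c := -(RR θ.κ)⁻¹) o (K + 1) (by
      have : -(RR θ.κ)⁻¹ * (RR θ.κ - 0) ^ (K + 1 + 1) = -(RR θ.κ) ^ (K + 1) := by
        rw [sub_zero, pow_succ _ (K + 1)]; field_simp
      rw [this, abs_neg, abs_pow]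
      exact pow_le_one₀ (abs_nonneg _) (abs_lt θ h1).le)
    refine le_trans (le_of_eq ?_) (h.trans (mul_le_mul_of_nonneg_left h2 (by positivity)))
    have e1 : -(-(RR θ.κ)⁻¹ * (RR θ.κ - 0) ^ (0 + 1)) = 1 := by
      rw [sub_zero, zero_add, pow_one]; field_simp
    have e2 : ∀ t : ℝ, 0 + t * (RR θ.κ - 0) = RR θ.κ * t := fun t => by ring
    simp only [ch, e1, e2, one_smul, Function.iterate_zero, id, mul_one, mul_zero, hΦ.init]
    have e3 : gv θ.W (0, o) = θ.m := by simp [gv, Inst.m]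
    rw [e3]
    congr 2
    refine Finset.sum_congr rfl fun j _ => ?_
    rw [div_eq_mul_inv, mul_smul]
    congr 1
    simp only [smul_sub, smul_add, smul_smul, neg_smul, ← mul_assoc, inv_mul_cancel₀ hR0, one_mul]
    abel
  have hbi : Integrable (fun o => Cq * N / (N : ℝ) ^ K * J o) (gam θ.d) := hJi.const_mul _
  have hΦc : ∀ r ∈ Icc 0 (RR θ.κ), Continuous fun o => Φ (r, o) := fun r hr =>
    (flow_sl_smooth hΦ (abs_lt θ hr)).continuous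
  have hgc : ∀ r ∈ Icc 0 (RR θ.κ), Continuous fun o => gv θ.W (r, Φ (r, o)) := fun r hr =>
    (gv_sl_cont θ (abs_lt θ hr)).comp (hΦc r hr)
  have hcont : Continuous fun o => gv θ.W (RR θ.κ, Φ (RR θ.κ, o)) - θ.m -
        ∑ j, (k.q2.v j / RR θ.κ) • (Φ (RR θ.κ * k.q2.t j, o) +
          (RR θ.κ * k.q2.t j) • gv θ.W (RR θ.κ * k.q2.t j, Φ (RR θ.κ * k.q2.t j, o)) - o) :=
    ((hgc _ h1).sub continuous_const).sub (continuous_finsetSum _ fun j _ =>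
      (((hΦc _ (hRt j)).add ((hgc _ (hRt j)).const_smul (RR θ.κ * k.q2.t j))).sub
        continuous_id).const_smul (k.q2.v j / RR θ.κ))
  have hint := hbi.mono' hcont.aestronglyMeasurable (ae_of_all _ hpt)
  refine ⟨hint, (integral_mono hint.norm hbi hpt).trans ?_⟩
  rw [integral_const_mul _ J]
  have e1 : ∫ o, J o ∂(gam θ.d) ≤ θ.κ⁻¹ ^ p * θ.sz := by
    refine le_trans (le_of_eq ?_) (hJ.trans (mul_le_mul_of_nonneg_left (sqrt_le_sz θ)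
      (zero_le_one.trans (one_le_pow' θ p))))
    refine integral_congr_ae (ae_of_all _ fun o => ?_)
    simp only [Real.norm_eq_abs, abs_of_nonneg (hJ0 o)]
  have e3 := hq θ.κ θ.κ_pos θ.κ_le
  have hP : 0 ≤ θ.κ⁻¹ ^ p * θ.sz := mul_nonneg (zero_le_one.trans (one_le_pow' θ p)) hsz
  calc _ ≤ Cq * N / (N : ℝ) ^ K * (θ.κ⁻¹ ^ p * θ.sz) :=
        mul_le_mul_of_nonneg_left e1 (by positivity)
    _ = Cq * (N / (N : ℝ) ^ K * (θ.κ⁻¹ ^ p * θ.sz)) := by ring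
    _ ≤ θ.κ⁻¹ ^ q * (N / (N : ℝ) ^ K * (θ.κ⁻¹ ^ p * θ.sz)) :=
        mul_le_mul_of_nonneg_right e3 (by positivity)
    _ = _ := by rw [pow_add]; ring

end Crest.Agent.R285
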