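import Crest.Agent.R285.TG

/-!
# R285 Lie: truncated Lie series almost preserve the measure.

With `Y t = lieS B K M t`: `∂_t Y t = XV B (Y t) - t^K/K! • (XV B)^[K+1] M`.  For `f` of class `C¹`
with `‖fderiv f‖ ≤ L`: `F t = ∫ f (Y t p) dμ` has derivative
`∫ fderiv (f ∘ Y t) p (B p) - t^K/K! ∫ fderiv f (Y t p) ((XV B)^[K+1] M p)`
(`hasDerivAt_integral_of_dominated_loc_of_deriv_le`), the first term vanishes by `SF.free`.
Mean value inequality on `[0,1]`.  A Lipschitz `f` on the finite dimensional `Q` is uniformly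
approximated by smooth functions with the same Lipschitz constant (convolution with
`ContDiffBump.normed`, `borel Q` and `Measure.addHaar`; `norm_fderiv_le_of_lipschitz`).
-/

set_option autoImplicit false

namespace Crest.Agent.R285

open MeasureTheory Set
open scoped ContDiff

variable {P : Type} [NormedAddCommGroup P] [NormedSpace ℝ P] [MeasurableSpace P] [BorelSpace P]
  [SecondCountableTopology P] {Q : Type} [NormedAddCommGroup Q] [NormedSpace ℝ Q]
  {Q' : Type} [NormedAddCommGroup Q'] [NormedSpace ℝ Q'] {μ : Measure P} {B : P → P}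

open scoped Convolution in
theorem lip_approx [FiniteDimensional ℝ Q] {f : Q → ℝ} {L : ℝ} (hL : 0 ≤ L)
    (hf : ∀ x y, |f x - f y| ≤ L * ‖x - y‖) {ε : ℝ} (hε : 0 < ε) :
    ∃ g : Q → ℝ, ContDiff ℝ 1 g ∧ (∀ x, ‖fderiv ℝ g x‖ ≤ L) ∧ ∀ x, |g x - f x| ≤ ε := by
  borelize Q
  have hc : Continuous f := by
    refine (LipschitzWith.of_dist_le_mul (K := ⟨L, hL⟩) fun x y => ?_).continuous
    rw [Real.dist_eq, dist_eq_norm]
    exact hf x y
  have hr : 0 < ε / (L + 1) := by positivity
  set φ : ContDiffBump (0 : Q) := ⟨ε / (L + 1) / 2, ε / (L + 1), half_pos hr, half_lt_self hr⟩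
    with hφ
  set ν : Measure Q := Measure.addHaar with hν
  have hli : LocallyIntegrable f ν := hc.locallyIntegrable
  refine ⟨φ.normed ν ⋆[ContinuousLinearMap.lsmul ℝ ℝ, ν] f,
    φ.hasCompactSupport_normed.contDiff_convolution_left _ φ.contDiff_normed hli, fun x => ?_,
    fun x => ?_⟩
  · refine norm_fderiv_le_of_lip' ℝ hL (Filter.Eventually.of_forall fun y => ?_)
    have hi : ∀ z, Integrable (fun t => φ.normed ν t • f (z - t)) ν := fun z =>
      φ.hasCompactSupport_normed.convolutionExists_left (ContinuousLinearMap.lsmul ℝ ℝ)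
        φ.continuous_normed hli z
    rw [convolution_lsmul, convolution_lsmul, ← integral_sub (hi y) (hi x)]
    have h1 : ∫ t, φ.normed ν t * (L * ‖y - x‖) ∂ν = L * ‖y - x‖ := by
      rw [integral_mul_const, φ.integral_normed, one_mul]
    rw [← h1]
    refine norm_integral_le_of_norm_le (φ.integrable_normed.mul_const _)
      (Filter.Eventually.of_forall fun t => ?_)
    rw [← smul_sub, norm_smul, Real.norm_of_nonneg (φ.nonneg_normed t)]
    refine mul_le_mul_of_nonneg_left ?_ (φ.nonneg_normed t)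
    have := hf (y - t) (x - t)
    rwa [sub_sub_sub_cancel_right] at this
  · rw [← Real.dist_eq]
    refine φ.dist_normed_convolution_le hc.aestronglyMeasurable fun y hy => ?_
    rw [Real.dist_eq]
    have h1 : ‖y - x‖ < ε / (L + 1) := by rwa [Metric.mem_ball, dist_eq_norm] at hy
    have h2 : L * (ε / (L + 1)) ≤ ε := by
      rw [← mul_div_assoc, div_le_iff₀ (by positivity)]
      nlinarith
    exact (hf y x).trans ((mul_le_mul_of_nonneg_left h1.le hL).trans h2)

omit [MeasurableSpace P] [BorelSpace P] [SecondCountableTopology P] in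
theorem lieS_tg {M : P → Q} (hB : TG B) (hM : TG M) (K : ℕ) (t : ℝ) : TG (lieS B K M t) :=
  Function.HasTemperateGrowth.sum fun k _ =>
    (Function.HasTemperateGrowth.const _).fun_smul (tg_xv_iter hB hM k)

omit [MeasurableSpace P] [BorelSpace P] [SecondCountableTopology P] in
theorem lieS_zero (K : ℕ) (M : P → Q) (p : P) : lieS B K M 0 p = M p := by
  simp [lieS, Finset.sum_range_succ']

omit [MeasurableSpace P] [BorelSpace P] [SecondCountableTopology P] in
theorem xv_iter_pair {M : P → Q} {M' : P → Q'} (hB : TG B) (hM : TG M) (hM' : TG M') (k : ℕ)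
    (p : P) :
    (XV B)^[k] (fun p => (M p, M' p)) p = ((XV B)^[k] M p, (XV B)^[k] M' p) := by
  induction k generalizing p with
  | zero => rfl
  | succ k ih =>
    rw [Function.iterate_succ_apply', Function.iterate_succ_apply', Function.iterate_succ_apply',
      funext ih]
    have h1 := ((tg_xv_iter hB hM k).1.differentiable (by simp)) p
    have h2 := ((tg_xv_iter hB hM' k).1.differentiable (by simp)) p
    simp only [XV]
    rw [h1.fderiv_prodMk h2]
    rfl

namespace LieA

theorem deriv_sum (a : ℕ → Q) (K : ℕ) (t : ℝ) :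
    HasDerivAt (fun t : ℝ => ∑ k ∈ Finset.range (K + 1), (t ^ k / (k.factorial : ℝ)) • a k)
      (∑ k ∈ Finset.range K, (t ^ k / (k.factorial : ℝ)) • a (k + 1)) t := by
  induction K with
  | zero => simpa using hasDerivAt_const t (a 0)
  | succ K ih =>
    simp only [Finset.sum_range_succ _ (K + 1), Finset.sum_range_succ _ K] at ih ⊢
    refine ih.add ?_
    have h1 := ((hasDerivAt_pow (K + 1) t).div_const ((K + 1).factorial : ℝ)).smul_const (a (K + 1))
    convert h1 using 2
    rw [Nat.factorial_succ]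
    push_cast
    have : (K.factorial : ℝ) ≠ 0 := by positivity
    field_simp

omit [MeasurableSpace P] [BorelSpace P] [SecondCountableTopology P] in
theorem xv_lieS {M : P → Q} (hB : TG B) (hM : TG M) (K : ℕ) (t : ℝ) (p : P) :
    fderiv ℝ (lieS B K M t) p (B p) =
      ∑ k ∈ Finset.range (K + 1), (t ^ k / (k.factorial : ℝ)) • (XV B)^[k + 1] M p := by
  have h1 : HasFDerivAt (lieS B K M t) (∑ k ∈ Finset.range (K + 1),
      (t ^ k / (k.factorial : ℝ)) • fderiv ℝ ((XV B)^[k] M) p) p :=
    HasFDerivAt.fun_sum fun k _ =>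
      (((tg_xv_iter hB hM k).1.differentiable (by simp)) p).hasFDerivAt.const_smul _
  rw [h1.fderiv, ContinuousLinearMap.sum_apply]
  refine Finset.sum_congr rfl fun k _ => ?_
  rw [Function.iterate_succ_apply']
  rfl

theorem coef_le {t c : ℝ} (h : |t| ≤ c) (k : ℕ) : ‖t ^ k / (k.factorial : ℝ)‖ ≤ c ^ k := by
  rw [Real.norm_eq_abs, abs_div, abs_pow, Nat.abs_cast]
  refine (div_le_self (by positivity) ?_).trans (pow_le_pow_left₀ (abs_nonneg _) h k)
  exact_mod_cast k.factorial_pos

theorem lie_c1 (h : SF μ B) {M : P → Q} (hM : TG M) (K : ℕ) {g : Q → ℝ}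
    {L : ℝ} (hL : 0 ≤ L) (hg : ContDiff ℝ 1 g) (hg' : ∀ x, ‖fderiv ℝ g x‖ ≤ L) {t : ℝ}
    (ht : t ∈ Icc (0 : ℝ) 1) :
    |∫ p, g (lieS B K M t p) ∂μ - ∫ p, g (M p) ∂μ| ≤ L * ∫ p, ‖(XV B)^[K + 1] M p‖ ∂μ := by
  have hB := h.tg
  have hd : Differentiable ℝ g := hg.differentiable (by simp)
  have hpg : PolyG g := polyG_of_lip (L := L) fun x y =>
    convex_univ.norm_image_sub_le_of_norm_fderiv_le (fun x _ => hd x) (fun x _ => hg' x)
      (mem_univ y) (mem_univ x)
  have hcf : Continuous (fderiv ℝ g) := hg.continuous_fderiv (by simp)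
  have ha : ∀ k, TG ((XV B)^[k] M) := tg_xv_iter hB hM
  have hY : ∀ s, TG (lieS B K M s) := lieS_tg hB hM K
  let Z : ℝ → P → Q := fun s p =>
    ∑ k ∈ Finset.range K, (s ^ k / (k.factorial : ℝ)) • (XV B)^[k + 1] M p
  have hZ : ∀ s, TG (Z s) := fun s => Function.HasTemperateGrowth.sum fun k _ =>
    (Function.HasTemperateGrowth.const _).fun_smul (ha (k + 1))
  have happ : ∀ s {V : P → Q}, TG V → Integrable (fun p => fderiv ℝ g (lieS B K M s p) (V p)) μ := by
    intro s V hV
    refine polyG_integrable h.pm ((hcf.comp (hY s).1.continuous).clm_apply hV.1.continuous) ?_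
    refine polyG_of_le (polyG_smul (polyG_const L) (tg_polyG hV)) fun p => ?_
    rw [norm_smul, Real.norm_of_nonneg hL]
    exact (fderiv ℝ g _).le_of_opNorm_le (hg' _) _
  have hder : ∀ s ∈ Icc (0 : ℝ) 1, HasDerivAt (fun s => ∫ p, g (lieS B K M s p) ∂μ)
      (∫ p, fderiv ℝ g (lieS B K M s p) (Z s p) ∂μ) s := by
    intro s hs
    refine (hasDerivAt_integral_of_dominated_loc_of_deriv_le (s := Ioo (-2) 2)
      (F := fun s p => g (lieS B K M s p))
      (F' := fun s p => fderiv ℝ g (lieS B K M s p) (Z s p))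
      (bound := fun p => L * ∑ k ∈ Finset.range K, 2 ^ k * ‖(XV B)^[k + 1] M p‖)
      (Ioo_mem_nhds (by linarith [hs.1]) (by linarith [hs.2]))
      (Filter.Eventually.of_forall fun s =>
        (hg.continuous.comp (hY s).1.continuous).aestronglyMeasurable)
      (polyG_integrable h.pm (hg.continuous.comp (hY s).1.continuous)
        (polyG_comp hpg (tg_polyG (hY s))))
      (happ s (hZ s)).aestronglyMeasurable (Filter.Eventually.of_forall fun p r hr => ?_) ?_
      (Filter.Eventually.of_forall fun p r _ => ?_)).2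
    · refine ((fderiv ℝ g _).le_of_opNorm_le (hg' _) _).trans (mul_le_mul_of_nonneg_left ?_ hL)
      refine (norm_sum_le _ _).trans (Finset.sum_le_sum fun k _ => ?_)
      rw [norm_smul]
      exact mul_le_mul_of_nonneg_right (coef_le (abs_le.2 ⟨hr.1.le, hr.2.le⟩) k) (norm_nonneg _)
    · exact (integrable_finsetSum _ fun k _ =>
        (tg_integrable h.pm (ha (k + 1))).norm.const_mul _).const_mul _
    · exact (hd _).hasFDerivAt.comp_hasDerivAt r (deriv_sum (fun k => (XV B)^[k] M p) K r)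
  have hbd : ∀ s ∈ Ico (0 : ℝ) 1, ‖∫ p, fderiv ℝ g (lieS B K M s p) (Z s p) ∂μ‖ ≤
      L * ∫ p, ‖(XV B)^[K + 1] M p‖ ∂μ := by
    intro s hs
    have hYd : Differentiable ℝ (lieS B K M s) := (hY s).1.differentiable (by simp)
    have hfd : ∀ p, fderiv ℝ (fun p => g (lieS B K M s p)) p =
        (fderiv ℝ g (lieS B K M s p)).comp (fderiv ℝ (lieS B K M s) p) := fun p =>
      fderiv_comp p (hd _) (hYd p)
    have h0 := h.free (fun p => g (lieS B K M s p)) (hg.comp ((hY s).1.of_le (by simp)))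
      (polyG_comp hpg (tg_polyG (hY s))) (by
        refine polyG_of_le (polyG_smul (polyG_const L) (tg_polyG (tg_fderiv (hY s)))) fun p => ?_
        rw [norm_smul, Real.norm_of_nonneg hL, hfd]
        exact (ContinuousLinearMap.opNorm_comp_le _ _).trans
          (mul_le_mul_of_nonneg_right (hg' _) (norm_nonneg _)))
    have hV : TG (fun p => (s ^ K / (K.factorial : ℝ)) • (XV B)^[K + 1] M p) :=
      (Function.HasTemperateGrowth.const _).fun_smul (ha (K + 1))
    have h1 : ∀ p, fderiv ℝ (fun p => g (lieS B K M s p)) p (B p) =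
        fderiv ℝ g (lieS B K M s p) (Z s p) +
          fderiv ℝ g (lieS B K M s p) ((s ^ K / (K.factorial : ℝ)) • (XV B)^[K + 1] M p) := by
      intro p
      rw [hfd, ContinuousLinearMap.comp_apply, xv_lieS hB hM, Finset.sum_range_succ, map_add]
    simp only [h1] at h0
    rw [integral_add (happ s (hZ s)) (happ s hV)] at h0
    rw [eq_neg_of_add_eq_zero_left h0, norm_neg, ← integral_const_mul]
    refine norm_integral_le_of_norm_le ((tg_integrable h.pm (ha (K + 1))).norm.const_mul _)
      (Filter.Eventually.of_forall fun p => ?_)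
    refine ((fderiv ℝ g _).le_of_opNorm_le (hg' _) _).trans (mul_le_mul_of_nonneg_left ?_ hL)
    rw [norm_smul]
    refine mul_le_of_le_one_left (norm_nonneg _) ?_
    have := coef_le (c := 1) (abs_le.2 ⟨by linarith [hs.1], hs.2.le⟩) K
    rwa [one_pow] at this
  have h2 := norm_image_sub_le_of_norm_deriv_le_segment'
    (fun s hs => (hder s hs).hasDerivWithinAt) hbd t ht
  simp only [lieS_zero, sub_zero] at h2
  refine h2.trans (mul_le_of_le_one_right ?_ ht.2)
  exact mul_nonneg hL (integral_nonneg fun p => norm_nonneg _)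

end LieA

theorem lie_weak [FiniteDimensional ℝ Q] (h : SF μ B) {M : P → Q} (hM : TG M) (K : ℕ) {f : Q → ℝ}
    {L : ℝ} (hL : 0 ≤ L) (hf : ∀ x y, |f x - f y| ≤ L * ‖x - y‖) {t : ℝ} (ht : t ∈ Icc (0 : ℝ) 1) :
    |∫ p, f (lieS B K M t p) ∂μ - ∫ p, f (M p) ∂μ| ≤ L * ∫ p, ‖(XV B)^[K + 1] M p‖ ∂μ := by
  refine le_of_forall_pos_le_add fun ε hε => ?_
  obtain ⟨g, hg, hg', hgf⟩ := lip_approx hL hf (half_pos hε)
  have := h.pm.prob
  have hc : Continuous f := by
    refine (LipschitzWith.of_dist_le_mul (K := ⟨L, hL⟩) fun x y => ?_).continuous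
    rw [Real.dist_eq, dist_eq_norm]
    exact hf x y
  have hpf : PolyG f := polyG_of_lip (L := L) hf
  have hpg : PolyG g := by
    refine polyG_of_le (polyG_add (polyG_norm hpf) (polyG_const (ε / 2))) fun x => ?_
    have h1 := hgf x
    have h2 := abs_sub_abs_le_abs_sub (g x) (f x)
    refine le_trans ?_ (le_abs_self _)
    simp only [Real.norm_eq_abs]
    linarith
  have key : ∀ {V : P → Q}, TG V → |∫ p, g (V p) ∂μ - ∫ p, f (V p) ∂μ| ≤ ε / 2 := by
    intro V hV
    rw [← integral_sub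
      (polyG_integrable h.pm (hg.continuous.comp' hV.1.continuous) (polyG_comp hpg (tg_polyG hV)))
      (polyG_integrable h.pm (hc.comp' hV.1.continuous) (polyG_comp hpf (tg_polyG hV)))]
    have := norm_integral_le_of_norm_le_const (μ := μ) (f := fun p => g (V p) - f (V p))
      (C := ε / 2) (Filter.Eventually.of_forall fun p => hgf (V p))
    simpa using this
  have h1 := abs_le.1 (key (lieS_tg h.tg hM K t))
  have h2 := abs_le.1 (key hM)
  have h3 := abs_le.1 (LieA.lie_c1 h hM K hL hg hg' ht)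
  rw [abs_le]
  constructor <;> linarith [h1.1, h1.2, h2.1, h2.2, h3.1, h3.2]

theorem lie_weak2 [FiniteDimensional ℝ Q] [FiniteDimensional ℝ Q'] (h : SF μ B) {M : P → Q}
    {M' : P → Q'} (hM : TG M) (hM' : TG M') (K : ℕ) {f : Q × Q' → ℝ} {L : ℝ} (hL : 0 ≤ L)
    (hf : ∀ x y, |f x - f y| ≤ L * ‖x - y‖) {t : ℝ} (ht : t ∈ Icc (0 : ℝ) 1) :
    |∫ p, f (lieS B K M t p, lieS B K M' t p) ∂μ - ∫ p, f (M p, M' p) ∂μ| ≤
      L * (∫ p, ‖(XV B)^[K + 1] M p‖ ∂μ + ∫ p, ‖(XV B)^[K + 1] M' p‖ ∂μ) := by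
  have h1 := lie_weak h (tg_prodMk hM hM') K hL hf ht
  have h2 : ∀ p, lieS B K (fun p => (M p, M' p)) t p = (lieS B K M t p, lieS B K M' t p) := by
    intro p
    simp only [lieS, xv_iter_pair h.tg hM hM']
    ext
    · simp [Prod.fst_sum]
    · simp [Prod.snd_sum]
  simp only [h2] at h1
  refine h1.trans (mul_le_mul_of_nonneg_left ?_ hL)
  have i1 := (tg_integrable h.pm (tg_xv_iter h.tg hM (K + 1))).norm
  have i2 := (tg_integrable h.pm (tg_xv_iter h.tg hM' (K + 1))).norm
  rw [← integral_add i1 i2]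
  refine integral_mono (tg_integrable h.pm (tg_xv_iter h.tg (tg_prodMk hM hM') (K + 1))).norm
    (i1.add i2) fun p => ?_
  simp only [xv_iter_pair h.tg hM hM', Prod.norm_mk]
  exact max_le (le_add_of_nonneg_right (norm_nonneg _)) (le_add_of_nonneg_left (norm_nonneg _))

end Crest.Agent.R285
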