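import Crest.Agent.R285.MomA

/-!
# R285 MomB: the smoothed potential.

Write `Z = Mom W 1`.  `Gc W i = Mom W (∂_i W) / Z` on `UU` (`integral_nu`, coordinates commute with the
Bochner integral).  `gv_eq`: IBP (`gib_ibp` with `φ = 1`) says `∫ (∂_i W z + (z_i - x_i)/s) dν = 0`.
Hence `∂_{x_i} Z = - G_i Z` (`mom_pd_x`), `∂_i Wt = G_i`, and `Hm` is symmetric (`pd_comm`).
HJB: from `mom_fderiv`, `∂_s Z = Mom ‖z-x‖²/(2s²)`, `∑_c ∂_c∂_c Z = Mom ‖z-x‖²/s² - d Z/s`, so
`∂_s Wt = (1/2) ∑_c H_cc - (1/2) ∑_c G_c²` on `UU`.  Applying `pd (xd i)` (use `pd_congr`, `pd_comm`)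
gives `LL W (Gc W i) = 0`.
-/

set_option autoImplicit false

namespace Crest.Agent.R285

open MeasureTheory Set
open scoped ContDiff

variable {d : ℕ} {W : E d → ℝ} {δ : ℝ} {p : ℝ × E d}

namespace MomBA

theorem integral_coord {α : Type} [MeasurableSpace α] {μ : Measure α} {f : α → E d}
    (hf : Integrable f μ) (i : Fin d) : (∫ z, f z ∂μ) i = ∫ z, f z i ∂μ :=
  ((EuclideanSpace.proj i : E d →L[ℝ] ℝ).integral_comp_comm hf).symm

theorem grad_coord_cont (hW : Pot δ W) (i : Fin d) : Continuous fun z => gradient W z i :=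
  (MomAA.coord_cont i).comp (pot_grad_cont hW)

theorem grad_coord_polyG (hW : Pot δ W) (i : Fin d) : PolyG fun z => gradient W z i :=
  polyG_comp (polyG_coord i) (pot_grad_polyG hW)

theorem Z_smooth (hW : Pot δ W) : ContDiffOn ℝ ∞ (Mom W fun _ => 1) (UU d) :=
  mom_smooth hW continuous_const (polyG_const _)

theorem diffAt {F : Type} [NormedAddCommGroup F] [NormedSpace ℝ F] {O : Set (ℝ × E d)}
    (hO : IsOpen O) {χ : ℝ × E d → F} (h : ContDiffOn ℝ ∞ χ O) (hp : p ∈ O) :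
    DifferentiableAt ℝ χ p :=
  (h.contDiffAt (hO.mem_nhds hp)).differentiableAt (by simp)

theorem pd_fst (v p : ℝ × E d) : pd v (fun q : ℝ × E d => q.1) p = v.1 := by
  unfold pd
  rw [(hasFDerivAt_fst (𝕜 := ℝ) (p := p)).fderiv]
  rfl

theorem snd_coord_hasFDerivAt (c : Fin d) (p : ℝ × E d) :
    HasFDerivAt (fun q : ℝ × E d => q.2 c) ((EuclideanSpace.proj c : E d →L[ℝ] ℝ).comp
      (ContinuousLinearMap.snd ℝ ℝ (E d))) p :=
  ((EuclideanSpace.proj c : E d →L[ℝ] ℝ).comp (ContinuousLinearMap.snd ℝ ℝ (E d))).hasFDerivAt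

theorem pd_snd_coord (c : Fin d) (v p : ℝ × E d) :
    pd v (fun q : ℝ × E d => q.2 c) p = v.2 c := by
  unfold pd
  rw [(snd_coord_hasFDerivAt c p).fderiv]
  rfl

theorem maps_OO {q : ℝ × E d} (hq : q ∈ OO d) : ((1 - q.1 ^ 2, q.1 • q.2) : ℝ × E d) ∈ UU d := by
  have h : |q.1| < 1 := hq
  have : q.1 ^ 2 < 1 := by rwa [← sq_lt_one_iff_abs_lt_one] at h
  show 0 < 1 - q.1 ^ 2
  linarith

end MomBA

open MomBA

theorem gc_eq (hW : Pot δ W) (h : p ∈ UU d) (i : Fin d) :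
    Gc W i p = Mom W (fun z => gradient W z i) p / Mom W (fun _ => 1) p := by
  unfold Gc Gv
  rw [integral_coord (polyG_integrable (nu_pm hW h p.2) (pot_grad_cont hW) (pot_grad_polyG hW)),
    integral_nu]

theorem zb_eq (hW : Pot δ W) (h : p ∈ UU d) (i : Fin d) :
    zb W p.1 p.2 i = Mom W (fun z => z i) p / Mom W (fun _ => 1) p := by
  unfold zb
  rw [integral_coord (polyG_integrable (nu_pm hW h p.2) continuous_id' polyG_id), integral_nu]

theorem gc_smooth (hW : Pot δ W) (i : Fin d) : ContDiffOn ℝ ∞ (Gc W i) (UU d) :=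
  ((mom_smooth hW (grad_coord_cont hW i) (grad_coord_polyG hW i)).div (Z_smooth hW)
    fun _ hq => (mom_one_pos hW hq).ne').congr fun _ hq => gc_eq hW hq i

theorem gvec_smooth (hW : Pot δ W) :
    ContDiffOn ℝ ∞ (fun p : ℝ × E d => Gv W p.1 p.2) (UU d) :=
  contDiffOn_euclidean.2 fun i => gc_smooth hW i

theorem zb_smooth (hW : Pot δ W) {s : ℝ} (hs : 0 < s) (i : Fin d) :
    ContDiff ℝ ∞ (fun x => zb W s x i) := by
  have h1 : ContDiffOn ℝ ∞ (fun p : ℝ × E d => zb W p.1 p.2 i) (UU d) :=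
    ((mom_smooth hW (MomAA.coord_cont i) (polyG_coord i)).div (Z_smooth hW)
      fun _ hq => (mom_one_pos hW hq).ne').congr fun _ hq => zb_eq hW hq i
  exact h1.comp_contDiff (f := fun x : E d => ((s, x) : ℝ × E d))
    (contDiff_const.prodMk contDiff_id) fun _ => hs

theorem gv_eq (hW : Pot δ W) {s : ℝ} (hs : 0 < s) (x : E d) :
    Gv W s x = s⁻¹ • (x - zb W s x) := by
  have hpm := nu_pm hW hs x
  have := hpm.prob
  have hW1 : ContDiff ℝ 1 W := hW.c2.of_le (by norm_num)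
  have hU1 : ContDiff ℝ 1 (fun z => W z + ‖z - x‖ ^ 2 / (2 * s)) :=
    hW1.add (((contDiff_norm_sq ℝ).comp (contDiff_id.sub contDiff_const)).div_const _)
  have hd : ∀ z, HasFDerivAt (fun z => W z + ‖z - x‖ ^ 2 / (2 * s))
      (fderiv ℝ W z + s⁻¹ • innerSL ℝ (z - x)) z := fun z => by
    have h1 := ((TiltA.hasFDerivAt_half_sq (z - x)).comp z
      ((hasFDerivAt_id z).sub_const x)).const_mul s⁻¹
    have h2 := (hW1.differentiable (by norm_num) z).hasFDerivAt.add h1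
    have e : (fun z => W z + ‖z - x‖ ^ 2 / (2 * s)) =
        W + fun y => s⁻¹ * ((fun y : E d => ‖y‖ ^ 2 / 2) ∘ fun y => id y - x) y := by
      funext y; simp only [Pi.add_apply, Function.comp, id]; ring
    rw [e]
    simpa using h2
  have hp : PolyG (fderiv ℝ (fun z => W z + ‖z - x‖ ^ 2 / (2 * s))) := by
    rw [funext fun z => (hd z).fderiv]
    refine polyG_add (pot_fderiv_polyG hW) (polyG_smul (polyG_const _) ?_)
    exact polyG_of_le (polyG_sub polyG_id (polyG_const x)) fun y => (innerSL_apply_norm ℝ _).le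
  ext i
  have h1 := gib_ibp (nu_conf hW hs x) hU1 hp (φ := fun _ => (1 : ℝ)) contDiff_const
    (polyG_const _) (by rw [fderiv_fun_const]; exact polyG_const _) (bv i)
  have e : ∀ z, pd (bv i) (fun z => W z + ‖z - x‖ ^ 2 / (2 * s)) z * 1 =
      gradient W z i + (s⁻¹ * z i - s⁻¹ * x i) := fun z => by
    rw [← pd_bv_eq_grad]
    unfold pd
    rw [(hd z).fderiv]
    simp [bv, EuclideanSpace.inner_single_right]
    ring
  simp only [e, pd_const, integral_zero] at h1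
  have i1 : Integrable (fun z => gradient W z i) (nu W s x) :=
    polyG_integrable hpm (grad_coord_cont hW i) (grad_coord_polyG hW i)
  have i2 : Integrable (fun z : E d => z i) (nu W s x) :=
    polyG_integrable hpm (MomAA.coord_cont i) (polyG_coord i)
  have i3 : Integrable (fun z : E d => s⁻¹ * z i - s⁻¹ * x i) (nu W s x) :=
    (i2.const_mul _).sub (integrable_const _)
  change 0 = ∫ z, (gradient W z i + (s⁻¹ * z i - s⁻¹ * x i)) ∂(nu W s x) at h1
  rw [integral_add i1 i3, integral_sub (i2.const_mul _) (integrable_const _),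
    integral_const_mul] at h1
  unfold Gv zb
  simp only [PiLp.smul_apply, PiLp.sub_apply, smul_eq_mul]
  rw [integral_coord (polyG_integrable hpm (pot_grad_cont hW) (pot_grad_polyG hW)),
    integral_coord (polyG_integrable hpm continuous_id' polyG_id)]
  simp at h1
  linarith

theorem mom_one_pd (hW : Pot δ W) (h : p ∈ UU d) (i : Fin d) :
    pd (xd i) (Mom W fun _ => 1) p = -Gc W i p * Mom W (fun _ => 1) p := by
  have hs : 0 < p.1 := h
  have hZ := mom_one_pos hW h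
  rw [mom_pd_x hW continuous_const (polyG_const _) h]
  have h1 : Gc W i p = (p.1)⁻¹ * (p.2 i - zb W p.1 p.2 i) := by
    unfold Gc
    rw [gv_eq hW hs]
    simp
  rw [h1, zb_eq hW h]
  simp only [one_mul]
  field_simp
  ring

theorem wt_smooth (hW : Pot δ W) : ContDiffOn ℝ ∞ (Wt W) (UU d) :=
  ((Z_smooth hW).log fun _ hq => (mom_one_pos hW hq).ne').neg.add
    (contDiffOn_const.mul (contDiffOn_fst.log fun _ hq => ne_of_gt hq))

theorem MomBA.wt_pd' (hW : Pot δ W) (h : p ∈ UU d) (v : ℝ × E d) :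
    pd v (Wt W) p = -(pd v (Mom W fun _ => 1) p / Mom W (fun _ => 1) p) +
      (d : ℝ) / 2 * (v.1 / p.1) := by
  have hs : 0 < p.1 := h
  have h1 := (diffAt (isOpen_UU d) (Z_smooth hW) h).hasFDerivAt.log (mom_one_pos hW h).ne'
  have h2 := ((hasFDerivAt_fst (𝕜 := ℝ) (p := p)).log hs.ne').const_mul ((d : ℝ) / 2)
  have h3 : HasFDerivAt (Wt W) _ p := h1.neg.add h2
  unfold pd
  rw [h3.fderiv]
  simp
  ring

theorem wt_pd (hW : Pot δ W) (h : p ∈ UU d) (i : Fin d) : pd (xd i) (Wt W) p = Gc W i p := by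
  have hZ := mom_one_pos hW h
  rw [wt_pd' hW h, mom_one_pd hW h]
  simp only [xd]
  field_simp
  ring

theorem hm_smooth (hW : Pot δ W) : SmO (UU d) (Hm W) :=
  fun i a => pd_contDiffOn (isOpen_UU d) (gc_smooth hW i) (xd a)

theorem hm_symm (hW : Pot δ W) (h : p ∈ UU d) (i a : Fin d) : Hm W i a p = Hm W a i p := by
  unfold Hm
  have e : ∀ j, EqOn (Gc W j) (pd (xd j) (Wt W)) (UU d) := fun j q hq => (wt_pd hW hq j).symm
  rw [pd_congr (isOpen_UU d) (e i) _ h, pd_congr (isOpen_UU d) (e a) _ h]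
  exact pd_comm (isOpen_UU d) (wt_smooth hW) _ _ h

theorem MomBA.pd_pd_Z (hW : Pot δ W) (h : p ∈ UU d) (c : Fin d) :
    pd (xd c) (pd (xd c) (Mom W fun _ => 1)) p =
      -(Hm W c c p - Gc W c p ^ 2) * Mom W (fun _ => 1) p := by
  have e : EqOn (pd (xd c) (Mom W fun _ => 1))
      (fun q => (-1) * (Gc W c q * Mom W (fun _ => 1) q)) (UU d) := fun q hq => by
    rw [mom_one_pd hW hq]; ring
  rw [pd_congr (isOpen_UU d) e _ h, pd_const_mul]
  simp only
  rw [pd_mul _ (diffAt (isOpen_UU d) (gc_smooth hW c) h) (diffAt (isOpen_UU d) (Z_smooth hW) h),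
    mom_one_pd hW h]
  unfold Hm
  ring

theorem MomBA.pd_pd_Z' (hW : Pot δ W) (h : p ∈ UU d) (c : Fin d) :
    pd (xd c) (pd (xd c) (Mom W fun _ => 1)) p =
      (Mom W (fun z => 1 * z c * z c) p - 2 * p.2 c * Mom W (fun z => 1 * z c) p +
        p.2 c ^ 2 * Mom W (fun _ => 1) p) / p.1 ^ 2 - Mom W (fun _ => 1) p / p.1 := by
  have hs : 0 < p.1 := h
  have c1 : Continuous fun z : E d => 1 * z c := (MomAA.coord_cont c).const_mul 1
  have p1 : PolyG fun z : E d => 1 * z c := polyG_mul (polyG_const _) (polyG_coord c)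
  have e : EqOn (pd (xd c) (Mom W fun _ => 1))
      (fun q => (Mom W (fun z => 1 * z c) q - q.2 c * Mom W (fun _ => 1) q) * (q.1)⁻¹) (UU d) :=
    fun q hq => by rw [mom_pd_x hW continuous_const (polyG_const _) hq, div_eq_mul_inv]
  have d0 := diffAt (isOpen_UU d) (Z_smooth hW) h
  have d1 := diffAt (isOpen_UU d) (mom_smooth hW c1 p1) h
  have d2 := (snd_coord_hasFDerivAt c p).differentiableAt
  have h3 : HasFDerivAt (fun q : ℝ × E d => (q.1)⁻¹)
      ((-(p.1 ^ 2)⁻¹) • ContinuousLinearMap.fst ℝ ℝ (E d)) p :=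
    (hasDerivAt_inv hs.ne').comp_hasFDerivAt p (hasFDerivAt_fst (𝕜 := ℝ) (p := p))
  have h4 : pd (xd c) (fun q : ℝ × E d => (q.1)⁻¹) p = 0 := by
    unfold pd
    rw [h3.fderiv]
    simp [xd]
  have d3 : DifferentiableAt ℝ (fun q : ℝ × E d => q.2 c * Mom W (fun _ => 1) q) p := d2.mul d0
  have d4 : DifferentiableAt ℝ
      (fun q => Mom W (fun z => 1 * z c) q - q.2 c * Mom W (fun _ => 1) q) p := d1.sub d3
  rw [pd_congr (isOpen_UU d) e _ h, pd_mul _ d4 h3.differentiableAt, h4,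
    pd_sub _ d1 d3, pd_mul _ d2 d0, pd_snd_coord, mom_pd_x hW c1 p1 h,
    mom_pd_x hW continuous_const (polyG_const _) h]
  simp only [xd, bv_apply, kd_self]
  field_simp
  ring

theorem MomBA.hjb (hW : Pot δ W) (h : p ∈ UU d) :
    pd ((1, 0) : ℝ × E d) (Wt W) p = ∑ c, (1 / 2) * (Hm W c c p - Gc W c p * Gc W c p) := by
  have hs : 0 < p.1 := h
  have hZ := mom_one_pos hW h
  rw [wt_pd' hW h]
  unfold pd
  rw [MomAA.mom_fderiv_expand hW continuous_const (polyG_const _) h, Finset.sum_div,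
    ← Finset.sum_neg_distrib]
  have e : (d : ℝ) / 2 * (((1, 0) : ℝ × E d).1 / p.1) = ∑ _c : Fin d, 1 / (2 * p.1) := by
    simp; ring
  rw [e, ← Finset.sum_add_distrib]
  refine Finset.sum_congr rfl fun c _ => ?_
  have h1 := (pd_pd_Z hW h c).symm.trans (pd_pd_Z' hW h c)
  have h2 : Hm W c c p - Gc W c p * Gc W c p =
      -(((Mom W (fun z => 1 * z c * z c) p - 2 * p.2 c * Mom W (fun z => 1 * z c) p +
        p.2 c ^ 2 * Mom W (fun _ => 1) p) / p.1 ^ 2 - Mom W (fun _ => 1) p / p.1) /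
        Mom W (fun _ => 1) p) := by
    rw [← h1]; field_simp
  rw [h2]
  simp only [PiLp.zero_apply]
  field_simp
  ring

theorem ll_gc (hW : Pot δ W) (h : p ∈ UU d) (i : Fin d) : LL W (Gc W i) p = 0 := by
  have hO := isOpen_UU d
  have dG : ∀ c, DifferentiableAt ℝ (Gc W c) p := fun c => diffAt hO (gc_smooth hW c) h
  have dH : ∀ c a, DifferentiableAt ℝ (Hm W c a) p := fun c a => diffAt hO (hm_smooth hW c a) h
  have e1 : fderiv ℝ (Gc W i) p (1, Gv W p.1 p.2) =
      pd ((1, 0) : ℝ × E d) (Gc W i) p + ∑ c, Gc W c p * Hm W i c p := by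
    have : ((1, Gv W p.1 p.2) : ℝ × E d) = (1, 0) + ∑ c, Gc W c p • xd c := by
      ext1
      · simp [xd, Prod.fst_sum]
      · simp only [xd, Prod.snd_add, zero_add, Prod.snd_sum, Prod.smul_snd]
        exact eq_sum_bv _
    rw [this, map_add, map_sum]
    simp only [map_smul, smul_eq_mul]
    rfl
  have e2 : pd ((1, 0) : ℝ × E d) (Gc W i) p =
      ∑ c, (1 / 2) * (pd (xd c) (pd (xd c) (Gc W i)) p - 2 * (Gc W c p * Hm W i c p)) := by
    have a1 : EqOn (Gc W i) (pd (xd i) (Wt W)) (UU d) := fun q hq => (wt_pd hW hq i).symm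
    rw [pd_congr hO a1 _ h, pd_comm hO (wt_smooth hW) _ _ h,
      pd_congr hO (fun q hq => hjb hW hq) _ h, pd_sum
        (φ := fun c q => 1 / 2 * (Hm W c c q - Gc W c q * Gc W c q)) _ fun c =>
        ((dH c c).sub ((dG c).mul (dG c))).const_mul _]
    refine Finset.sum_congr rfl fun c _ => ?_
    rw [pd_const_mul]
    simp only
    have dGG : DifferentiableAt ℝ (fun q => Gc W c q * Gc W c q) p := (dG c).mul (dG c)
    rw [pd_sub _ (dH c c) dGG, pd_mul _ (dG c) (dG c)]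
    have a2 : pd (xd i) (Hm W c c) p = pd (xd c) (pd (xd c) (Gc W i)) p := by
      have b1 : pd (xd i) (Hm W c c) p = pd (xd c) (Hm W c i) p :=
        pd_comm hO (gc_smooth hW c) _ _ h
      rw [b1]
      exact pd_congr hO (fun q hq => hm_symm hW hq c i) _ h
    have a3 : pd (xd i) (Gc W c) p = Hm W i c p := hm_symm hW h c i
    rw [a2, a3]
    ring
  unfold LL
  rw [e1, e2, Finset.mul_sum, ← Finset.sum_add_distrib, ← Finset.sum_sub_distrib]
  exact Finset.sum_eq_zero fun c _ => by ring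

theorem lift_smooth {F : Type} [NormedAddCommGroup F] [NormedSpace ℝ F] {χ : ℝ × E d → F}
    (h : ContDiffOn ℝ ∞ χ (UU d)) : ContDiffOn ℝ ∞ (lift χ) (OO d) :=
  h.comp (f := fun q : ℝ × E d => ((1 - q.1 ^ 2, q.1 • q.2) : ℝ × E d))
    (ContDiff.contDiffOn (by fun_prop)) fun _ hq => maps_OO hq

theorem gv_smooth (hW : Pot δ W) : ContDiffOn ℝ ∞ (gv W) (OO d) :=
  lift_smooth (gvec_smooth hW)

theorem gv_apply (W : E d → ℝ) (p : ℝ × E d) (i : Fin d) : gv W p i = lift (Gc W i) p := rfl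

theorem ur_smooth (hW : Pot δ W) (c : Fin d) : ContDiffOn ℝ ∞ (Ur W c) (OO d) :=
  (((EuclideanSpace.proj c : E d →L[ℝ] ℝ).contDiff.comp contDiff_snd).contDiffOn).add
    (contDiffOn_fst.mul (lift_smooth (gc_smooth hW c)))

theorem pd_lift {χ : ℝ × E d → ℝ} (h : ContDiffOn ℝ ∞ χ (UU d)) (hp : p ∈ OO d) (c : Fin d) :
    pd (xd c) (lift χ) p = p.1 * lift (pd (xd c) χ) p := by
  have h1 : HasFDerivAt (fun q : ℝ × E d => ((1 - q.1 ^ 2, q.1 • q.2) : ℝ × E d)) _ p :=
    (((hasFDerivAt_fst (𝕜 := ℝ) (p := p)).pow 2).const_sub 1).prodMk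
      ((hasFDerivAt_fst (𝕜 := ℝ) (p := p)).smul (hasFDerivAt_snd (𝕜 := ℝ) (p := p)))
  have h2 := (diffAt (isOpen_UU d) h (maps_OO hp)).hasFDerivAt.comp p h1
  have h3 : HasFDerivAt (lift χ) _ p := h2
  unfold pd lift
  have h4 := h3.fderiv
  unfold lift at h4
  rw [h4, ← smul_eq_mul, ← map_smul]
  simp [xd]

end Crest.Agent.R285
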