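import Crest.Agent.R285.Defs

/-!
# R285 Nemy: smoothness of the superposition (Nemytskii) operator.

Prove `ContDiffOn ℝ n` by induction on `n : ℕ`, generalizing `Y` and `f`.  The derivative at `γ` is
`Bil (N_{fderiv f} γ)` where `Bil : C(K, X →L[ℝ] Y) →L[ℝ] (C(K, X) →L[ℝ] C(K, Y))` is pointwise
application (`LinearMap.mkContinuous₂`).  `HasFDerivAt`: the range of `γ` is compact in the open set `O`
(`IsCompact.exists_cthickening_subset_open`), `fderiv f` is continuous on `O`
(`IsCompact.uniformContinuousAt_of_continuousAt`), mean value inequality on balls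
(`Convex.norm_image_sub_le_of_norm_hasFDerivWithin_le'`).
-/

set_option autoImplicit false

namespace Crest.Agent.R285

open MeasureTheory Set
open scoped ContDiff

variable {K : Type} [TopologicalSpace K] [CompactSpace K] {X : Type} [NormedAddCommGroup X]
  [NormedSpace ℝ X]

omit [NormedSpace ℝ X] in
/-- uniform closeness near the range of a curve -/
theorem nemy_unif {Y : Type} [NormedAddCommGroup Y] {O : Set X} (hO : IsOpen O) {f : X → Y}
    (hf : ContinuousOn f O) {γ : C(K, X)} (hγ : ∀ t, γ t ∈ O) {ε : ℝ} (hε : 0 < ε) :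
    ∃ δ > 0, ∀ t y, dist y (γ t) < δ → y ∈ O ∧ dist (f y) (f (γ t)) < ε := by
  have hc : IsCompact (range γ) := isCompact_range γ.continuous
  have hsub : range γ ⊆ O := by rintro _ ⟨t, rfl⟩; exact hγ t
  obtain ⟨δ₁, hδ₁, h₁⟩ := hc.exists_thickening_subset_open hO hsub
  have h2 := hc.uniformContinuousAt_of_continuousAt f
    (fun a ha => hf.continuousAt (hO.mem_nhds (hsub ha))) (Metric.dist_mem_uniformity hε)
  obtain ⟨δ₂, hδ₂, h₂⟩ := Metric.mem_uniformity_dist.1 h2
  refine ⟨min δ₁ δ₂, lt_min hδ₁ hδ₂, fun t y hy => ⟨h₁ ?_, ?_⟩⟩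
  · exact Metric.mem_thickening_iff.2 ⟨γ t, mem_range_self t, hy.trans_le (min_le_left _ _)⟩
  · have h3 : dist (γ t) y < δ₂ := by rw [dist_comm]; exact hy.trans_le (min_le_right _ _)
    have := h₂ h3 (mem_range_self t)
    rw [dist_comm]; exact this

omit [NormedSpace ℝ X] in
theorem nemy_open {O : Set X} (hO : IsOpen O) : IsOpen {γ : C(K, X) | ∀ t, γ t ∈ O} := by
  rw [Metric.isOpen_iff]
  intro γ hγ
  obtain ⟨δ, hδ, h⟩ := nemy_unif (Y := ℝ) hO (f := fun _ => 0) continuousOn_const hγ one_pos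
  refine ⟨δ, hδ, fun η hη t => (h t (η t) ?_).1⟩
  exact (ContinuousMap.dist_apply_le_dist t).trans_lt hη

omit [CompactSpace K] [NormedSpace ℝ X] in
theorem nemy_apply {Y : Type} [NormedAddCommGroup Y] {O : Set X} {f : X → Y}
    (hf : ContinuousOn f O) {γ : C(K, X)} (hγ : ∀ t, γ t ∈ O) (t : K) :
    ContinuousMap.mkD (fun t => f (γ t)) (0 : C(K, Y)) t = f (γ t) :=
  ContinuousMap.mkD_apply_of_continuous (hf.comp_continuous γ.continuous hγ)

omit [NormedSpace ℝ X] in
theorem nemy_cont {Y : Type} [NormedAddCommGroup Y] {O : Set X} (hO : IsOpen O)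
    {f : X → Y} (hf : ContinuousOn f O) :
    ContinuousOn (fun γ : C(K, X) => ContinuousMap.mkD (fun t => f (γ t)) (0 : C(K, Y)))
      {γ : C(K, X) | ∀ t, γ t ∈ O} := by
  rw [Metric.continuousOn_iff]
  intro γ hγ ε hε
  obtain ⟨δ, hδ, h⟩ := nemy_unif hO hf hγ hε
  refine ⟨δ, hδ, fun η hη hd => (ContinuousMap.dist_lt_iff hε).2 fun t => ?_⟩
  rw [nemy_apply hf hγ, nemy_apply hf hη]
  exact (h t (η t) ((ContinuousMap.dist_apply_le_dist t).trans_lt hd)).2

/-- pointwise application -/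
noncomputable def nemyBil (K X Y : Type) [TopologicalSpace K] [CompactSpace K]
    [NormedAddCommGroup X] [NormedSpace ℝ X] [NormedAddCommGroup Y] [NormedSpace ℝ Y] :
    C(K, X →L[ℝ] Y) →L[ℝ] (C(K, X) →L[ℝ] C(K, Y)) :=
  LinearMap.mkContinuous₂
    (LinearMap.mk₂ ℝ (fun (A : C(K, X →L[ℝ] Y)) (η : C(K, X)) =>
        (⟨fun t => A t (η t), A.continuous.clm_apply η.continuous⟩ : C(K, Y)))
      (fun A B η => by ext t; simp) (fun c A η => by ext t; simp)
      (fun A η ξ => by ext t; simp) (fun c A η => by ext t; simp)) 1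
    (fun A η => by
      rw [one_mul]
      refine (ContinuousMap.norm_le _ (by positivity)).2 fun t => ?_
      exact ((A t).le_opNorm _).trans
        (mul_le_mul (A.norm_coe_le_norm t) (η.norm_coe_le_norm t) (norm_nonneg _)
          (by positivity)))

theorem nemyBil_apply {Y : Type} [NormedAddCommGroup Y] [NormedSpace ℝ Y] (A : C(K, X →L[ℝ] Y))
    (η : C(K, X)) (t : K) : nemyBil K X Y A η t = A t (η t) := rfl

theorem nemy_hasFDerivAt {Y : Type} [NormedAddCommGroup Y] [NormedSpace ℝ Y] {O : Set X}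
    (hO : IsOpen O) {f : X → Y} (hf : DifferentiableOn ℝ f O) (hf' : ContinuousOn (fderiv ℝ f) O)
    {γ : C(K, X)} (hγ : ∀ t, γ t ∈ O) :
    HasFDerivAt (fun γ : C(K, X) => ContinuousMap.mkD (fun t => f (γ t)) (0 : C(K, Y)))
      (nemyBil K X Y (ContinuousMap.mkD (fun t => fderiv ℝ f (γ t)) 0)) γ := by
  rw [hasFDerivAt_iff_isLittleO_nhds_zero, Asymptotics.isLittleO_iff]
  intro ε hε
  obtain ⟨δ, hδ, h⟩ := nemy_unif hO hf' hγ hε
  filter_upwards [Metric.ball_mem_nhds (0 : C(K, X)) hδ] with η hη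
  rw [mem_ball_zero_iff] at hη
  have hηt : ∀ t, dist (γ t + η t) (γ t) < δ := fun t => by
    rw [dist_eq_norm, add_sub_cancel_left]
    exact (η.norm_coe_le_norm t).trans_lt hη
  have hmem : ∀ t, (γ + η) t ∈ O := fun t => (h t _ (hηt t)).1
  refine (ContinuousMap.norm_le _ (by positivity)).2 fun t => ?_
  rw [ContinuousMap.sub_apply, ContinuousMap.sub_apply, nemy_apply hf.continuousOn hmem,
    nemy_apply hf.continuousOn hγ, nemyBil_apply, nemy_apply hf' hγ]
  have h1 := (convex_ball (γ t) δ).norm_image_sub_le_of_norm_fderiv_le' (𝕜 := ℝ) (f := f)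
    (φ := fderiv ℝ f (γ t)) (C := ε)
    (fun x hx => hf.differentiableAt (hO.mem_nhds (h t x hx).1))
    (fun x hx => by rw [← dist_eq_norm]; exact (h t x hx).2.le)
    (Metric.mem_ball_self hδ) (hηt t)
  rw [add_sub_cancel_left] at h1
  exact h1.trans (mul_le_mul_of_nonneg_left (η.norm_coe_le_norm t) hε.le)

theorem nemy_nat (n : ℕ) {Y : Type} [NormedAddCommGroup Y] [NormedSpace ℝ Y] {O : Set X}
    (hO : IsOpen O) {f : X → Y} (hf : ContDiffOn ℝ ∞ f O) :
    ContDiffOn ℝ n (fun γ : C(K, X) => ContinuousMap.mkD (fun t => f (γ t)) (0 : C(K, Y)))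
      {γ : C(K, X) | ∀ t, γ t ∈ O} := by
  induction n generalizing Y with
  | zero => exact contDiffOn_zero.2 (nemy_cont hO hf.continuousOn)
  | succ n ih =>
    have hf' : ContDiffOn ℝ ∞ (fderiv ℝ f) O := hf.fderiv_of_isOpen hO (by simp)
    have hd : DifferentiableOn ℝ f O := hf.differentiableOn (by simp)
    rw [Nat.cast_succ, contDiffOn_succ_iff_fderiv_of_isOpen (nemy_open hO)]
    refine ⟨fun γ hγ => (nemy_hasFDerivAt hO hd hf'.continuousOn hγ).differentiableAt.differentiableWithinAt,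
      by simp, ?_⟩
    refine ((nemyBil K X Y).contDiff.comp_contDiffOn (ih hf')).congr fun γ hγ => ?_
    exact (nemy_hasFDerivAt hO hd hf'.continuousOn hγ).fderiv

theorem nemy {Y : Type} [NormedAddCommGroup Y] [NormedSpace ℝ Y] {O : Set X} (hO : IsOpen O)
    {f : X → Y} (hf : ContDiffOn ℝ ∞ f O) :
    ContDiffOn ℝ ∞ (fun γ : C(K, X) => ContinuousMap.mkD (fun t => f (γ t)) (0 : C(K, Y)))
      {γ : C(K, X) | ∀ t, γ t ∈ O} :=
  contDiffOn_infty.2 fun n => nemy_nat n hO hf

end Crest.Agent.R285
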