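import Crest.Agent.R285.OrcC

/-!
# R285 OrcD: the noise cancelling step, the recursion, one proximal step.
-/

set_option autoImplicit false

namespace Crest.Agent.R285

open MeasureTheory Set
open scoped ContDiff

variable {n tm : ℕ} {Cf : ℝ}

theorem sim_congr {d : ℕ} {S : Type} [MeasurableSpace S] {Env : (E d → ℝ) → S → Prop} {q : ℝ}
    {T T' : (E d → ℝ) → S → Measure (E d)} {err : (E d → ℝ) → S → ℝ} (h : Sim Env q T err)
    (hT : ∀ V s, Env V s → P1 (T' V s) ∧ T V s = T' V s) : Sim Env q T' err := by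
  have := sim_retarget (T' := T') (err' := fun _ _ => 0) h
    (fun V s hE => ⟨(hT V s hE).1, by rw [(hT V s hE).2]; exact w1_refl _⟩)
  exact sim_mono this (fun _ _ h => h) le_rfl (fun V s _ => by simp)

theorem Par.ce_le (P : Par n tm Cf) {j : ℕ} (hj : j ≤ n) {τ c : ℝ} (h0 : P.τ0 ≤ τ) (h1 : τ ≤ 1)
    (hc : |c| * τ ^ 2 ≤ 2) : P.ce * (1 + |c|) ≤ P.e j := by
  have g1 := P.ce_e j hj
  have g2 := P.τ0_pos
  have g3 := P.ce_nn
  have g4 := (P.e_pos j).le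
  have hτ : 0 < τ := by linarith
  have g5 : P.e j * P.τ0 ^ 2 ≤ P.e j * τ ^ 2 := by gcongr
  have g6 : (1 + |c|) * τ ^ 2 ≤ 3 := by nlinarith
  have g7 : P.ce * (1 + |c|) * τ ^ 2 ≤ P.e j * τ ^ 2 := by nlinarith
  exact le_of_mul_le_mul_right g7 (by positivity)

theorem HS_step (P : Par n tm Cf) (hCf : 1 ≤ Cf) {j t : ℕ} (hj : j < n) (hj1 : 1 ≤ j) {C1 C2 : ℝ}
    (hC1 : 1 ≤ C1) (hC2 : 1 ≤ C2) (hH : ∀ i < j, HS P i tm C1) (hH2 : HS P j t C2) :
    HS P j (t + 1) (30 * Cf * C2 * (7 * (2 * C1) ^ j)) := by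
  intro d S _ Env xb wt Q τ c σ hQ hσ hτ h1 h2 h3 h4 h5 h6
  have hκ := P.κ_pos
  have hκ1 : P.κ ≤ 1 := by linarith [P.κ_le]
  have hB := P.B_ge
  have hΓ := P.Γ_ge
  have hρ := P.ρ_pos (j + 1)
  set c' := 2 * c / (σ * τ) with hc'
  have hc1 : |c'| * τ ^ 2 ≤ 2 * P.ρ (j + 1) := by
    rw [hc', abs_div, abs_mul, abs_two, abs_of_pos (by positivity : 0 < σ * τ),
      div_mul_eq_mul_div, div_le_iff₀ (by positivity)]
    nlinarith
  obtain ⟨m, w, x, xs, hm, hw, hx, -, hcore⟩ := P.core c'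
  have hτ0 : P.τ0 ≤ τ * P.κ ^ ((j + 1) * (tm + 1)) := by
    refine h2.trans ?_
    gcongr ?_ * ?_
    exact pow_le_pow_of_le_one hκ.le hκ1 (by omega)
  have hτ2 : τ ^ 2 ≤ P.ρ (j + 1) := le_trans (by gcongr) (P.g_ρ (j + 1) hj)
  have hΛ0 : 0 ≤ P.Λ0 := by linarith [P.B_le]
  have ctx : Ctx P Env (j + 1) τ (P.Λ0 * (1 + |c'|)) xb wt :=
    ⟨hj, hτ, h1, hτ0, by nlinarith, h5⟩
  have hτ1 := ctx.τ_le
  set Cp := 7 * (2 * C1) ^ j with hCp
  have hp : 1 ≤ (2 * C1) ^ j := one_le_pow₀ (by linarith)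
  have hCp7 : 7 ≤ Cp := by linarith
  have he := (P.e_pos (j + 1)).le
  have hwl : ∀ l, |w l| ≤ Cf := fun l =>
    (Finset.single_le_sum (f := fun l => |w l|) (fun _ _ => abs_nonneg _)
      (Finset.mem_univ l)).trans hw
  -- the final calls
  have hfin : ∀ l, Samp (fun V (s : S × (E d × E d × E d)) => Env V s.1) (C2 * (Cp * Q) * P.Γ ^ j)
      (fun V s => (c * w l) • Gv V ((τ * P.κ) ^ 2) (pos P (j + 1) τ xb (x l) V s)) (σ / (2 * Cf))
      (fun V s => C2 * (σ / (2 * Cf)) * P.e (j + 1) * (Cp * wt3 τ xb wt V s)) := by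
    intro l
    have hwt := ctx.wt_pt (hx l).1 le_rfl (by nlinarith) (C := Cp) (by linarith)
    rw [Real.sqrt_sq hκ.le] at hwt
    have key : |c * w l| * (τ * P.κ) * (2 * Cf) ≤ 2 * Cf ^ 2 * P.κ * (|c| * τ) := by
      rw [abs_mul]
      calc |c| * |w l| * (τ * P.κ) * (2 * Cf) ≤ |c| * Cf * (τ * P.κ) * (2 * Cf) := by
            gcongr; exact hwl l
        _ = _ := by ring
    refine hH2 d _ _ _ _ _ _ _ _ (by nlinarith) (by positivity) (by positivity)
      (le_trans (by nlinarith) h1) (h2.trans (le_of_eq (by ring))) ?_ ?_ hwt ?_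
    · rw [div_mul_eq_mul_div, le_div_iff₀ (by positivity)]
      have := P.lam_le
      have g : 0 ≤ |c| * τ := by positivity
      nlinarith
    · rw [div_mul_eq_mul_div, le_div_iff₀ (by positivity)]
      refine le_trans ?_ h4
      calc |c * w l| * (τ * P.κ) * (2 * Cf ^ 2 * P.κ) ^ t * (2 * Cf) =
            |c * w l| * (τ * P.κ) * (2 * Cf) * (2 * Cf ^ 2 * P.κ) ^ t := by ring
        _ ≤ 2 * Cf ^ 2 * P.κ * (|c| * τ) * (2 * Cf ^ 2 * P.κ) ^ t := by gcongr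
        _ = _ := by ring
    · intro i hi
      have hR : RR P.κ ≠ 0 := by linarith [half_le_RR P.κ_pos P.κ_le]
      have := ctx.pt hC1 hQ (fun i hi => hH i (by omega)) h6 j (by omega) i (by omega) (x l)
        (hx l).1 (P.β (j + 1) * (τ * P.κ)) (le_of_eq (by ring)) (by
          rw [(hx l).2, div_self hR]
          have := (P.β_pos (j + 1)).le
          simp only [sub_self, abs_zero, zero_mul]
          positivity)
      exact samp_mono this (fun _ _ h => h) le_rfl (fun V s _ => le_of_eq (by ring))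
  have s1 := samp_affine (samp_sum (by positivity) hfin) (by positivity) 1
    (k := fun s : S × (E d × E d × E d) => (σ / 2) • s.2.2.1) (by fun_prop)
  have hσ2 : (σ / 2) ^ 2 ≤ σ ^ 2 - (σ / 2) ^ 2 := by nlinarith
  have s2 := samp_pad (σ' := √(σ ^ 2 - (σ / 2) ^ 2)) s1 (by positivity) (by
    apply Real.le_sqrt_of_sq_le
    refine le_trans ?_ hσ2
    rw [abs_one, one_mul, mul_pow, Real.sq_sqrt (Nat.cast_nonneg _)]
    calc (m : ℝ) * (σ / (2 * Cf)) ^ 2 ≤ Cf ^ 2 * (σ / (2 * Cf)) ^ 2 := by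
          gcongr; nlinarith
      _ = _ := by field_simp)
  have hb := bind_core (Env := Env) (R := RR P.κ) (r := σ / 2) (l1 := 1)
    (q2 := Cf * C2 * Cp * Q * P.Γ ^ j) (σ2 := √(σ ^ 2 - (σ / 2) ^ 2))
    (l2 := |c'| * Cf * (τ ^ 2 * 2) * (4 * P.B)) (A := C2 * Cp * σ * P.e (j + 1) / 2)
    (k := fun _ _ => 0) (wt := wt)
    (Y := fun V s q => q.1 + c' • ∑ l, w l • Gv (Wl V (xb V s) τ) (P.κ ^ 2)
      ((x l).ev (Gv (Wl V (xb V s) τ)) q))
    (T := fun V s => gT (c' • Gv (Wl V (xb V s) τ) 1 0) 1)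
    (e3 := fun V s => P.e (j + 1) * wt V s)
    (half_le_RR P.κ_pos P.κ_le) (P.β_pos _).le (P.β_le _) hτ hτ1 (by positivity) (by positivity)
    zero_le_one (by positivity) (h6 j (Nat.lt_succ_self j)) ?_ ?_ ?_
  · refine samp_mono (sim_congr hb fun V s hE => ⟨gT_p1 _ _, ?_⟩) (fun _ _ h => h) ?_
      (fun V s hE => ?_)
    · have e1 : (fun y : E d => 0 + (σ / 2) • y) = fun y => (σ / 2) • y + 0 := by
        ext1 y; simp
      rw [e1, gT_affine _ _ _ _ zero_le_one, noisy_gT, ctx.m_eq hE]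
      congr 1
      · rw [add_zero, smul_smul, smul_smul, hc']
        congr 1
        field_simp
      · rw [Real.sq_sqrt (by nlinarith), mul_one, sq_abs, add_sub_cancel, Real.sqrt_sq hσ.le]
    · have g0 : 0 ≤ Q * P.Γ ^ j := by positivity
      have g1 : 1 ≤ Cf * C2 := by nlinarith
      have g2 : 1 ≤ Cf * C2 * Cp := by nlinarith
      nlinarith
    · obtain ⟨hd, hw0⟩ := h5.nonneg hτ.le hE
      obtain ⟨i, rfl⟩ : ∃ i, j = i + 1 := ⟨j - 1, by omega⟩
      have hβ := P.β_le (i + 1 + 1)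
      have hβ0 := (P.β_pos (i + 1 + 1)).le
      have he0 := (P.e_pos (i + 1)).le
      have he1 := P.e_le i
      have hg := P.e_gain (i + 1)
      have hρg := P.ρ_g (i + 1)
      set X := σ * P.e (i + 1 + 1) * wt V s with hX
      have hX0 : 0 ≤ X := by positivity
      have g1 : σ / 2 * (1 + 3 / τ * (|c'| * Cf * (τ ^ 2 * 2) * (4 * P.B))) *
          (P.β (i + 1 + 1) * τ * P.e (i + 1) * wt V s) ≤ 25 * Cf * X := by
        have a1 : σ / 2 * (1 + 3 / τ * (|c'| * Cf * (τ ^ 2 * 2) * (4 * P.B))) *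
            (P.β (i + 1 + 1) * τ * P.e (i + 1) * wt V s) =
            σ * (τ / 2 + 12 * Cf * (P.B * (|c'| * τ ^ 2))) * P.β (i + 1 + 1) *
              (P.e (i + 1) * wt V s) := by field_simp; ring
        have a2 : P.B * (|c'| * τ ^ 2) ≤ 2 * P.g := by nlinarith
        have a3 : τ / 2 + 12 * Cf * (P.B * (|c'| * τ ^ 2)) ≤ 25 * Cf * P.g := by nlinarith
        have a4 : 0 ≤ P.g := hτ.le.trans h1
        rw [a1]
        calc _ ≤ σ * (25 * Cf * P.g) * 1 * (P.e (i + 1) * wt V s) := by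
              gcongr; linarith
          _ = 25 * Cf * (σ * (P.g * P.e (i + 1)) * wt V s) := by ring
          _ ≤ _ := by rw [hX]; gcongr
      have g2 : C2 * Cp * σ * P.e (i + 1 + 1) / 2 * (3 / τ) *
          (P.β (i + 1 + 1) * τ * P.e (i + 1) * wt V s) ≤ C2 * Cp * X := by
        have a1 : C2 * Cp * σ * P.e (i + 1 + 1) / 2 * (3 / τ) *
            (P.β (i + 1 + 1) * τ * P.e (i + 1) * wt V s) =
            C2 * Cp * X * (3 / 2 * P.β (i + 1 + 1) * P.e (i + 1)) := by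
          rw [hX]; field_simp
        rw [a1]
        have a2 : 3 / 2 * P.β (i + 1 + 1) * P.e (i + 1) ≤ 1 := by nlinarith
        have a3 : 0 ≤ C2 * Cp * X := by positivity
        nlinarith
      have g3 : C2 * Cp * σ * P.e (i + 1 + 1) / 2 * (wt V s + 3 * √(d : ℝ)) ≤
          2 * (C2 * Cp * X) := by
        calc _ ≤ C2 * Cp * σ * P.e (i + 1 + 1) / 2 * (4 * wt V s) := by gcongr; linarith
          _ = _ := by rw [hX]; ring
      have g4 : σ / 2 * (P.e (i + 1 + 1) * wt V s) = X / 2 := by rw [hX]; ring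
      have g5 : 1 ≤ C2 * Cp := by nlinarith
      have g6 : 1 * (Cf * X) ≤ C2 * Cp * (Cf * X) := by gcongr
      have g7 : 1 * (C2 * Cp * X) ≤ Cf * (C2 * Cp * X) := by gcongr
      have g8 : 1 * X ≤ Cf * X := by gcongr
      have g9 : 30 * Cf * C2 * Cp * σ * P.e (i + 1 + 1) * wt V s = 30 * (C2 * Cp * (Cf * X)) := by
        rw [hX]; ring
      rw [g9, add_mul, g4]
      nlinarith
  · refine samp_mono (samp_congr s2 fun V s hE => ?_) (fun _ _ h => h) ?_ (fun V s hE => ?_)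
    · simp only [ctx.G_eq hE (pow_pos hκ 2)]
      rw [one_smul, zero_add, smul_add, add_comm]
      congr 1
      rw [smul_smul, Finset.smul_sum]
      refine Finset.sum_congr rfl fun l _ => ?_
      rw [smul_smul, smul_smul, mul_pow]
      congr 1
      rw [hc']; field_simp
    · have g0 : 0 ≤ C2 * (Cp * Q) * P.Γ ^ j := by positivity
      calc (m : ℝ) * (C2 * (Cp * Q) * P.Γ ^ j) ≤ Cf * (C2 * (Cp * Q) * P.Γ ^ j) := by gcongr
        _ = _ := by ring
    · have g0 : 0 ≤ wt3 τ xb wt V s := (h5.nonneg hτ.le hE).2.trans (ctx.wt_le V s)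
      rw [abs_one, one_mul]
      calc (m : ℝ) * (C2 * (σ / (2 * Cf)) * P.e (j + 1) * (Cp * wt3 τ xb wt V s)) ≤
            Cf * (C2 * (σ / (2 * Cf)) * P.e (j + 1) * (Cp * wt3 τ xb wt V s)) := by gcongr
        _ = _ := by unfold wt3; field_simp
  · intro V s hE q q'
    rw [add_sub_add_comm, ← smul_sub, ← Finset.sum_sub_distrib, one_mul]
    refine (norm_add_le _ _).trans ?_
    gcongr
    rw [norm_smul, Real.norm_eq_abs]
    have g1 : ‖∑ l, (w l • Gv (Wl V (xb V s) τ) (P.κ ^ 2) ((x l).ev (Gv (Wl V (xb V s) τ)) q) -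
        w l • Gv (Wl V (xb V s) τ) (P.κ ^ 2) ((x l).ev (Gv (Wl V (xb V s) τ)) q'))‖ ≤
        ∑ l, |w l| * (τ ^ 2 * 2 * (4 * P.B * ‖q - q'‖)) := by
      refine (norm_sum_le _ _).trans (Finset.sum_le_sum fun l _ => ?_)
      rw [← smul_sub, norm_smul, Real.norm_eq_abs]
      gcongr
      refine (ctx.G_lip hE _ le_rfl (by nlinarith) _ _).trans ?_
      gcongr
      exact Tm.ev_lip' (by positivity) (by linarith) ctx.Λδ (ctx.G_lip hE) (hx l).1 q q'
    rw [← Finset.sum_mul] at g1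
    calc _ ≤ |c'| * (Cf * (τ ^ 2 * 2 * (4 * P.B * ‖q - q'‖))) := by
          gcongr; exact g1.trans (by gcongr)
      _ = _ := by ring
  · intro V s hE
    refine ⟨gT_p1 _ _, ?_⟩
    have hsm : P.sm * (1 + |c'|) * (τ ^ 2 * 2) ≤ 1 := by
      have g1 := P.sm_ρ (j + 1)
      have g2 := P.sm_nn
      have g3 : (1 + |c'|) * (τ ^ 2 * 2) ≤ 6 * P.ρ (j + 1) := by nlinarith
      nlinarith
    have := (hcore ⟨d, Wl V (xb V s) τ, τ ^ 2 * 2, P.κ, ctx.pot hE, ctx.δ_le, hκ, P.κ_le⟩ rfl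
      hsm).1
    intro f hf
    refine (this f hf).trans ?_
    have g1 := P.ce_le (j := j + 1) hj (τ := τ) (c := c')
      (hτ0.trans (by have := pow_le_one₀ (n := (j + 1) * (tm + 1)) hκ.le hκ1; nlinarith)) hτ1
      (by linarith [(P.ρ_le (j + 1)).2])
    have g2 := ctx.m_le hE
    have g3 : 0 ≤ √(d : ℝ) + ‖Gv (Wl V (xb V s) τ) 1 0‖ := by positivity
    exact mul_le_mul g1 g2 g3 he

theorem HS_all (n tm : ℕ) (Cf : ℝ) (hCf : 1 ≤ Cf) (j : ℕ) :
    ∃ C : ℝ, 1 ≤ C ∧ ∀ P : Par n tm Cf, ∀ i < j, i < n → HS P i tm C := by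
  induction j with
  | zero => exact ⟨1, le_rfl, fun _ i hi => absurd hi (Nat.not_lt_zero i)⟩
  | succ j ih =>
    obtain ⟨C1, hC1, h1⟩ := ih
    have : ∀ t, ∃ C : ℝ, 1 ≤ C ∧ ∀ P : Par n tm Cf, j < n → HS P j t C := by
      intro t
      induction t with
      | zero => exact ⟨5, by norm_num, fun P hj => HS_naive P hj (Or.inr rfl)⟩
      | succ t iht =>
        obtain ⟨C2, hC2, h2⟩ := iht
        rcases Nat.eq_zero_or_pos j with rfl | hj0
        · exact ⟨5, by norm_num, fun P hj => HS_naive P hj (Or.inl rfl)⟩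
        · have hp : 1 ≤ (2 * C1) ^ j := one_le_pow₀ (by linarith)
          have g1 : 1 ≤ Cf * C2 := by nlinarith
          exact ⟨_, by nlinarith, fun P hj =>
            HS_step P hCf hj hj0 hC1 hC2 (fun i hi => h1 P i hi (by omega)) (h2 P hj)⟩
    obtain ⟨C2, _, h2⟩ := this tm
    refine ⟨max C1 C2, le_max_of_le_left hC1, fun P i hi hn => ?_⟩
    rcases Nat.lt_or_ge i j with h | h
    · exact (h1 P i h hn).mono (le_max_left _ _)
    · obtain rfl : i = j := by omega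
      exact (h2 P hn).mono (le_max_right _ _)

theorem step_par (n tm : ℕ) (Cf : ℝ) (hCf : 1 ≤ Cf) : ∃ C : ℝ, 1 ≤ C ∧
    ∀ (P : Par (n + 1) tm Cf) (d : ℕ) (τ τ' : ℝ), 0 < τ → τ ≤ P.g →
      P.τ0 ≤ τ * P.κ ^ ((n + 1) * (tm + 1)) → 2 * P.κ * τ ≤ τ' → τ' ≤ τ →
      Sim (S := Unit × E d) (fun V _ => Pot 2 V) (C * P.Γ ^ n)
        (fun V s => noisy (nu V (τ ^ 2) s.2) τ')
        (fun V s => C * τ * P.e n * (√(d : ℝ) + τ * ‖Gv V (τ ^ 2) s.2‖)) := by
  obtain ⟨C1, hC1, hH⟩ := HS_all (n + 1) tm Cf hCf (n + 1)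
  set Cp := 7 * (2 * C1) ^ n with hCp
  have hp : 1 ≤ (2 * C1) ^ n := one_le_pow₀ (by linarith)
  refine ⟨5 * Cp, by linarith, fun P d τ τ' hτ h1 h2 h3 h4 => ?_⟩
  have hκ := P.κ_pos
  have hκ2 := P.κ_le
  have hB := P.B_ge
  have hΓ := P.Γ_ge
  have hR := half_le_RR P.κ_pos P.κ_le
  have hR2 := RR_sq P.κ_pos P.κ_le
  have he := (P.e_pos n).le
  obtain ⟨m, w, x, xs, -, -, -, hxs, hcore⟩ := P.core 0
  set wt : (E d → ℝ) → Unit × E d → ℝ := fun V s => √(d : ℝ) + τ * ‖Gv V (τ ^ 2) s.2‖ with hwt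
  have hτ2 : τ ^ 2 ≤ P.ρ (n + 1) := le_trans (by gcongr) (P.g_ρ (n + 1) le_rfl)
  have hΛ0 : 0 ≤ P.Λ0 := by linarith [P.B_le]
  have hρ := P.ρ_pos (n + 1)
  have ctx : Ctx P (fun V (_ : Unit × E d) => Pot 2 V) (n + 1) τ (P.Λ0 * (1 + |(0 : ℝ)|))
      (fun _ s => s.2) wt :=
    ⟨le_rfl, hτ, h1, h2, by simp; nlinarith, fun V s hE => ⟨hE, le_rfl⟩⟩
  have hτ1 := ctx.τ_le
  have s0 := samp_pure (Env := fun V (_ : Unit × E d) => Pot 2 V) (x := fun s => s.2)
    measurable_snd (P.β (n + 1) * τ)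
  have hPO : PO P (fun V (_ : Unit × E d) => Pot 2 V) (n + 1) τ (fun _ s => s.2) wt 1 := by
    intro i _
    refine samp_mono s0 (fun _ _ h => h) (by positivity) (fun V s _ => ?_)
    have := (P.β_pos (n + 1)).le
    have := (P.e_pos i).le
    positivity
  have hq : (τ * (P.κ / RR P.κ)) ^ 2 ≤ 4 / 3 * (P.κ * τ) ^ 2 := by
    rw [mul_pow, div_pow, hR2, ← mul_div_assoc, div_le_iff₀ (by nlinarith)]
    have : 0 ≤ (P.κ * τ) ^ 2 := by positivity
    have g : P.κ ^ 2 ≤ 1 / 4 := by nlinarith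
    nlinarith
  have hq2 : (2 * P.κ * τ) ^ 2 ≤ τ' ^ 2 := by gcongr
  set σ := √(τ' ^ 2 - (τ * (P.κ / RR P.κ)) ^ 2) with hσ
  have hσ1 : τ * P.κ ≤ σ := Real.le_sqrt_of_sq_le (by nlinarith [sq_nonneg (P.κ * τ)])
  have hτ' : 0 ≤ τ' := le_trans (by positivity) h3
  have hσ2 : σ ≤ τ := by
    refine Real.sqrt_le_iff.2 ⟨hτ.le, ?_⟩
    have : τ' ^ 2 ≤ τ ^ 2 := by gcongr
    nlinarith [sq_nonneg (τ * (P.κ / RR P.κ))]
  have hβ := P.β_le (n + 1)
  have s1 := ctx.pt hC1 le_rfl (fun i hi => hH P i (by omega) (by omega)) hPO n (by omega) n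
    le_rfl xs hxs σ (by nlinarith [mul_pos hκ hτ]) (by
      refine (P.xnoise (i := 0) (by omega) hxs.1.h2 hτ.le le_rfl).trans ?_
      have := P.β_le 0
      nlinarith [mul_pos hκ hτ])
  have hb := bind_core (Env := fun V (_ : Unit × E d) => Pot 2 V) (R := RR P.κ) (r := τ) (l1 := 0)
    (q2 := Cp * 1 * P.Γ ^ n) (σ2 := σ) (l2 := 4 * P.B) (A := Cp * σ * P.e n)
    (k := fun _ s => s.2) (wt := wt)
    (Y := fun V s q => xs.ev (Gv (Wl V s.2 τ)) q)
    (T := fun V s => noisy (nu (Wl V s.2 τ) 1 0) (P.κ / RR P.κ))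
    (e3 := fun V s => P.e n * wt V s)
    hR (P.β_pos _).le hβ hτ hτ1 hτ.le (by positivity) le_rfl (by positivity) s0 s1 ?_ ?_
  · refine sim_mono (sim_congr hb fun V s hE => ⟨noisy_p1 (p1_of_pm (nu_pm hE (by positivity) _)) _,
      ?_⟩) (fun _ _ h => h) ?_ (fun V s hE => ?_)
    · have := (nu_pm (ctx.pot (s := s) hE) one_pos 0).prob
      have := (nu_pm hE (s := τ ^ 2) (by positivity) s.2).prob
      rw [noisy_affine _ _ _ hτ.le]
      unfold Wl
      rw [scale_nu V hE.c2.continuous _ hτ one_pos, mul_one, smul_zero, add_zero, noisy_noisy,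
        Real.sq_sqrt (by nlinarith [sq_nonneg (P.κ * τ)]), add_sub_cancel, Real.sqrt_sq hτ']
    · have : 0 ≤ P.Γ ^ n := by positivity
      nlinarith
    · obtain ⟨hd, hw0⟩ := ctx.hw.nonneg (s := s) hτ.le hE
      have g1 : Cp * σ * P.e n * (wt V s + 3 * √(d : ℝ)) ≤ Cp * τ * P.e n * (4 * wt V s) := by
        gcongr; linarith
      have g2 : 1 * (τ * (P.e n * wt V s)) ≤ Cp * (τ * (P.e n * wt V s)) := by
        gcongr; linarith
      change _ ≤ 5 * Cp * τ * P.e n * wt V s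
      nlinarith
  · intro V s hE q q'
    rw [zero_mul, zero_add]
    exact Tm.ev_lip' (by positivity) (by linarith) ctx.Λδ (ctx.G_lip (s := s) hE) hxs q q'
  · intro V s hE
    refine ⟨noisy_p1 (p1_of_pm (nu_pm (ctx.pot (s := s) hE) one_pos 0)) _, ?_⟩
    have hsm : P.sm * (1 + |(0 : ℝ)|) * (τ ^ 2 * 2) ≤ 1 := by
      have g1 := P.sm_ρ (n + 1)
      have g2 := P.sm_nn
      simp only [abs_zero, add_zero, mul_one]
      nlinarith
    have := (hcore ⟨d, Wl V s.2 τ, τ ^ 2 * 2, P.κ, ctx.pot (s := s) hE, ctx.δ_le, hκ, P.κ_le⟩ rfl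
      hsm).2
    intro f hf
    refine (this f hf).trans ?_
    have g1 := P.ce_le (j := n) (by omega) (τ := τ) (c := 0)
      (h2.trans (by
        have := pow_le_one₀ (n := (n + 1) * (tm + 1)) hκ.le (by linarith : P.κ ≤ 1); nlinarith))
      hτ1 (by simp)
    have g2 := ctx.m_le (s := s) hE
    have g3 : 0 ≤ √(d : ℝ) + ‖Gv (Wl V s.2 τ) 1 0‖ := by positivity
    exact mul_le_mul g1 g2 g3 he

end Crest.Agent.R285
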