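import Crest.Agent.R285.Core
import Crest.Agent.R285.OrcD

/-!
# R285 Orc: choice of the parameters of the oracle recursion; one step of the proximal sampler.
-/

set_option autoImplicit false

namespace Crest.Agent.R285

open MeasureTheory Set
open scoped ContDiff

theorem pw_le {x c : ℝ} (hx : 2 ≤ x) (k m m' : ℕ) (hc : c ≤ 2 ^ k) (h : k + m ≤ m') :
    c * x ^ m ≤ x ^ m' := by
  calc c * x ^ m ≤ x ^ k * x ^ m := by
        gcongr
        exact hc.trans (by gcongr)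
    _ = x ^ (k + m) := (pow_add _ _ _).symm
    _ ≤ _ := pow_le_pow_right₀ (by linarith) h

theorem coreP_of {K p ν L : ℕ} {Cf : ℝ} (h : CoreSpec K Cf p) (hL : 2 ≤ L) (hν : 2 * p ≤ ν) :
    CoreP Cf (1 / (L : ℝ) ^ 2) ((L : ℝ) ^ ν) ((L : ℝ) ^ (3 * ν)) ((L : ℝ) ^ (4 * ν))
      ((L : ℝ) ^ (5 * ν)) ((L : ℝ) ^ (4 * ν) / (L : ℝ) ^ (ν * K)) := by
  intro c
  have hx : (2 : ℝ) ≤ L := by exact_mod_cast hL
  have h2 : (1 : ℝ) / (L : ℝ) ^ 2 ≤ 1 / 2 := by
    apply one_div_le_one_div_of_le <;> nlinarith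
  obtain ⟨n, w, x, xs, h1, h3, h4, h5, h6⟩ := h (1 / (L : ℝ) ^ 2) (L ^ ν) c (by positivity) h2
    (Nat.one_le_pow _ _ (by omega))
  have e1 : ((1 : ℝ) / (L : ℝ) ^ 2)⁻¹ ^ p ≤ (L : ℝ) ^ ν := by
    rw [one_div, inv_inv, ← pow_mul]
    exact pow_le_pow_right₀ (by linarith) hν
  have e2 : ∀ k : ℕ, ((1 : ℝ) / (L : ℝ) ^ 2)⁻¹ ^ p * (((L ^ ν : ℕ) : ℝ)) ^ k ≤
      (L : ℝ) ^ ((k + 1) * ν) := by
    intro k
    push_cast
    calc _ ≤ (L : ℝ) ^ ν * ((L : ℝ) ^ ν) ^ k := by gcongr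
      _ = _ := by ring
  have hc : 0 ≤ 1 + |c| := by positivity
  refine ⟨n, w, x, xs, h1, h3, fun l => ⟨(h4 l).1.mono e1 (e2 2) (by gcongr; exact e2 3),
    (h4 l).2⟩, h5.mono e1 (e2 2) (by gcongr; exact e2 3), fun θ hθ hs => ?_⟩
  have hδ := θ.pot.nn
  have hsz : 0 ≤ θ.sz := by unfold Inst.sz; positivity
  have := h6 θ hθ (le_trans (by gcongr; exact e2 4) hs)
  have e3 : ((1 : ℝ) / (L : ℝ) ^ 2)⁻¹ ^ p * (((L ^ ν : ℕ) : ℝ)) ^ 3 * (1 + |c|) /
      (((L ^ ν : ℕ) : ℝ)) ^ K * θ.sz ≤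
      (L : ℝ) ^ (4 * ν) / (L : ℝ) ^ (ν * K) * (1 + |c|) * θ.sz := by
    have e4 : (((L ^ ν : ℕ) : ℝ)) ^ K = (L : ℝ) ^ (ν * K) := by push_cast; rw [← pow_mul]
    rw [e4, div_mul_eq_mul_div ((L : ℝ) ^ (4 * ν))]
    gcongr
    exact e2 3
  exact ⟨fun f hf => (this.1 f hf).trans e3, fun f hf => (this.2 f hf).trans e3⟩

/-- the parameters as powers of `L` -/
noncomputable def mkPar (n tm K p ν a b gg E0 Tm L : ℕ) (Cf : ℝ) (h : CoreSpec K Cf p) (hL : 2 ≤ L)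
    (hLC : 2 * Cf ^ 2 ≤ L) (hν : 2 * p ≤ ν) (hb : ν + 5 ≤ b) (hE : ν + b * n + 3 ≤ E0)
    (hEa : E0 ≤ a) (hg : 7 * ν + b * n + 6 ≤ gg) (hga : gg * n ≤ a) (ha : 5 * ν + 4 ≤ a)
    (htm : a * n ≤ tm) (hK : 4 * ν + a * n + 2 * Tm + 2 ≤ ν * K) : Par n tm Cf :=
  have hx : (2 : ℝ) ≤ L := by exact_mod_cast hL
  have hx0 : (0 : ℝ) < L := by linarith
  have hx1 : (1 : ℝ) ≤ L := by linarith
  { κ := 1 / (L : ℝ) ^ 2
    B := (L : ℝ) ^ ν
    Γ := (L : ℝ) ^ (3 * ν)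
    Λ0 := (L : ℝ) ^ (4 * ν)
    sm := (L : ℝ) ^ (5 * ν)
    ce := (L : ℝ) ^ (4 * ν) / (L : ℝ) ^ (ν * K)
    g := 1 / (L : ℝ) ^ a
    τ0 := 1 / (L : ℝ) ^ Tm
    β := fun j => 1 / (2 * (L : ℝ) ^ (b * j))
    e := fun i => (L : ℝ) ^ E0 / (L : ℝ) ^ (a * i)
    ρ := fun j => 1 / (L : ℝ) ^ (a + gg * j)
    κ_pos := by positivity
    κ_le := by apply one_div_le_one_div_of_le <;> nlinarith
    B_ge := one_le_pow₀ hx1
    Γ_ge := one_le_pow₀ hx1
    B_le := pow_le_pow_right₀ hx1 (by omega)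
    sm_nn := by positivity
    ce_nn := by positivity
    core := coreP_of h hL hν
    τ0_pos := by positivity
    β_pos := fun j => by positivity
    β_le := fun j => by
      apply one_div_le_one_div_of_le (by norm_num)
      have := one_le_pow₀ (n := b * j) hx1
      linarith
    β_lt := fun i j hij => by
      have h1 : (1 : ℝ) ≤ (L : ℝ) ^ ν := one_le_pow₀ hx1
      have h2 : b * (i + 1) ≤ b * j := Nat.mul_le_mul_left _ hij
      have h3 := pw_le (c := 6) hx 3 (ν + b * i + 2) (b * j) (by norm_num) (by nlinarith)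
      have e1 : 1 / (2 * (L : ℝ) ^ (b * i)) * (1 / (L : ℝ) ^ 2) / 2 =
          1 / (4 * (L : ℝ) ^ (b * i + 2)) := by rw [pow_add]; field_simp; ring
      rw [e1, mul_one_div, div_le_div_iff₀ (by positivity) (by positivity)]
      have e2 : (L : ℝ) ^ (ν + b * i + 2) = (L : ℝ) ^ ν * (L : ℝ) ^ (b * i + 2) := by
        rw [add_assoc, pow_add]
      rw [e2] at h3
      have h4 : (0 : ℝ) ≤ (L : ℝ) ^ (b * i + 2) := by positivity
      nlinarith
    e_pos := fun i => by positivity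
    e0_ge := by simpa using one_le_pow₀ (n := E0) hx1
    e0_β := fun j hj => by
      have h2 : b * j ≤ b * n := Nat.mul_le_mul_left _ hj
      have h3 := pw_le (c := 2) hx 1 (ν + b * j + 2) E0 (by norm_num) (by omega)
      have e1 : (L : ℝ) ^ E0 / (L : ℝ) ^ (a * 0) * (1 / (2 * (L : ℝ) ^ (b * j))) *
          (1 / (L : ℝ) ^ 2) = (L : ℝ) ^ E0 / (2 * (L : ℝ) ^ (b * j + 2)) := by
        rw [pow_add]; simp; field_simp
      rw [e1, le_div_iff₀ (by positivity)]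
      calc _ = 2 * (L : ℝ) ^ (ν + b * j + 2) := by rw [add_assoc, pow_add]; ring
        _ ≤ _ := h3
    e_le := fun i => by
      rw [div_le_one (by positivity)]
      exact pow_le_pow_right₀ hx1 (by nlinarith)
    e_gain := fun i => le_of_eq (by rw [mul_add, pow_add, mul_one]; field_simp)
    ρ_pos := fun j => by positivity
    ρ_g := fun j => by
      rw [mul_one_div, div_le_div_iff₀ (by positivity) (by positivity), one_mul, ← pow_add]
      exact pow_le_pow_right₀ hx1 (by nlinarith)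
    ρ_lt := fun i j hij hj => by
      have h1 : gg * (i + 1) ≤ gg * j := Nat.mul_le_mul_left _ hij
      have h2 : b * j ≤ b * n := Nat.mul_le_mul_left _ hj
      have h3 := pw_le (c := 12) hx 4 (4 * ν + 3 * ν + (a + gg * i + b * j + 2)) (a + gg * j)
        (by norm_num) (by nlinarith)
      have e1 : 1 / (L : ℝ) ^ (a + gg * i) * (1 / (2 * (L : ℝ) ^ (b * j))) * (1 / (L : ℝ) ^ 2) =
          1 / (2 * (L : ℝ) ^ (a + gg * i + b * j + 2)) := by
        rw [pow_add _ (a + gg * i + b * j) 2, pow_add _ (a + gg * i) (b * j)]; field_simp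
      rw [e1, mul_one_div, div_le_div_iff₀ (by positivity) (by positivity), one_mul]
      refine le_trans (le_of_eq ?_) h3
      rw [pow_add _ (4 * ν + 3 * ν), pow_add _ (4 * ν)]; ring
    g_ρ := fun j hj => by
      have h2 : gg * j ≤ gg * n := Nat.mul_le_mul_left _ hj
      rw [div_pow, one_pow, ← pow_mul]
      exact one_div_le_one_div_of_le (by positivity) (pow_le_pow_right₀ hx1 (by omega))
    sm_ρ := fun j => by
      rw [mul_one_div, div_le_one (by positivity)]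
      exact pw_le hx 3 _ _ (by norm_num) (by omega)
    Λ_ρ := fun j => by
      rw [mul_one_div, div_le_one (by positivity)]
      exact pw_le hx 4 _ _ (by norm_num) (by omega)
    lam_le := by
      rw [mul_one_div, div_le_one (by positivity)]
      nlinarith
    lam_e := fun j hj => by
      have h1 : 2 * Cf ^ 2 * (1 / (L : ℝ) ^ 2) ≤ 1 / L := by
        rw [mul_one_div, div_le_div_iff₀ (by positivity) hx0]
        nlinarith
      have h2 : a * j ≤ a * n := Nat.mul_le_mul_left _ hj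
      calc _ ≤ (1 / (L : ℝ)) ^ tm := by gcongr
        _ = 1 / (L : ℝ) ^ tm := by rw [div_pow, one_pow]
        _ ≤ _ := by
          gcongr
          · exact one_le_pow₀ hx1
          · omega
    ce_e := fun j hj => by
      have h2 : a * j ≤ a * n := Nat.mul_le_mul_left _ hj
      have h3 := pw_le (c := 3) hx 2 (4 * ν + (a * j + Tm * 2)) (E0 + ν * K) (by norm_num)
        (by omega)
      rw [div_pow, one_pow, ← pow_mul, div_mul_div_comm, mul_one, ← pow_add, ← mul_div_assoc,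
        div_le_div_iff₀ (by positivity) (by positivity), ← pow_add]
      refine le_trans (le_of_eq ?_) h3
      rw [pow_add _ (4 * ν)]; ring }

theorem step_spec (T0 M : ℕ) : ∃ (a : ℕ) (Cst : ℝ) (L0 : ℕ), 1 ≤ a ∧ 1 ≤ Cst ∧
    ∀ L : ℕ, L0 ≤ L → ∀ (d : ℕ) (τ τ' : ℝ), 1 ≤ τ * (L : ℝ) ^ (a + T0 * a) →
      τ * (L : ℝ) ^ a ≤ 1 → τ ≤ τ' * L → τ' ≤ τ →
      Sim (S := Unit × E d) (fun V _ => Pot 2 V) (Cst * (L : ℝ) ^ a)
        (fun V s => noisy (nu V (τ ^ 2) s.2) τ')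
        (fun V s => Cst * τ / (L : ℝ) ^ (a * M) * (√(d : ℝ) + τ * ‖Gv V (τ ^ 2) s.2‖)) := by
  obtain ⟨n, hn⟩ : ∃ n, n = M + 1 + 1 := ⟨_, rfl⟩
  obtain ⟨A0, hA0⟩ : ∃ A0, A0 = n * (6 * n + 13) := ⟨_, rfl⟩
  obtain ⟨K, hK⟩ : ∃ K, K = 4 + A0 * n + 2 * (A0 + T0 * A0 + 2 * n * (A0 * n + 1)) + 2 := ⟨_, rfl⟩
  obtain ⟨Cf, p, hCf, hcore⟩ := core K (by omega)
  obtain ⟨ν, hν⟩ : ∃ ν, ν = 2 * p + 1 := ⟨_, rfl⟩
  obtain ⟨a, ha⟩ : ∃ a, a = A0 * ν := ⟨_, rfl⟩
  obtain ⟨C, hC, hstep⟩ := step_par (M + 1) (a * n) Cf hCf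
  have hν1 : 1 ≤ ν := by omega
  have hn1 : 2 ≤ n := by omega
  have h1 : (7 * ν + (ν + 5) * n + 6) * n ≤ a := by
    have : 7 * ν + (ν + 5) * n + 6 ≤ (6 * n + 13) * ν := by nlinarith
    calc _ ≤ (6 * n + 13) * ν * n := Nat.mul_le_mul_right _ this
      _ = a := by rw [ha, hA0]; ring
  have h2 : 7 * ν + (ν + 5) * n + 6 ≤ a := le_trans (by nlinarith) h1
  refine ⟨a, C, max 2 ⌈2 * Cf ^ 2⌉₊, by omega, hC, fun L hL d τ τ' g1 g2 g3 g4 => ?_⟩
  have hL2 : 2 ≤ L := (le_max_left _ _).trans hL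
  have hx : (2 : ℝ) ≤ L := by exact_mod_cast hL2
  have hLC : 2 * Cf ^ 2 ≤ L := Nat.ceil_le.1 ((le_max_right _ _).trans hL)
  have hτ : 0 < τ := by
    by_contra h
    have : τ * (L : ℝ) ^ (a + T0 * a) ≤ 0 :=
      mul_nonpos_of_nonpos_of_nonneg (not_lt.1 h) (by positivity)
    linarith
  have hKK : 4 * ν + a * n + 2 * (a + T0 * a + 2 * (n * (a * n + 1))) + 2 ≤ ν * K := by
    rw [hK, ha]; nlinarith
  have := hstep (mkPar (M + 1 + 1) (a * n) K p ν a (ν + 5) (7 * ν + (ν + 5) * n + 6)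
    (ν + (ν + 5) * n + 3) (a + T0 * a + 2 * (n * (a * n + 1))) L Cf hcore hL2 hLC (by omega) le_rfl
    (by rw [hn]) (by omega) (by rw [hn]) (by rw [← hn]; exact h1) (by omega) (by rw [hn])
    (by rw [← hn]; exact hKK)) d τ τ' hτ ?_ ?_ ?_ g4
  · refine sim_mono this (fun _ _ h => h) ?_ (fun V s _ => ?_)
    · simp only [mkPar]
      rw [← pow_mul]
      gcongr
      · linarith
      · nlinarith
    · simp only [mkPar]
      gcongr
      rw [mul_div_assoc', div_le_div_iff₀ (by positivity) (by positivity), mul_assoc, ← pow_add]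
      gcongr
      · linarith
      · nlinarith
  · simp only [mkPar]
    rw [le_div_iff₀ (by positivity)]; exact g2
  · simp only [mkPar]
    rw [div_pow, one_pow, ← pow_mul, mul_one_div, div_le_div_iff₀ (by positivity) (by positivity),
      one_mul, pow_add _ (a + T0 * a), ← mul_assoc τ, ← hn]
    have : (0 : ℝ) ≤ (L : ℝ) ^ (2 * (n * (a * n + 1))) := by positivity
    nlinarith
  · simp only [mkPar]
    have hτ' : 0 ≤ τ' := by nlinarith
    rw [mul_one_div, div_mul_eq_mul_div, div_le_iff₀ (by positivity)]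
    nlinarith

end Crest.Agent.R285
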