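import Crest.Agent.R285.Defs

/-!
# R285 Tm: semantics of terms.  Structural inductions on `Tm`.

`ev_lip`, `ev_size`: induction on the term; for a nested point `x` use `Top` and the induction
hypothesis for `x`: `Lip (ev x) ≤ 2B + Λ δ 4B ≤ 4B`, resp.
`‖ev x‖ ≤ B(‖p.1‖+‖p.2‖+‖m‖) + Λ δ (Z + D) ≤ Z` with `Z = 2B(‖p.1‖+‖p.2‖+‖m‖) + D`.
-/

set_option autoImplicit false

namespace Crest.Agent.R285

open MeasureTheory Set
open scoped ContDiff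

namespace Tm

section
variable {M : Type} [AddCommGroup M] [Module ℝ M] (G : ℝ → M → M) (p : M × M)

private theorem ev_addLin (c1 c2 : ℝ) (u : Tm) :
    (addLin c1 c2 u).ev G p = c1 • p.1 + c2 • p.2 + u.ev G p := by
  induction u with
  | lin b1 b2 => simp only [addLin, ev, add_smul]; abel
  | plus a s x r _ ih => simp only [addLin, ev, ih]; abel

theorem ev_add (t u : Tm) : (add t u).ev G p = t.ev G p + u.ev G p := by
  induction t with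
  | lin b1 b2 => simp only [add, ev, ev_addLin]
  | plus a s x r _ ih => simp only [add, ev, ih]; abel

private theorem ev_smul0 (c : ℝ) (t : Tm) : (smul0 c t).ev G p = c • t.ev G p := by
  induction t with
  | lin b1 b2 => simp only [smul0, ev, smul_add, smul_smul]
  | plus a s x r _ ih => simp only [smul0, ev, ih, smul_add, smul_smul]

theorem ev_smul (c : ℝ) (t : Tm) : (smul c t).ev G p = c • t.ev G p := by
  unfold smul
  split_ifs with h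
  · simp [ev, h]
  · exact ev_smul0 G p c t

theorem ev_sub (A B t : Tm) : (sub A B t).ev G p = t.ev G (A.ev G p, B.ev G p) := by
  induction t with
  | lin b1 b2 => simp only [sub, ev, ev_add, ev_smul]
  | plus a s x r ihx ih => simp only [sub, ev, ih, ihx]

theorem ev_sum {n : ℕ} (f : Fin n → Tm) : (sum f).ev G p = ∑ i, (f i).ev G p := by
  induction n with
  | zero => simp [sum, zero, ev]
  | succ n ih =>
    have := ih fun i => f i.succ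
    unfold sum at this ⊢
    rw [List.ofFn_succ, List.foldr_cons, ev_add, this, Fin.sum_univ_succ]

theorem ev_zz : zz.ev G p = p.1 := by simp [zz, ev]

theorem ev_ww : ww.ev G p = p.2 := by simp [ww, ev]

theorem ev_zero : zero.ev G p = 0 := by simp [zero, ev]

theorem ev_Gt (s : ℝ) (x : Tm) : (Gt s x).ev G p = G s (x.ev G p) := by
  simp [Gt, ev, zero]

theorem ev_picT {n : ℕ} (t : Fin n → ℝ) (w : ℝ → Fin n → ℝ) (β : ℝ → Tm × Tm) (k : ℕ) (τ : ℝ) :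
    ((picT t w β k τ).1.ev G p, (picT t w β k τ).2.ev G p) =
      pic t w (fun s q => ((β s).1.ev G q, (β s).2.ev G q)) p k τ := by
  induction k generalizing τ with
  | zero => simp only [picT, pic, ev_zz, ev_ww]
  | succ k ih =>
    simp only [picT, pic, ev_add, ev_zz, ev_ww, ev_sum, ev_smul, ev_sub, ih]
    refine Prod.ext ?_ ?_
    · simp [Prod.fst_sum]
    · simp [Prod.snd_sum]

private theorem pic_snd {n : ℕ} (t : Fin n → ℝ) (w : ℝ → Fin n → ℝ) (β : ℝ → M × M → M × M)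
    (γ : ℝ → M → M) (h : ∀ s q, (β s q).2 = γ s q.2) (k : ℕ) (τ : ℝ) :
    (pic t w β p k τ).2 = pic t w γ p.2 k τ := by
  induction k generalizing τ with
  | zero => simp only [pic]
  | succ k ih => simp only [pic, Prod.snd_add, Prod.snd_sum, Prod.smul_snd, h, ih]

variable {K N : ℕ} {C : ℝ} (k : Kit K C N)

theorem ev_kmT (r0 r1 : ℝ) : (kmT k r0 r1).ev G p = kmS G k r0 r1 p.2 := by
  have h := congrArg Prod.snd (ev_picT G p k.qN.t k.qN.w (kmβ r0 r1) K 1)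
  simp only at h
  unfold kmT kmS
  rw [h]
  refine pic_snd p _ _ _ _ (fun s q => ?_) K 1
  simp only [kmβ, ev_smul, ev_Gt, ev_ww]

theorem ev_hmcT (r t : ℝ) : ((hmcT k r t).1.ev G p, (hmcT k r t).2.ev G p) =
    pic k.q1.t k.q1.w (fun _ => hmcF G (1 / (N : ℝ)) r) p K t := by
  unfold hmcT
  rw [ev_picT]
  congr 1
  funext s q
  simp only [hmcβ, hmcF, ev_smul, ev_add, ev_Gt, ev_ww, ev_zz]

theorem ev_bT (r : ℝ) : (bT k r).ev G p =
    ∑ i, (k.dq.a i * N) • kmS G k r 0 (pic k.q1.t k.q1.w (fun _ => hmcF G (1 / (N : ℝ)) r)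
      (p.1, kmS G k 0 r p.2) K (k.dq.t i)).2 - p.1 := by
  unfold bT
  simp only [ev_add, ev_sum, ev_smul, ev_sub, ev_zz, ev_kmT, neg_smul, one_smul, sub_eq_add_neg]
  congr 1
  refine Finset.sum_congr rfl fun i _ => ?_
  rw [← ev_hmcT]

theorem ev_outβ_fst (κ c : ℝ) : (outβ k κ c).1.ev G p =
    c • (G (κ ^ 2) (RR κ • kmS G k 0 (RR κ) p.2) - G 1 0) := by
  simp only [outβ, ev_smul, ev_add, ev_Gt, ev_kmT, ev_zero, neg_smul, one_smul, sub_eq_add_neg]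

theorem ev_outβ_snd (κ c : ℝ) : (outβ k κ c).2.ev G p =
    ∑ j, (-(c * (k.q2.v j / RR κ))) • (bT k (RR κ * k.q2.t j)).ev G p := by
  simp only [outβ, ev_sum, ev_smul]

theorem ev_xl (κ c : ℝ) (l : Fin k.q1.n) : (xl k κ c l).ev G p =
    RR κ • kmS G k 0 (RR κ) (pic k.q1.t k.q1.w
      (fun _ q => ((outβ k κ c).1.ev G q, (outβ k κ c).2.ev G q)) p K (k.q1.t l)).2 := by
  unfold xl outT
  rw [ev_smul, ev_sub, ev_kmT, ← ev_picT]

end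

/-- the linear model computes the coefficients -/
theorem ev_model (t : Tm) :
    t.ev (fun _ _ => ((0, 0, 1) : ℝ × ℝ × ℝ)) ((1, 0, 0), (0, 1, 0)) = (t.b1, t.b2, t.b3) := by
  induction t with
  | lin b1 b2 => simp [ev, Tm.b1, Tm.b2, Tm.b3]
  | plus a s x r _ ih => simp only [ev, ih, Tm.b1, Tm.b2, Tm.b3]; simp

theorem wt_nonneg (t : Tm) : 0 ≤ t.wt := by
  induction t with
  | lin b1 b2 => simp [wt]
  | plus a s x r _ ih => simp only [wt]; positivity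

theorem abs_b3_le (t : Tm) : |t.b3| ≤ t.wt := by
  induction t with
  | lin b1 b2 => simp [wt, b3]
  | plus a s x r _ ih => simp only [wt, b3]; exact (abs_add_le _ _).trans (by linarith)

theorem Top.mono {B Γ Λ B' Γ' Λ' : ℝ} {t : Tm} (h : Top B Γ Λ t) (h1 : B ≤ B') (h2 : Γ ≤ Γ')
    (h3 : Λ ≤ Λ') : Top B' Γ' Λ' t :=
  ⟨h.h1.trans h1, h.h2.trans h1, h.h3.trans h1, h.hc.trans h2, h.hw.trans h3⟩

theorem Good.mono {lo B Γ Λ B' Γ' Λ' : ℝ} {t : Tm} (h : Good lo B Γ Λ t) (h1 : B ≤ B')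
    (h2 : Γ ≤ Γ') (h3 : Λ ≤ Λ') : Good lo B' Γ' Λ' t := by
  induction t with
  | lin b1 b2 => trivial
  | plus a s x r ihx ih =>
    obtain ⟨a1, a2, a3, a4, a5⟩ := h
    exact ⟨a1, a2, a3.mono h1 h2 h3, ihx a4, ih a5⟩

theorem Nice.mono {lo B Γ Λ B' Γ' Λ' : ℝ} {t : Tm} (h : Nice lo B Γ Λ t) (h1 : B ≤ B')
    (h2 : Γ ≤ Γ') (h3 : Λ ≤ Λ') : Nice lo B' Γ' Λ' t :=
  ⟨h.1.mono h1 h2 h3, h.2.mono h1 h2 h3⟩

section
variable {M : Type} [NormedAddCommGroup M] [NormedSpace ℝ M] {G : ℝ → M → M}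
  {lo B Γ Λ δ : ℝ}

private theorem lip_of (hδ : 0 ≤ δ) (hB : 0 ≤ B) (hΛ : Λ * δ ≤ 1 / 2) {t : Tm} (h : Top B Γ Λ t)
    (p q : M × M) (h2 : ‖t.ev G p - t.ev G q - (t.b1 • (p.1 - q.1) + t.b2 • (p.2 - q.2))‖ ≤
      t.wt * δ * (4 * B) * ‖p - q‖) : ‖t.ev G p - t.ev G q‖ ≤ 4 * B * ‖p - q‖ := by
  have e1 : ‖t.b1 • (p.1 - q.1)‖ ≤ B * ‖p - q‖ := by
    rw [norm_smul, Real.norm_eq_abs]
    exact mul_le_mul h.h1 (norm_fst_le (p - q)) (norm_nonneg _) hB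
  have e2 : ‖t.b2 • (p.2 - q.2)‖ ≤ B * ‖p - q‖ := by
    rw [norm_smul, Real.norm_eq_abs]
    exact mul_le_mul h.h2 (norm_snd_le (p - q)) (norm_nonneg _) hB
  have e3 : t.wt * δ ≤ 1 / 2 := (mul_le_mul_of_nonneg_right h.hw hδ).trans hΛ
  have e4 : t.wt * δ * (4 * B) * ‖p - q‖ ≤ 1 / 2 * (4 * B) * ‖p - q‖ := by gcongr
  have e5 := norm_add_le (t.ev G p - t.ev G q - (t.b1 • (p.1 - q.1) + t.b2 • (p.2 - q.2)))
    (t.b1 • (p.1 - q.1) + t.b2 • (p.2 - q.2))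
  rw [sub_add_cancel] at e5
  have e6 := norm_add_le (t.b1 • (p.1 - q.1)) (t.b2 • (p.2 - q.2))
  linarith

private theorem size_of (hδ : 0 ≤ δ) (hB : 0 ≤ B) (hΛ : Λ * δ ≤ 1 / 2) {m : M} {D : ℝ}
    (hD : 0 ≤ D) {t : Tm} (h : Top B Γ Λ t) (p : M × M)
    (h2 : ‖t.ev G p - (t.b1 • p.1 + t.b2 • p.2 + t.b3 • m)‖ ≤
      t.wt * δ * (2 * B * (‖p.1‖ + ‖p.2‖ + ‖m‖) + 2 * D)) :
    ‖t.ev G p‖ ≤ 2 * B * (‖p.1‖ + ‖p.2‖ + ‖m‖) + D := by
  have e1 : ‖t.b1 • p.1‖ ≤ B * ‖p.1‖ := by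
    rw [norm_smul, Real.norm_eq_abs]; exact mul_le_mul_of_nonneg_right h.h1 (norm_nonneg _)
  have e2 : ‖t.b2 • p.2‖ ≤ B * ‖p.2‖ := by
    rw [norm_smul, Real.norm_eq_abs]; exact mul_le_mul_of_nonneg_right h.h2 (norm_nonneg _)
  have e2' : ‖t.b3 • m‖ ≤ B * ‖m‖ := by
    rw [norm_smul, Real.norm_eq_abs]; exact mul_le_mul_of_nonneg_right h.h3 (norm_nonneg _)
  have e3 : t.wt * δ ≤ 1 / 2 := (mul_le_mul_of_nonneg_right h.hw hδ).trans hΛ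
  have e4 : t.wt * δ * (2 * B * (‖p.1‖ + ‖p.2‖ + ‖m‖) + 2 * D) ≤
      1 / 2 * (2 * B * (‖p.1‖ + ‖p.2‖ + ‖m‖) + 2 * D) := by gcongr
  have e5 := norm_add_le (t.ev G p - (t.b1 • p.1 + t.b2 • p.2 + t.b3 • m))
    (t.b1 • p.1 + t.b2 • p.2 + t.b3 • m)
  rw [sub_add_cancel] at e5
  have e6 := norm_add₃_le (a := t.b1 • p.1) (b := t.b2 • p.2) (c := t.b3 • m)
  linarith

theorem ev_lip (hδ : 0 ≤ δ) (hB : 0 ≤ B) (hΛ : Λ * δ ≤ 1 / 2)
    (hG : ∀ s, lo ≤ s → s ≤ 1 → ∀ x y, ‖G s x - G s y‖ ≤ δ * ‖x - y‖) {t : Tm}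
    (h : Good lo B Γ Λ t) (p q : M × M) :
    ‖t.ev G p - t.ev G q - (t.b1 • (p.1 - q.1) + t.b2 • (p.2 - q.2))‖ ≤
      t.wt * δ * (4 * B) * ‖p - q‖ := by
  induction t with
  | lin b1 b2 =>
    have : (lin b1 b2).ev G p - (lin b1 b2).ev G q -
        ((lin b1 b2).b1 • (p.1 - q.1) + (lin b1 b2).b2 • (p.2 - q.2)) = 0 := by
      simp only [ev, Tm.b1, Tm.b2, smul_sub]; abel
    rw [this]; simp [wt]
  | plus a s x r ihx ih =>
    obtain ⟨a1, a2, a3, a4, a5⟩ := h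
    have hx := lip_of hδ hB hΛ a3 p q (ihx a4)
    have hr := ih a5
    have : (plus a s x r).ev G p - (plus a s x r).ev G q -
        ((plus a s x r).b1 • (p.1 - q.1) + (plus a s x r).b2 • (p.2 - q.2)) =
        a • (G s (x.ev G p) - G s (x.ev G q)) +
          (r.ev G p - r.ev G q - (r.b1 • (p.1 - q.1) + r.b2 • (p.2 - q.2))) := by
      simp only [ev, Tm.b1, Tm.b2, smul_sub]; abel
    rw [this]
    refine (norm_add_le _ _).trans ?_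
    have e1 : ‖a • (G s (x.ev G p) - G s (x.ev G q))‖ ≤ |a| * (δ * (4 * B * ‖p - q‖)) := by
      rw [norm_smul, Real.norm_eq_abs]
      exact mul_le_mul_of_nonneg_left ((hG s a1 a2 _ _).trans
        (mul_le_mul_of_nonneg_left hx hδ)) (abs_nonneg _)
    simp only [wt]
    nlinarith [e1, hr]

theorem ev_lip' (hδ : 0 ≤ δ) (hB : 0 ≤ B) (hΛ : Λ * δ ≤ 1 / 2)
    (hG : ∀ s, lo ≤ s → s ≤ 1 → ∀ x y, ‖G s x - G s y‖ ≤ δ * ‖x - y‖) {t : Tm}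
    (h : Nice lo B Γ Λ t) (p q : M × M) : ‖t.ev G p - t.ev G q‖ ≤ 4 * B * ‖p - q‖ :=
  lip_of hδ hB hΛ h.1 p q (ev_lip hδ hB hΛ hG h.2 p q)

theorem ev_size (hδ : 0 ≤ δ) (hB : 0 ≤ B) (hΛ : Λ * δ ≤ 1 / 2) {m : M} {D : ℝ} (hD : 0 ≤ D)
    (hG : ∀ s, lo ≤ s → s ≤ 1 → ∀ x, ‖G s x - m‖ ≤ δ * (‖x‖ + D)) {t : Tm}
    (h : Good lo B Γ Λ t) (p : M × M) :
    ‖t.ev G p - (t.b1 • p.1 + t.b2 • p.2 + t.b3 • m)‖ ≤
      t.wt * δ * (2 * B * (‖p.1‖ + ‖p.2‖ + ‖m‖) + 2 * D) := by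
  induction t with
  | lin b1 b2 => simp [ev, Tm.b1, Tm.b2, Tm.b3, wt]
  | plus a s x r ihx ih =>
    obtain ⟨a1, a2, a3, a4, a5⟩ := h
    have hx := size_of hδ hB hΛ hD a3 p (ihx a4)
    have hr := ih a5
    have : (plus a s x r).ev G p -
        ((plus a s x r).b1 • p.1 + (plus a s x r).b2 • p.2 + (plus a s x r).b3 • m) =
        a • (G s (x.ev G p) - m) + (r.ev G p - (r.b1 • p.1 + r.b2 • p.2 + r.b3 • m)) := by
      simp only [ev, Tm.b1, Tm.b2, Tm.b3, smul_sub, add_smul]; abel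
    rw [this]
    refine (norm_add_le _ _).trans ?_
    have e1 : ‖a • (G s (x.ev G p) - m)‖ ≤
        |a| * (δ * (2 * B * (‖p.1‖ + ‖p.2‖ + ‖m‖) + 2 * D)) := by
      rw [norm_smul, Real.norm_eq_abs]
      exact mul_le_mul_of_nonneg_left ((hG s a1 a2 _).trans
        (mul_le_mul_of_nonneg_left (by linarith) hδ)) (abs_nonneg _)
    simp only [wt]
    nlinarith [e1, hr]

theorem ev_size' (hδ : 0 ≤ δ) (hB : 0 ≤ B) (hΛ : Λ * δ ≤ 1 / 2) {m : M} {D : ℝ} (hD : 0 ≤ D)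
    (hG : ∀ s, lo ≤ s → s ≤ 1 → ∀ x, ‖G s x - m‖ ≤ δ * (‖x‖ + D)) {t : Tm}
    (h : Nice lo B Γ Λ t) (p : M × M) :
    ‖t.ev G p‖ ≤ 2 * B * (‖p.1‖ + ‖p.2‖ + ‖m‖) + D :=
  size_of hδ hB hΛ hD h.1 p (ev_size hδ hB hΛ hD hG h.2 p)

end

end Tm

end Crest.Agent.R285
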