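import Crest.Agent.R285.Prog
import Crest.Agent.R285.Marg
import Crest.Agent.R285.GBound
import Crest.Agent.R285.Tm

/-!
# R285 OrcA: parameters of the oracle recursion, the binding lemma, the naive step.
-/

set_option autoImplicit false

namespace Crest.Agent.R285

open MeasureTheory Set
open scoped ContDiff

noncomputable section

/-- the analytic input, with abstract bounds -/
def CoreP (Cf κ B Γ Λ0 sm ce : ℝ) : Prop :=
  ∀ c : ℝ, ∃ (n : ℕ) (w : Fin n → ℝ) (x : Fin n → Tm) (xs : Tm),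
    (n : ℝ) ≤ Cf ∧ ∑ l, |w l| ≤ Cf ∧
    (∀ l, (x l).Nice (κ ^ 2) B Γ (Λ0 * (1 + |c|)) ∧ (x l).b2 = RR κ) ∧
    xs.Nice (κ ^ 2) B Γ (Λ0 * (1 + |c|)) ∧
    ∀ θ : Inst, θ.κ = κ → sm * (1 + |c|) * θ.δ ≤ 1 →
      W1le ((gam2 θ.d).map fun q => q.1 + c • ∑ l, w l • Gv θ.W (κ ^ 2) ((x l).ev (Gv θ.W) q))
        (gT (c • θ.m) 1) (ce * (1 + |c|) * θ.sz) ∧
      W1le ((gam2 θ.d).map fun q => xs.ev (Gv θ.W) q) (noisy (nu θ.W 1 0) (κ / RR κ))
        (ce * (1 + |c|) * θ.sz)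

structure Par (n tm : ℕ) (Cf : ℝ) where
  κ : ℝ
  B : ℝ
  Γ : ℝ
  Λ0 : ℝ
  sm : ℝ
  ce : ℝ
  g : ℝ
  τ0 : ℝ
  β : ℕ → ℝ
  e : ℕ → ℝ
  ρ : ℕ → ℝ
  κ_pos : 0 < κ
  κ_le : κ ≤ 1 / 2
  B_ge : 1 ≤ B
  Γ_ge : 1 ≤ Γ
  B_le : B ≤ Λ0
  sm_nn : 0 ≤ sm
  ce_nn : 0 ≤ ce
  core : CoreP Cf κ B Γ Λ0 sm ce
  τ0_pos : 0 < τ0
  β_pos : ∀ j, 0 < β j
  β_le : ∀ j, β j ≤ 1 / 2
  β_lt : ∀ i j, i < j → (1 + 2 * B) * β j ≤ β i * κ / 2
  e_pos : ∀ i, 0 < e i
  e0_ge : 1 ≤ e 0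
  e0_β : ∀ j ≤ n, B ≤ e 0 * β j * κ
  e_le : ∀ i, e (i + 1) ≤ 1
  e_gain : ∀ i, g * e i ≤ e (i + 1)
  ρ_pos : ∀ j, 0 < ρ j
  ρ_g : ∀ j, B * ρ (j + 1) ≤ g
  ρ_lt : ∀ i j, i < j → j ≤ n → 6 * Λ0 * Γ * ρ j ≤ ρ i * β j * κ
  g_ρ : ∀ j ≤ n, g ^ 2 ≤ ρ j
  sm_ρ : ∀ j, 6 * sm * ρ j ≤ 1
  Λ_ρ : ∀ j, 12 * Λ0 * ρ j ≤ 1
  lam_le : 2 * Cf ^ 2 * κ ≤ 1
  lam_e : ∀ j ≤ n, (2 * Cf ^ 2 * κ) ^ tm ≤ e j
  ce_e : ∀ j ≤ n, 3 * ce ≤ e j * τ0 ^ 2

variable {n tm : ℕ} {Cf : ℝ}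

/-- point oracle at all levels below `j` -/
def PO (P : Par n tm Cf) {d : ℕ} {S : Type} [MeasurableSpace S] (Env : (E d → ℝ) → S → Prop)
    (j : ℕ) (τ : ℝ) (x : (E d → ℝ) → S → E d) (wt : (E d → ℝ) → S → ℝ) (Q : ℝ) : Prop :=
  ∀ i < j, Samp Env (Q * P.Γ ^ i) x (P.β j * τ) (fun V s => P.β j * τ * P.e i * wt V s)

def WT {d : ℕ} {S : Type} (Env : (E d → ℝ) → S → Prop) (τ : ℝ) (x : (E d → ℝ) → S → E d)
    (wt : (E d → ℝ) → S → ℝ) : Prop :=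
  ∀ V s, Env V s → Pot 2 V ∧ √(d : ℝ) + τ * ‖Gv V (τ ^ 2) (x V s)‖ ≤ wt V s

/-- the mean oracle at level `j + 1` with `t` stages left -/
def HS (P : Par n tm Cf) (j t : ℕ) (Cst : ℝ) : Prop :=
  ∀ (d : ℕ) (S : Type) [MeasurableSpace S] (Env : (E d → ℝ) → S → Prop)
    (x : (E d → ℝ) → S → E d) (wt : (E d → ℝ) → S → ℝ) (Q τ c σ : ℝ),
    1 ≤ Q → 0 < σ → 0 < τ → τ ≤ P.g → P.τ0 ≤ τ * P.κ ^ ((j + 1) * (tm + 1) + t) →
    |c| * τ ≤ σ * P.ρ (j + 1) →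
    |c| * τ * (2 * Cf ^ 2 * P.κ) ^ t ≤ σ * (2 * Cf ^ 2 * P.κ) ^ tm →
    WT Env τ x wt → PO P Env (j + 1) τ x wt Q →
    Samp Env (Cst * Q * P.Γ ^ j) (fun V s => c • Gv V (τ ^ 2) (x V s)) σ
      (fun V s => Cst * σ * P.e (j + 1) * wt V s)

section basic

variable {d : ℕ} {S : Type} [MeasurableSpace S] {Env : (E d → ℝ) → S → Prop}

theorem WT.nonneg {S : Type} {Env : (E d → ℝ) → S → Prop} {τ : ℝ} {x : (E d → ℝ) → S → E d}
    {wt : (E d → ℝ) → S → ℝ} (h : WT Env τ x wt) (hτ : 0 ≤ τ) {V : E d → ℝ} {s : S}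
    (hE : Env V s) : √(d : ℝ) ≤ wt V s ∧ 0 ≤ wt V s := by
  have h1 := (h V s hE).2
  have h2 : 0 ≤ τ * ‖Gv V (τ ^ 2) (x V s)‖ := by positivity
  have h3 : 0 ≤ √(d : ℝ) := Real.sqrt_nonneg _
  constructor <;> linarith

theorem samp_mono {Env' : (E d → ℝ) → S → Prop} {q q' σ : ℝ} {x : (E d → ℝ) → S → E d}
    {err err' : (E d → ℝ) → S → ℝ} (h : Samp Env q x σ err)
    (hE : ∀ V s, Env' V s → Env V s) (hq : q ≤ q') (he : ∀ V s, Env' V s → err V s ≤ err' V s) :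
    Samp Env' q' x σ err' := sim_mono h hE hq he

theorem samp_congr {q σ : ℝ} {x y : (E d → ℝ) → S → E d} {err : (E d → ℝ) → S → ℝ}
    (h : Samp Env q x σ err) (hxy : ∀ V s, Env V s → x V s = y V s) : Samp Env q y σ err := by
  have := samp_shift (y := y) (err' := fun _ _ => 0) h (fun V s hE => by simp [hxy V s hE])
  exact samp_mono this (fun _ _ h => h) le_rfl (fun V s _ => by simp)

theorem samp_sum {q u : ℝ} (hu : 0 ≤ u) {err : (E d → ℝ) → S → ℝ} :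
    ∀ {m : ℕ} {x : Fin m → (E d → ℝ) → S → E d}, (∀ l, Samp Env q (x l) u err) →
      Samp Env (m * q) (fun V s => ∑ l, x l V s) (√(m : ℝ) * u) (fun V s => m * err V s) := by
  intro m
  induction m with
  | zero =>
    intro x _
    have := samp_pure (Env := Env) (x := fun _ : S => (0 : E d)) measurable_const 0
    simpa using this
  | succ m ih =>
    intro x hx
    have h1 := ih (x := fun l => x l.succ) (fun l => hx l.succ)
    have h2 := samp_add (hx 0) h1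
    have e1 : √(u ^ 2 + (√(m : ℝ) * u) ^ 2) = √((m + 1 : ℕ) : ℝ) * u := by
      rw [mul_pow, Real.sq_sqrt (Nat.cast_nonneg m)]
      have : u ^ 2 + (m : ℝ) * u ^ 2 = ((m + 1 : ℕ) : ℝ) * u ^ 2 := by push_cast; ring
      rw [this, Real.sqrt_mul (Nat.cast_nonneg _), Real.sqrt_sq hu]
    rw [e1] at h2
    refine samp_mono (samp_congr h2 (fun V s _ => ?_)) (fun _ _ h => h) ?_ (fun V s _ => ?_)
    · rw [Fin.sum_univ_succ]
    · push_cast; linarith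
    · push_cast; linarith

theorem HS.mono {P : Par n tm Cf} {j t : ℕ} {C C' : ℝ} (h : HS P j t C) (hC : C ≤ C') :
    HS P j t C' := by
  intro d S _ Env x wt Q τ c σ hQ hσ hτ h1 h2 h3 h4 h5 h6
  refine samp_mono (h d S Env x wt Q τ c σ hQ hσ hτ h1 h2 h3 h4 h5 h6) (fun _ _ h => h) ?_
    (fun V s hE => ?_)
  · have : 0 ≤ P.Γ ^ j := pow_nonneg (by linarith [P.Γ_ge]) _
    gcongr
  · have := (h5.nonneg hτ.le hE).2
    have := P.e_pos (j + 1)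
    gcongr

end basic

/-! ### the extended state -/

section ext

variable {d : ℕ}

/-- the Gaussian seeds `(ζ, ω)` built from a noisy point `a.1` and fresh Gaussians -/
def seeds (R β τ : ℝ) (xb : E d) (a : E d × E d × E d) : E d × E d :=
  (a.2.1, (R * τ)⁻¹ • (a.1 - xb) + √(1 - β ^ 2 / R ^ 2) • a.2.2)

def wt2 (τ : ℝ) (xb : E d) (w : ℝ) (a : E d × E d × E d) : ℝ :=
  w + ‖a.2.1‖ + ‖a.2.2‖ + ‖a.1 - xb‖ / τ

def T1 (xb : E d) (σ : ℝ) : Measure (E d × E d × E d) :=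
  (gT xb σ).prod ((gam d).prod (gam d))

instance gT_prob (m : E d) (σ : ℝ) : IsProbabilityMeasure (gT m σ) := (gT_p1 m σ).1

instance T1_prob (xb : E d) (σ : ℝ) : IsProbabilityMeasure (T1 xb σ) := by
  unfold T1; infer_instance

theorem gT_zero_one : gT (0 : E d) 1 = gam d := by
  simp [gT]

theorem seeds_cont (R β τ : ℝ) (xb : E d) : Continuous (seeds R β τ xb) := by
  unfold seeds; fun_prop

theorem seeds_law {R β τ : ℝ} (hR : 0 < R) (hβ : 0 ≤ β) (hβR : β ≤ R) (hτ : 0 < τ) (xb : E d) :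
    (T1 xb (β * τ)).map (seeds R β τ xb) = gam2 d := by
  set s := √(1 - β ^ 2 / R ^ 2) with hs
  have hs2 : s ^ 2 = 1 - β ^ 2 / R ^ 2 := by
    apply Real.sq_sqrt
    have : β ^ 2 / R ^ 2 ≤ 1 := by
      rw [div_le_one (by positivity)]; gcongr
    linarith
  -- the second coordinate
  have hA : (gT xb (β * τ)).map (fun y => (R * τ)⁻¹ • y + (-((R * τ)⁻¹ • xb))) =
      gT 0 (β / R) := by
    rw [gT_affine _ _ _ _ (by positivity)]
    congr 1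
    · simp
    · rw [abs_of_pos (by positivity)]; field_simp
  have hB : (gam d).map (fun y => s • y + (0 : E d)) = gT 0 s := by
    rw [← gT_zero_one, gT_affine _ _ _ _ zero_le_one]
    congr 1
    · simp
    · rw [abs_of_nonneg (Real.sqrt_nonneg _), mul_one]
  have hC : ((gT xb (β * τ)).prod (gam d)).map
      (fun p : E d × E d => (R * τ)⁻¹ • (p.1 - xb) + s • p.2) = gam d := by
    have h1 := gT_add (0 : E d) 0 (β / R) s
    rw [← hA, ← hB, Measure.map_prod_map _ _ (by fun_prop) (by fun_prop),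
      Measure.map_map (by fun_prop) (by fun_prop)] at h1
    have h2 : √((β / R) ^ 2 + s ^ 2) = 1 := by
      rw [hs2, div_pow]; simp
    rw [h2, add_zero, gT_zero_one] at h1
    refine Eq.trans ?_ h1
    congr 1
    ext1 p
    simp [sub_eq_add_neg]
  -- reorder the coordinates
  have hswap : (T1 xb (β * τ)).map (fun a : E d × E d × E d => (a.2.1, (a.1, a.2.2))) =
      (gam d).prod ((gT xb (β * τ)).prod (gam d)) := by
    unfold T1
    have e1 : (fun a : E d × E d × E d => (a.2.1, (a.1, a.2.2))) =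
        MeasurableEquiv.prodAssoc ∘ Prod.map Prod.swap id ∘ MeasurableEquiv.prodAssoc.symm := by
      ext1 a; rfl
    rw [e1, ← Measure.map_map (by fun_prop) (by fun_prop),
      ← Measure.map_map (by fun_prop) (by fun_prop)]
    have e2 : ((gT xb (β * τ)).prod ((gam d).prod (gam d))).map
        (MeasurableEquiv.prodAssoc (α := E d) (β := E d) (γ := E d)).symm =
        ((gT xb (β * τ)).prod (gam d)).prod (gam d) := by
      rw [← Measure.prodAssoc_prod, MeasurableEquiv.map_symm_map]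
    rw [e2, ← Measure.map_prod_map _ _ measurable_swap measurable_id, Measure.prod_swap,
      Measure.map_id, Measure.prodAssoc_prod]
  have e3 : seeds R β τ xb =
      Prod.map id (fun p : E d × E d => (R * τ)⁻¹ • (p.1 - xb) + s • p.2) ∘
        (fun a : E d × E d × E d => (a.2.1, (a.1, a.2.2))) := by
    ext1 a; rfl
  rw [e3, ← Measure.map_map (by fun_prop) (by fun_prop), hswap,
    ← Measure.map_prod_map _ _ measurable_id (by fun_prop), hC, Measure.map_id]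
  rfl

theorem seeds_lip {R β τ : ℝ} (hR : 1 / 2 ≤ R) (hτ : 0 < τ) (hτ1 : τ ≤ 1) (xb : E d)
    (a a' : E d × E d × E d) :
    ‖seeds R β τ xb a - seeds R β τ xb a'‖ ≤ 3 / τ * ‖a - a'‖ := by
  have h1 : ‖a.1 - a'.1‖ ≤ ‖a - a'‖ := norm_fst_le (a - a')
  have h2 : ‖a.2.1 - a'.2.1‖ ≤ ‖a - a'‖ := (norm_fst_le (a - a').2).trans (norm_snd_le (a - a'))
  have h3 : ‖a.2.2 - a'.2.2‖ ≤ ‖a - a'‖ := (norm_snd_le (a - a').2).trans (norm_snd_le (a - a'))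
  have hn := norm_nonneg (a - a')
  have hinv : 1 ≤ 1 / τ := by rw [le_div_iff₀ hτ]; linarith
  have hs : √(1 - β ^ 2 / R ^ 2) ≤ 1 := by
    rw [Real.sqrt_le_one]
    have : 0 ≤ β ^ 2 / R ^ 2 := by positivity
    linarith
  have e3 : 3 / τ = 3 * (1 / τ) := by ring
  rw [Prod.norm_def]
  refine max_le ?_ ?_
  · simp only [seeds, Prod.fst_sub]
    rw [e3]; nlinarith
  · simp only [seeds, Prod.snd_sub]
    have : (R * τ)⁻¹ • (a.1 - xb) + √(1 - β ^ 2 / R ^ 2) • a.2.2 -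
        ((R * τ)⁻¹ • (a'.1 - xb) + √(1 - β ^ 2 / R ^ 2) • a'.2.2) =
        (R * τ)⁻¹ • (a.1 - a'.1) + √(1 - β ^ 2 / R ^ 2) • (a.2.2 - a'.2.2) := by
      simp only [smul_sub]; abel
    rw [this]
    refine (norm_add_le _ _).trans ?_
    rw [norm_smul, norm_smul, Real.norm_of_nonneg (by positivity),
      Real.norm_of_nonneg (Real.sqrt_nonneg _)]
    have h4 : (R * τ)⁻¹ ≤ 2 * (1 / τ) := by
      rw [inv_eq_one_div, div_le_iff₀ (by positivity)]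
      have : 2 * (1 / τ) * (R * τ) = 2 * R := by field_simp
      rw [this]; linarith
    have h5 : (R * τ)⁻¹ * ‖a.1 - a'.1‖ ≤ 2 * (1 / τ) * ‖a - a'‖ := by gcongr
    have h6 : √(1 - β ^ 2 / R ^ 2) * ‖a.2.2 - a'.2.2‖ ≤ 1 * ‖a - a'‖ := by gcongr
    rw [e3]; nlinarith

theorem seeds_snd_le {R β τ : ℝ} (hR : 1 / 2 ≤ R) (hτ : 0 < τ) (xb : E d) (a : E d × E d × E d) :
    ‖(seeds R β τ xb a).2‖ ≤ 2 * (‖a.1 - xb‖ / τ) + ‖a.2.2‖ := by
  have hs : √(1 - β ^ 2 / R ^ 2) ≤ 1 := by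
    rw [Real.sqrt_le_one]
    have : 0 ≤ β ^ 2 / R ^ 2 := by positivity
    linarith
  simp only [seeds]
  refine (norm_add_le _ _).trans ?_
  rw [norm_smul, norm_smul, Real.norm_of_nonneg (by positivity),
    Real.norm_of_nonneg (Real.sqrt_nonneg _)]
  have h4 : (R * τ)⁻¹ ≤ 2 * (1 / τ) := by
    rw [inv_eq_one_div, div_le_iff₀ (by positivity)]
    have : 2 * (1 / τ) * (R * τ) = 2 * R := by field_simp
    rw [this]; linarith
  have h5 : (R * τ)⁻¹ * ‖a.1 - xb‖ ≤ 2 * (1 / τ) * ‖a.1 - xb‖ := by gcongr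
  have h6 : √(1 - β ^ 2 / R ^ 2) * ‖a.2.2‖ ≤ 1 * ‖a.2.2‖ := by gcongr
  have : 2 * (1 / τ) * ‖a.1 - xb‖ = 2 * (‖a.1 - xb‖ / τ) := by ring
  linarith

theorem wt2_lip {τ : ℝ} (hτ : 0 < τ) (hτ1 : τ ≤ 1) (xb : E d) (w : ℝ) (a a' : E d × E d × E d) :
    |wt2 τ xb w a - wt2 τ xb w a'| ≤ 3 / τ * ‖a - a'‖ := by
  have h1 : ‖a.1 - a'.1‖ ≤ ‖a - a'‖ := norm_fst_le (a - a')
  have h2 : ‖a.2.1 - a'.2.1‖ ≤ ‖a - a'‖ := (norm_fst_le (a - a').2).trans (norm_snd_le (a - a'))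
  have h3 : ‖a.2.2 - a'.2.2‖ ≤ ‖a - a'‖ := (norm_snd_le (a - a').2).trans (norm_snd_le (a - a'))
  have hn := norm_nonneg (a - a')
  have hinv : 1 ≤ 1 / τ := by rw [le_div_iff₀ hτ]; linarith
  have g2 := abs_norm_sub_norm_le a.2.1 a'.2.1
  have g3 := abs_norm_sub_norm_le a.2.2 a'.2.2
  have g1 := abs_norm_sub_norm_le (a.1 - xb) (a'.1 - xb)
  rw [sub_sub_sub_cancel_right] at g1
  have e : wt2 τ xb w a - wt2 τ xb w a' = (‖a.2.1‖ - ‖a'.2.1‖) + (‖a.2.2‖ - ‖a'.2.2‖) +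
      (1 / τ) * (‖a.1 - xb‖ - ‖a'.1 - xb‖) := by
    simp only [wt2]; ring
  rw [e]
  refine (abs_add_three _ _ _).trans ?_
  rw [abs_mul, abs_of_pos (by positivity : 0 < 1 / τ)]
  have g4 : 1 / τ * |‖a.1 - xb‖ - ‖a'.1 - xb‖| ≤ 1 / τ * ‖a - a'‖ := by
    gcongr; exact g1.trans h1
  have e3 : 3 / τ = 3 * (1 / τ) := by ring
  rw [e3]; nlinarith

theorem wt2_int {β τ : ℝ} (hβ : 0 ≤ β) (hβ1 : β ≤ 1) (hτ : 0 < τ) (xb : E d) (w : ℝ) :
    ∫ a, wt2 τ xb w a ∂(T1 xb (β * τ)) ≤ w + 3 * √(d : ℝ) := by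
  have hg : Integrable (fun y : E d => ‖y‖) (gam d) := (p1_of_pm gam_pm).2
  have i2 : Integrable (fun a : E d × E d × E d => ‖a.2.1‖) (T1 xb (β * τ)) :=
    (hg.comp_fst (gam d)).comp_snd _
  have i3 : Integrable (fun a : E d × E d × E d => ‖a.2.2‖) (T1 xb (β * τ)) :=
    (hg.comp_snd (gam d)).comp_snd _
  have hl : LipschitzWith 1 (fun y : E d => ‖y - xb‖) := by
    refine LipschitzWith.of_dist_le_mul fun y y' => ?_
    have := abs_norm_sub_norm_le (y - xb) (y' - xb)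
    rw [sub_sub_sub_cancel_right] at this
    simpa [Real.dist_eq, dist_eq_norm] using this
  have hg1 : Integrable (fun y : E d => ‖y - xb‖) (gT xb (β * τ)) :=
    lip_integrable (gT_p1 _ _) hl
  have i1 : Integrable (fun a : E d × E d × E d => ‖a.1 - xb‖ / τ) (T1 xb (β * τ)) :=
    (hg1.comp_fst _).div_const τ
  have v2 : ∫ a : E d × E d × E d, ‖a.2.1‖ ∂(T1 xb (β * τ)) ≤ √(d : ℝ) := by
    unfold T1
    rw [integral_fun_snd (fun p : E d × E d => ‖p.1‖), integral_fun_fst (fun y : E d => ‖y‖)]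
    simpa using gam_norm
  have v3 : ∫ a : E d × E d × E d, ‖a.2.2‖ ∂(T1 xb (β * τ)) ≤ √(d : ℝ) := by
    unfold T1
    rw [integral_fun_snd (fun p : E d × E d => ‖p.2‖), integral_fun_snd (fun y : E d => ‖y‖)]
    simpa using gam_norm
  have v1 : ∫ a : E d × E d × E d, ‖a.1 - xb‖ / τ ∂(T1 xb (β * τ)) ≤ √(d : ℝ) := by
    unfold T1
    rw [integral_fun_fst (fun y : E d => ‖y - xb‖ / τ), integral_gT (by fun_prop)]
    have : ∀ ξ : E d, ‖xb + (β * τ) • ξ - xb‖ / τ = β * ‖ξ‖ := by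
      intro ξ
      rw [add_sub_cancel_left, norm_smul, Real.norm_of_nonneg (by positivity)]
      field_simp
    simp only [this, integral_const_mul]
    have h0 : 0 ≤ ∫ y, ‖y‖ ∂(gam d) := integral_nonneg fun _ => norm_nonneg _
    have := gam_norm (d := d)
    simp only [probReal_univ, smul_eq_mul, one_mul]
    nlinarith
  unfold wt2
  have j2 : Integrable (fun a : E d × E d × E d => w + ‖a.2.1‖) (T1 xb (β * τ)) :=
    (integrable_const _).add i2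
  have j3 : Integrable (fun a : E d × E d × E d => w + ‖a.2.1‖ + ‖a.2.2‖) (T1 xb (β * τ)) :=
    j2.add i3
  rw [integral_add j3 i1, integral_add j2 i3, integral_add (integrable_const _) i2]
  simp only [integral_const, probReal_univ, smul_eq_mul, one_mul]
  linarith

end ext

end

end Crest.Agent.R285
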