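import Crest.Agent.R285.OrcA

/-!
# R285 OrcB: the binding lemma and the naive step.
-/

set_option autoImplicit false

namespace Crest.Agent.R285

open MeasureTheory Set
open scoped ContDiff

variable {n tm : ℕ} {Cf : ℝ} {d : ℕ} {S : Type} [MeasurableSpace S] {Env : (E d → ℝ) → S → Prop}

theorem sim_first {q σ : ℝ} {x : (E d → ℝ) → S → E d} {ε : (E d → ℝ) → S → ℝ}
    (h : Samp Env q x σ ε) : Sim Env q (fun V s => T1 (x V s) σ) ε := by
  have hg : P1 (gam d) := p1_of_pm gam_pm
  have := sim_pair h (sim_pair (sim_seed (Env := Env) hg) (sim_seed (Env := Env) hg))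
  exact sim_mono this (fun _ _ h => h) (by simp) (fun V s _ => by simp)

theorem p1_map_affine {μ : Measure (E d)} (h : P1 μ) (k : E d) (r : ℝ) :
    P1 (μ.map fun y => k + r • y) := by
  have := h.1
  have hm : Measurable fun y : E d => k + r • y := by fun_prop
  refine ⟨Measure.isProbabilityMeasure_map hm.aemeasurable, ?_⟩
  rw [integrable_map_measure (by fun_prop) hm.aemeasurable]
  refine Integrable.mono' ((integrable_const ‖k‖).add (h.2.const_mul |r|)) (by fun_prop)
    (ae_of_all _ fun y => ?_)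
  simp only [Function.comp, norm_norm, Pi.add_apply]
  refine (norm_add_le _ _).trans ?_
  rw [norm_smul, Real.norm_eq_abs]

theorem lip_abs {α : Type} [NormedAddCommGroup α] {f : α → ℝ} (hf : LipschitzWith 1 f) (x y : α) :
    |f x - f y| ≤ ‖x - y‖ := by
  have := hf.dist_le_mul x y
  simpa [Real.dist_eq, dist_eq_norm] using this

theorem cont_of_le {α β : Type} [NormedAddCommGroup α] [NormedAddCommGroup β] {f : α → β} {L : ℝ}
    (h : ∀ x y, ‖f x - f y‖ ≤ L * ‖x - y‖) : Continuous f := by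
  have : LipschitzWith (Real.toNNReal L) f := by
    refine LipschitzWith.of_dist_le_mul fun x y => ?_
    rw [dist_eq_norm, dist_eq_norm]
    refine (h x y).trans ?_
    gcongr
    exact Real.le_coe_toNNReal L
  exact this.continuous

theorem bind_core {q1 q2 β τ R r σ2 l1 l2 A : ℝ} {xb k : (E d → ℝ) → S → E d}
    {ε wt e3 : (E d → ℝ) → S → ℝ} {Y : (E d → ℝ) → S → E d × E d → E d}
    {T : (E d → ℝ) → S → Measure (E d)} (hR : 1 / 2 ≤ R) (hβ : 0 ≤ β) (hβ2 : β ≤ 1 / 2)
    (hτ : 0 < τ) (hτ1 : τ ≤ 1) (hr : 0 ≤ r) (hA : 0 ≤ A) (hl1 : 0 ≤ l1) (hl2 : 0 ≤ l2)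
    (h1 : Samp Env q1 xb (β * τ) ε)
    (h2 : Samp (fun V (s : S × (E d × E d × E d)) => Env V s.1) q2
      (fun V s => k V s.1 + r • Y V s.1 (seeds R β τ (xb V s.1) s.2)) σ2
      (fun V s => A * wt2 τ (xb V s.1) (wt V s.1) s.2))
    (hY : ∀ V s, Env V s → ∀ q q', ‖Y V s q - Y V s q'‖ ≤ l1 * ‖q.1 - q'.1‖ + l2 * ‖q - q'‖)
    (hT : ∀ V s, Env V s → P1 (T V s) ∧ W1le ((gam2 d).map (Y V s)) (T V s) (e3 V s)) :
    Sim Env (q1 + q2) (fun V s => noisy ((T V s).map fun y => k V s + r • y) σ2)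
      (fun V s => (r * (l1 + 3 / τ * l2) + A * (3 / τ)) * ε V s + A * (wt V s + 3 * √(d : ℝ)) +
        r * e3 V s) := by
  have hb := sim_bind (T3 := fun V s => noisy ((T V s).map fun y => k V s + r • y) σ2)
    (L := fun _ _ => r * (l1 + 3 / τ * l2)) (L' := fun _ _ => A * (3 / τ))
    (err3 := fun V s => r * e3 V s)
    (ψ := fun V s a => A * wt2 τ (xb V s) (wt V s) a) (sim_first h1) h2 (fun _ _ _ h => h) ?_ ?_ ?_
  · refine sim_mono hb (fun _ _ h => h) le_rfl (fun V s _ => ?_)
    have := wt2_int hβ (by linarith) hτ (xb V s) (wt V s)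
    rw [integral_const_mul]
    gcongr
  · intro V s hE
    refine ⟨by positivity, fun f hf a a' => ?_⟩
    refine (gT_shift _ _ _ f hf).trans ?_
    rw [add_sub_add_left_eq_sub, ← smul_sub, norm_smul, Real.norm_of_nonneg hr, mul_assoc]
    gcongr
    refine (hY V s hE _ _).trans ?_
    have g1 := seeds_lip (β := β) hR hτ hτ1 (xb V s) a a'
    have g2 : ‖(seeds R β τ (xb V s) a).1 - (seeds R β τ (xb V s) a').1‖ ≤ ‖a - a'‖ :=
      (norm_fst_le (a - a').2).trans (norm_snd_le (a - a'))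
    calc _ ≤ l1 * ‖a - a'‖ + l2 * (3 / τ * ‖a - a'‖) := by gcongr
      _ = _ := by ring
  · intro V s _
    refine ⟨by positivity, fun a => le_rfl, fun a a' => ?_⟩
    rw [← mul_sub, abs_mul, abs_of_nonneg hA, mul_assoc]
    gcongr
    exact wt2_lip hτ hτ1 _ _ _ _
  · intro V s hE
    obtain ⟨hP, hW⟩ := hT V s hE
    refine ⟨noisy_p1 (p1_map_affine hP _ _) _, fun f hf => ?_⟩
    set h : E d → ℝ := fun y => ∫ z, f z ∂(gT y σ2) with hh
    have hl : LipschitzWith 1 h := gT_lip hf σ2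
    have hYc : Continuous (Y V s) := cont_of_le (L := l1 + l2) fun q q' => by
      refine (hY V s hE q q').trans ?_
      have : ‖q.1 - q'.1‖ ≤ ‖q - q'‖ := norm_fst_le (q - q')
      nlinarith
    have hc : Continuous fun y : E d => h (k V s + r • y) := hl.continuous.comp (by fun_prop)
    have e1 : ∫ a, ∫ y, f y ∂(gT (k V s + r • Y V s (seeds R β τ (xb V s) a)) σ2)
        ∂(T1 (xb V s) (β * τ)) = ∫ y, h (k V s + r • y) ∂((gam2 d).map (Y V s)) := by
      rw [← seeds_law (R := R) (by linarith) hβ (by linarith) hτ (xb V s),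
        Measure.map_map hYc.measurable (seeds_cont _ _ _ _).measurable,
        integral_map (hYc.comp (seeds_cont _ _ _ _)).measurable.aemeasurable
          hc.aestronglyMeasurable]
      rfl
    have e2 : ∫ y, f y ∂(noisy ((T V s).map fun y => k V s + r • y) σ2) =
        ∫ y, h (k V s + r • y) ∂(T V s) := by
      rw [integral_noisy (p1_map_affine hP _ _) hf,
        integral_map (by fun_prop) hl.continuous.aestronglyMeasurable]
    dsimp only
    rw [e1, e2]
    refine w1_lip hW hr fun y y' => ?_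
    refine (lip_abs hl _ _).trans ?_
    rw [add_sub_add_left_eq_sub, ← smul_sub, norm_smul, Real.norm_of_nonneg hr]

/-- the naive estimator: one gradient query at a noisy point -/
theorem naive_aux {q β τ c σ : ℝ} {x : (E d → ℝ) → S → E d} {ε wt : (E d → ℝ) → S → ℝ}
    (hβ : 0 ≤ β) (hβ2 : β ≤ 1 / 2) (hτ : 0 < τ) (hσ : 0 ≤ σ) (hw : WT Env τ x wt)
    (h : Samp Env q x (β * τ) ε) :
    Samp Env (q + 1) (fun V s => c • Gv V (τ ^ 2) (x V s)) σ
      (fun V s => 2 * |c| * ε V s + 3 * |c| * τ * wt V s) := by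
  have s1 : Samp (fun V (s : S × E d) => Env V s.1) 1 (fun V s => gradient V s.2) 0
      (fun _ _ => 0) := by
    have := sim_query (Env := fun V (s : S × E d) => Env V s.1) (x := fun s : S × E d => s.2)
      measurable_snd
    simpa only [Samp, gT_zero] using this
  have s2 := samp_pad (σ' := σ) (samp_affine s1 le_rfl c (k := fun _ => 0) measurable_const)
    (by simp) (by simpa using hσ)
  have s3 := samp_shift (y := fun V s => c • Gv V (τ ^ 2) (x V s.1))
    (err' := fun V s => |c| * (2 * ‖s.2 - x V s.1‖ + 2 * τ * wt V s.1)) s2 (fun V s hE => by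
      obtain ⟨hP, hwt⟩ := hw V s.1 hE
      rw [add_zero, ← smul_sub, norm_smul, Real.norm_eq_abs]
      gcongr
      have g1 := hP.lip s.2 (x V s.1)
      have g2 := G_naive hP (s := τ ^ 2) (by positivity) (x V s.1)
      rw [Real.sqrt_sq hτ.le] at g2
      have g3 : ‖gradient V s.2 - Gv V (τ ^ 2) (x V s.1)‖ ≤
          ‖gradient V s.2 - gradient V (x V s.1)‖ +
            ‖Gv V (τ ^ 2) (x V s.1) - gradient V (x V s.1)‖ := by
        rw [norm_sub_rev (Gv _ _ _)]; exact norm_sub_le_norm_sub_add_norm_sub _ _ _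
      have g4 : τ * (√(d : ℝ) + τ * ‖Gv V (τ ^ 2) (x V s.1)‖) ≤ τ * wt V s.1 := by gcongr
      nlinarith)
  have hb := sim_bind (T3 := fun V s => gT (c • Gv V (τ ^ 2) (x V s)) σ)
    (L := fun _ _ => 0) (L' := fun _ _ => 2 * |c|) (err3 := fun _ _ => 0)
    (ψ := fun V s a => |c| * (2 * ‖a - x V s‖ + 2 * τ * wt V s)) h s3 (fun _ _ _ h => h) ?_ ?_ ?_
  · refine sim_mono hb (fun _ _ h => h) le_rfl (fun V s hE => ?_)
    have hd := (hw.nonneg hτ.le hE).1
    rw [integral_gT (by fun_prop)]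
    have e : ∀ ξ : E d, |c| * (2 * ‖x V s + (β * τ) • ξ - x V s‖ + 2 * τ * wt V s) =
        |c| * (2 * (β * τ)) * ‖ξ‖ + |c| * (2 * τ * wt V s) := by
      intro ξ
      rw [add_sub_cancel_left, norm_smul, Real.norm_of_nonneg (by positivity)]
      ring
    simp only [e]
    rw [integral_add ((p1_of_pm gam_pm).2.const_mul _) (integrable_const _), integral_const_mul]
    simp only [integral_const, probReal_univ, smul_eq_mul, one_mul]
    have g1 : |c| * (2 * (β * τ)) * ∫ ξ, ‖ξ‖ ∂(gam d) ≤ |c| * (2 * (1 / 2 * τ)) * wt V s := by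
      have := gam_norm (d := d)
      have h0 : 0 ≤ ∫ y, ‖y‖ ∂(gam d) := integral_nonneg fun _ => norm_nonneg _
      gcongr
      linarith
    nlinarith
  · intro V s _
    exact ⟨le_rfl, fun f _ a a' => by simp⟩
  · intro V s _
    refine ⟨by positivity, fun a => by simp, fun a a' => ?_⟩
    have g1 := abs_norm_sub_norm_le (a - x V s) (a' - x V s)
    rw [sub_sub_sub_cancel_right] at g1
    have : |c| * (2 * ‖a - x V s‖ + 2 * τ * wt V s) - |c| * (2 * ‖a' - x V s‖ + 2 * τ * wt V s) =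
        2 * |c| * (‖a - x V s‖ - ‖a' - x V s‖) := by ring
    rw [this, abs_mul, abs_of_nonneg (by positivity : 0 ≤ 2 * |c|)]
    gcongr
  · intro V s _
    exact ⟨gT_p1 _ _, fun f _ => by simp⟩

theorem HS_naive (P : Par n tm Cf) {j t : ℕ} (hj : j < n) (h : j = 0 ∨ t = 0) : HS P j t 5 := by
  intro d S _ Env x wt Q τ c σ hQ hσ hτ h1 h2 h3 h4 h5 h6
  have := naive_aux (c := c) (P.β_pos _).le (P.β_le _) hτ hσ.le h5 (h6 j (Nat.lt_succ_self j))
  refine samp_mono this (fun _ _ h => h) ?_ (fun V s hE => ?_)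
  · have g1 : 1 ≤ P.Γ ^ j := one_le_pow₀ P.Γ_ge
    nlinarith
  · have hw := (h5.nonneg hτ.le hE).2
    have hβ := P.β_le (j + 1)
    have hβ0 := (P.β_pos (j + 1)).le
    have he := (P.e_pos j).le
    have key : |c| * τ * (P.e j + 3) ≤ 5 * σ * P.e (j + 1) := by
      rcases Nat.eq_zero_or_pos j with rfl | hj0
      · have g1 := P.ρ_g 0
        have g2 := P.B_ge
        have g3 := (P.ρ_pos 1).le
        have g4 : P.ρ 1 ≤ P.g := by nlinarith
        have g5 := P.e_gain 0
        have g6 := P.e0_ge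
        have g7 : |c| * τ ≤ σ * P.g := h3.trans (by gcongr)
        calc |c| * τ * (P.e 0 + 3) ≤ σ * P.g * (4 * P.e 0) :=
              mul_le_mul g7 (by linarith) (by linarith) (mul_nonneg hσ.le (g3.trans g4))
          _ = 4 * σ * (P.g * P.e 0) := by ring
          _ ≤ 5 * σ * P.e (0 + 1) := by
              have := (P.e_pos 1).le
              nlinarith
      · obtain rfl : t = 0 := by omega
        obtain ⟨i, rfl⟩ : ∃ i, j = i + 1 := ⟨j - 1, by omega⟩
        have g1 := P.e_le i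
        have g2 := P.lam_e (i + 1 + 1) (by omega)
        rw [pow_zero, mul_one] at h4
        have g3 : |c| * τ ≤ σ * P.e (i + 1 + 1) := h4.trans (by gcongr)
        have g4 : 0 ≤ |c| * τ := by positivity
        nlinarith
    have g5 : 2 * |c| * (P.β (j + 1) * τ * P.e j * wt V s) ≤ |c| * τ * P.e j * wt V s := by
      have : 0 ≤ |c| * τ * P.e j * wt V s := by positivity
      nlinarith
    have g6 : |c| * τ * (P.e j + 3) * wt V s ≤ 5 * σ * P.e (j + 1) * wt V s := by gcongr
    nlinarith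

end Crest.Agent.R285
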