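import Crest.Agent.R285.OrcB

/-!
# R285 OrcC: sampling the evaluation points of a term.
-/

set_option autoImplicit false

namespace Crest.Agent.R285

open MeasureTheory Set
open scoped ContDiff

noncomputable section

variable {n tm : ℕ} {Cf : ℝ} {d : ℕ} {S : Type}

/-- rescaled potential -/
def Wl (V : E d → ℝ) (xb : E d) (τ : ℝ) : E d → ℝ := fun y => V (xb + τ • y)

def sd (P : Par n tm Cf) (j : ℕ) (τ : ℝ) (xb : (E d → ℝ) → S → E d) (V : E d → ℝ)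
    (s : S × (E d × E d × E d)) : E d × E d := seeds (RR P.κ) (P.β j) τ (xb V s.1) s.2

def pos (P : Par n tm Cf) (j : ℕ) (τ : ℝ) (xb : (E d → ℝ) → S → E d) (x : Tm) (V : E d → ℝ)
    (s : S × (E d × E d × E d)) : E d :=
  xb V s.1 + τ • x.ev (Gv (Wl V (xb V s.1) τ)) (sd P j τ xb V s)

def wt3 (τ : ℝ) (xb : (E d → ℝ) → S → E d) (wt : (E d → ℝ) → S → ℝ) (V : E d → ℝ)
    (s : S × (E d × E d × E d)) : ℝ := wt2 τ (xb V s.1) (wt V s.1) s.2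

structure Ctx (P : Par n tm Cf) (Env : (E d → ℝ) → S → Prop) (j : ℕ) (τ Λ : ℝ)
    (xb : (E d → ℝ) → S → E d) (wt : (E d → ℝ) → S → ℝ) : Prop where
  hj : j ≤ n
  hτ : 0 < τ
  hg : τ ≤ P.g
  hτ0 : P.τ0 ≤ τ * P.κ ^ (j * (tm + 1))
  hΛ : Λ * τ ^ 2 ≤ 3 * P.Λ0 * P.ρ j
  hw : WT Env τ xb wt

variable {P : Par n tm Cf} {Env : (E d → ℝ) → S → Prop} {j : ℕ} {τ Λ : ℝ}
  {xb : (E d → ℝ) → S → E d} {wt : (E d → ℝ) → S → ℝ}

theorem Ctx.τ_sq (c : Ctx P Env j τ Λ xb wt) : τ ^ 2 ≤ P.ρ j :=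
  le_trans (by have := c.hτ.le; have := c.hg; gcongr) (P.g_ρ j c.hj)

theorem Par.ρ_le (P : Par n tm Cf) (j : ℕ) : P.B * P.ρ j ≤ 1 / 12 ∧ P.ρ j ≤ 1 / 12 := by
  have h1 := P.Λ_ρ j
  have h2 := P.B_le
  have h3 := P.B_ge
  have h4 := (P.ρ_pos j).le
  constructor <;> nlinarith

theorem Ctx.τ_le (c : Ctx P Env j τ Λ xb wt) : τ ≤ 1 := by
  have h1 := c.τ_sq
  have h2 := (P.ρ_le j).2
  have := c.hτ
  nlinarith

theorem Ctx.Λδ (c : Ctx P Env j τ Λ xb wt) : Λ * (τ ^ 2 * 2) ≤ 1 / 2 := by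
  have h1 := c.hΛ
  have h2 := P.Λ_ρ j
  nlinarith

theorem Ctx.δ_le (c : Ctx P Env j τ Λ xb wt) : τ ^ 2 * 2 ≤ 1 / 4 := by
  have h1 := c.τ_sq
  have h2 := (P.ρ_le j).2
  linarith

theorem Ctx.Bδ (c : Ctx P Env j τ Λ xb wt) : τ ^ 2 * 2 * (2 * P.B) ≤ 1 := by
  have h1 := c.τ_sq
  have h2 := (P.ρ_le j).1
  have h3 := P.B_ge
  nlinarith

theorem Ctx.pot (c : Ctx P Env j τ Λ xb wt) {V : E d → ℝ} {s : S} (hE : Env V s) :
    Pot (τ ^ 2 * 2) (Wl V (xb V s) τ) := scale_pot (c.hw V s hE).1 _ _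

theorem Ctx.G_eq (c : Ctx P Env j τ Λ xb wt) {V : E d → ℝ} {s : S} (hE : Env V s) {r : ℝ}
    (hr : 0 < r) (y : E d) :
    Gv (Wl V (xb V s) τ) r y = τ • Gv V (τ ^ 2 * r) (xb V s + τ • y) :=
  scale_G (c.hw V s hE).1 _ c.hτ hr _

theorem Ctx.m_eq (c : Ctx P Env j τ Λ xb wt) {V : E d → ℝ} {s : S} (hE : Env V s) :
    Gv (Wl V (xb V s) τ) 1 0 = τ • Gv V (τ ^ 2) (xb V s) := by
  rw [c.G_eq hE one_pos]; simp

theorem Ctx.m_le (c : Ctx P Env j τ Λ xb wt) {V : E d → ℝ} {s : S} (hE : Env V s) :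
    √(d : ℝ) + ‖Gv (Wl V (xb V s) τ) 1 0‖ ≤ wt V s := by
  rw [c.m_eq hE, norm_smul, Real.norm_of_nonneg c.hτ.le]
  exact (c.hw V s hE).2

theorem Ctx.G_lip (c : Ctx P Env j τ Λ xb wt) {V : E d → ℝ} {s : S} (hE : Env V s) :
    ∀ r, P.κ ^ 2 ≤ r → r ≤ 1 → ∀ x y, ‖Gv (Wl V (xb V s) τ) r x - Gv (Wl V (xb V s) τ) r y‖ ≤
      τ ^ 2 * 2 * ‖x - y‖ := fun _ h1 _ x y =>
  R285.G_lip (c.pot hE) (lt_of_lt_of_le (pow_pos P.κ_pos 2) h1) x y

theorem Ctx.G_size (c : Ctx P Env j τ Λ xb wt) {V : E d → ℝ} {s : S} (hE : Env V s) :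
    ∀ r, P.κ ^ 2 ≤ r → r ≤ 1 → ∀ x, ‖Gv (Wl V (xb V s) τ) r x - Gv (Wl V (xb V s) τ) 1 0‖ ≤
      τ ^ 2 * 2 * (‖x‖ + 4 * (√(d : ℝ) + ‖Gv (Wl V (xb V s) τ) 1 0‖)) := fun _ h1 h2 x =>
  R285.G_size (c.pot hE) (by linarith [c.δ_le]) (lt_of_lt_of_le (pow_pos P.κ_pos 2) h1) h2 x

theorem Ctx.wt_le (c : Ctx P Env j τ Λ xb wt) (V : E d → ℝ) (s : S × (E d × E d × E d)) :
    wt V s.1 ≤ wt3 τ xb wt V s := by
  have := c.hτ
  have : 0 ≤ ‖s.2.1 - xb V s.1‖ / τ := by positivity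
  simp only [wt3, wt2]
  linarith [norm_nonneg s.2.2.1, norm_nonneg s.2.2.2]

theorem Ctx.sd_le (c : Ctx P Env j τ Λ xb wt) (V : E d → ℝ) (s : S × (E d × E d × E d)) :
    ‖(sd P j τ xb V s).1‖ + ‖(sd P j τ xb V s).2‖ + 2 * wt V s.1 ≤ 2 * wt3 τ xb wt V s := by
  have h := seeds_snd_le (β := P.β j) (half_le_RR P.κ_pos P.κ_le) c.hτ (xb V s.1) s.2
  have e : (sd P j τ xb V s).1 = s.2.2.1 := rfl
  simp only [wt3, wt2]
  rw [e]
  unfold sd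
  linarith [norm_nonneg s.2.2.1, norm_nonneg s.2.2.2]

theorem Ctx.size_pt (c : Ctx P Env j τ Λ xb wt) {x : Tm} (hx : x.Nice (P.κ ^ 2) P.B P.Γ Λ)
    {V : E d → ℝ} {s : S × (E d × E d × E d)} (hE : Env V s.1) :
    ‖x.ev (Gv (Wl V (xb V s.1) τ)) (sd P j τ xb V s) -
      (x.b1 • (sd P j τ xb V s).1 + x.b2 • (sd P j τ xb V s).2)‖ ≤ 6 * P.B * wt3 τ xb wt V s := by
  have hB := P.B_ge
  have hδ : 0 ≤ τ ^ 2 * 2 := by positivity
  have h := Tm.ev_size hδ (by linarith) c.Λδ (by positivity) (c.G_size hE) hx.2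
    (sd P j τ xb V s)
  set m := Gv (Wl V (xb V s.1) τ) 1 0
  set p := sd P j τ xb V s
  have h1 := c.m_le hE
  have h2 := c.sd_le V s
  have h3 := c.wt_le V s
  have hd := Real.sqrt_nonneg (d : ℝ)
  have hm := norm_nonneg m
  have h4 : x.wt * (τ ^ 2 * 2) ≤ 1 / 2 := le_trans (by gcongr; exact hx.1.hw) c.Λδ
  have h5 : ‖x.b3 • m‖ ≤ P.B * ‖m‖ := by
    rw [norm_smul, Real.norm_eq_abs]; gcongr; exact hx.1.h3
  have e : x.ev (Gv (Wl V (xb V s.1) τ)) p - (x.b1 • p.1 + x.b2 • p.2) =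
      (x.ev (Gv (Wl V (xb V s.1) τ)) p - (x.b1 • p.1 + x.b2 • p.2 + x.b3 • m)) + x.b3 • m := by
    abel
  rw [e]
  refine (norm_add_le _ _).trans ?_
  have h6 : x.wt * (τ ^ 2 * 2) * (2 * P.B * (‖p.1‖ + ‖p.2‖ + ‖m‖) + 2 * (4 * (√(d : ℝ) + ‖m‖))) ≤
      1 / 2 * (2 * P.B * (‖p.1‖ + ‖p.2‖ + ‖m‖) + 2 * (4 * (√(d : ℝ) + ‖m‖))) := by
    gcongr
  have h7 : P.B * (‖p.1‖ + ‖p.2‖ + 2 * ‖m‖) ≤ P.B * (2 * wt3 τ xb wt V s) := by
    gcongr; linarith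
  have h8 : 1 * (√(d : ℝ) + ‖m‖) ≤ P.B * wt3 τ xb wt V s := by
    gcongr; linarith
  nlinarith

theorem Ctx.wt_pt (c : Ctx P Env j τ Λ xb wt) {x : Tm} (hx : x.Nice (P.κ ^ 2) P.B P.Γ Λ) {r : ℝ}
    (h1 : P.κ ^ 2 ≤ r) (h2 : r ≤ 1) {C : ℝ} (hC : 4 ≤ C) :
    WT (fun V (s : S × (E d × E d × E d)) => Env V s.1) (τ * √r) (pos P j τ xb x)
      (fun V s => C * wt3 τ xb wt V s) := by
  intro V s hE
  refine ⟨(c.hw V s.1 hE).1, ?_⟩
  have hr : 0 < r := lt_of_lt_of_le (pow_pos P.κ_pos 2) h1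
  have hB := P.B_ge
  have hδ : 0 ≤ τ ^ 2 * 2 := by positivity
  have h := Tm.ev_size' hδ (by linarith) c.Λδ (by positivity) (c.G_size hE) hx (sd P j τ xb V s)
  have g := c.G_size hE r h1 h2 (x.ev (Gv (Wl V (xb V s.1) τ)) (sd P j τ xb V s))
  have e1 : τ * √r * ‖Gv V ((τ * √r) ^ 2) (pos P j τ xb x V s)‖ =
      √r * ‖Gv (Wl V (xb V s.1) τ) r (x.ev (Gv (Wl V (xb V s.1) τ)) (sd P j τ xb V s))‖ := by
    rw [c.G_eq hE hr, norm_smul, Real.norm_of_nonneg c.hτ.le, mul_pow, Real.sq_sqrt hr.le]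
    unfold pos; ring
  rw [e1]
  set m := Gv (Wl V (xb V s.1) τ) 1 0
  set p := sd P j τ xb V s
  set y := x.ev (Gv (Wl V (xb V s.1) τ)) p
  set G := Gv (Wl V (xb V s.1) τ) r y
  have h3 := c.m_le hE
  have h4 := c.sd_le V s
  have h5 := c.wt_le V s
  have hd := Real.sqrt_nonneg (d : ℝ)
  have hm := norm_nonneg m
  have h6 : √r * ‖G‖ ≤ 1 * ‖G‖ := by gcongr; exact Real.sqrt_le_one.2 h2
  have h7 : ‖G‖ ≤ ‖G - m‖ + ‖m‖ := by simpa using norm_add_le (G - m) m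
  have h8 : τ ^ 2 * 2 * ‖y‖ ≤ τ ^ 2 * 2 * (2 * P.B * (‖p.1‖ + ‖p.2‖ + ‖m‖) +
      4 * (√(d : ℝ) + ‖m‖)) := by gcongr
  have h9 : τ ^ 2 * 2 * (2 * P.B) * (‖p.1‖ + ‖p.2‖ + ‖m‖) ≤ 1 * (‖p.1‖ + ‖p.2‖ + ‖m‖) := by
    gcongr; exact c.Bδ
  have h10 : τ ^ 2 * 2 * (√(d : ℝ) + ‖m‖) ≤ 1 / 4 * (√(d : ℝ) + ‖m‖) := by
    gcongr; exact c.δ_le
  have h11 : 4 * wt3 τ xb wt V s ≤ C * wt3 τ xb wt V s := by
    gcongr; linarith
  nlinarith

variable [MeasurableSpace S]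

theorem Ctx.xpart (c : Ctx P Env j τ Λ xb wt) {q : ℝ} {ε : (E d → ℝ) → S → ℝ}
    (h : Samp Env q xb (P.β j * τ) ε) (b1 b2 : ℝ) :
    Samp (fun V (s : S × (E d × E d × E d)) => Env V s.1) q
      (fun V s => xb V s.1 + τ • (b1 • (sd P j τ xb V s).1 + b2 • (sd P j τ xb V s).2))
      (|1 - b2 / RR P.κ| * (P.β j * τ)) (fun V s => |1 - b2 / RR P.κ| * ε V s.1) := by
  have h1 : Samp (fun V (s : S × (E d × E d × E d)) => Env V s.1) q (fun V s => xb V s.1)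
      (P.β j * τ) (fun V s => ε V s.1) := sim_comap h measurable_fst
  have h2 := samp_affine h1 (mul_nonneg (P.β_pos j).le c.hτ.le) (1 - b2 / RR P.κ)
    (k := fun s : S × (E d × E d × E d) => (b2 / RR P.κ) • s.2.1 + τ • (b1 • s.2.2.1 +
      (b2 * √(1 - P.β j ^ 2 / RR P.κ ^ 2)) • s.2.2.2)) (by fun_prop)
  refine samp_congr h2 fun V s _ => ?_
  have hR : RR P.κ ≠ 0 := by linarith [half_le_RR P.κ_pos P.κ_le]
  have hτ := c.hτ.ne'
  simp only [sd, seeds]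
  match_scalars <;> field_simp <;> ring

theorem Ctx.disp (c : Ctx P Env j τ Λ xb wt) {i : ℕ} (hi : i + 1 < j) {C1 Cw Q u : ℝ}
    (hH : HS P i tm C1) (hCw : 4 ≤ Cw) (hQ : 1 ≤ Q) (hu : P.β j * P.κ * τ / (2 * P.Γ) ≤ u)
    (hPO : ∀ x : Tm, x.Nice (P.κ ^ 2) P.B P.Γ Λ → ∀ r, P.κ ^ 2 ≤ r → r ≤ 1 →
      PO P (fun V (s : S × (E d × E d × E d)) => Env V s.1) (i + 1) (τ * √r) (pos P j τ xb x)
        (fun V s => Cw * wt3 τ xb wt V s) (Cw * Q)) :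
    ∀ t : Tm, t.Good (P.κ ^ 2) P.B P.Γ Λ → t.wt ≤ Λ →
      Samp (fun V (s : S × (E d × E d × E d)) => Env V s.1) (t.cnt * (C1 * (Cw * Q) * P.Γ ^ i))
        (fun V s => τ • (t.ev (Gv (Wl V (xb V s.1) τ)) (sd P j τ xb V s) -
          (t.b1 • (sd P j τ xb V s).1 + t.b2 • (sd P j τ xb V s).2)))
        (√(t.cnt : ℝ) * u)
        (fun V s => t.cnt * (C1 * u * P.e (i + 1) * (Cw * wt3 τ xb wt V s))) := by
  have hκ := P.κ_pos
  have hβ := P.β_pos j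
  have hτ := c.hτ
  have hΓ := P.Γ_ge
  have hu0 : 0 < u := lt_of_lt_of_le (by positivity) hu
  intro t
  induction t with
  | lin b1 b2 =>
    intro _ _
    have := samp_pure (Env := fun V (s : S × (E d × E d × E d)) => Env V s.1)
      (x := fun _ => (0 : E d)) measurable_const 0
    simpa [Tm.cnt, Tm.ev, Tm.b1, Tm.b2] using this
  | plus a r x rest _ ih =>
    rintro ⟨h1, h2, h3, h4, h5⟩ hw
    have hrest := Tm.wt_nonneg rest
    simp only [Tm.wt] at hw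
    have ha : |a| ≤ Λ := by linarith
    have hr : 0 < r := lt_of_lt_of_le (pow_pos hκ 2) h1
    have hs1 : √r ≤ 1 := Real.sqrt_le_one.2 h2
    have hs2 : P.κ ≤ √r := Real.le_sqrt_of_sq_le h1
    have ih' := ih h5 (by linarith [abs_nonneg a])
    have hρ : |τ ^ 2 * a| * (τ * √r) ≤ u * P.ρ (i + 1) := by
      have g1 := P.ρ_lt (i + 1) j hi c.hj
      have g2 := c.hΛ
      have g3 := (P.ρ_pos (i + 1)).le
      rw [abs_mul, abs_of_nonneg (by positivity : 0 ≤ τ ^ 2)]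
      calc τ ^ 2 * |a| * (τ * √r) ≤ τ ^ 2 * Λ * (τ * 1) := by
            gcongr
            exact mul_nonneg (by positivity) ((abs_nonneg a).trans ha)
        _ = Λ * τ ^ 2 * τ := by ring
        _ ≤ 3 * P.Λ0 * P.ρ j * τ := by gcongr
        _ = 6 * P.Λ0 * P.Γ * P.ρ j * τ / (2 * P.Γ) := by field_simp; ring
        _ ≤ P.ρ (i + 1) * P.β j * P.κ * τ / (2 * P.Γ) := by gcongr
        _ = P.β j * P.κ * τ / (2 * P.Γ) * P.ρ (i + 1) := by ring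
        _ ≤ _ := by gcongr
    have hG := hH d _ (fun V (s : S × (E d × E d × E d)) => Env V s.1) (pos P j τ xb x)
      (fun V s => Cw * wt3 τ xb wt V s) (Cw * Q) (τ * √r) (τ ^ 2 * a) u (by nlinarith) hu0
      (by positivity) (le_trans (by nlinarith) c.hg) ?_ hρ ?_ (c.wt_pt ⟨h3, h4⟩ h1 h2 hCw)
      (hPO x ⟨h3, h4⟩ r h1 h2)
    · have h6 := samp_add hG ih'
      have e1 : √(u ^ 2 + (√(rest.cnt : ℝ) * u) ^ 2) = √((rest.cnt + 1 : ℕ) : ℝ) * u := by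
        rw [mul_pow, Real.sq_sqrt (Nat.cast_nonneg _)]
        have : u ^ 2 + (rest.cnt : ℝ) * u ^ 2 = ((rest.cnt + 1 : ℕ) : ℝ) * u ^ 2 := by
          push_cast; ring
        rw [this, Real.sqrt_mul (Nat.cast_nonneg _), Real.sqrt_sq hu0.le]
      rw [e1] at h6
      refine samp_mono (samp_congr h6 (fun V s hE => ?_)) (fun _ _ h => h) ?_ (fun V s _ => ?_)
      · simp only [Tm.ev, Tm.b1, Tm.b2]
        rw [c.G_eq hE hr, mul_pow, Real.sq_sqrt hr.le]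
        unfold pos
        match_scalars <;> ring
      · simp only [Tm.cnt]; push_cast; linarith
      · simp only [Tm.cnt]; push_cast; linarith
    · refine c.hτ0.trans ?_
      have g1 : P.κ ^ (j * (tm + 1)) ≤ P.κ ^ ((i + 1) * (tm + 1) + tm + 1) := by
        apply pow_le_pow_of_le_one hκ.le (by linarith [P.κ_le])
        have : (i + 2) * (tm + 1) ≤ j * (tm + 1) := Nat.mul_le_mul_right _ hi
        nlinarith
      calc τ * P.κ ^ (j * (tm + 1)) ≤ τ * P.κ ^ ((i + 1) * (tm + 1) + tm + 1) := by gcongr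
        _ = τ * P.κ * P.κ ^ ((i + 1) * (tm + 1) + tm) := by ring
        _ ≤ _ := by gcongr
    · have g1 := (P.ρ_le (i + 1)).2
      have g2 : |τ ^ 2 * a| * (τ * √r) ≤ u := hρ.trans (by nlinarith)
      gcongr

theorem Par.xnoise (P : Par n tm Cf) {i j : ℕ} (hij : i < j) {b τ r : ℝ} (hb : |b| ≤ P.B)
    (hτ : 0 ≤ τ) (hr : P.κ ≤ r) : |1 - b / RR P.κ| * (P.β j * τ) ≤ P.β i * (τ * r) / 2 := by
  have hR := half_le_RR P.κ_pos P.κ_le
  have h1 : |1 - b / RR P.κ| ≤ 1 + 2 * P.B := by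
    refine (abs_sub _ _).trans ?_
    rw [abs_one, abs_div, abs_of_pos (by linarith : 0 < RR P.κ)]
    have : |b| / RR P.κ ≤ 2 * P.B := by
      rw [div_le_iff₀ (by linarith)]; nlinarith [abs_nonneg b]
    linarith
  have h2 := P.β_lt i j hij
  have h3 := (P.β_pos j).le
  have h4 := (P.β_pos i).le
  calc |1 - b / RR P.κ| * (P.β j * τ) ≤ (1 + 2 * P.B) * (P.β j * τ) := by gcongr
    _ = (1 + 2 * P.B) * P.β j * τ := by ring
    _ ≤ P.β i * P.κ / 2 * τ := by gcongr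
    _ ≤ P.β i * r / 2 * τ := by gcongr
    _ = _ := by ring

theorem Par.β_anti (P : Par n tm Cf) {i j : ℕ} (hij : i < j) : P.β j ≤ P.β i := by
  have h2 := P.β_lt i j hij
  have h3 := (P.β_pos j).le
  have h4 := (P.β_pos i).le
  have := P.B_ge
  have := P.κ_le
  nlinarith

theorem Ctx.pt (c : Ctx P Env j τ Λ xb wt) {C1 Q : ℝ} (hC1 : 1 ≤ C1) (hQ : 1 ≤ Q)
    (hH : ∀ i, i + 1 < j → HS P i tm C1) (hPO : PO P Env j τ xb wt Q) :
    ∀ i < j, ∀ i' ≤ i, ∀ x : Tm, x.Nice (P.κ ^ 2) P.B P.Γ Λ → ∀ σ : ℝ, P.β j * P.κ * τ ≤ σ →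
      |1 - x.b2 / RR P.κ| * (P.β j * τ) ≤ σ / 2 →
      Samp (fun V (s : S × (E d × E d × E d)) => Env V s.1) (7 * (2 * C1) ^ i * Q * P.Γ ^ i')
        (pos P j τ xb x) σ (fun V s => 7 * (2 * C1) ^ i * σ * P.e i' * wt3 τ xb wt V s) := by
  have hκ := P.κ_pos
  have hβ := P.β_pos j
  have hτ := c.hτ
  have hΓ := P.Γ_ge
  have hw3 : ∀ V (s : S × (E d × E d × E d)), Env V s.1 → 0 ≤ wt V s.1 ∧ 0 ≤ wt3 τ xb wt V s :=
    fun V s hE => ⟨(c.hw.nonneg hτ.le hE).2, (c.hw.nonneg hτ.le hE).2.trans (c.wt_le V s)⟩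
  -- the error of the `xb` part
  have hx : ∀ (b σ e : ℝ) V (s : S × (E d × E d × E d)), Env V s.1 → 0 ≤ e →
      |1 - b / RR P.κ| * (P.β j * τ) ≤ σ / 2 →
      |1 - b / RR P.κ| * (P.β j * τ * e * wt V s.1) ≤ σ / 2 * e * wt3 τ xb wt V s := by
    intro b σ e V s hE he h
    have := hw3 V s hE
    have h0 : 0 ≤ |1 - b / RR P.κ| * (P.β j * τ) := by positivity
    calc _ = |1 - b / RR P.κ| * (P.β j * τ) * e * wt V s.1 := by ring
      _ ≤ _ := by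
        gcongr
        · exact this.1
        · exact mul_nonneg (h0.trans h) he
        · exact c.wt_le V s
  intro i
  induction i with
  | zero =>
    intro hj i' hi' x hN σ h1 h2
    obtain rfl : i' = 0 := by omega
    have hσ : 0 < σ := lt_of_lt_of_le (by positivity) h1
    have s1 := samp_pad (σ' := σ) (c.xpart (hPO 0 hj) x.b1 x.b2) (by positivity) (by linarith)
    have s2 := samp_shift (y := pos P j τ xb x)
      (err' := fun V s => τ * (6 * P.B * wt3 τ xb wt V s)) s1 (fun V s hE => by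
        unfold pos
        rw [add_sub_add_left_eq_sub, ← smul_sub, norm_smul, Real.norm_of_nonneg hτ.le,
          norm_sub_rev]
        gcongr
        exact c.size_pt hN hE)
    refine samp_mono s2 (fun _ _ h => h) (by simp; linarith) (fun V s hE => ?_)
    have g1 := hx x.b2 σ (P.e 0) V s hE (P.e_pos 0).le h2
    have g2 := (hw3 V s hE).2
    have g3 : τ * P.B ≤ σ * P.e 0 := by
      have := P.e0_β j c.hj
      have := (P.e_pos 0).le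
      calc τ * P.B ≤ τ * (P.e 0 * P.β j * P.κ) := by gcongr
        _ = P.β j * P.κ * τ * P.e 0 := by ring
        _ ≤ _ := by gcongr
    have g4 : τ * P.B * wt3 τ xb wt V s ≤ σ * P.e 0 * wt3 τ xb wt V s := by gcongr
    have g5 : 0 ≤ σ * P.e 0 * wt3 τ xb wt V s := by have := (P.e_pos 0).le; positivity
    simp only [pow_zero, mul_one]
    nlinarith
  | succ i ih =>
    intro hj i' hi' x hN σ h1 h2
    have hσ : 0 < σ := lt_of_lt_of_le (by positivity) h1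
    have hp : 1 ≤ (2 * C1) ^ i := one_le_pow₀ (by linarith)
    have hp2 : (2 * C1) ^ i ≤ (2 * C1) ^ (i + 1) := pow_le_pow_right₀ (by linarith) (by omega)
    rcases Nat.lt_or_ge i' (i + 1) with hlt | hge
    · refine samp_mono (ih (by omega) i' (by omega) x hN σ h1 h2) (fun _ _ h => h) ?_
        (fun V s hE => ?_)
      · gcongr
      · have := (hw3 V s hE).2
        have := (P.e_pos i').le
        gcongr
    obtain rfl : i' = i + 1 := by omega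
    set Cw := 7 * (2 * C1) ^ i with hCw
    have s1 := c.xpart (hPO (i + 1) hj) x.b1 x.b2
    have s2 := c.disp hj (hH i hj) (Cw := Cw) (Q := Q) (u := σ / (2 * P.Γ)) (by linarith) hQ
      (by gcongr) (fun x' hx' r hr1 hr2 i'' hi'' => by
        have hs2 : P.κ ≤ √r := Real.le_sqrt_of_sq_le hr1
        have := ih (by omega) i'' (by omega) x' hx' (P.β (i + 1) * (τ * √r)) (by
          have := P.β_anti hj
          calc P.β j * P.κ * τ = P.β j * (τ * P.κ) := by ring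
            _ ≤ _ := by gcongr; exact (P.β_pos _).le) (P.xnoise hj hx'.1.h2 hτ.le hs2)
        refine samp_mono this (fun _ _ h => h) le_rfl (fun V s _ => le_of_eq (by ring)))
      x hN.2 hN.1.hw
    have hcnt := hN.1.hc
    have s3 := samp_pad (σ' := σ) (samp_add s1 s2) (Real.sqrt_nonneg _) (by
      apply Real.sqrt_le_iff.2 ⟨hσ.le, ?_⟩
      have g1 : (|1 - x.b2 / RR P.κ| * (P.β j * τ)) ^ 2 ≤ (σ / 2) ^ 2 := by gcongr
      have g2 : (√(x.cnt : ℝ) * (σ / (2 * P.Γ))) ^ 2 ≤ (σ / 2) ^ 2 := by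
        rw [mul_pow, Real.sq_sqrt (Nat.cast_nonneg _)]
        calc (x.cnt : ℝ) * (σ / (2 * P.Γ)) ^ 2 ≤ P.Γ ^ 2 * (σ / (2 * P.Γ)) ^ 2 := by
              gcongr; nlinarith
          _ = _ := by field_simp
      nlinarith)
    refine samp_mono (samp_congr s3 (fun V s _ => ?_)) (fun _ _ h => h) ?_ (fun V s hE => ?_)
    · unfold pos
      rw [smul_sub]; abel
    · have g0 : 0 ≤ P.Γ ^ i := by positivity
      have g1 : (x.cnt : ℝ) * (C1 * (Cw * Q) * P.Γ ^ i) ≤ P.Γ * (C1 * (Cw * Q) * P.Γ ^ i) := by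
        gcongr
      have g2 : 1 * (Q * P.Γ ^ (i + 1)) ≤ C1 * Cw * (Q * P.Γ ^ (i + 1)) := by
        gcongr; nlinarith
      calc _ ≤ C1 * Cw * (Q * P.Γ ^ (i + 1)) + P.Γ * (C1 * (Cw * Q) * P.Γ ^ i) := by linarith
        _ = _ := by rw [hCw]; ring
    · have he := (P.e_pos (i + 1)).le
      have g1 := hx x.b2 σ (P.e (i + 1)) V s hE he h2
      have g2 := (hw3 V s hE).2
      have g3 : (x.cnt : ℝ) * (C1 * (σ / (2 * P.Γ)) * P.e (i + 1) * (Cw * wt3 τ xb wt V s)) ≤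
          P.Γ * (C1 * (σ / (2 * P.Γ)) * P.e (i + 1) * (Cw * wt3 τ xb wt V s)) := by gcongr
      have g4 : P.Γ * (C1 * (σ / (2 * P.Γ)) * P.e (i + 1) * (Cw * wt3 τ xb wt V s)) =
          C1 * Cw * (σ * P.e (i + 1) * wt3 τ xb wt V s) / 2 := by field_simp
      have g5 : 1 * (σ * P.e (i + 1) * wt3 τ xb wt V s) ≤
          C1 * Cw * (σ * P.e (i + 1) * wt3 τ xb wt V s) := by
        gcongr; nlinarith
      have g6 : 0 ≤ σ * P.e (i + 1) * wt3 τ xb wt V s := by positivity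
      have g7 : 7 * (2 * C1) ^ (i + 1) * σ * P.e (i + 1) * wt3 τ xb wt V s =
          2 * (C1 * Cw * (σ * P.e (i + 1) * wt3 τ xb wt V s)) := by rw [hCw]; ring
      rw [g7]
      nlinarith

end

end Crest.Agent.R285
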