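import Crest.Agent.R285.Orc

/-!
# R285 Outer: the proximal sampler loop and the choice of parameters.

Let `T0 = ⌈5/ε⌉₊`, `M = 2 T0 + 8`, take `a, Cst, L0` from `step_spec T0 M`, `T = T0 a`,
`L = max L1 ⌈d^(1/T)⌉₊` with `L1 ≥ L0` large (depending on `a, T0, Cst` only), so `d ≤ L^T` and
`L ≤ 2 L1 d^(1/T)`.  `Env V _ = Pot 2 V ∧ SC 1 V ∧ gradient V 0 = 0` (`adm_pot`), `π = gib V`.
* `chain_step`: from `Sim Env q (noisy π τ) e` (state `Unit`, constant error `e`) and a step as in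
  `step_spec` get, by `sim_bind`, `Sim Env (q + q') (noisy π τ') ((1/(1+τ²) + 2η τ) e + 6 η √d)` where
  `η = Cst τ / L^(aM)`: the Lipschitz constant is `1/(1+τ²)` (`integral_noisy`, `gT_lip`, `nu_lip`),
  `err3 = 0` (`prox_inv`, `integral_noisy`), `ψ y = η (2√d + 2τ‖y‖)` since
  `‖Gv V τ² y‖ ≤ 2‖y‖ + ‖Gv V τ² 0‖`, `‖Gv V τ² 0‖ ≤ 4 τ √d` (`G_lip`, `G_naive`, `τ ≤ 1/2`), and
  `∫ ‖y‖ d(noisy π τ) ≤ 2√d` (`noisy_norm`, `pi_norm`).
* start: `sim_pure 0` retargeted to `noisy π τ₀`, `τ₀ = L^{-a}`, error `2√d`; `n₁ = 4 L^(2a+1)` steps with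
  `τ' = τ = τ₀` (factor `≤ 1 - τ₀²/4`, `(1 - τ₀²/4)^{n₁} ≤ e^{-L}`), then `T` steps with `τ' = τ / L`
  (factor `≤ 2`), ending at `τ* = L^{-(a+T)}`; `sim_final` with `σ = τ*`, `noisy_noisy`, `noisy_tv`,
  `target_eq`.  Errors: `√d/τ* · e_final ≤ 1/20` and `2 √2 τ* d ≤ 1/20` for `L ≥ L1`; cost
  `(n₁ + T) Cst L^a ≤ L^(5a) ≤ (2 L1)^(5a) d^(5/T0) ≤ C d^ε`.
-/

set_option autoImplicit false

namespace Crest.Agent.R285

open MeasureTheory Set
open scoped ContDiff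

namespace OuterA

variable {d : ℕ}

def En (d : ℕ) (V : E d → ℝ) (_ : Unit) : Prop := Pot 2 V ∧ SC 1 V ∧ gradient V 0 = 0

theorem En.conf {V : E d → ℝ} {s : Unit} (h : En d V s) : Conf V :=
  sc_conf one_pos h.1.c2.continuous h.2.1

theorem En.p1 {V : E d → ℝ} {s : Unit} (h : En d V s) : P1 (gib V) := p1_of_pm (gib_pm h.conf)

theorem En.norm {V : E d → ℝ} {s : Unit} (h : En d V s) {τ : ℝ} (h0 : 0 ≤ τ) (h1 : τ ≤ 1) :
    ∫ y, ‖y‖ ∂(noisy (gib V) τ) ≤ 2 * √(d : ℝ) := by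
  have g1 := noisy_norm h.p1 τ
  have g2 := pi_norm h.1 h.2.1 h.2.2
  rw [abs_of_nonneg h0] at g1
  nlinarith [Real.sqrt_nonneg (d : ℝ)]

theorem chain_step {q q' e η τ τ' : ℝ} (hτ : 0 < τ) (hτ2 : τ ≤ 1 / 2) (hη : 0 ≤ η)
    (h1 : Sim (En d) q (fun V _ => noisy (gib V) τ) (fun _ _ => e))
    (h2 : Sim (S := Unit × E d) (fun V _ => Pot 2 V) q' (fun V s => noisy (nu V (τ ^ 2) s.2) τ')
      (fun V s => η * (√(d : ℝ) + τ * ‖Gv V (τ ^ 2) s.2‖))) :
    Sim (En d) (q + q') (fun V _ => noisy (gib V) τ')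
      (fun _ _ => (1 / (1 + τ ^ 2) + 2 * η * τ) * e + 6 * η * √(d : ℝ)) := by
  have hd := Real.sqrt_nonneg (d : ℝ)
  have hs : 0 < τ ^ 2 := by positivity
  have hb := sim_bind (T3 := fun V _ => noisy (gib V) τ') (L := fun _ _ => 1 / (1 + τ ^ 2))
    (L' := fun _ _ => 2 * η * τ) (err3 := fun _ _ => 0)
    (ψ := fun _ _ a => η * (2 * √(d : ℝ)) + 2 * η * τ * ‖a‖) h1 h2 (fun _ _ _ h => h.1) ?_ ?_ ?_
  · refine sim_mono hb (fun _ _ h => h) le_rfl (fun V s hE => ?_)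
    have hP := noisy_p1 hE.p1 τ
    have := hP.1
    rw [integral_add (integrable_const _) (hP.2.const_mul _), integral_const, integral_const_mul]
    simp only [probReal_univ, smul_eq_mul, one_mul]
    have g1 := hE.norm hτ.le (by linarith)
    have g2 : 2 * η * τ * ∫ y, ‖y‖ ∂(noisy (gib V) τ) ≤ 2 * η * 1 * (2 * √(d : ℝ)) :=
      mul_le_mul (by nlinarith) g1 (integral_nonneg fun _ => norm_nonneg _) (by positivity)
    linarith
  · intro V s hE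
    refine ⟨by positivity, fun f hf a a' => ?_⟩
    rw [integral_noisy (p1_of_pm (nu_pm hE.1 hs _)) hf, integral_noisy (p1_of_pm (nu_pm hE.1 hs _)) hf]
    have := nu_lip hE.1 zero_le_one hE.2.1 hs zero_le_one
      (fun x y => by simpa using lip_abs (gT_lip hf τ') x y) a a'
    simpa using this
  · intro V s hE
    refine ⟨by positivity, fun a => ?_, fun a a' => ?_⟩
    · have g1 := G_lip hE.1 hs a 0
      have g2 := G_naive hE.1 hs 0
      rw [hE.2.2, sub_zero, Real.sqrt_sq hτ.le] at g2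
      rw [sub_zero] at g1
      show η * (√(d : ℝ) + τ * ‖Gv V (τ ^ 2) a‖) ≤ η * (2 * √(d : ℝ)) + 2 * η * τ * ‖a‖
      generalize Gv V (τ ^ 2) a = u at g1 ⊢
      generalize Gv V (τ ^ 2) 0 = w at g1 g2
      have g3 : ‖u‖ ≤ ‖u - w‖ + ‖w‖ := by simpa using norm_add_le (u - w) w
      have g4 : τ ^ 2 ≤ 1 / 4 := by nlinarith
      have g5 := norm_nonneg w
      have g6 : ‖w‖ ≤ 4 * τ * √(d : ℝ) := by nlinarith
      have g7 : τ * ‖u‖ ≤ τ * (2 * ‖a‖ + 4 * τ * √(d : ℝ)) := by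
        gcongr; linarith
      have g8 : √(d : ℝ) + τ * ‖u‖ ≤ 2 * √(d : ℝ) + 2 * τ * ‖a‖ := by nlinarith
      calc _ ≤ η * (2 * √(d : ℝ) + 2 * τ * ‖a‖) := by gcongr
        _ = _ := by ring
    · rw [add_sub_add_left_eq_sub, ← mul_sub, abs_mul, abs_of_nonneg (by positivity)]
      gcongr
      exact abs_norm_sub_norm_le _ _
  · intro V s hE
    refine ⟨noisy_p1 hE.p1 _, fun f hf => ?_⟩
    simp only [integral_noisy (p1_of_pm (nu_pm hE.1 hs _)) hf]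
    rw [prox_inv hE.1 hE.conf hτ (gT_lip hf τ'), integral_noisy hE.p1 hf]
    simp

theorem phase1 {q' η τ : ℝ} (hτ : 0 < τ) (hτ2 : τ ≤ 1 / 2) (hη : 0 ≤ η) (hητ : 8 * η ≤ τ)
    (h2 : Sim (S := Unit × E d) (fun V _ => Pot 2 V) q' (fun V s => noisy (nu V (τ ^ 2) s.2) τ)
      (fun V s => η * (√(d : ℝ) + τ * ‖Gv V (τ ^ 2) s.2‖))) (k : ℕ) :
    Sim (En d) (k * q') (fun V _ => noisy (gib V) τ)
      (fun _ _ => (1 - τ ^ 2 / 4) ^ k * (2 * √(d : ℝ)) + 24 * η * √(d : ℝ) / τ ^ 2) := by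
  have hd := Real.sqrt_nonneg (d : ℝ)
  induction k with
  | zero =>
    have s0 := sim_pure (Env := En d) (φ := fun _ => (0 : E d)) measurable_const
    have s1 := sim_retarget (T' := fun V _ => noisy (gib V) τ) (err' := fun _ _ => 2 * √(d : ℝ)) s0
      (fun V s hE => ⟨noisy_p1 hE.p1 _, fun f hf => by
        have hP := noisy_p1 hE.p1 τ
        have := hP.1
        have hi := lip_integrable hP hf
        refine le_trans ?_ (hE.norm hτ.le (by linarith))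
        rw [integral_dirac]
        have e : f 0 - ∫ x, f x ∂(noisy (gib V) τ) = ∫ x, (f 0 - f x) ∂(noisy (gib V) τ) := by
          rw [integral_sub (integrable_const _) hi]; simp
        rw [e]
        refine abs_integral_le_integral_abs.trans (integral_mono
          ((integrable_const _).sub hi).abs hP.2 fun x => ?_)
        simpa using lip_abs hf 0 x⟩)
    refine sim_mono s1 (fun _ _ h => h) (by simp) (fun V s _ => ?_)
    have : 0 ≤ 24 * η * √(d : ℝ) / τ ^ 2 := by positivity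
    simp only [pow_zero]; linarith
  | succ k ih =>
    refine sim_mono (chain_step hτ hτ2 hη ih h2) (fun _ _ h => h) (by push_cast; linarith)
      (fun V s _ => ?_)
    have g4 : τ ^ 2 ≤ 1 / 4 := by nlinarith
    have g1 : 1 / (1 + τ ^ 2) ≤ 1 - τ ^ 2 / 2 := by
      rw [div_le_iff₀ (by positivity)]; nlinarith [sq_nonneg τ]
    have g2 : 1 / (1 + τ ^ 2) + 2 * η * τ ≤ 1 - τ ^ 2 / 4 := by nlinarith
    have g3 : 0 ≤ (1 - τ ^ 2 / 4) ^ k * (2 * √(d : ℝ)) + 24 * η * √(d : ℝ) / τ ^ 2 := by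
      have : 0 ≤ 1 - τ ^ 2 / 4 := by linarith
      positivity
    calc _ ≤ (1 - τ ^ 2 / 4) * ((1 - τ ^ 2 / 4) ^ k * (2 * √(d : ℝ)) + 24 * η * √(d : ℝ) / τ ^ 2) +
          6 * η * √(d : ℝ) := by gcongr
      _ = _ := by field_simp; ring

theorem phase2 {q q' η e : ℝ} {τ : ℕ → ℝ} {T : ℕ} (hτ : ∀ k, 0 < τ k) (hτ2 : ∀ k, τ k ≤ 1 / 2)
    (hη : 0 ≤ η) (hη1 : η ≤ 1) (he : 0 ≤ e)
    (h1 : Sim (En d) q (fun V _ => noisy (gib V) (τ 0)) (fun _ _ => e))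
    (h2 : ∀ k < T, Sim (S := Unit × E d) (fun V _ => Pot 2 V) q'
      (fun V s => noisy (nu V (τ k ^ 2) s.2) (τ (k + 1)))
      (fun V s => η * (√(d : ℝ) + τ k * ‖Gv V (τ k ^ 2) s.2‖))) :
    ∀ k ≤ T, Sim (En d) (q + k * q') (fun V _ => noisy (gib V) (τ k))
      (fun _ _ => 2 ^ k * e + (2 ^ k - 1) * (6 * η * √(d : ℝ))) := by
  have hd := Real.sqrt_nonneg (d : ℝ)
  intro k
  induction k with
  | zero => intro _; simpa using h1
  | succ k ih =>
    intro hk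
    refine sim_mono (chain_step (hτ k) (hτ2 k) hη (ih (by omega)) (h2 k (by omega)))
      (fun _ _ h => h) (by push_cast; linarith) (fun V s _ => ?_)
    have g1 : 1 / (1 + τ k ^ 2) ≤ 1 := by
      rw [div_le_one (by positivity)]; nlinarith [sq_nonneg (τ k)]
    have g2 : 1 / (1 + τ k ^ 2) + 2 * η * τ k ≤ 2 := by nlinarith [hτ2 k, hτ k]
    have g3 : (0 : ℝ) ≤ 2 ^ k - 1 := by linarith [one_le_pow₀ (n := k) (one_le_two (α := ℝ))]
    calc _ ≤ 2 * (2 ^ k * e + (2 ^ k - 1) * (6 * η * √(d : ℝ))) + 6 * η * √(d : ℝ) := by gcongr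
      _ = _ := by ring

theorem at_L {T0 a L : ℕ} {Cst : ℝ} (ha : 1 ≤ a) (hC : 1 ≤ Cst)
    (hstep : ∀ (τ τ' : ℝ), 1 ≤ τ * (L : ℝ) ^ (a + T0 * a) →
      τ * (L : ℝ) ^ a ≤ 1 → τ ≤ τ' * L → τ' ≤ τ →
      Sim (S := Unit × E d) (fun V _ => Pot 2 V) (Cst * (L : ℝ) ^ a)
        (fun V s => noisy (nu V (τ ^ 2) s.2) τ')
        (fun V s => Cst * τ / (L : ℝ) ^ (a * (2 * T0 + 8)) *
          (√(d : ℝ) + τ * ‖Gv V (τ ^ 2) s.2‖)))
    (h1 : 2400 * 2 ^ (T0 * a) * Cst ≤ L)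
    (h2 : 160 * 2 ^ (T0 * a) * ((a + 2 * (T0 * a) + 1).factorial : ℝ) ≤ L)
    (h3 : ((T0 * a : ℕ) : ℝ) ≤ L) (hd : (d : ℝ) ≤ (L : ℝ) ^ (T0 * a)) :
    ∃ (q : ℕ) (A : Crest.OracleSampling.QueryAlg d q), (q : ℝ) ≤ (L : ℝ) ^ (5 * a) ∧
      ∀ V : E d → ℝ, Crest.OracleSampling.Admissible d V →
        Crest.OracleSampling.Succeeds A V := by
  set T := T0 * a with hT
  set x : ℝ := (L : ℝ) with hx
  have hp : (1 : ℝ) ≤ 2 ^ T := one_le_pow₀ one_le_two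
  have hx1 : 2400 * Cst ≤ x := by nlinarith
  have hx2 : 2400 ≤ x := by linarith
  have hx3 : 1 ≤ x := by linarith
  have hx0 : 0 < x := by linarith
  have hxa : x ≤ x ^ a := by simpa using pow_le_pow_right₀ hx3 ha
  set τ : ℕ → ℝ := fun k => 1 / x ^ (a + k) with hτ
  have hτ0 : ∀ k, 0 < τ k := fun k => by positivity
  have hτ1 : ∀ k, τ k ≤ τ 0 := fun k =>
    one_div_le_one_div_of_le (by positivity) (pow_le_pow_right₀ hx3 (by omega))
  have hτ2 : ∀ k, τ k ≤ 1 / 2 := fun k => (hτ1 k).trans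
    (one_div_le_one_div_of_le two_pos (by simp only [add_zero]; linarith))
  set η := Cst * τ 0 / x ^ (a * (2 * T0 + 8)) with hη
  have hη0 : 0 ≤ η := by have := hτ0 0; positivity
  have hxM : x ≤ x ^ (a * (2 * T0 + 8)) := by
    simpa using pow_le_pow_right₀ hx3 (show 1 ≤ a * (2 * T0 + 8) by nlinarith)
  have hη1 : 8 * η ≤ τ 0 := by
    rw [hη, ← mul_div_assoc, div_le_iff₀ (by positivity)]
    nlinarith [hτ0 0]
  have hA : ∀ k ≤ T, 1 ≤ τ k * x ^ (a + T) := fun k hk => by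
    rw [hτ, one_div_mul_eq_div, le_div_iff₀ (by positivity), one_mul]
    exact pow_le_pow_right₀ hx3 (by omega)
  have hB : ∀ k, τ k * x ^ a ≤ 1 := fun k => by
    rw [hτ, one_div_mul_eq_div, div_le_one (by positivity)]
    exact pow_le_pow_right₀ hx3 (by omega)
  have s1 := phase1 (hτ0 0) (hτ2 0) hη0 hη1 (hstep (τ 0) (τ 0) (hA 0 (by omega)) (hB 0)
    (by nlinarith [hτ0 0]) le_rfl) (4 * L ^ (2 * a + 1))
  have hsd := Real.sqrt_nonneg (d : ℝ)
  have h14 : 0 ≤ 1 - τ 0 ^ 2 / 4 := by nlinarith [hτ2 0, hτ0 0]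
  have s2 := phase2 (T := T) (η := η) hτ0 hτ2 hη0 (by linarith [hτ2 0]) (by positivity) s1
    (fun k hk => sim_mono (hstep (τ k) (τ (k + 1)) (hA k hk.le) (hB k)
      (le_of_eq (by simp only [hτ]; rw [← add_assoc, pow_succ]; field_simp))
      (one_div_le_one_div_of_le (by positivity) (pow_le_pow_right₀ hx3 (by omega))))
      (fun _ _ h => h) le_rfl (fun V s _ => by
        have := (hτ0 k).le
        rw [hη]; gcongr; exact hτ1 k)) T le_rfl
  obtain ⟨q, A, hq, hA⟩ := sim_final s2 (hτ0 T)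
  refine ⟨q, A, hq.trans ?_, fun V hV B hB => ?_⟩
  · push_cast
    rw [← hx]
    have g1 : x ^ (2 * a + 1) ≤ x ^ (3 * a) := pow_le_pow_right₀ hx3 (by omega)
    have g2 : x ≤ x ^ (3 * a) := by simpa using pow_le_pow_right₀ hx3 (show 1 ≤ 3 * a by omega)
    have g3 : (T : ℝ) ≤ x ^ (3 * a) := h3.trans g2
    calc _ = (4 * x ^ (2 * a + 1) + T) * Cst * x ^ a := by ring
      _ ≤ (5 * x ^ (3 * a)) * Cst * x ^ a := by gcongr; linarith
      _ = (5 * Cst) * (x ^ (3 * a) * x ^ a) := by ring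
      _ ≤ x ^ a * (x ^ (3 * a) * x ^ a) := by gcongr; linarith
      _ = _ := by ring
  · have hE : En d V () := adm_pot hV
    have t1 := hA V hE B hB
    have := hE.p1.1
    rw [noisy_noisy] at t1
    have t2 := noisy_tv hE.1 hE.2.1 hE.2.2 hB √(τ T ^ 2 + τ T ^ 2)
    rw [target_eq hE.conf]
    refine ((abs_sub_le _ _ _).trans (add_le_add t1 t2)).trans ?_
    have hdd : √(d : ℝ) * √(d : ℝ) ≤ x ^ T := by
      rw [Real.mul_self_sqrt (Nat.cast_nonneg d)]; exact hd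
    have u1 : 2 * |√(τ T ^ 2 + τ T ^ 2)| * d ≤ 1 / 20 := by
      have g1 : √(τ T ^ 2 + τ T ^ 2) ≤ 2 * τ T :=
        Real.sqrt_le_iff.2 ⟨by linarith [hτ0 T], by nlinarith [sq_nonneg (τ T)]⟩
      rw [abs_of_nonneg (Real.sqrt_nonneg _)]
      calc _ ≤ 2 * (2 * τ T) * x ^ T := by have := hτ0 T; gcongr
        _ = 4 / x ^ a := by simp only [hτ]; rw [pow_add]; field_simp; ring
        _ ≤ _ := by rw [div_le_div_iff₀ (by positivity) (by norm_num)]; linarith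
    have u2 : (1 - τ 0 ^ 2 / 4) ^ (4 * L ^ (2 * a + 1)) ≤
        ((a + 2 * T + 1).factorial : ℝ) / x ^ (a + 2 * T + 1) := by
      have g1 : 1 - τ 0 ^ 2 / 4 ≤ Real.exp (-(τ 0 ^ 2 / 4)) := by
        linarith [Real.add_one_le_exp (-(τ 0 ^ 2 / 4))]
      have g2 := Real.pow_div_factorial_le_exp x hx0.le (a + 2 * T + 1)
      calc _ ≤ Real.exp (-(τ 0 ^ 2 / 4)) ^ (4 * L ^ (2 * a + 1)) := by gcongr
        _ = (Real.exp x)⁻¹ := by
          rw [← Real.exp_nat_mul, ← Real.exp_neg]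
          congr 1
          push_cast
          simp only [hτ, ← hx, add_zero]
          field_simp; ring
        _ ≤ (x ^ (a + 2 * T + 1) / ((a + 2 * T + 1).factorial : ℝ))⁻¹ := by gcongr
        _ = _ := inv_div _ _
    have u3 : η * √(d : ℝ) ≤ η * √(d : ℝ) / τ 0 ^ 2 := by
      rw [le_div_iff₀ (by have := hτ0 0; positivity)]
      have : τ 0 ^ 2 ≤ 1 := by nlinarith [hτ2 0, hτ0 0]
      have : 0 ≤ η * √(d : ℝ) := by positivity
      nlinarith
    have u4 : √(d : ℝ) / τ T * (2 ^ T * ((1 - τ 0 ^ 2 / 4) ^ (4 * L ^ (2 * a + 1)) * (2 * √(d : ℝ)) +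
        24 * η * √(d : ℝ) / τ 0 ^ 2) + (2 ^ T - 1) * (6 * η * √(d : ℝ))) ≤ 1 / 40 := by
      have hT0 := hτ0 T
      have h00 := hτ0 0
      calc _ ≤ √(d : ℝ) / τ T * (2 ^ T * (((a + 2 * T + 1).factorial : ℝ) / x ^ (a + 2 * T + 1) *
              (2 * √(d : ℝ)) + 24 * η * √(d : ℝ) / τ 0 ^ 2) +
              2 ^ T * (6 * (η * √(d : ℝ) / τ 0 ^ 2))) := by
            have g1 : 6 * η * √(d : ℝ) ≤ 6 * (η * √(d : ℝ) / τ 0 ^ 2) := by linarith
            have g2 : (2 ^ T - 1) * (6 * η * √(d : ℝ)) ≤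
                2 ^ T * (6 * (η * √(d : ℝ) / τ 0 ^ 2)) :=
              mul_le_mul (by linarith) g1 (by positivity) (by positivity)
            refine mul_le_mul_of_nonneg_left (add_le_add ?_ g2) (by positivity)
            gcongr
        _ = (√(d : ℝ) * √(d : ℝ)) * (2 ^ T / τ T *
              (2 * ((a + 2 * T + 1).factorial : ℝ) / x ^ (a + 2 * T + 1) + 30 * η / τ 0 ^ 2)) := by
            ring
        _ ≤ x ^ T * (2 ^ T / τ T *
              (2 * ((a + 2 * T + 1).factorial : ℝ) / x ^ (a + 2 * T + 1) + 30 * η / τ 0 ^ 2)) := by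
            gcongr
        _ = 2 * 2 ^ T * ((a + 2 * T + 1).factorial : ℝ) / x + 30 * 2 ^ T * Cst / x ^ (6 * a) := by
            simp only [hη, hτ, add_zero]
            have : a * (2 * T0 + 8) = 2 * T + 8 * a := by rw [hT]; ring
            rw [this]
            field_simp
            ring
        _ ≤ 1 / 80 + 1 / 80 := by
            have g1 : x ≤ x ^ (6 * a) := by
              simpa using pow_le_pow_right₀ hx3 (show 1 ≤ 6 * a by omega)
            refine add_le_add ?_ ?_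
            · rw [div_le_div_iff₀ hx0 (by norm_num)]; linarith
            · rw [div_le_div_iff₀ (by positivity) (by norm_num)]; linarith
        _ = _ := by norm_num
    linarith

end OuterA

theorem main : ∀ ε : ℝ, 0 < ε → ∃ C : ℝ, ∀ d : ℕ, 2 ≤ d →
    ∃ (q : ℕ) (A : Crest.OracleSampling.QueryAlg d q), (q : ℝ) ≤ C * (d : ℝ) ^ ε ∧
      ∀ V : Crest.OracleSampling.E d → ℝ, Crest.OracleSampling.Admissible d V →
        Crest.OracleSampling.Succeeds A V := by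
  intro ε hε
  set T0 := ⌈5 / ε⌉₊ with hT0
  have hT1 : 5 / ε ≤ T0 := Nat.le_ceil _
  have hT2 : 0 < T0 := Nat.ceil_pos.2 (by positivity)
  obtain ⟨a, Cst, L0, ha, hC, hstep⟩ := step_spec T0 (2 * T0 + 8)
  obtain ⟨L1, hL1⟩ : ∃ L1 : ℕ, (L0 : ℝ) + 2400 * 2 ^ (T0 * a) * Cst +
      160 * 2 ^ (T0 * a) * ((a + 2 * (T0 * a) + 1).factorial : ℝ) + ((T0 * a : ℕ) : ℝ) ≤ L1 :=
    ⟨_, Nat.le_ceil _⟩
  refine ⟨((L1 : ℝ) + 2) ^ (5 * a), fun d hd => ?_⟩
  have hd1 : (1 : ℝ) ≤ d := by exact_mod_cast (by omega : 1 ≤ d)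
  have hT : T0 * a ≠ 0 := by positivity
  set r := (d : ℝ) ^ (((T0 * a : ℕ) : ℝ)⁻¹) with hr
  have hr1 : 1 ≤ r := Real.one_le_rpow hd1 (by positivity)
  set L := max L1 ⌈r⌉₊ with hL
  have hL2 : (L1 : ℝ) ≤ L := by exact_mod_cast le_max_left _ _
  have hL3 : r ≤ L := (Nat.le_ceil r).trans (by exact_mod_cast le_max_right _ _)
  have hL4 : (L : ℝ) ≤ (L1 + 2) * r := by
    have g1 : (⌈r⌉₊ : ℝ) ≤ r + 1 := (Nat.ceil_lt_add_one (by linarith)).le
    have g2 : (0 : ℝ) ≤ L1 := Nat.cast_nonneg _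
    rw [hL, Nat.cast_max]
    exact max_le (by nlinarith) (by nlinarith)
  have p1 : (0 : ℝ) ≤ L0 := Nat.cast_nonneg _
  have p2 : (0 : ℝ) ≤ 2400 * 2 ^ (T0 * a) * Cst := by positivity
  have p3 : (0 : ℝ) ≤ 160 * 2 ^ (T0 * a) * ((a + 2 * (T0 * a) + 1).factorial : ℝ) := by positivity
  have p4 : (0 : ℝ) ≤ ((T0 * a : ℕ) : ℝ) := Nat.cast_nonneg _
  obtain ⟨q, A, hq, hA⟩ := OuterA.at_L (d := d) (T0 := T0) (L := L) ha hC
    (hstep L (by exact_mod_cast (by linarith : (L0 : ℝ) ≤ L)) d) (by linarith) (by linarith)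
    (by linarith) (by
      rw [← Real.rpow_inv_natCast_pow (by linarith : (0 : ℝ) ≤ d) hT]
      gcongr)
  refine ⟨q, A, hq.trans ?_, hA⟩
  calc (L : ℝ) ^ (5 * a) ≤ ((L1 + 2) * r) ^ (5 * a) := by gcongr
    _ = ((L1 : ℝ) + 2) ^ (5 * a) * r ^ (5 * a) := mul_pow _ _ _
    _ ≤ _ := by
      gcongr
      rw [hr, ← Real.rpow_natCast, ← Real.rpow_mul (by linarith)]
      refine Real.rpow_le_rpow_of_exponent_le hd1 ?_
      have g1 : (0 : ℝ) < T0 := by exact_mod_cast hT2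
      have g2 : (0 : ℝ) < a := by exact_mod_cast ha
      rw [div_le_iff₀ hε] at hT1
      push_cast
      rw [inv_mul_le_iff₀ (by positivity)]
      nlinarith

end Crest.Agent.R285
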