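import Crest.Agent.R285.MomB

/-!
# R285 PZ: differentiation under the integral for polynomial integrands.

Everything is by induction on `PZ B`.  For `IZ` generalize `φ`:
`IZ φ (coef c) y = c y * Mom W φ (s, l y)`, `IZ φ (B * z b) = IZ (φ * z b) B`, `IZ φ (B + B') = IZ φ B + IZ φ B'`
(integrability), then `mom_smooth`, `mom_fderiv` and the chain rule.
-/

set_option autoImplicit false

namespace Crest.Agent.R285

open MeasureTheory Set
open scoped ContDiff

variable {P : Type} [NormedAddCommGroup P] [NormedSpace ℝ P] {d : ℕ} {B B' : P → E d → ℝ}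

theorem pz_coef_mul (h : PZ B) {c : P → ℝ} (hc : ContDiff ℝ ∞ c) :
    PZ (fun y z => c y * B y z) := by
  induction h with
  | coef c' hc' => exact PZ.coef (fun y => c y * c' y) (hc.mul hc')
  | mulz B b _ ih =>
    have := PZ.mulz _ b ih
    simpa only [mul_assoc] using this
  | add B B' _ _ ih ih' =>
    have := PZ.add _ _ ih ih'
    simpa only [mul_add] using this

theorem pz_mul (h : PZ B) (h' : PZ B') : PZ (fun y z => B y z * B' y z) := by
  induction h' with
  | coef c hc =>
    have := pz_coef_mul h hc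
    simpa only [mul_comm] using this
  | mulz B' b _ ih =>
    have := PZ.mulz _ b ih
    simpa only [mul_assoc] using this
  | add B' B'' _ _ ih ih' =>
    have := PZ.add _ _ ih ih'
    simpa only [mul_add] using this

theorem pz_sum {ι : Type} (s : Finset ι) {B : ι → P → E d → ℝ} (h : ∀ i ∈ s, PZ (B i)) :
    PZ (fun y z => ∑ i ∈ s, B i y z) := by
  classical
  induction s using Finset.induction_on with
  | empty => simpa using PZ.coef (P := P) (d := d) (fun _ => 0) contDiff_const
  | insert a s ha ih =>
    simp only [Finset.sum_insert ha]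
    exact PZ.add _ _ (h a (Finset.mem_insert_self _ _))
      (ih fun i hi => h i (Finset.mem_insert_of_mem hi))

theorem PZA.smooth (h : PZ B) : ContDiff ℝ ∞ (fun q : P × E d => B q.1 q.2) := by
  induction h with
  | coef c hc => exact hc.comp contDiff_fst
  | mulz B b _ ih => exact ih.mul ((EuclideanSpace.proj b : E d →L[ℝ] ℝ).contDiff.comp contDiff_snd)
  | add B B' _ _ ih ih' => exact ih.add ih'

theorem PZA.smooth_y (h : PZ B) (z : E d) : ContDiff ℝ ∞ (fun y => B y z) :=
  (PZA.smooth h).comp (contDiff_id.prodMk contDiff_const)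

theorem PZA.smooth_z (h : PZ B) (y : P) : ContDiff ℝ ∞ (B y) :=
  (PZA.smooth h).comp (contDiff_const.prodMk contDiff_id)

theorem PZA.pd_smooth {c : P → ℝ} (hc : ContDiff ℝ ∞ c) (v : P) : ContDiff ℝ ∞ (pd v c) :=
  contDiffOn_univ.1 (pd_contDiffOn isOpen_univ hc.contDiffOn v)

theorem pz_pd (h : PZ B) (v : P) : PZ (fun y z => pd v (fun y => B y z) y) := by
  induction h with
  | coef c hc => exact PZ.coef (pd v c) (PZA.pd_smooth hc v)
  | mulz B b _ ih =>
    have e : (fun y (z : E d) => pd v (fun y => B y z * z b) y) =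
        fun y z => pd v (fun y => B y z) y * z b := by
      funext y z
      simp only [mul_comm _ (z b)]
      rw [pd_const_mul]
    rw [e]
    exact PZ.mulz _ b ih
  | add B B' h h' ih ih' =>
    have e : (fun y (z : E d) => pd v (fun y => B y z + B' y z) y) =
        fun y z => pd v (fun y => B y z) y + pd v (fun y => B' y z) y := by
      funext y z
      exact pd_add v ((PZA.smooth_y h z).differentiable (by simp) y)
        ((PZA.smooth_y h' z).differentiable (by simp) y)
    rw [e]
    exact PZ.add _ _ ih ih'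

theorem pz_pdz (h : PZ B) (v : E d) : PZ (fun y z => pd v (B y) z) := by
  induction h with
  | coef c hc =>
    simp only [pd_const]
    exact PZ.coef (fun _ => 0) contDiff_const
  | mulz B b h ih =>
    have e : (fun y (z : E d) => pd v (fun z => B y z * z b) z) =
        fun y z => pd v (B y) z * z b + v b * B y z := by
      funext y z
      have h1 : HasFDerivAt (fun z : E d => z b) (EuclideanSpace.proj b : E d →L[ℝ] ℝ) z :=
        (EuclideanSpace.proj b : E d →L[ℝ] ℝ).hasFDerivAt
      rw [pd_mul v ((PZA.smooth_z h y).differentiable (by simp) z) h1.differentiableAt]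
      have : pd v (fun z : E d => z b) z = v b := by
        unfold pd; rw [h1.fderiv]; rfl
      rw [this, mul_comm (B y z)]
    rw [e]
    exact PZ.add _ _ (PZ.mulz _ b ih) (pz_coef_mul h contDiff_const)
  | add B B' h h' ih ih' =>
    have e : (fun y (z : E d) => pd v (fun z => B y z + B' y z) z) =
        fun y z => pd v (B y) z + pd v (B' y) z := by
      funext y z
      exact pd_add v ((PZA.smooth_z h y).differentiable (by simp) z)
        ((PZA.smooth_z h' y).differentiable (by simp) z)
    rw [e]
    exact PZ.add _ _ ih ih'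

theorem pz_comp {P' : Type} [NormedAddCommGroup P'] [NormedSpace ℝ P'] (h : PZ B) {g : P' → P}
    (hg : ContDiff ℝ ∞ g) : PZ (fun y z => B (g y) z) := by
  induction h with
  | coef c hc => exact PZ.coef (fun y => c (g y)) (hc.comp hg)
  | mulz B b _ ih => exact PZ.mulz _ b ih
  | add B B' _ _ ih ih' => exact PZ.add _ _ ih ih'

theorem pz_smooth (h : PZ B) : ContDiff ℝ ∞ (fun q : P × E d => B q.1 q.2) :=
  PZA.smooth h

theorem pz_tg (h : PZ B) (y : P) : TG (B y) := by
  induction h with
  | coef c hc => exact Function.HasTemperateGrowth.const _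
  | mulz B b _ ih => exact ih.mul (EuclideanSpace.proj b : E d →L[ℝ] ℝ).hasTemperateGrowth
  | add B B' _ _ ih ih' => exact ih.add ih'

variable {W : E d → ℝ} {δ s : ℝ} {l : P → E d} {φ : E d → ℝ}

theorem iz_integrable (hW : Pot δ W) (hs : 0 < s) (hφ : Continuous φ) (hp : PolyG φ) (h : PZ B)
    (y : P) (x : E d) : Integrable (fun z => B y z * φ z * ker W (s, x) z) :=
  mom_integrable (φ := fun z => B y z * φ z) hW ((PZA.smooth_z h y).continuous.mul hφ)
    (polyG_mul (tg_polyG (pz_tg h y)) hp) hs

namespace PZA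

omit [NormedAddCommGroup P] [NormedSpace ℝ P] in
theorem iz_coef (c : P → ℝ) :
    IZ W s l φ (fun y _ => c y) = fun y => c y * Mom W φ (s, l y) := by
  funext y
  unfold IZ Mom
  rw [← integral_const_mul]
  simp only [mul_assoc]

omit [NormedAddCommGroup P] [NormedSpace ℝ P] in
theorem iz_mulz (B : P → E d → ℝ) (b : Fin d) :
    IZ W s l φ (fun y z => B y z * z b) = IZ W s l (fun z => φ z * z b) B := by
  funext y
  unfold IZ
  congr 1
  funext z
  ring

theorem iz_add (hW : Pot δ W) (hs : 0 < s) (hφ : Continuous φ) (hp : PolyG φ) (h : PZ B)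
    (h' : PZ B') :
    IZ W s l φ (fun y z => B y z + B' y z) = fun y => IZ W s l φ B y + IZ W s l φ B' y := by
  funext y
  unfold IZ
  rw [← integral_add (iz_integrable hW hs hφ hp h y _) (iz_integrable hW hs hφ hp h' y _)]
  simp only [add_mul]

theorem mom_comp_smooth (hW : Pot δ W) (hs : 0 < s) (hl : ContDiff ℝ ∞ l) (hφ : Continuous φ)
    (hp : PolyG φ) : ContDiff ℝ ∞ (fun y => Mom W φ (s, l y)) :=
  (mom_smooth hW hφ hp).comp_contDiff (f := fun y => ((s, l y) : ℝ × E d))
    (contDiff_const.prodMk hl) fun _ => hs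

theorem pz_inner (hl : ContDiff ℝ ∞ l) (v : P) (s : ℝ) :
    PZ (fun y (z : E d) => inner ℝ (z - l y) (fderiv ℝ l y v) / s) := by
  have hd : ContDiff ℝ ∞ (fun y => fderiv ℝ l y v) :=
    (hl.fderiv_right (m := ∞) (by simp)).clm_apply contDiff_const
  have e : (fun y (z : E d) => inner ℝ (z - l y) (fderiv ℝ l y v) / s) = fun y z =>
      ∑ c, ((fderiv ℝ l y v c / s) * z c + -(l y c * fderiv ℝ l y v c / s)) := by
    funext y z
    rw [MomAA.inner_eq_sum, Finset.sum_div]
    refine Finset.sum_congr rfl fun c _ => ?_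
    simp only [PiLp.sub_apply]
    ring
  rw [e]
  refine pz_sum _ fun c _ => ?_
  have h1 : ContDiff ℝ ∞ (fun y => fderiv ℝ l y v c) :=
    (EuclideanSpace.proj c : E d →L[ℝ] ℝ).contDiff.comp hd
  have h2 : ContDiff ℝ ∞ (fun y => l y c) := (EuclideanSpace.proj c : E d →L[ℝ] ℝ).contDiff.comp hl
  exact PZ.add _ _ (PZ.mulz _ c (PZ.coef _ (h1.div_const s)))
    (PZ.coef _ ((h2.mul h1).div_const s).neg)

end PZA

open PZA

theorem iz_smooth (hW : Pot δ W) (hs : 0 < s) (hl : ContDiff ℝ ∞ l) (hφ : Continuous φ)
    (hp : PolyG φ) (h : PZ B) : ContDiff ℝ ∞ (IZ W s l φ B) := by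
  induction h generalizing φ with
  | coef c hc =>
    rw [iz_coef]
    exact hc.mul (mom_comp_smooth hW hs hl hφ hp)
  | mulz B b _ ih =>
    rw [iz_mulz]
    exact ih (hφ.mul (MomAA.coord_cont b)) (polyG_mul hp (polyG_coord b))
  | add B B' h h' ih ih' =>
    rw [iz_add hW hs hφ hp h h']
    exact (ih hφ hp).add (ih' hφ hp)

theorem iz_pd (hW : Pot δ W) (hs : 0 < s) (hl : ContDiff ℝ ∞ l) (hφ : Continuous φ)
    (hp : PolyG φ) (h : PZ B) (v y : P) :
    pd v (IZ W s l φ B) y = IZ W s l φ (fun y z => pd v (fun y => B y z) y +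
      B y z * (inner ℝ (z - l y) (fderiv ℝ l y v) / s)) y := by
  induction h generalizing φ with
  | coef c hc =>
    have hpz := pz_inner hl v s
    rw [iz_coef, pd_mul v (hc.differentiable (by simp) y)
      ((mom_comp_smooth hW hs hl hφ hp).differentiable (by simp) y),
      iz_add hW hs hφ hp (PZ.coef _ (pd_smooth hc v)) (pz_coef_mul hpz hc), iz_coef]
    simp only
    congr 1
    have h1 : HasFDerivAt (fun y => ((s, l y) : ℝ × E d)) _ y :=
      (hasFDerivAt_const s y).prodMk (hl.differentiable (by simp) y).hasFDerivAt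
    have h2 := (MomBA.diffAt (isOpen_UU d) (mom_smooth hW hφ hp)
      (show ((s, l y) : ℝ × E d) ∈ UU d from hs)).hasFDerivAt.comp y h1
    have h3 : HasFDerivAt (fun y => Mom W φ (s, l y)) _ y := h2
    unfold pd
    rw [h3.fderiv, ContinuousLinearMap.comp_apply,
      mom_fderiv hW hφ hp (show ((s, l y) : ℝ × E d) ∈ UU d from hs)]
    unfold IZ Mom
    rw [← integral_const_mul]
    congr 1
    funext z
    simp
    ring
  | mulz B b h ih =>
    rw [iz_mulz, ih (φ := fun z => φ z * z b) (hφ.mul (MomAA.coord_cont b)) (polyG_mul hp (polyG_coord b)), ← iz_mulz]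
    unfold IZ
    congr 1
    funext z
    simp only [mul_comm _ (z b)]
    rw [pd_const_mul]
    ring
  | add B B' h h' ih ih' =>
    have hpz := pz_inner hl v s
    rw [iz_add hW hs hφ hp h h', pd_add v ((iz_smooth hW hs hl hφ hp h).differentiable (by simp) y)
      ((iz_smooth hW hs hl hφ hp h').differentiable (by simp) y), ih hφ hp, ih' hφ hp]
    have := congrFun (iz_add (l := l) hW hs hφ hp (PZ.add _ _ (pz_pd h v) (pz_mul h hpz))
      (PZ.add _ _ (pz_pd h' v) (pz_mul h' hpz))) y
    rw [← this]
    unfold IZ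
    congr 1
    funext z
    beta_reduce
    rw [pd_add v ((smooth_y h z).differentiable (by simp) y)
        ((smooth_y h' z).differentiable (by simp) y)]
    ring

end Crest.Agent.R285
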