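import Crest.Agent.R285.Gauss

/-!
# R285 Prog: calculus of query computations.

* `Cmp` lemmas: induction on the derivation (`gradient V` is measurable for every `V`:
  `measurable_fderiv`).  `cmp_comap` generalizes the new state space; `cmp_bind` uses `cmp_comap`,
  `cmp_mono`.  `cmp_alg`: prove by induction the existence of measurable `query`, `output` maps such that
  the transcript recursion (define it for plain functions) returns `F V s`; in the `query` case
  `query' 0 s _ = x s`, `query' (i+1) s a = query i (s, (a 0).2) (Fin.tail a)`,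
  `Fin.cons`/`Fin.snoc` commute (`Fin.cons_snoc_eq_snoc_cons`).
* `Sim` lemmas: product seed spaces, Fubini (`integral_prod`).  In `sim_bind` integrability of the
  output follows from `∫ ‖F₂ ((s,a), ·)‖ ≤ ∫ ‖·‖ d(T₂ (s,a)) + ψ a`, a Lipschitz function of `a`.
-/

set_option autoImplicit false
set_option linter.unusedSectionVars false

namespace Crest.Agent.R285

open MeasureTheory Set
open scoped ContDiff

variable {d : ℕ} {S α β : Type} [mS : MeasurableSpace S]

namespace ProgA

theorem measurable_gradient (V : E d → ℝ) : Measurable (gradient V) :=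
  (InnerProductSpace.toDual ℝ (E d)).symm.continuous.measurable.comp (measurable_fderiv ℝ V)

open Crest.OracleSampling (Answer oracle)

/-- the transcript recursion for plain functions -/
noncomputable def tr {S : Type} (q : (i : ℕ) → S → (Fin i → Answer d) → E d) (V : E d → ℝ) (s : S) :
    (i : ℕ) → (Fin i → Answer d)
  | 0 => Fin.elim0
  | i + 1 => Fin.snoc (tr q V s i) (oracle V (q i s (tr q V s i)))

/-- prepend a query -/
def pre {S : Type} (x : S → E d) (q : (i : ℕ) → S × E d → (Fin i → Answer d) → E d) :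
    (i : ℕ) → S → (Fin i → Answer d) → E d
  | 0 => fun s _ => x s
  | i + 1 => fun s a => q i (s, (a 0).2) (Fin.tail a)

theorem tr_pre {S : Type} (x : S → E d) (q : (i : ℕ) → S × E d → (Fin i → Answer d) → E d)
    (V : E d → ℝ) (s : S) (i : ℕ) :
    tr (pre x q) V s (i + 1) = Fin.cons (oracle V (x s)) (tr q V (s, gradient V (x s)) i) := by
  induction i with
  | zero =>
    funext j
    have : j = 0 := Subsingleton.elim (α := Fin 1) _ _
    subst this
    rfl
  | succ i ih =>
    rw [tr, ih, tr, Fin.cons_snoc_eq_snoc_cons]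
    rfl

theorem meas_shift {S γ : Type} [MeasurableSpace S] [MeasurableSpace γ] {i : ℕ}
    {o : S × E d → (Fin i → Answer d) → γ} (ho : Measurable (Function.uncurry o)) :
    Measurable (Function.uncurry fun (s : S) (a : Fin (i + 1) → Answer d) =>
      o (s, (a 0).2) (Fin.tail a)) := by
  have h1 : Measurable fun p : S × (Fin (i + 1) → Answer d) =>
      (((p.1, (p.2 0).2), Fin.tail p.2) : (S × E d) × (Fin i → Answer d)) := by
    refine Measurable.prodMk (measurable_fst.prodMk ?_) ?_
    · exact measurable_snd.comp ((measurable_pi_apply 0).comp measurable_snd)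
    · exact measurable_pi_lambda _ fun j => (measurable_pi_apply j.succ).comp measurable_snd
  exact ho.comp h1

theorem exists_tr {n : ℕ} {F : (E d → ℝ) → S → E d} (h : Cmp d (E d) S mS n F) :
    ∃ (q : (i : ℕ) → S → (Fin i → Answer d) → E d) (o : S → (Fin n → Answer d) → E d),
      (∀ i, Measurable (Function.uncurry (q i))) ∧ Measurable (Function.uncurry o) ∧
        ∀ V s, o s (tr q V s n) = F V s := by
  induction h with
  | pure S mS n φ hφ =>
    exact ⟨fun _ _ _ => 0, fun s _ => φ s, fun _ => measurable_const, hφ.comp measurable_fst,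
      fun _ _ => rfl⟩
  | query S mS n x hx F h ih =>
    obtain ⟨q, o, hq, ho, hF⟩ := ih
    refine ⟨pre x q, fun s a => o (s, (a 0).2) (Fin.tail a), ?_, meas_shift ho, fun V s => ?_⟩
    · rintro (_ | i)
      · exact hx.comp measurable_fst
      · exact meas_shift (hq i)
    · rw [tr_pre]
      exact hF V (s, gradient V (x s))

end ProgA

section Cmp

variable [MeasurableSpace α] [MeasurableSpace β] {n m : ℕ}

theorem cmp_measurable {F : (E d → ℝ) → S → α} (h : Cmp d α S mS n F) (V : E d → ℝ) :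
    Measurable (F V) := by
  induction h with
  | pure S mS n φ hφ => exact hφ
  | query S mS n x hx F h ih =>
    exact ih.comp (measurable_id.prodMk ((ProgA.measurable_gradient V).comp hx))

theorem cmp_mono {F : (E d → ℝ) → S → α} (h : Cmp d α S mS n F) (hn : n ≤ m) :
    Cmp d α S mS m F := by
  induction h generalizing m with
  | pure S mS n φ hφ => exact Cmp.pure S mS m φ hφ
  | query S mS n x hx F h ih =>
    obtain ⟨k, rfl⟩ : ∃ k, m = k + 1 := ⟨m - 1, by omega⟩
    exact Cmp.query S mS k x hx F (ih (by omega))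

theorem cmp_comap {S' : Type} [mS' : MeasurableSpace S'] {F : (E d → ℝ) → S → α}
    (h : Cmp d α S mS n F) {g : S' → S} (hg : Measurable g) :
    Cmp d α S' mS' n (fun V s => F V (g s)) := by
  induction h generalizing S' with
  | pure S mS n φ hφ => exact Cmp.pure S' mS' n (fun s => φ (g s)) (hφ.comp hg)
  | query S mS n x hx F h ih =>
    exact Cmp.query S' mS' n (fun s => x (g s)) (hx.comp hg) (fun V p => F V (g p.1, p.2))
      (ih (S' := S' × E d) (g := fun p => (g p.1, p.2))
        ((hg.comp measurable_fst).prodMk measurable_snd))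

theorem cmp_bind {F : (E d → ℝ) → S → α} {F' : (E d → ℝ) → S × α → β} (h : Cmp d α S mS n F)
    (h' : Cmp d β (S × α) inferInstance m F') :
    Cmp d β S mS (n + m) (fun V s => F' V (s, F V s)) := by
  induction h with
  | pure S mS n φ hφ =>
    exact cmp_mono (cmp_comap h' (g := fun s => (s, φ s)) (measurable_id.prodMk hφ)) (by omega)
  | query S mS n x hx F h ih =>
    have h1 := ih (F' := fun V p => F' V (p.1.1, p.2))
      (cmp_comap h' (g := fun p : (S × E d) × α => (p.1.1, p.2))
        ((measurable_fst.comp measurable_fst).prodMk measurable_snd))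
    have h2 := Cmp.query S mS (n + m) x hx _ h1
    exact cmp_mono h2 (by omega)

theorem cmp_alg {F : (E d → ℝ) → S → E d} (h : Cmp d (E d) S mS n F) (μ : Measure S)
    [IsProbabilityMeasure μ] : ∃ A : Crest.OracleSampling.QueryAlg d n,
      ∀ V, Crest.OracleSampling.outputLaw A V = μ.map (F V) := by
  obtain ⟨q, o, hq, ho, hF⟩ := ProgA.exists_tr h
  let A : Crest.OracleSampling.QueryAlg d n := ⟨S, mS, μ, inferInstance, q, o, hq, ho⟩
  refine ⟨A, fun V => ?_⟩
  have ht : ∀ (s : S) (i : ℕ), Crest.OracleSampling.transcript A V s i = ProgA.tr q V s i := by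
    intro s i
    induction i with
    | zero => rfl
    | succ i ih =>
      rw [Crest.OracleSampling.transcript, ProgA.tr, ih]
  have hr : Crest.OracleSampling.run A V = F V := by
    funext s
    rw [Crest.OracleSampling.run, ht, ← hF]
  rw [Crest.OracleSampling.outputLaw, hr]

end Cmp

variable [MeasurableSpace α] [NormedAddCommGroup α] [BorelSpace α] [SecondCountableTopology α]
  [MeasurableSpace β] [NormedAddCommGroup β] [BorelSpace β] [SecondCountableTopology β]
  {Env : (E d → ℝ) → S → Prop} {q q' : ℝ} {T : (E d → ℝ) → S → Measure α}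
  {err err' : (E d → ℝ) → S → ℝ}

omit [BorelSpace α] [SecondCountableTopology α] in
theorem w1_refl (μ : Measure α) : W1le μ μ 0 := fun f _ => by simp

omit [BorelSpace α] [SecondCountableTopology α] in
theorem w1_symm {μ ν : Measure α} {e : ℝ} (h : W1le μ ν e) : W1le ν μ e :=
  fun f hf => by rw [abs_sub_comm]; exact h f hf

omit [BorelSpace α] [SecondCountableTopology α] in
theorem w1_trans {μ ν ρ : Measure α} {e e' : ℝ} (h : W1le μ ν e) (h' : W1le ν ρ e') :
    W1le μ ρ (e + e') := fun f hf =>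
  (abs_sub_le _ _ _).trans (add_le_add (h f hf) (h' f hf))

omit [BorelSpace α] [SecondCountableTopology α] in
theorem w1_lip {μ ν : Measure α} {e : ℝ} (h : W1le μ ν e) {f : α → ℝ} {L : ℝ} (hL : 0 ≤ L)
    (hf : ∀ x y, |f x - f y| ≤ L * ‖x - y‖) : |∫ x, f x ∂μ - ∫ x, f x ∂ν| ≤ L * e := by
  have he : 0 ≤ e := (abs_nonneg _).trans (h (fun _ => 0) (LipschitzWith.const' 0))
  have key : ∀ M : ℝ, 0 < M → L ≤ M → |∫ x, f x ∂μ - ∫ x, f x ∂ν| ≤ M * e := by
    intro M hM hLM
    have h1 : LipschitzWith 1 (fun x => M⁻¹ * f x) := by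
      refine LipschitzWith.of_dist_le_mul fun x y => ?_
      rw [Real.dist_eq, ← mul_sub, abs_mul, abs_of_pos (inv_pos.2 hM), NNReal.coe_one, one_mul,
        dist_eq_norm, inv_mul_le_iff₀ hM]
      exact (hf x y).trans (mul_le_mul_of_nonneg_right hLM (norm_nonneg _))
    have h2 := h _ h1
    rwa [integral_const_mul, integral_const_mul, ← mul_sub, abs_mul, abs_of_pos (inv_pos.2 hM),
      inv_mul_le_iff₀ hM] at h2
  refine le_of_forall_pos_le_add fun ε hε => ?_
  have hη : 0 < ε / (e + 1) := by positivity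
  refine (key (L + ε / (e + 1)) (by positivity) (by linarith)).trans ?_
  have : ε / (e + 1) * e ≤ ε := by
    rw [div_mul_eq_mul_div, div_le_iff₀ (by positivity)]
    nlinarith
  nlinarith

/-- two maps that are close in `L¹` have close laws -/
theorem w1_of_l1 {Ω : Type} [MeasurableSpace Ω] {μ : Measure Ω} [IsProbabilityMeasure μ]
    {F G : Ω → α} (hF : Integrable F μ) (hG : Integrable G μ) {e : ℝ}
    (h : ∫ o, ‖F o - G o‖ ∂μ ≤ e) : W1le (μ.map F) (μ.map G) e := by
  intro f hf
  have hi : ∀ {F : Ω → α}, Integrable F μ → Integrable (fun o => f (F o)) μ := by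
    intro F hF
    have : IsProbabilityMeasure (μ.map F) := Measure.isProbabilityMeasure_map hF.aemeasurable
    have h1 : P1 (μ.map F) :=
      ⟨this, (integrable_map_measure (by fun_prop) hF.aemeasurable).2 hF.norm⟩
    exact (integrable_map_measure hf.continuous.aestronglyMeasurable hF.aemeasurable).1
      (lip_integrable h1 hf)
  rw [integral_map hF.aemeasurable hf.continuous.aestronglyMeasurable,
    integral_map hG.aemeasurable hf.continuous.aestronglyMeasurable,
    ← integral_sub (hi hF) (hi hG)]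
  refine le_trans ?_ h
  rw [← Real.norm_eq_abs]
  refine norm_integral_le_of_norm_le (hF.sub hG).norm (ae_of_all _ fun o => ?_)
  simpa [dist_eq_norm] using hf.dist_le_mul (F o) (G o)

namespace ProgA

omit [BorelSpace α] [SecondCountableTopology α] in
theorem w1_mono {μ ν : Measure α} {e e' : ℝ} (h : W1le μ ν e) (he : e ≤ e') : W1le μ ν e' :=
  fun f hf => (h f hf).trans he

omit [SecondCountableTopology α] in
theorem p1_dirac (a : α) : P1 (Measure.dirac a) :=
  ⟨inferInstance, integrable_dirac (by simp)⟩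

omit [MeasurableSpace α] [BorelSpace α] [SecondCountableTopology α] in
theorem lip_of {f : α → ℝ} {L : ℝ} (hL : 0 ≤ L) (hf : ∀ x y, |f x - f y| ≤ L * ‖x - y‖) :
    LipschitzWith ⟨L, hL⟩ f :=
  LipschitzWith.of_dist_le_mul fun x y => by rw [dist_eq_norm x y]; exact hf x y

omit [SecondCountableTopology β] in
theorem p1_map {μ : Measure α} (h : P1 μ) {g : α → β} (hg : Measurable g) {L : ℝ} (hL : 0 ≤ L)
    (hl : ∀ x y, ‖g x - g y‖ ≤ L * ‖x - y‖) : P1 (μ.map g) := by
  have := h.1
  refine ⟨Measure.isProbabilityMeasure_map hg.aemeasurable, ?_⟩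
  rw [integrable_map_measure (by fun_prop) hg.aemeasurable]
  exact lip_integrable h (lip_of (f := fun x => ‖g x‖) hL fun x y =>
    (abs_norm_sub_norm_le _ _).trans (hl x y))

omit [BorelSpace α] [SecondCountableTopology α] [SecondCountableTopology β] in
theorem w1_map {μ ν : Measure α} {e : ℝ} (h : W1le μ ν e) {g : α → β} (hg : Measurable g) {L : ℝ}
    (hL : 0 ≤ L) (hl : ∀ x y, ‖g x - g y‖ ≤ L * ‖x - y‖) : W1le (μ.map g) (ν.map g) (L * e) := by
  intro f hf
  rw [integral_map hg.aemeasurable hf.continuous.aestronglyMeasurable,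
    integral_map hg.aemeasurable hf.continuous.aestronglyMeasurable]
  refine w1_lip h hL fun x y => le_trans ?_ (hl x y)
  simpa [dist_eq_norm] using hf.dist_le_mul (g x) (g y)

theorem p1_prod {μ : Measure α} {ν : Measure β} (h : P1 μ) (h' : P1 ν) : P1 (μ.prod ν) := by
  have := h.1
  have := h'.1
  refine ⟨inferInstance, ?_⟩
  refine ((h.2.comp_fst ν).add (h'.2.comp_snd μ)).mono' (by fun_prop) (ae_of_all _ fun p => ?_)
  rw [norm_norm, Prod.norm_def]
  exact max_le (le_add_of_nonneg_right (norm_nonneg _)) (le_add_of_nonneg_left (norm_nonneg _))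

omit [MeasurableSpace α] [BorelSpace α] [SecondCountableTopology α] [MeasurableSpace β]
  [BorelSpace β] [SecondCountableTopology β] in
theorem sep_lip {γ : Type} [NormedAddCommGroup γ] {g : α × β → γ}
    (h1 : ∀ x x' y, ‖g (x, y) - g (x', y)‖ ≤ ‖x - x'‖)
    (h2 : ∀ x y y', ‖g (x, y) - g (x, y')‖ ≤ ‖y - y'‖) (p p' : α × β) :
    ‖g p - g p'‖ ≤ 2 * ‖p - p'‖ := by
  have a1 := h1 p.1 p'.1 p.2
  have a2 := h2 p'.1 p.2 p'.2
  have a3 := norm_sub_le_norm_sub_add_norm_sub (g p) (g (p'.1, p.2)) (g p')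
  have a4 : ‖p.1 - p'.1‖ ≤ ‖p - p'‖ := norm_fst_le (p - p')
  have a5 : ‖p.2 - p'.2‖ ≤ ‖p - p'‖ := norm_snd_le (p - p')
  linarith

theorem w1_sep {μ ν : Measure α} {μ' ν' : Measure β} (hμ : P1 μ) (hν : P1 ν) (hμ' : P1 μ')
    (hν' : P1 ν') {e e' : ℝ} (h : W1le μ ν e) (h' : W1le μ' ν' e') {f : α × β → ℝ}
    (h1 : ∀ x x' y, ‖f (x, y) - f (x', y)‖ ≤ ‖x - x'‖)
    (h2 : ∀ x y y', ‖f (x, y) - f (x, y')‖ ≤ ‖y - y'‖) :
    |∫ p, f p ∂(μ.prod μ') - ∫ p, f p ∂(ν.prod ν')| ≤ e + e' := by
  have := hμ.1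
  have := hν.1
  have := hμ'.1
  have := hν'.1
  have hf : LipschitzWith ⟨2, zero_le_two⟩ f := lip_of zero_le_two (sep_lip h1 h2)
  have i1 : ∀ x, Integrable (fun y => f (x, y)) μ' := fun x =>
    lip_integrable hμ' (lip_of (f := fun y => f (x, y)) zero_le_one fun y y' => by
      rw [one_mul]; exact h2 x y y')
  have i2 : ∀ y, Integrable (fun x => f (x, y)) ν := fun y =>
    lip_integrable hν (lip_of (f := fun x => f (x, y)) zero_le_one fun x x' => by
      rw [one_mul]; exact h1 x x' y)
  have s1 : |∫ p, f p ∂(μ.prod μ') - ∫ p, f p ∂(ν.prod μ')| ≤ 1 * e := by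
    rw [integral_prod _ (lip_integrable (p1_prod hμ hμ') hf),
      integral_prod _ (lip_integrable (p1_prod hν hμ') hf)]
    refine w1_lip h zero_le_one fun x x' => ?_
    rw [← integral_sub (i1 x) (i1 x'), ← Real.norm_eq_abs, one_mul]
    simpa using norm_integral_le_of_norm_le_const (μ := μ') (ae_of_all _ fun y => h1 x x' y)
  have s2 : |∫ p, f p ∂(ν.prod μ') - ∫ p, f p ∂(ν.prod ν')| ≤ 1 * e' := by
    rw [integral_prod_symm _ (lip_integrable (p1_prod hν hμ') hf),
      integral_prod_symm _ (lip_integrable (p1_prod hν hν') hf)]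
    refine w1_lip h' zero_le_one fun y y' => ?_
    rw [← integral_sub (i2 y) (i2 y'), ← Real.norm_eq_abs, one_mul]
    simpa using norm_integral_le_of_norm_le_const (μ := ν) (ae_of_all _ fun x => h2 x y y')
  exact (abs_sub_le _ _ _).trans (by linarith)

/-- run two procedures independently and combine the outputs by a separately `1`-Lipschitz map -/
theorem sim_sep {γ : Type} [MeasurableSpace γ] [NormedAddCommGroup γ] [BorelSpace γ]
    {T' : (E d → ℝ) → S → Measure β} (h : Sim Env q T err) (h' : Sim Env q' T' err')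
    {g : α × β → γ} (hg : Measurable g)
    (h1 : ∀ x x' y, ‖g (x, y) - g (x', y)‖ ≤ ‖x - x'‖)
    (h2 : ∀ x y y', ‖g (x, y) - g (x, y')‖ ≤ ‖y - y'‖) :
    Sim Env (q + q') (fun V s => ((T V s).prod (T' V s)).map g)
      (fun V s => err V s + err' V s) := by
  obtain ⟨Ω, _, μ, _, n, F, hn, hF, hs⟩ := h
  obtain ⟨Ω', _, μ', _, n', F', hn', hF', hs'⟩ := h'
  refine ⟨Ω × Ω', inferInstance, μ.prod μ', inferInstance, n + (n' + 0),
    fun V p => g (F V (p.1, p.2.1), F' V (p.1, p.2.2)), by push_cast; linarith, ?_, ?_⟩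
  · have c1 := cmp_comap hF (g := fun p : S × Ω × Ω' => (p.1, p.2.1)) (by fun_prop)
    have c2 := cmp_comap hF' (g := fun p : (S × Ω × Ω') × α => (p.1.1, p.1.2.2)) (by fun_prop)
    have c3 := Cmp.pure (d := d) (((S × Ω × Ω') × α) × β) inferInstance 0
      (fun p => g (p.1.2, p.2)) (hg.comp (by fun_prop))
    exact cmp_bind c1 (cmp_bind c2 c3)
  · intro V s hE
    obtain ⟨a1, a2, a3⟩ := hs V s hE
    obtain ⟨b1, b2, b3⟩ := hs' V s hE
    have m1 : Measurable fun o => F V (s, o) := (cmp_measurable hF V).comp measurable_prodMk_left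
    have m2 : Measurable fun o => F' V (s, o) := (cmp_measurable hF' V).comp measurable_prodMk_left
    have e : ((μ.prod μ').map fun o : Ω × Ω' => g (F V (s, o.1), F' V (s, o.2))) =
        ((μ.map fun o => F V (s, o)).prod (μ'.map fun o => F' V (s, o))).map g := by
      rw [Measure.map_prod_map _ _ m1 m2, Measure.map_map hg (m1.prodMap m2)]
      rfl
    simp only
    rw [e]
    refine ⟨p1_map (p1_prod a1 b1) hg zero_le_two (sep_lip h1 h2),
      p1_map (p1_prod a2 b2) hg zero_le_two (sep_lip h1 h2), fun f hf => ?_⟩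
    rw [integral_map hg.aemeasurable hf.continuous.aestronglyMeasurable,
      integral_map hg.aemeasurable hf.continuous.aestronglyMeasurable]
    have hf' : ∀ a b, ‖f a - f b‖ ≤ ‖a - b‖ := fun a b => by
      simpa [dist_eq_norm] using hf.dist_le_mul a b
    exact w1_sep a1 a2 b1 b2 a3 b3 (f := fun p => f (g p))
      (fun x x' y => (hf' _ _).trans (h1 x x' y)) (fun x y y' => (hf' _ _).trans (h2 x y y'))

end ProgA

open ProgA

theorem sim_pure {φ : S → α} (hφ : Measurable φ) :
    Sim Env 0 (fun _ s => Measure.dirac (φ s)) (fun _ _ => 0) := by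
  refine ⟨Unit, inferInstance, Measure.dirac (), inferInstance, 0, fun _ p => φ p.1, by simp,
    Cmp.pure _ _ _ _ (hφ.comp measurable_fst), fun V s _ => ?_⟩
  simp only [Measure.map_const, measure_univ, one_smul]
  exact ⟨p1_dirac _, p1_dirac _, w1_refl _⟩

omit [BorelSpace α] [SecondCountableTopology α] in
theorem sim_seed {μ : Measure α} (h : P1 μ) : Sim Env 0 (fun _ _ => μ) (fun _ _ => 0) := by
  refine ⟨α, inferInstance, μ, h.1, 0, fun _ p => p.2, by simp,
    Cmp.pure _ _ _ _ measurable_snd, fun V s _ => ?_⟩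
  simp only [Measure.map_id']
  exact ⟨h, h, w1_refl _⟩

theorem sim_query {x : S → E d} (hx : Measurable x) :
    Sim Env 1 (fun V s => Measure.dirac (gradient V (x s))) (fun _ _ => 0) := by
  refine ⟨Unit, inferInstance, Measure.dirac (), inferInstance, 0 + 1,
    fun V p => gradient V (x p.1), by simp,
    Cmp.query (S × Unit) _ 0 (fun p => x p.1) (hx.comp measurable_fst) (fun _ p => p.2)
      (Cmp.pure _ _ _ _ measurable_snd), fun V s _ => ?_⟩
  simp only [Measure.map_const, measure_univ, one_smul]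
  exact ⟨p1_dirac _, p1_dirac _, w1_refl _⟩

omit [BorelSpace α] [SecondCountableTopology α] in
theorem sim_mono {Env' : (E d → ℝ) → S → Prop} (h : Sim Env q T err)
    (hE : ∀ V s, Env' V s → Env V s) (hq : q ≤ q') (he : ∀ V s, Env' V s → err V s ≤ err' V s) :
    Sim Env' q' T err' := by
  obtain ⟨Ω, _, μ, _, n, F, hn, hF, hs⟩ := h
  refine ⟨Ω, inferInstance, μ, inferInstance, n, F, hn.trans hq, hF, fun V s hV => ?_⟩
  obtain ⟨a1, a2, a3⟩ := hs V s (hE V s hV)
  exact ⟨a1, a2, w1_mono a3 (he V s hV)⟩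

omit [BorelSpace α] [SecondCountableTopology α] in
theorem sim_retarget {T' : (E d → ℝ) → S → Measure α} (h : Sim Env q T err)
    (hT : ∀ V s, Env V s → P1 (T' V s) ∧ W1le (T V s) (T' V s) (err' V s)) :
    Sim Env q T' (fun V s => err V s + err' V s) := by
  obtain ⟨Ω, _, μ, _, n, F, hn, hF, hs⟩ := h
  refine ⟨Ω, inferInstance, μ, inferInstance, n, F, hn, hF, fun V s hV => ?_⟩
  obtain ⟨a1, _, a3⟩ := hs V s hV
  exact ⟨a1, (hT V s hV).1, w1_trans a3 (hT V s hV).2⟩

omit [BorelSpace α] [SecondCountableTopology α] in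
theorem sim_comap {S' : Type} [MeasurableSpace S'] (h : Sim Env q T err) {g : S' → S}
    (hg : Measurable g) :
    Sim (fun V s => Env V (g s)) q (fun V s => T V (g s)) (fun V s => err V (g s)) := by
  obtain ⟨Ω, _, μ, _, n, F, hn, hF, hs⟩ := h
  exact ⟨Ω, inferInstance, μ, inferInstance, n, fun V p => F V (g p.1, p.2), hn,
    cmp_comap hF (g := fun p : S' × Ω => (g p.1, p.2))
      ((hg.comp measurable_fst).prodMk measurable_snd), fun V s hV => hs V (g s) hV⟩

theorem sim_map (h : Sim Env q T err) {g : S → α → β} (hg : Measurable (Function.uncurry g))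
    {L : ℝ} (hL : 0 ≤ L) (hl : ∀ s x y, ‖g s x - g s y‖ ≤ L * ‖x - y‖) :
    Sim Env q (fun V s => (T V s).map (g s)) (fun V s => L * err V s) := by
  obtain ⟨Ω, _, μ, _, n, F, hn, hF, hs⟩ := h
  refine ⟨Ω, inferInstance, μ, inferInstance, n + 0, fun V p => g p.1 (F V p), by simpa using hn,
    cmp_bind hF (Cmp.pure ((S × Ω) × α) inferInstance 0 (fun p => g p.1.1 p.2)
      (hg.comp (g := Function.uncurry g) (f := fun p : (S × Ω) × α => (p.1.1, p.2))
        (by fun_prop))), fun V s hV => ?_⟩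
  obtain ⟨a1, a2, a3⟩ := hs V s hV
  have m1 : Measurable fun o => F V (s, o) := (cmp_measurable hF V).comp measurable_prodMk_left
  have m2 : Measurable (g s) := hg.comp measurable_prodMk_left
  have e : (μ.map fun o => g s (F V (s, o))) = (μ.map fun o => F V (s, o)).map (g s) := by
    rw [Measure.map_map m2 m1]
    rfl
  simp only
  rw [e]
  exact ⟨p1_map a1 m2 hL (hl s), p1_map a2 m2 hL (hl s), w1_map a3 m2 hL (hl s)⟩

theorem sim_pair {T' : (E d → ℝ) → S → Measure β} (h : Sim Env q T err) (h' : Sim Env q' T' err') :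
    Sim Env (q + q') (fun V s => (T V s).prod (T' V s)) (fun V s => err V s + err' V s) := by
  have := sim_sep h h' (g := id) measurable_id (fun x x' y => by simp [Prod.norm_def])
    (fun x y y' => by simp [Prod.norm_def])
  simpa only [Measure.map_id] using this

theorem sim_bind {Env2 : (E d → ℝ) → S × α → Prop} {T2 : (E d → ℝ) → S × α → Measure β}
    {err2 : (E d → ℝ) → S × α → ℝ} {T3 : (E d → ℝ) → S → Measure β}
    {L L' err3 : (E d → ℝ) → S → ℝ} {ψ : (E d → ℝ) → S → α → ℝ}
    (h1 : Sim Env q T err) (h2 : Sim Env2 q' T2 err2)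
    (hE : ∀ V s a, Env V s → Env2 V (s, a))
    (hL : ∀ V s, Env V s → 0 ≤ L V s ∧ ∀ f : β → ℝ, LipschitzWith 1 f → ∀ a a',
      |∫ y, f y ∂(T2 V (s, a)) - ∫ y, f y ∂(T2 V (s, a'))| ≤ L V s * ‖a - a'‖)
    (hψ : ∀ V s, Env V s → 0 ≤ L' V s ∧ (∀ a, err2 V (s, a) ≤ ψ V s a) ∧
      ∀ a a', |ψ V s a - ψ V s a'| ≤ L' V s * ‖a - a'‖)
    (h3 : ∀ V s, Env V s → P1 (T3 V s) ∧ ∀ f : β → ℝ, LipschitzWith 1 f →
      |∫ a, ∫ y, f y ∂(T2 V (s, a)) ∂(T V s) - ∫ y, f y ∂(T3 V s)| ≤ err3 V s) :
    Sim Env (q + q') T3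
      (fun V s => (L V s + L' V s) * err V s + ∫ a, ψ V s a ∂(T V s) + err3 V s) := by
  obtain ⟨Ω, _, μ, _, n, F, hn, hF, hs⟩ := h1
  obtain ⟨Ω', _, μ', _, n', F', hn', hF', hs'⟩ := h2
  refine ⟨Ω × Ω', inferInstance, μ.prod μ', inferInstance, n + n',
    fun V p => F' V ((p.1, F V (p.1, p.2.1)), p.2.2), by push_cast; linarith, ?_, ?_⟩
  · have c1 := cmp_comap hF (g := fun p : S × Ω × Ω' => (p.1, p.2.1)) (by fun_prop)
    have c2 := cmp_comap hF' (g := fun p : (S × Ω × Ω') × α => ((p.1.1, p.2), p.1.2.2))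
      (by fun_prop)
    exact cmp_bind c1 c2
  intro V s hV
  obtain ⟨a1, a2, a3⟩ := hs V s hV
  obtain ⟨hL0, hLl⟩ := hL V s hV
  obtain ⟨hL0', hψe, hψl⟩ := hψ V s hV
  obtain ⟨c1, c2⟩ := h3 V s hV
  have m1 : Measurable fun o => F V (s, o) := (cmp_measurable hF V).comp measurable_prodMk_left
  have m2 : ∀ a, Measurable fun o => F' V ((s, a), o) := fun a =>
    (cmp_measurable hF' V).comp measurable_prodMk_left
  have m3 : Measurable fun o : Ω × Ω' => F' V ((s, F V (s, o.1)), o.2) :=
    (cmp_measurable hF' V).comp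
      ((measurable_const.prodMk (m1.comp measurable_fst)).prodMk measurable_snd)
  -- one inner step
  have inner : ∀ f : β → ℝ, LipschitzWith 1 f → ∀ a,
      Integrable (fun o => f (F' V ((s, a), o))) μ' ∧
        |∫ o, f (F' V ((s, a), o)) ∂μ' - ∫ y, f y ∂(T2 V (s, a))| ≤ ψ V s a := by
    intro f hf a
    obtain ⟨b1, _, b3⟩ := hs' V (s, a) (hE V s a hV)
    refine ⟨(integrable_map_measure hf.continuous.aestronglyMeasurable (m2 a).aemeasurable).1
      (lip_integrable b1 hf), ?_⟩
    have := b3 f hf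
    rw [integral_map (m2 a).aemeasurable hf.continuous.aestronglyMeasurable] at this
    exact this.trans (hψe a)
  -- Lipschitz functions of the first output
  have outer : ∀ {h : α → ℝ} {M : ℝ}, 0 ≤ M → (∀ a a', |h a - h a'| ≤ M * ‖a - a'‖) →
      Integrable (fun o => h (F V (s, o))) μ ∧
        |∫ o, h (F V (s, o)) ∂μ - ∫ a, h a ∂(T V s)| ≤ M * err V s := by
    intro h M hM hh
    have hc := (lip_of hM hh).continuous
    refine ⟨(integrable_map_measure hc.aestronglyMeasurable m1.aemeasurable).1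
      (lip_integrable a1 (lip_of hM hh)), ?_⟩
    have := w1_lip a3 hM hh
    rwa [integral_map m1.aemeasurable hc.aestronglyMeasurable] at this
  obtain ⟨iψ, eψ⟩ := outer hL0' hψl
  have hP : P1 ((μ.prod μ').map fun o : Ω × Ω' => F' V ((s, F V (s, o.1)), o.2)) := by
    refine ⟨Measure.isProbabilityMeasure_map m3.aemeasurable, ?_⟩
    rw [integrable_map_measure (by fun_prop) m3.aemeasurable]
    have hm : AEStronglyMeasurable
        ((fun x : β => ‖x‖) ∘ fun o : Ω × Ω' => F' V ((s, F V (s, o.1)), o.2)) (μ.prod μ') :=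
      m3.norm.aestronglyMeasurable
    rw [integrable_prod_iff hm]
    refine ⟨ae_of_all _ fun o => (inner _ lipschitzWith_one_norm (F V (s, o))).1, ?_⟩
    refine ((outer hL0 (hLl _ lipschitzWith_one_norm)).1.add iψ).mono'
      hm.norm.integral_prod_right' (ae_of_all _ fun o => ?_)
    have := (abs_le.1 (inner _ lipschitzWith_one_norm (F V (s, o))).2).2
    rw [Real.norm_of_nonneg (integral_nonneg fun _ => norm_nonneg _)]
    simp only [Function.comp, norm_norm, Pi.add_apply]
    linarith
  refine ⟨hP, c1, fun f hf => ?_⟩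
  have hi := (integrable_map_measure hf.continuous.aestronglyMeasurable m3.aemeasurable).1
    (lip_integrable hP hf)
  obtain ⟨ih, eh⟩ := outer hL0 (hLl f hf)
  simp only
  rw [integral_map m3.aemeasurable hf.continuous.aestronglyMeasurable]
  have e1 : ∫ o : Ω × Ω', f (F' V ((s, F V (s, o.1)), o.2)) ∂(μ.prod μ') =
      ∫ o, ∫ o', f (F' V ((s, F V (s, o)), o')) ∂μ' ∂μ := integral_prod _ hi
  have e2 : |∫ o, ∫ o', f (F' V ((s, F V (s, o)), o')) ∂μ' ∂μ -
      ∫ o, ∫ y, f y ∂(T2 V (s, F V (s, o))) ∂μ| ≤ ∫ o, ψ V s (F V (s, o)) ∂μ := by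
    have hi' : Integrable (fun o => ∫ o', f (F' V ((s, F V (s, o)), o')) ∂μ') μ :=
      hi.integral_prod_left
    rw [← integral_sub hi' ih, ← Real.norm_eq_abs]
    exact norm_integral_le_of_norm_le iψ (ae_of_all _ fun o => (inner f hf _).2)
  have e3 := c2 f hf
  rw [e1]
  rw [abs_le] at e2 e3 eh eψ ⊢
  constructor <;> linarith [e2.1, e2.2, e3.1, e3.2, eh.1, eh.2, eψ.1, eψ.2]

variable {x y : (E d → ℝ) → S → E d} {σ σ' : ℝ}

theorem samp_pure {x : S → E d} (hx : Measurable x) (σ : ℝ) :
    Samp Env 0 (fun _ s => x s) σ (fun _ _ => 0) :=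
  ⟨E d, inferInstance, gam d, inferInstance, 0, fun _ p => x p.1 + σ • p.2, by simp,
    Cmp.pure _ _ _ _ ((hx.comp measurable_fst).add (measurable_snd.const_smul σ)),
    fun _ s _ => ⟨gT_p1 (x s) σ, gT_p1 (x s) σ, w1_refl _⟩⟩

theorem samp_affine (h : Samp Env q x σ err) (hσ : 0 ≤ σ) (c : ℝ) {k : S → E d}
    (hk : Measurable k) :
    Samp Env q (fun V s => c • x V s + k s) (|c| * σ) (fun V s => |c| * err V s) := by
  have := sim_map h (g := fun s y => c • y + k s)
    ((measurable_snd.const_smul c).add (hk.comp measurable_fst)) (abs_nonneg c)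
    (fun s x y => by rw [add_sub_add_right_eq_sub, ← smul_sub, norm_smul, Real.norm_eq_abs])
  simp only [gT_affine _ _ _ _ hσ] at this
  exact this

theorem samp_add (h : Samp Env q x σ err) (h' : Samp Env q' y σ' err') :
    Samp Env (q + q') (fun V s => x V s + y V s) √(σ ^ 2 + σ' ^ 2)
      (fun V s => err V s + err' V s) := by
  have := sim_sep h h' (g := fun p => p.1 + p.2) (by fun_prop) (fun x x' y => by simp)
    (fun x y y' => by simp)
  simp only [gT_add] at this
  exact this

theorem samp_pad (h : Samp Env q x σ err) (h0 : 0 ≤ σ) (h1 : σ ≤ σ') : Samp Env q x σ' err := by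
  have := samp_add h (samp_pure (x := fun _ => (0 : E d)) measurable_const √(σ' ^ 2 - σ ^ 2))
  have e : √(σ ^ 2 + √(σ' ^ 2 - σ ^ 2) ^ 2) = σ' := by
    rw [Real.sq_sqrt (by nlinarith), add_sub_cancel, Real.sqrt_sq (h0.trans h1)]
  simpa only [add_zero, e] using this

theorem samp_shift (h : Samp Env q x σ err)
    (hxy : ∀ V s, Env V s → ‖x V s - y V s‖ ≤ err' V s) :
    Samp Env q y σ (fun V s => err V s + err' V s) :=
  sim_retarget h fun V s hV => ⟨gT_p1 _ _, w1_mono (gT_shift _ _ _) (hxy V s hV)⟩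

/-- final conversion: add a little Gaussian noise, get total variation bounds -/
theorem sim_final {Env : (E d → ℝ) → Unit → Prop} {T : (E d → ℝ) → Unit → Measure (E d)}
    {err : (E d → ℝ) → Unit → ℝ} (h : Sim Env q T err) (hσ : 0 < σ) :
    ∃ (n : ℕ) (A : Crest.OracleSampling.QueryAlg d n), (n : ℝ) ≤ q ∧ ∀ V, Env V () →
      ∀ B : Set (E d), MeasurableSet B →
        |(Crest.OracleSampling.outputLaw A V).real B - (noisy (T V ()) σ).real B| ≤
          √(d : ℝ) / σ * err V () := by
  obtain ⟨Ω, _, μ, _, n, F, hn, hF, hs⟩ := h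
  have c1 := cmp_comap hF (g := fun p : Ω × E d => ((), p.1)) (by fun_prop)
  have c2 := Cmp.pure (d := d) ((Ω × E d) × E d) inferInstance 0 (fun p => p.2 + σ • p.1.2)
    (by fun_prop)
  obtain ⟨A, hA⟩ := cmp_alg (cmp_bind c1 c2) (μ.prod (gam d))
  refine ⟨n + 0, A, by simpa using hn, fun V hV B hB => ?_⟩
  obtain ⟨a1, a2, a3⟩ := hs V () hV
  have m1 : Measurable fun o => F V ((), o) := (cmp_measurable hF V).comp measurable_prodMk_left
  have e : Crest.OracleSampling.outputLaw A V = noisy (μ.map fun o => F V ((), o)) σ := by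
    rw [hA, noisy]
    conv_rhs => rw [← Measure.map_id (μ := gam d)]
    rw [Measure.map_prod_map _ _ m1 measurable_id,
      Measure.map_map (by fun_prop) (m1.prodMap measurable_id)]
    rfl
  have := a1.1
  have := a2.1
  rw [e, noisy_real hB, noisy_real hB]
  exact w1_lip a3 (by positivity) (gT_real_lip hB hσ)

end Crest.Agent.R285
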