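import Crest.Agent.R285.Calc

/-!
# R285 TG: polynomial and temperate growth.

`TG = Function.HasTemperateGrowth` (Mathlib has `.add .sub .neg .mul .smul .sum .comp .const`,
`ContinuousLinearMap.hasTemperateGrowth`, `bilinear_hasTemperateGrowth`, `.of_fderiv`).
* `tg_fderiv`: `iteratedFDeriv_succ_eq_comp_right` / `norm_iteratedFDeriv_fderiv`.
* `tg_of_pd`: `fderiv f y = ∑ c, pd (bv c) f y • EuclideanSpace.proj c`, then `.of_fderiv`.
* `tg_of_mo`: prove by induction on `n`, for all index types and all `A` satisfying the hypotheses,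
  that `iteratedFDeriv n (A j i)` is bounded (same decomposition of `fderiv`, `opLe_entry`).
-/

set_option autoImplicit false

namespace Crest.Agent.R285

open MeasureTheory Set
open scoped ContDiff

variable {P : Type} [NormedAddCommGroup P] [NormedSpace ℝ P]
  {F : Type} [NormedAddCommGroup F] {Q : Type} [NormedAddCommGroup Q] [NormedSpace ℝ Q]

namespace TGA

omit [NormedSpace ℝ P] in
theorem nn {f : P → F} (h : PolyG f) :
    ∃ (k : ℕ) (C : ℝ), 0 ≤ C ∧ ∀ y, ‖f y‖ ≤ C * (1 + ‖y‖) ^ k := by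
  obtain ⟨k, C, h⟩ := h
  refine ⟨k, C, ?_, h⟩
  have := h 0
  simp only [norm_zero, add_zero, one_pow, mul_one] at this
  exact (norm_nonneg _).trans this

omit [NormedSpace ℝ P] in
theorem pw_le (y : P) {k l : ℕ} (h : k ≤ l) : (1 + ‖y‖) ^ k ≤ (1 + ‖y‖) ^ l :=
  pow_le_pow_right₀ (le_add_of_nonneg_right (norm_nonneg y)) h

omit [NormedSpace ℝ P] in
theorem of_le_add {G H : Type} [NormedAddCommGroup G] [NormedAddCommGroup H] {f : P → F}
    {g : P → G} {h : P → H} (hg : PolyG g) (hh : PolyG h) (hle : ∀ y, ‖f y‖ ≤ ‖g y‖ + ‖h y‖) :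
    PolyG f := by
  obtain ⟨k, C, hC, hg⟩ := nn hg
  obtain ⟨l, D, hD, hh⟩ := nn hh
  refine ⟨k + l, C + D, fun y => (hle y).trans ?_⟩
  have h1 := mul_le_mul_of_nonneg_left (pw_le y (Nat.le_add_right k l)) hC
  have h2 := mul_le_mul_of_nonneg_left (pw_le y (Nat.le_add_left l k)) hD
  have := hg y
  have := hh y
  rw [add_mul]
  linarith

omit [NormedSpace ℝ P] in
theorem of_le_mul {G H : Type} [NormedAddCommGroup G] [NormedAddCommGroup H] {f : P → F}
    {g : P → G} {h : P → H} (hg : PolyG g) (hh : PolyG h) (hle : ∀ y, ‖f y‖ ≤ ‖g y‖ * ‖h y‖) :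
    PolyG f := by
  obtain ⟨k, C, hC, hg⟩ := nn hg
  obtain ⟨l, D, hD, hh⟩ := nn hh
  refine ⟨k + l, C * D, fun y => (hle y).trans ?_⟩
  calc ‖g y‖ * ‖h y‖ ≤ (C * (1 + ‖y‖) ^ k) * (D * (1 + ‖y‖) ^ l) :=
        mul_le_mul (hg y) (hh y) (norm_nonneg _) (by positivity)
    _ = C * D * (1 + ‖y‖) ^ (k + l) := by rw [pow_add]; ring

/-- `fderiv` in coordinates -/
theorem fderiv_eq_sum {d : ℕ} (f : E d → ℝ) :
    fderiv ℝ f = fun y => ∑ c, ((ContinuousLinearMap.id ℝ ℝ).smulRight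
      (EuclideanSpace.proj c : E d →L[ℝ] ℝ)) (pd (bv c) f y) := by
  funext y
  ext v
  conv_lhs => rw [eq_sum_bv v]
  simp [pd, mul_comm]

end TGA

omit [NormedSpace ℝ P] in
theorem polyG_const (c : F) : PolyG (fun _ : P => c) := ⟨0, ‖c‖, fun _ => by simp⟩

omit [NormedSpace ℝ P] in
theorem polyG_of_le {G : Type} [NormedAddCommGroup G] {f : P → F} {g : P → G} (hg : PolyG g)
    (h : ∀ y, ‖f y‖ ≤ ‖g y‖) : PolyG f := by
  obtain ⟨k, C, hg⟩ := hg
  exact ⟨k, C, fun y => (h y).trans (hg y)⟩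

omit [NormedSpace ℝ P] in
theorem polyG_add {f g : P → F} (hf : PolyG f) (hg : PolyG g) : PolyG (fun y => f y + g y) :=
  TGA.of_le_add hf hg fun _ => norm_add_le _ _

omit [NormedSpace ℝ P] in
theorem polyG_sub {f g : P → F} (hf : PolyG f) (hg : PolyG g) : PolyG (fun y => f y - g y) :=
  TGA.of_le_add hf hg fun _ => norm_sub_le _ _

omit [NormedSpace ℝ P] in
theorem polyG_mul {f g : P → ℝ} (hf : PolyG f) (hg : PolyG g) : PolyG (fun y => f y * g y) :=
  TGA.of_le_mul hf hg fun _ => norm_mul_le _ _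

omit [NormedSpace ℝ P] in
theorem polyG_smul {f : P → ℝ} {g : P → Q} (hf : PolyG f) (hg : PolyG g) :
    PolyG (fun y => f y • g y) :=
  TGA.of_le_mul hf hg fun _ => norm_smul_le _ _

omit [NormedSpace ℝ P] in
theorem polyG_sum {ι : Type} (s : Finset ι) {f : ι → P → F} (hf : ∀ i ∈ s, PolyG (f i)) :
    PolyG (fun y => ∑ i ∈ s, f i y) := by
  classical
  induction s using Finset.induction_on with
  | empty => simpa using polyG_const (P := P) (0 : F)
  | insert a s has ih =>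
    simp only [Finset.sum_insert has]
    exact polyG_add (hf a (Finset.mem_insert_self _ _))
      (ih fun i hi => hf i (Finset.mem_insert_of_mem hi))

omit [NormedSpace ℝ P] in
theorem polyG_norm {f : P → F} (hf : PolyG f) : PolyG (fun y => ‖f y‖) :=
  polyG_of_le hf fun _ => by simp

omit [NormedSpace ℝ P] in
theorem polyG_id : PolyG (fun y : P => y) := ⟨1, 1, fun _ => by simp⟩

omit [NormedSpace ℝ P] in
theorem polyG_comp {P' : Type} [NormedAddCommGroup P'] {f : P → F} {g : P' → P} (hf : PolyG f)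
    (hg : PolyG g) : PolyG (fun y => f (g y)) := by
  obtain ⟨k, C, hC, hf⟩ := TGA.nn hf
  obtain ⟨l, D, hD, hg⟩ := TGA.nn hg
  refine ⟨l * k, C * (1 + D) ^ k, fun y => (hf _).trans ?_⟩
  have h1 : (1 : ℝ) ≤ (1 + ‖y‖) ^ l := one_le_pow₀ (le_add_of_nonneg_right (norm_nonneg y))
  have h2 : 1 + ‖g y‖ ≤ (1 + D) * (1 + ‖y‖) ^ l := by
    have := hg y
    rw [add_mul]
    linarith
  calc C * (1 + ‖g y‖) ^ k ≤ C * ((1 + D) * (1 + ‖y‖) ^ l) ^ k := by gcongr
    _ = C * (1 + D) ^ k * (1 + ‖y‖) ^ (l * k) := by rw [mul_pow, ← pow_mul]; ring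

omit [NormedSpace ℝ P] in
theorem polyG_of_lip {f : P → F} {L : ℝ} (h : ∀ x y, ‖f x - f y‖ ≤ L * ‖x - y‖) : PolyG f := by
  refine ⟨1, ‖f 0‖ + |L|, fun y => ?_⟩
  have h1 := h y 0
  rw [sub_zero] at h1
  have h2 : ‖f y‖ ≤ ‖f y - f 0‖ + ‖f 0‖ := by
    simpa using norm_add_le (f y - f 0) (f 0)
  have h3 : L * ‖y‖ ≤ |L| * ‖y‖ := mul_le_mul_of_nonneg_right (le_abs_self L) (norm_nonneg y)
  have h4 : 0 ≤ ‖f 0‖ * ‖y‖ := by positivity
  have h5 : 0 ≤ |L| := abs_nonneg L
  rw [pow_one]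
  nlinarith

theorem polyG_coord {d : ℕ} (c : Fin d) : PolyG (fun y : E d => y c) :=
  polyG_of_le polyG_id fun y => PiLp.norm_apply_le y c

theorem tg_polyG {f : P → Q} (h : TG f) : PolyG f := by
  obtain ⟨k, C, h⟩ := h.2 0
  exact ⟨k, C, fun y => by simpa using h y⟩

theorem tg_fderiv {f : P → Q} (h : TG f) : TG (fderiv ℝ f) := by
  refine ⟨h.1.fderiv_right (m := ∞) (by simp), fun n => ?_⟩
  obtain ⟨k, C, h⟩ := h.2 (n + 1)
  exact ⟨k, C, fun y => by rw [norm_iteratedFDeriv_fderiv]; exact h y⟩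

theorem tg_pd {f : P → ℝ} (h : TG f) (v : P) : TG (pd v f) :=
  (ContinuousLinearMap.apply ℝ ℝ v).hasTemperateGrowth.comp (tg_fderiv h)

theorem tg_xv {B : P → P} {M : P → Q} (hB : TG B) (hM : TG M) : TG (XV B M) :=
  (ContinuousLinearMap.id ℝ (P →L[ℝ] Q)).bilinear_hasTemperateGrowth (tg_fderiv hM) hB

theorem tg_xv_iter {B : P → P} {M : P → Q} (hB : TG B) (hM : TG M) (k : ℕ) :
    TG ((XV B)^[k] M) := by
  induction k with
  | zero => exact hM
  | succ k ih => rw [Function.iterate_succ_apply']; exact tg_xv hB ih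

theorem tg_prodMk {Q' : Type} [NormedAddCommGroup Q'] [NormedSpace ℝ Q'] {f : P → Q} {g : P → Q'}
    (hf : TG f) (hg : TG g) : TG (fun p => (f p, g p)) := by
  have h1 := (ContinuousLinearMap.inl ℝ Q Q').hasTemperateGrowth.comp hf
  have h2 := (ContinuousLinearMap.inr ℝ Q Q').hasTemperateGrowth.comp hg
  have h3 := h1.add h2
  convert h3 using 1
  funext p
  simp

theorem tg_vec {d : ℕ} {f : Fin d → P → ℝ} (h : ∀ i, TG (f i)) :
    TG (fun p => vec fun i => f i p) := by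
  have h1 : TG (fun p => ∑ c, f c p • bv c) :=
    Function.HasTemperateGrowth.sum fun c _ =>
      (h c).fun_smul (Function.HasTemperateGrowth.const (bv c))
  convert h1 using 1
  funext p
  exact eq_sum_bv _

theorem tg_coord {d : ℕ} {f : P → E d} (h : TG f) (i : Fin d) : TG (fun p => f p i) :=
  (EuclideanSpace.proj i : E d →L[ℝ] ℝ).hasTemperateGrowth.comp h

theorem tg_of_pd {d : ℕ} {f : E d → ℝ} (hf : Differentiable ℝ f) (hp : PolyG f)
    (h : ∀ c, TG (pd (bv c) f)) : TG f := by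
  obtain ⟨k, C, hp⟩ := hp
  refine Function.HasTemperateGrowth.of_fderiv ?_ hf hp
  rw [TGA.fderiv_eq_sum]
  exact Function.HasTemperateGrowth.sum fun c _ =>
    (ContinuousLinearMap.hasTemperateGrowth _).comp (h c)

theorem TGA.mo_bound {d : ℕ} (n : ℕ) : ∀ {J I : Type} [Fintype J] [Fintype I] {A : MF (E d) J I},
    SmO univ A → (∀ n, ∃ a, Mo bv n a A) → ∀ j i, PolyG (iteratedFDeriv ℝ n (A j i)) := by
  induction n with
  | zero =>
    intro J I _ _ A _ h j i
    obtain ⟨a, ha⟩ := h 0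
    refine ⟨0, |a|, fun y => ?_⟩
    have := opLe_entry (AA_op ha y (mem_univ y)) j i
    simpa using this
  | succ n ih =>
    intro J I _ _ A hA h j i
    have hA' : SmO univ (gradOut bv A) := smO_gradOut isOpen_univ hA bv
    have h' : ∀ n, ∃ a, Mo bv n a (gradOut bv A) := fun m => by
      obtain ⟨a, ha⟩ := h (m + 1)
      exact ⟨a, (MoS_succ.1 ha).2⟩
    have hc : ∀ c, ContDiff ℝ ∞ (pd (bv c) (A j i)) := fun c =>
      contDiffOn_univ.1 (hA' (j, c) i)
    have hb : ∀ c, PolyG (iteratedFDeriv ℝ n (pd (bv c) (A j i))) := fun c => ih hA' h' (j, c) i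
    set L : Fin d → ℝ →L[ℝ] (E d →L[ℝ] ℝ) := fun c => (ContinuousLinearMap.id ℝ ℝ).smulRight
      (EuclideanSpace.proj c : E d →L[ℝ] ℝ) with hL
    have hs : PolyG (fun y => ∑ c, ‖L c‖ * ‖iteratedFDeriv ℝ n (pd (bv c) (A j i)) y‖) :=
      polyG_sum _ fun c _ => polyG_mul (polyG_const _) (polyG_norm (hb c))
    refine polyG_of_le hs fun y => ?_
    rw [← norm_iteratedFDeriv_fderiv, TGA.fderiv_eq_sum, iteratedFDeriv_fun_sum_apply]
    · refine (norm_sum_le _ _).trans (le_trans ?_ (le_abs_self _))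
      refine Finset.sum_le_sum fun c _ => ?_
      exact (L c).norm_iteratedFDeriv_comp_left (hc c).contDiffAt (by exact_mod_cast le_top)
    · intro c _
      exact ((L c).contDiff.comp ((hc c).of_le (by exact_mod_cast le_top))).contDiffAt

theorem tg_of_mo {d : ℕ} {J I : Type} [Fintype J] [Fintype I] {A : MF (E d) J I}
    (hA : SmO univ A) (h : ∀ n, ∃ a, Mo bv n a A) : TGm A := fun j i =>
  ⟨contDiffOn_univ.1 (hA j i), fun n => TGA.mo_bound n hA h j i⟩

theorem tgv_grad {D J : Type} {e : D → P} {g : J → P → ℝ} (h : TGv g) : TGv (grad e g) :=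
  fun jc => tg_pd (h jc.1) (e jc.2)

theorem tgv_dv {D J : Type} [Fintype D] {e : D → P} {U : D → P → ℝ} {u : J × D → P → ℝ}
    (hU : TGv U) (h : TGv u) : TGv (dv e U u) := fun j =>
  Function.HasTemperateGrowth.sum fun c _ =>
    ((hU c).fun_mul (h (j, c))).fun_sub (tg_pd (h (j, c)) (e c))

theorem tgv_app {J I : Type} [Fintype I] {A : MF P J I} {g : I → P → ℝ} (hA : TGm A)
    (h : TGv g) : TGv (app A g) := fun j =>
  Function.HasTemperateGrowth.sum fun i _ => (hA j i).fun_mul (h i)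

variable [MeasurableSpace P]

omit [NormedSpace ℝ P] in
theorem polyG_integrable' {μ : Measure P} (hμ : PM μ) {f : P → F}
    (hm : AEStronglyMeasurable f μ) (hf : PolyG f) : Integrable f μ := by
  obtain ⟨k, C, hf⟩ := hf
  have hi : Integrable (fun y : P => C * (1 + ‖y‖) ^ k) μ := by
    refine Integrable.const_mul ?_ C
    have : (fun y : P => (1 + ‖y‖) ^ k) =
        fun y => ∑ m ∈ Finset.range (k + 1), ‖y‖ ^ m * (k.choose m : ℝ) := by
      funext y
      rw [add_comm, add_pow]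
      simp
    rw [this]
    exact integrable_finsetSum _ fun m _ => (hμ.mom m).mul_const _
  exact hi.mono' hm (Filter.Eventually.of_forall hf)

variable [BorelSpace P] [SecondCountableTopology P]

omit [NormedSpace ℝ P] in
theorem polyG_integrable {μ : Measure P} (hμ : PM μ) {f : P → F} (hc : Continuous f)
    (hf : PolyG f) : Integrable f μ :=
  polyG_integrable' hμ hc.aestronglyMeasurable hf

theorem tg_integrable {μ : Measure P} (hμ : PM μ) {f : P → Q} (hf : TG f) : Integrable f μ :=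
  polyG_integrable hμ hf.1.continuous (tg_polyG hf)

end Crest.Agent.R285
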