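import Crest.Agent.R285.Appell

/-!
# R285 Tame: every flattening of `∇^k H` is bounded.

Fix `s ∈ [κ², 1]`, `x`.  On `P = E d × E d ∋ (α, β)` use output directions `eo b = (0, bv b)` and input
directions `ei a = (bv a, 0)`, `S = {0}`.  With `Z x = Mom W 1 (s, x)` put
`c (α, β) = exp (⟪α, β⟫/s) Z x / (Z (x + α) Z (x + β))` and
`KK k l w w' (α, β) = c (α, β) * ∫ Bw k w (x + β) z * Bw l w' (x + α) z * ker W (s, x + α + β) z dz`
(an `IZ` with `φ = 1`).  By `iz_pd`, `mom_one_pd`, `gv_eq`: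
`gradOut eo (KK k l) = KK (k+1) l`, `gradIn ei (KK k l) = KK k (l+1)`.  At `0`, `c = 1/Z x`, so
`KK k l w w' 0 = ∫ B_w B_w' dν` has `OpLe ≤ k! l! s^{-(k+l)/2}` (`opLe_of_bilin`, Cauchy-Schwarz,
`bw_gram`).  Hence `K = KK 0 0` (a positive `1×1` matrix, `K 0 = 1`) is in `AA eo ei {0} n`, so is `1/K`
(`AA_inv`) and `Y = gradOut K · (1/K)` (`AA_mul`).  Since `K = exp(⟪α,β⟫/s) Z(x+α+β) Z x / (Z(x+α) Z(x+β))`,
`Y b = α_b/s - G_b(x+α+β) + G_b(x+β)` and `gradIn ei Y (b, a) = kd a b / s - Hm b a (s, x+α+β)`.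
So `(α,β) ↦ Hm (s, x+α+β)` is in `AA eo ei {0} (n-1)` (`AA_add`, `AA_const`, `AA_reindex`), and
`AA_pull_iff` with `p0 = (s, x)`, `l (α, β) = (0, α + β)` gives the claim at the point `(s, x)`;
`AA_of_pointwise`.  Constants: `C ≤ 2^C ≤ κ⁻¹^C`, `s⁻¹ ≤ κ⁻¹^2`.
-/

set_option autoImplicit false

namespace Crest.Agent.R285

open MeasureTheory Set
open scoped ContDiff

namespace TameA

theorem pd_aff {P Q : Type} [NormedAddCommGroup P] [NormedSpace ℝ P] [NormedAddCommGroup Q]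
    [NormedSpace ℝ Q] {f : Q → ℝ} (x : Q) (L : P →L[ℝ] Q) {y : P}
    (hf : DifferentiableAt ℝ f (x + L y)) (v : P) :
    pd v (fun y => f (x + L y)) y = pd (L v) f (x + L y) := by
  have h := hf.hasFDerivAt.comp y (L.hasFDerivAt.const_add x)
  have h' : HasFDerivAt (fun y => f (x + L y)) _ y := h
  unfold pd
  rw [h'.fderiv]; rfl

theorem pd_zero {P : Type} [NormedAddCommGroup P] [NormedSpace ℝ P] (f : P → ℝ) (y : P) :
    pd 0 f y = 0 := by simp [pd]

theorem int_cs {α : Type} [MeasurableSpace α] {μ : Measure α} {f g : α → ℝ}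
    (i1 : Integrable (fun z => f z ^ 2) μ) (i2 : Integrable (fun z => g z ^ 2) μ)
    (i3 : Integrable (fun z => f z * g z) μ) :
    (∫ z, f z * g z ∂μ) ^ 2 ≤ (∫ z, f z ^ 2 ∂μ) * ∫ z, g z ^ 2 ∂μ := by
  have key : ∀ t : ℝ, 0 ≤ (∫ z, f z ^ 2 ∂μ) * (t * t) + (2 * ∫ z, f z * g z ∂μ) * t +
      ∫ z, g z ^ 2 ∂μ := by
    intro t
    have h0 : 0 ≤ ∫ z, (t * f z + g z) ^ 2 ∂μ := integral_nonneg fun z => sq_nonneg _
    have e : (fun z => (t * f z + g z) ^ 2) =
        fun z => f z ^ 2 * (t * t) + f z * g z * (2 * t) + g z ^ 2 := funext fun z => by ring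
    have i4 : Integrable (fun z => f z ^ 2 * (t * t) + f z * g z * (2 * t)) μ :=
      (i1.mul_const _).add (i3.mul_const _)
    rw [e, integral_add i4 i2, integral_add (i1.mul_const _) (i3.mul_const _), integral_mul_const,
      integral_mul_const] at h0
    linarith
  have hd := discrim_le_zero key
  rw [discrim] at hd
  linarith

variable {d : ℕ} {W : E d → ℝ} {δ s : ℝ}

noncomputable def eo (b : Fin d) : E d × E d := (0, bv b)
noncomputable def ei (a : Fin d) : E d × E d := (bv a, 0)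
noncomputable def Zs (W : E d → ℝ) (s : ℝ) (x : E d) : ℝ := Mom W (fun _ => 1) (s, x)
noncomputable def Gs (W : E d → ℝ) (s : ℝ) (b : Fin d) (x : E d) : ℝ := Gc W b (s, x)
noncomputable def L1 (d : ℕ) : E d × E d →L[ℝ] E d := ContinuousLinearMap.fst ℝ _ _
noncomputable def L2 (d : ℕ) : E d × E d →L[ℝ] E d := ContinuousLinearMap.snd ℝ _ _
noncomputable def L3 (d : ℕ) : E d × E d →L[ℝ] E d := L1 d + L2 d
noncomputable def cc (W : E d → ℝ) (s : ℝ) (x : E d) (y : E d × E d) : ℝ :=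
  Zs W s x * Real.exp (inner ℝ y.1 y.2 / s) * (Zs W s (x + L1 d y))⁻¹ * (Zs W s (x + L2 d y))⁻¹
noncomputable def BB' (W : E d → ℝ) (s : ℝ) (x : E d) (k l : ℕ) (w : Wd d k) (w' : Wd d l)
    (y : E d × E d) (z : E d) : ℝ :=
  cc W s x y * (Bw W s k w (x + L2 d y) z * Bw W s l w' (x + L1 d y) z)
noncomputable def KK (W : E d → ℝ) (s : ℝ) (x : E d) (k l : ℕ) :
    MF (E d × E d) (Wd d k) (Wd d l) :=
  fun w w' => IZ W s (fun y => x + L3 d y) (fun _ => 1) (BB' W s x k l w w')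

theorem Zs_pos (hW : Pot δ W) (hs : 0 < s) (x : E d) : 0 < Zs W s x := mom_one_pos hW hs

theorem Zs_smooth (hW : Pot δ W) (hs : 0 < s) : ContDiff ℝ ∞ (Zs W s) :=
  PZA.mom_comp_smooth (l := fun x => x) hW hs contDiff_id continuous_const (polyG_const _)

theorem Gs_smooth (hW : Pot δ W) (hs : 0 < s) (b : Fin d) : ContDiff ℝ ∞ (Gs W s b) :=
  (gc_smooth hW b).comp_contDiff (f := fun y => ((s, y) : ℝ × E d))
    (contDiff_const.prodMk contDiff_id) fun _ => hs

theorem Zi_smooth (hW : Pot δ W) (hs : 0 < s) : ContDiff ℝ ∞ (fun x => (Zs W s x)⁻¹) :=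
  (Zs_smooth hW hs).inv fun x => (Zs_pos hW hs x).ne'

theorem pd_Zs (hW : Pot δ W) (hs : 0 < s) (b : Fin d) (x : E d) :
    pd (bv b) (Zs W s) x = -Gs W s b x * Zs W s x := by
  have h : ((s, x) : ℝ × E d) ∈ UU d := hs
  exact (pd_sl (MomBA.diffAt (isOpen_UU d) (MomBA.Z_smooth hW) h) b).trans (mom_one_pd hW h b)

theorem pd_Gs (hW : Pot δ W) (hs : 0 < s) (a b : Fin d) (x : E d) :
    pd (bv a) (Gs W s b) x = Hm W b a (s, x) := by
  have h : ((s, x) : ℝ × E d) ∈ UU d := hs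
  exact pd_sl (MomBA.diffAt (isOpen_UU d) (gc_smooth hW b) h) a

theorem pd_Zi (hW : Pot δ W) (hs : 0 < s) (b : Fin d) (x : E d) :
    pd (bv b) (fun x => (Zs W s x)⁻¹) x = Gs W s b x * (Zs W s x)⁻¹ := by
  have h1 := pd_mul (bv b) ((Zs_smooth hW hs).differentiable (by simp) x)
    ((Zi_smooth hW hs).differentiable (by simp) x)
  have e : (fun x => Zs W s x * (Zs W s x)⁻¹) = fun _ => (1 : ℝ) :=
    funext fun x => mul_inv_cancel₀ (Zs_pos hW hs x).ne'
  rw [e, pd_const, pd_Zs hW hs] at h1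
  have := (Zs_pos hW hs x).ne'
  field_simp at h1 ⊢
  linarith

theorem aff_smooth (x : E d) (L : E d × E d →L[ℝ] E d) : ContDiff ℝ ∞ (fun y => x + L y) :=
  contDiff_const.add L.contDiff

theorem ex_smooth (s : ℝ) : ContDiff ℝ ∞ (fun y : E d × E d => Real.exp (inner ℝ y.1 y.2 / s)) :=
  ((contDiff_fst.inner ℝ contDiff_snd).div_const s).exp

theorem cc_smooth (hW : Pot δ W) (hs : 0 < s) (x : E d) : ContDiff ℝ ∞ (cc W s x) :=
  ((contDiff_const.mul (ex_smooth s)).mul ((Zi_smooth hW hs).comp (aff_smooth x _))).mul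
    ((Zi_smooth hW hs).comp (aff_smooth x _))

theorem cc_pos (hW : Pot δ W) (hs : 0 < s) (x : E d) (y : E d × E d) : 0 < cc W s x y := by
  have := Zs_pos hW hs
  unfold cc
  exact mul_pos (mul_pos (mul_pos (this _) (Real.exp_pos _)) (inv_pos.2 (this _)))
    (inv_pos.2 (this _))

theorem inner_bv (u : E d) (b : Fin d) : inner ℝ u (bv b) = u b := by
  simp [bv, EuclideanSpace.inner_single_right]

theorem pd_ex (s : ℝ) (b : Fin d) (y : E d × E d) :
    pd (eo b) (fun y : E d × E d => Real.exp (inner ℝ y.1 y.2 / s)) y =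
      Real.exp (inner ℝ y.1 y.2 / s) * (y.1 b / s) := by
  have h := ((((hasFDerivAt_fst (𝕜 := ℝ) (p := y)).inner ℝ
    (hasFDerivAt_snd (𝕜 := ℝ) (p := y))).mul_const s⁻¹)).exp
  simp only [← div_eq_mul_inv] at h
  unfold pd
  rw [h.fderiv]
  simp [eo, inner_bv, div_eq_inv_mul]

theorem pd_cc (hW : Pot δ W) (hs : 0 < s) (x : E d) (b : Fin d) (y : E d × E d) :
    pd (eo b) (cc W s x) y = cc W s x y * (y.1 b / s + Gs W s b (x + L2 d y)) := by
  have d1 := (ex_smooth (d := d) s).differentiable (by simp) y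
  have d2 : ∀ L : E d × E d →L[ℝ] E d,
      DifferentiableAt ℝ (fun y => (Zs W s (x + L y))⁻¹) y := fun L =>
    ((Zi_smooth hW hs).comp (aff_smooth x L)).differentiable (by simp) y
  have d3 := fun u => (Zi_smooth hW hs).differentiable (by simp) u
  unfold cc
  rw [pd_mul _ (((differentiableAt_const _).fun_mul d1).fun_mul (d2 _)) (d2 _),
    pd_mul _ ((differentiableAt_const _).fun_mul d1) (d2 _), pd_const_mul,
    pd_aff (f := fun x => (Zs W s x)⁻¹) x _ (d3 _), pd_aff (f := fun x => (Zs W s x)⁻¹) x _ (d3 _)]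
  have e1 : L1 d (eo b) = 0 := rfl
  have e2 : L2 d (eo b) = bv b := rfl
  beta_reduce
  rw [e1, e2, pd_zero, pd_Zi hW hs, pd_ex]
  ring

theorem BB_pz (hW : Pot δ W) (hs : 0 < s) (x : E d) (k l : ℕ) (w : Wd d k) (w' : Wd d l) :
    PZ (BB' W s x k l w w') :=
  pz_coef_mul (pz_mul (pz_comp (bw_pz hW hs k w) (aff_smooth x _))
    (pz_comp (bw_pz hW hs l w') (aff_smooth x _))) (cc_smooth hW hs x)

theorem KK_smooth (hW : Pot δ W) (hs : 0 < s) (x : E d) (k l : ℕ) (w : Wd d k) (w' : Wd d l) :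
    ContDiff ℝ ∞ (KK W s x k l w w') :=
  iz_smooth hW hs (aff_smooth x _) continuous_const (polyG_const _) (BB_pz hW hs x k l w w')

theorem KK_out (hW : Pot δ W) (hs : 0 < s) (x : E d) (k l : ℕ) (w : Wd d k) (w' : Wd d l)
    (b : Fin d) (y : E d × E d) :
    pd (eo b) (KK W s x k l w w') y = KK W s x (k + 1) l (w, b) w' y := by
  unfold KK
  rw [iz_pd hW hs (aff_smooth x _) continuous_const (polyG_const _) (BB_pz hW hs x k l w w')]
  unfold IZ
  congr 1
  funext z
  congr 2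
  have d1 : ∀ (k : ℕ) (w : Wd d k) u, DifferentiableAt ℝ (fun x => Bw W s k w x z) u :=
    fun k w u => (PZA.smooth_y (bw_pz hW hs k w) z).differentiable (by simp) u
  have d2 : ∀ (k : ℕ) (w : Wd d k) (L : E d × E d →L[ℝ] E d),
      DifferentiableAt ℝ (fun y => Bw W s k w (x + L y) z) y := fun k w L =>
    ((PZA.smooth_y (bw_pz hW hs k w) z).comp (aff_smooth x L)).differentiable (by simp) y
  have e0 : fderiv ℝ (fun y => x + L3 d y) y (eo b) = bv b := by
    rw [((L3 d).hasFDerivAt.const_add x).fderiv]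
    simp [L3, L1, L2, eo]
  have e1 : L1 d (eo b) = 0 := rfl
  have e2 : L2 d (eo b) = bv b := rfl
  have e3 : Gs W s b (x + L2 d y) = (x b + y.2 b - zb W s (x + L2 d y) b) / s := by
    show Gv W s (x + L2 d y) b = _
    rw [gv_eq hW hs]
    simp [L2, div_eq_inv_mul]
  have e4 : (z - (x + L3 d y)) b = z b - x b - y.1 b - y.2 b := by
    simp [L3, L1, L2]; ring
  unfold BB'
  beta_reduce
  rw [pd_mul _ ((cc_smooth hW hs x).differentiable (by simp) y) ((d2 _ _ _).fun_mul (d2 _ _ _)),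
    pd_mul _ (d2 _ _ _) (d2 _ _ _), pd_aff (f := fun x => Bw W s k w x z) x _ (d1 _ _ _),
    pd_aff (f := fun x => Bw W s l w' x z) x _ (d1 _ _ _), e0, e1, e2, pd_zero, pd_cc hW hs,
    inner_bv, e3, e4]
  simp only [Bw]
  ring

noncomputable def sw (d : ℕ) : E d × E d →L[ℝ] E d × E d := (L2 d).prod (L1 d)

theorem KK_swap (x : E d) (k l : ℕ) (w : Wd d k) (w' : Wd d l) (y : E d × E d) :
    KK W s x k l w w' y = KK W s x l k w' w (0 + sw d y) := by
  unfold KK IZ BB' cc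
  congr 1
  funext z
  have e1 : L1 d (0 + sw d y) = L2 d y := by simp [L1, L2, sw]
  have e2 : L2 d (0 + sw d y) = L1 d y := by simp [L1, L2, sw]
  have e3 : L3 d (0 + sw d y) = L3 d y := by simp [L1, L2, L3, sw, add_comm]
  have e4 : inner ℝ (0 + sw d y).1 (0 + sw d y).2 = inner ℝ y.1 y.2 := by
    simp [L1, L2, sw, real_inner_comm]
  beta_reduce
  rw [e1, e2, e3, e4]
  ring

theorem KK_in (hW : Pot δ W) (hs : 0 < s) (x : E d) (k l : ℕ) (w : Wd d k) (w' : Wd d l)
    (a : Fin d) (y : E d × E d) :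
    pd (ei a) (KK W s x k l w w') y = KK W s x k (l + 1) w (w', a) y := by
  rw [show KK W s x k l w w' = fun y => KK W s x l k w' w (0 + sw d y) from
    funext (KK_swap x k l w w'),
    pd_aff _ _ ((KK_smooth hW hs x l k w' w).differentiable (by simp) _),
    show sw d (ei a) = eo a from rfl, KK_out hW hs, KK_swap x k (l + 1)]

theorem KK_zero (hW : Pot δ W) (hs : 0 < s) (x : E d) (k l : ℕ) (w : Wd d k) (w' : Wd d l) :
    KK W s x k l w w' 0 = ∫ z, Bw W s k w x z * Bw W s l w' x z ∂(nu W s x) := by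
  rw [integral_nu]
  unfold KK IZ BB' cc
  have := (Zs_pos hW hs x).ne'
  simp only [map_zero, add_zero, Prod.fst_zero, inner_zero_left, zero_div, Real.exp_zero, mul_one,
    mul_inv_cancel₀ this, one_mul, mul_assoc]
  rw [integral_const_mul, div_eq_inv_mul]
  simp only [Mom, Zs, mul_assoc]

theorem KK_op (hW : Pot δ W) (hs : 0 < s) (x : E d) (k l : ℕ) {a : ℝ}
    (ha : (k.factorial : ℝ) ^ 2 / s ^ k * ((l.factorial : ℝ) ^ 2 / s ^ l) ≤ a ^ 2) :
    OpLe (fun w w' => KK W s x k l w w' 0) a := by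
  have hν := nu_pm hW hs x
  refine opLe_of_bilin fun u v => ?_
  have t1 : ∀ (k : ℕ) (u : Wd d k → ℝ), TG (fun z => ∑ w, u w * Bw W s k w x z) := fun k u =>
    Function.HasTemperateGrowth.sum fun w _ =>
      (Function.HasTemperateGrowth.const _).fun_mul (pz_tg (bw_pz hW hs k w) x)
  have t2 : ∀ w w', Integrable (fun z => Bw W s k w x z * Bw W s l w' x z) (nu W s x) :=
    fun w w' => tg_integrable hν ((pz_tg (bw_pz hW hs k w) x).fun_mul (pz_tg (bw_pz hW hs l w') x))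
  have e : ∑ w, u w * ∑ w', KK W s x k l w w' 0 * v w' =
      ∫ z, (∑ w, u w * Bw W s k w x z) * (∑ w', v w' * Bw W s l w' x z) ∂(nu W s x) := by
    have e1 : (fun z => (∑ w, u w * Bw W s k w x z) * (∑ w', v w' * Bw W s l w' x z)) =
        fun z => ∑ w, u w * ∑ w', Bw W s k w x z * Bw W s l w' x z * v w' := by
      funext z
      rw [Finset.sum_mul]
      refine Finset.sum_congr rfl fun w _ => ?_
      rw [mul_assoc, Finset.mul_sum]
      congr 1
      exact Finset.sum_congr rfl fun w' _ => by ring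
    rw [e1, integral_finsetSum _ fun w _ =>
      (integrable_finsetSum _ fun w' _ => (t2 w w').mul_const _).const_mul _]
    refine Finset.sum_congr rfl fun w _ => ?_
    rw [integral_const_mul, integral_finsetSum _ fun w' _ => (t2 w w').mul_const _]
    simp only [integral_mul_const, KK_zero hW hs]
  rw [e]
  refine (int_cs (tg_integrable hν (by simp only [sq]; exact (t1 k u).fun_mul (t1 k u)))
    (tg_integrable hν (by simp only [sq]; exact (t1 l v).fun_mul (t1 l v)))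
    (tg_integrable hν ((t1 k u).fun_mul (t1 l v)))).trans ?_
  refine (mul_le_mul (bw_gram hW hs k x u) (bw_gram hW hs l x v)
    (integral_nonneg fun z => sq_nonneg _) (by positivity)).trans ?_
  calc _ = ((k.factorial : ℝ) ^ 2 / s ^ k * ((l.factorial : ℝ) ^ 2 / s ^ l)) *
        (∑ w, u w ^ 2) * ∑ w, v w ^ 2 := by ring
    _ ≤ _ := by gcongr

theorem KK_AA (hW : Pot δ W) (hs : 0 < s) (hs1 : s ≤ 1) (x : E d) (N : ℕ) {a : ℝ}
    (ha : (N.factorial : ℝ) ^ 2 / s ^ N ≤ a) (n : ℕ) :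
    ∀ k l, k + l + n ≤ N → AA eo ei {0} n a (KK W s x k l) := by
  have hop : ∀ k l, k + l ≤ N → ∀ y ∈ ({0} : Set (E d × E d)),
      OpLe (fun w w' => KK W s x k l w w' y) a := by
    rintro k l h y rfl
    have key : ∀ k ≤ N, (k.factorial : ℝ) ^ 2 / s ^ k ≤ a := fun k hk => le_trans (by
      have h1 : (k.factorial : ℝ) ≤ N.factorial := by exact_mod_cast Nat.factorial_le hk
      have h2 : s ^ N ≤ s ^ k := pow_le_pow_of_le_one hs.le hs1 hk
      gcongr) ha
    refine KK_op hW hs x k l ?_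
    rw [sq a]
    exact mul_le_mul (key k (by omega)) (key l (by omega)) (by positivity)
      (le_trans (by positivity) ha)
  induction n with
  | zero => exact fun k l h => hop k l (by omega)
  | succ n ih =>
    intro k l h
    refine ⟨hop k l (by omega), ?_, ?_⟩
    · have e : gradOut eo (KK W s x k l) = KK W s x (k + 1) l := by
        funext wb w' y; exact KK_out hW hs x k l wb.1 w' wb.2 y
      rw [e]; exact ih (k + 1) l (by omega)
    · have e : gradIn ei (KK W s x k l) = KK W s x k (l + 1) := by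
        funext w wa y; exact KK_in hW hs x k l w wa.1 wa.2 y
      rw [e]; exact ih k (l + 1) (by omega)

theorem K0 (x : E d) (y : E d × E d) :
    KK W s x 0 0 () () y = cc W s x y * Zs W s (x + L3 d y) := by
  unfold KK IZ BB' Zs Mom
  rw [← integral_const_mul]
  simp only [Bw, mul_one, one_mul]

theorem main (hW : Pot δ W) (hs : 0 < s) (hs1 : s ≤ 1) (x : E d) (n : ℕ) {a : ℝ} (ha2 : 2 ≤ a)
    (ha : ((n + 2).factorial : ℝ) ^ 2 / s ^ (n + 2) ≤ a) :
    AA xd xd {(s, x)} n (s⁻¹ + 2 ^ (n + 1) * a * a ^ 4 ^ (n + 1)) (Hm W) := by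
  let K : MF (E d × E d) Unit Unit := fun _ _ y => cc W s x y * Zs W s (x + L3 d y)
  let Ki : MF (E d × E d) Unit Unit := fun _ _ y => (cc W s x y * Zs W s (x + L3 d y))⁻¹
  have hK : AA eo ei {0} (n + 2) a K := by
    have h := KK_AA hW hs hs1 x (n + 2) ha (n + 2) 0 0 (by omega)
    have e : K = KK W s x 0 0 := by funext u u' y; exact (K0 x y).symm
    rw [e]; exact h
  have hpos : ∀ y, 0 < cc W s x y * Zs W s (x + L3 d y) := fun y =>
    mul_pos (cc_pos hW hs x y) (Zs_pos hW hs _)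
  have sK : ContDiff ℝ ∞ (fun y => cc W s x y * Zs W s (x + L3 d y)) :=
    (cc_smooth hW hs x).mul ((Zs_smooth hW hs).comp (aff_smooth x _))
  have sK1 : SmO univ K := fun _ _ => sK.contDiffOn
  have sK2 : SmO univ Ki := fun _ _ => (sK.inv fun y => (hpos y).ne').contDiffOn
  have hKi : AA eo ei {0} (n + 1) (a ^ 4 ^ (n + 1)) Ki := by
    refine AA_inv isOpen_univ (subset_univ _) sK1 sK2 ?_ ?_ ha2 (AA_mono_n hK (Nat.le_succ _)) ?_
    · intro y _ i i'
      simp [mmul, K, Ki, kd_self, mul_inv_cancel₀ (hpos y).ne', -mul_inv_rev]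
    · intro y _ i i'
      simp [mmul, K, Ki, kd_self, inv_mul_cancel₀ (hpos y).ne', -mul_inv_rev]
    · rintro y rfl
      have e : (fun j i => Ki j i 0) = fun i i' : Unit => kd i i' := by
        funext i i'
        have := (Zs_pos hW hs x).ne'
        simp [Ki, cc, kd_self, this]
      rw [e]
      exact opLe_mono opLe_kd zero_le_one (by linarith)
  have hY := (AA_mul isOpen_univ (subset_univ _) (smO_gradOut isOpen_univ sK1 eo) sK2
    (by linarith) (by positivity) hK.2.1 hKi).2.2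
  have eY : ∀ (ub : Unit × Fin d) (u : Unit), mmul (gradOut eo K) Ki ub u = fun y =>
      s⁻¹ * (0 + L1 d y) ub.2 + Gs W s ub.2 (x + L2 d y) - Gs W s ub.2 (x + L3 d y) := by
    intro ub u
    funext y
    have e1 : L3 d (eo ub.2) = bv ub.2 := by simp [L3, L1, L2, eo]
    simp only [mmul, gradOut, K, Ki, Finset.univ_unique, Finset.sum_singleton]
    have d1 : DifferentiableAt ℝ (fun y => Zs W s (x + L3 d y)) y :=
      ((Zs_smooth hW hs).comp (aff_smooth x _)).differentiable (by simp) y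
    rw [pd_mul _ ((cc_smooth hW hs x).differentiable (by simp) y) d1, pd_cc hW hs,
      pd_aff x _ ((Zs_smooth hW hs).differentiable (by simp) _), e1, pd_Zs hW hs]
    have h1 := (cc_pos hW hs x y).ne'
    have h2 := (Zs_pos hW hs (x + L3 d y)).ne'
    have e2 : (0 + L1 d y) ub.2 = y.1 ub.2 := by simp [L1]
    rw [e2]
    field_simp
    ring
  have eH : ∀ (b a : Fin d) (y : E d × E d), Hm W b a (s, x + L3 d y) =
      s⁻¹ * kd b a + (-1) * gradIn ei (mmul (gradOut eo K) Ki) ((), b) ((), a) y := by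
    intro b a y
    have d0 : ∀ u : E d, DifferentiableAt ℝ (fun u : E d => u b) u := fun u =>
      (EuclideanSpace.proj b : E d →L[ℝ] ℝ).differentiableAt
    have d1 : DifferentiableAt ℝ (fun y => (0 + L1 d y) b) y :=
      (d0 _).comp y ((aff_smooth 0 (L1 d)).differentiable (by simp) y)
    have d2 : ∀ L : E d × E d →L[ℝ] E d, DifferentiableAt ℝ (fun y => Gs W s b (x + L y)) y :=
      fun L => ((Gs_smooth hW hs b).comp (aff_smooth x L)).differentiable (by simp) y
    have d3 := fun u => (Gs_smooth hW hs b).differentiable (by simp) u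
    have e1 : L1 d (ei a) = bv a := rfl
    have e2 : L2 d (ei a) = 0 := rfl
    have e3 : L3 d (ei a) = bv a := by simp [L3, L1, L2, ei]
    simp only [gradIn, eY]
    rw [pd_sub _ (((differentiableAt_const _).fun_mul d1).fun_add (d2 _)) (d2 _),
      pd_add _ ((differentiableAt_const _).fun_mul d1) (d2 _), pd_const_mul]
    beta_reduce
    rw [pd_aff (f := fun u : E d => u b) 0 _ (d0 _), pd_aff x _ (d3 _), pd_aff x _ (d3 _), e1, e2, e3,
      pd_zero, pd_Gs hW hs, TiltA.pd_coord, kd_comm]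
    ring
  have sY : SmO univ (gradIn ei (mmul (gradOut eo K) Ki)) :=
    smO_gradIn isOpen_univ (smO_mmul (smO_gradOut isOpen_univ sK1 eo) sK2) ei
  have h1 := AA_smul (-1) (AA_reindex (Equiv.punitProd (Fin d)).symm (Equiv.punitProd (Fin d)).symm hY)
  have h2 : AA eo ei ({0} : Set (E d × E d)) n (|s⁻¹| * 1)
    (fun (b a : Fin d) _ => s⁻¹ * kd b a) := AA_const (opLe_smul _ opLe_kd)
  have h3 := AA_add isOpen_univ (subset_univ _) (fun _ _ => contDiffOn_const)
    (fun j i => contDiffOn_const.mul (sY _ _)) (by positivity) (by positivity) h2 h1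
  rw [abs_of_pos (inv_pos.2 hs), mul_one, abs_neg, abs_one, one_mul] at h3
  let l : E d × E d →L[ℝ] ℝ × E d := (0 : E d × E d →L[ℝ] ℝ).prod (L3 d)
  have h4 := (AA_pull_iff (eo := xd) (ei := xd) (eo' := eo) (ei' := ei) (S' := {0}) (n := n)
    (a := s⁻¹ + 2 ^ (n + 1) * a * a ^ 4 ^ (n + 1)) ((s, x) : ℝ × E d) l
    (fun c => by simp [l, L3, L1, L2, eo, xd]) (fun c => by simp [l, L3, L1, L2, ei, xd])
    (isOpen_UU d) (hm_smooth hW) (by rintro y rfl; simpa [UU] using hs)).1 (by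
      have e : (fun j i y => Hm W j i ((s, x) + l y)) = fun b a y =>
          s⁻¹ * kd b a + (-1) * gradIn ei (mmul (gradOut eo K) Ki) ((), b) ((), a) y := by
        funext b a y
        rw [← eH]
        simp [l]
      rw [e]; exact h3)
  simpa using h4

end TameA

theorem H_tame (n : ℕ) : ∃ p : ℕ, ∀ θ : Inst,
    AA xd xd (SK θ.d θ.κ) n (θ.κ⁻¹ ^ p) (Hm θ.W) := by
  obtain ⟨q, hq⟩ : ∃ q, q = ((n + 2).factorial) ^ 2 + 2 * (n + 2) := ⟨_, rfl⟩
  refine ⟨(n + 1) + q + q * 4 ^ (n + 1) + 1, fun θ => AA_of_pointwise ?_⟩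
  rintro ⟨s, x⟩ ⟨h1, h2⟩
  have hκ := θ.κ_pos
  have hs : 0 < s := lt_of_lt_of_le (by positivity) h1
  set t := θ.κ⁻¹ with ht
  have ht2 : 2 ≤ t := by
    rw [ht, le_inv_comm₀ (by norm_num) hκ]; have := θ.κ_le; linarith
  have ht1 : 1 ≤ t := by linarith
  have hst : s⁻¹ ≤ t ^ 2 := by
    rw [ht, inv_pow]; exact inv_anti₀ (by positivity) h1
  have ha2 : 2 ≤ t ^ q := ht2.trans (le_self_pow₀ ht1 (by omega))
  have ha : ((n + 2).factorial : ℝ) ^ 2 / s ^ (n + 2) ≤ t ^ q := by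
    rw [hq, pow_add t, pow_mul, div_eq_mul_inv, ← inv_pow]
    have h3 : ((n + 2).factorial : ℝ) ^ 2 ≤ t ^ ((n + 2).factorial ^ 2) := by
      refine le_trans ?_ (pow_le_pow_left₀ (by norm_num) ht2 _)
      exact_mod_cast (Nat.lt_two_pow_self).le
    gcongr
  refine AA_mono (TameA.main θ.pot hs h2 x n ha2 ha) (by positivity) ?_
  have h3 : (2 : ℝ) ^ (n + 1) * t ^ q * (t ^ q) ^ 4 ^ (n + 1) ≤
      t ^ ((n + 1) + q + q * 4 ^ (n + 1)) := by
    rw [pow_add t, pow_add t, pow_mul]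
    gcongr
  have h4 : t ^ 2 ≤ t ^ ((n + 1) + q + q * 4 ^ (n + 1)) := pow_le_pow_right₀ ht1 (by omega)
  rw [pow_succ t]
  have h5 : 0 ≤ t ^ ((n + 1) + q + q * 4 ^ (n + 1)) := by positivity
  nlinarith

end Crest.Agent.R285
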